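import Vale.Agent.Lib.P329.Defs
import Mathlib.Data.Fintype.Basic
import Mathlib.Data.Finset.Sort
import Mathlib.Tactic

/-!
Helper constructions on generalized regular expressions.
-/

namespace Vale.Agent.Lib.P329

universe u v

open Classical

namespace GRegex

variable {α : Type u}

@[simp] lemma mem_lang_zero (w : List α) : w ∈ (zero : GRegex α).lang ↔ False := Iff.rfl

@[simp] lemma mem_lang_one (w : List α) : w ∈ (one : GRegex α).lang ↔ w = [] := Iff.rfl

@[simp] lemma mem_lang_letter (a : α) (w : List α) : w ∈ (letter a).lang ↔ w = [a] := Iff.rfl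

@[simp] lemma mem_lang_union (p q : GRegex α) (w : List α) :
    w ∈ (union p q).lang ↔ w ∈ p.lang ∨ w ∈ q.lang := Iff.rfl

@[simp] lemma mem_lang_compl (p : GRegex α) (w : List α) :
    w ∈ (compl p).lang ↔ w ∉ p.lang := Iff.rfl

lemma mem_lang_concat (p q : GRegex α) (w : List α) :
    w ∈ (concat p q).lang ↔ ∃ u ∈ p.lang, ∃ v ∈ q.lang, u ++ v = w := Language.mem_mul

lemma lang_concat (p q : GRegex α) : (concat p q).lang = p.lang * q.lang := rfl

lemma lang_star (p : GRegex α) : (star p).lang = KStar.kstar p.lang := rfl

lemma lang_union (p q : GRegex α) : (union p q).lang = p.lang + q.lang := rfl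

/-- The expression denoting all words. -/
def top : GRegex α := compl zero

@[simp] lemma mem_lang_top (w : List α) : w ∈ (top : GRegex α).lang := by
  simp [top]

@[simp] lemma starHeight_top : (top : GRegex α).starHeight = 0 := rfl

/-- Intersection, via De Morgan. -/
def inter (p q : GRegex α) : GRegex α := compl (union (compl p) (compl q))

@[simp] lemma mem_lang_inter (p q : GRegex α) (w : List α) :
    w ∈ (inter p q).lang ↔ w ∈ p.lang ∧ w ∈ q.lang := by
  simp [inter]

@[simp] lemma starHeight_inter (p q : GRegex α) :
    (inter p q).starHeight = max p.starHeight q.starHeight := rfl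

/-- Finite union of a list of expressions. -/
def sum : List (GRegex α) → GRegex α
  | [] => zero
  | e :: l => union e (sum l)

lemma mem_lang_sum (l : List (GRegex α)) (w : List α) :
    w ∈ (sum l).lang ↔ ∃ e ∈ l, w ∈ e.lang := by
  induction l with
  | nil => simp [sum]
  | cons e l ih => simp [sum, ih]

lemma starHeight_sum_le (l : List (GRegex α)) (n : ℕ) (h : ∀ e ∈ l, e.starHeight ≤ n) :
    (sum l).starHeight ≤ n := by
  induction l with
  | nil => simp [sum, starHeight]
  | cons e l ih =>
    simp only [sum, starHeight]
    exact max_le (h e (by simp)) (ih (fun e' he' => h e' (by simp [he'])))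

/-- Finite union over a finite index type. -/
noncomputable def sumOver {ι : Type v} [Fintype ι] (f : ι → GRegex α) : GRegex α :=
  sum ((Finset.univ : Finset ι).toList.map f)

lemma mem_lang_sumOver {ι : Type v} [Fintype ι] (f : ι → GRegex α) (w : List α) :
    w ∈ (sumOver f).lang ↔ ∃ i, w ∈ (f i).lang := by
  simp [sumOver, mem_lang_sum]

lemma starHeight_sumOver_le {ι : Type v} [Fintype ι] (f : ι → GRegex α) (n : ℕ)
    (h : ∀ i, (f i).starHeight ≤ n) : (sumOver f).starHeight ≤ n := by
  apply starHeight_sum_le
  intro e he
  simp only [List.mem_map, Finset.mem_toList, Finset.mem_univ, true_and] at he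
  obtain ⟨i, rfl⟩ := he
  exact h i

/-- Finite intersection over a finite index type. -/
noncomputable def interOver {ι : Type v} [Fintype ι] (f : ι → GRegex α) : GRegex α :=
  compl (sumOver (fun i => compl (f i)))

lemma mem_lang_interOver {ι : Type v} [Fintype ι] (f : ι → GRegex α) (w : List α) :
    w ∈ (interOver f).lang ↔ ∀ i, w ∈ (f i).lang := by
  simp [interOver, mem_lang_sumOver]

lemma starHeight_interOver_le {ι : Type v} [Fintype ι] (f : ι → GRegex α) (n : ℕ)
    (h : ∀ i, (f i).starHeight ≤ n) : (interOver f).starHeight ≤ n := by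
  simp only [interOver, starHeight]
  exact starHeight_sumOver_le _ n (fun i => by simpa [starHeight] using h i)

/-- The set of letters satisfying `P`, as an expression denoting one-letter words. -/
noncomputable def letters [Fintype α] (P : α → Prop) : GRegex α :=
  sumOver (fun a => if P a then letter a else zero)

lemma mem_lang_letters [Fintype α] (P : α → Prop) (w : List α) :
    w ∈ (letters P).lang ↔ ∃ a, P a ∧ w = [a] := by
  simp only [letters, mem_lang_sumOver]
  constructor
  · rintro ⟨a, ha⟩
    by_cases hP : P a
    · rw [if_pos hP] at ha; exact ⟨a, hP, ha⟩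
    · rw [if_neg hP] at ha; exact ha.elim
  · rintro ⟨a, hP, rfl⟩
    exact ⟨a, by rw [if_pos hP]; rfl⟩

lemma starHeight_letters [Fintype α] (P : α → Prop) : (letters P).starHeight = 0 := by
  apply Nat.le_zero.mp
  apply starHeight_sumOver_le
  intro a
  by_cases hP : P a <;> simp [hP, starHeight]

/-- All words all of whose letters satisfy `P` (a star-free expression). -/
noncomputable def allIn [Fintype α] (P : α → Prop) : GRegex α :=
  compl (concat (concat top (letters (fun a => ¬ P a))) top)

lemma mem_lang_allIn [Fintype α] (P : α → Prop) (w : List α) :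
    w ∈ (allIn P).lang ↔ ∀ a ∈ w, P a := by
  simp only [allIn, mem_lang_compl, mem_lang_concat, mem_lang_letters, mem_lang_top, true_and]
  constructor
  · intro h a ha
    by_contra hP
    obtain ⟨s, t, rfl⟩ := List.append_of_mem ha
    exact h ⟨s ++ [a], ⟨s, [a], ⟨a, hP, rfl⟩, rfl⟩, t, by simp⟩
  · rintro h ⟨u, ⟨s, v, ⟨a, hP, rfl⟩, rfl⟩, t, rfl⟩
    exact hP (h a (by simp))

lemma starHeight_allIn [Fintype α] (P : α → Prop) : (allIn P).starHeight = 0 := by
  simp [allIn, starHeight, starHeight_letters]

end GRegex

end Vale.Agent.Lib.P329
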