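import Vale.Agent.Lib.P329.Subst

/-!
Cutting a word after every occurrence of a letter of a set `C`: the blocks form a code with
star-free star, and functions of the word of block types transfer to the original alphabet.
-/

namespace Vale.Agent.Lib.P329

open Classical

namespace Blk

variable {α : Type} (C : α → Prop)

/-- The type of a block `u ++ [c]`: the first and the last letter of `u`, and `c`. -/
abbrev Ty (α : Type) : Type := Option α × Option α × α

/-- The type of the block `u ++ [c]`. -/
def bty (u : List α) (c : α) : Ty α := (u.head?, u.getLast?, c)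

/-- The blocks of type `t`: words `u ++ [c]` with `c` in `C` and no letter of `u` in `C`. -/
def X (t : Ty α) : Language α :=
  {w | ∃ u c, w = u ++ [c] ∧ (∀ a ∈ u, ¬ C a) ∧ C c ∧ bty u c = t}

lemma first_split : ∀ (u u' : List α) (c c' : α) (r r' : List α),
    u ++ c :: r = u' ++ c' :: r' → (∀ a ∈ u, ¬ C a) → (∀ a ∈ u', ¬ C a) → C c → C c' →
    u = u' ∧ c = c' ∧ r = r' := by
  intro u
  induction u with
  | nil =>
    intro u' c c' r r' h _ hu' hc _
    cases u' with
    | nil =>
      simp only [List.nil_append, List.cons.injEq] at h
      exact ⟨rfl, h.1, h.2⟩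
    | cons a u' =>
      simp only [List.nil_append, List.cons_append, List.cons.injEq] at h
      have ha : ¬ C a := hu' a (by simp)
      rw [← h.1] at ha
      exact absurd hc ha
  | cons a u ih =>
    intro u' c c' r r' h hu hu' hc hc'
    cases u' with
    | nil =>
      simp only [List.nil_append, List.cons_append, List.cons.injEq] at h
      have ha : ¬ C a := hu a (by simp)
      rw [h.1] at ha
      exact absurd hc' ha
    | cons a' u' =>
      simp only [List.cons_append, List.cons.injEq] at h
      obtain ⟨h1, h2, h3⟩ := ih u' c c' r r' h.2 (fun x hx => hu x (by simp [hx]))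
        (fun x hx => hu' x (by simp [hx])) hc hc'
      exact ⟨by rw [h.1, h1], h2, h3⟩

lemma mem_dec_single (t : Ty α) (w : List α) : w ∈ Subst.dec (X C) [t] ↔ w ∈ X C t := by
  rw [Subst.dec_cons, Subst.dec_nil, mul_one]

/-- Every word is a product of blocks followed by a word without letters of `C`. -/
lemma exists_dec : ∀ w : List α, ∃ ts m t, w = m ++ t ∧ m ∈ Subst.dec (X C) ts ∧
    ∀ a ∈ t, ¬ C a := by
  intro w
  induction w using List.reverseRecOn with
  | nil => exact ⟨[], [], [], rfl, rfl, by simp⟩
  | append_singleton w a ih =>
    obtain ⟨ts, m, t, rfl, hm, ht⟩ := ih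
    by_cases ha : C a
    · refine ⟨ts ++ [bty t a], m ++ (t ++ [a]), [], by simp, ?_, by simp⟩
      rw [Subst.dec_append]
      exact Language.mem_mul.mpr ⟨m, hm, t ++ [a],
        (mem_dec_single C _ _).mpr ⟨t, a, rfl, ht, ha, rfl⟩, rfl⟩
    · refine ⟨ts, m, t ++ [a], by simp, hm, ?_⟩
      intro x hx
      rcases List.mem_append.mp hx with hx | hx
      · exact ht x hx
      · rw [List.mem_singleton.mp hx]
        exact ha

lemma dec_unique : ∀ (ts ts' : List (Ty α)) (w : List α), w ∈ Subst.dec (X C) ts →
    w ∈ Subst.dec (X C) ts' → ts = ts' := by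
  intro ts
  induction ts with
  | nil =>
    intro ts' w hw hw'
    have hw0 : w = [] := hw
    subst hw0
    cases ts' with
    | nil => rfl
    | cons t' ts' =>
      rw [Subst.dec_cons] at hw'
      obtain ⟨b, ⟨u, c, rfl, -, -, -⟩, r, -, hbr⟩ := Language.mem_mul.mp hw'
      simp at hbr
  | cons t ts ih =>
    intro ts' w hw hw'
    rw [Subst.dec_cons] at hw
    obtain ⟨b, ⟨u, c, rfl, hu, hc, hty⟩, r, hr, rfl⟩ := Language.mem_mul.mp hw
    cases ts' with
    | nil =>
      have : u ++ [c] ++ r = [] := hw'
      simp at this
    | cons t' ts' =>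
      rw [Subst.dec_cons] at hw'
      obtain ⟨b', ⟨u', c', rfl, hu', hc', hty'⟩, r', hr', hbr⟩ := Language.mem_mul.mp hw'
      have h : u' ++ c' :: r' = u ++ c :: r := by simpa using hbr
      obtain ⟨h1, h2, h3⟩ := first_split C u' u c' c r' r h hu' hu hc' hc
      subst h1 h2 h3
      rw [← hty, ← hty', ih ts' r' hr hr']

/-- A nonempty product of blocks ends with a letter of `C`. -/
lemma dec_end : ∀ (ts : List (Ty α)) (w : List α), w ∈ Subst.dec (X C) ts →
    w = [] ∨ ∃ w' c, w = w' ++ [c] ∧ C c := by
  intro ts
  induction ts with
  | nil => intro w hw; exact Or.inl hw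
  | cons t ts ih =>
    intro w hw
    rw [Subst.dec_cons] at hw
    obtain ⟨b, ⟨u, c, rfl, -, hc, -⟩, r, hr, rfl⟩ := Language.mem_mul.mp hw
    right
    rcases ih r hr with rfl | ⟨r', c', rfl, hc'⟩
    · exact ⟨u, c, by simp, hc⟩
    · exact ⟨u ++ [c] ++ r', c', by simp, hc'⟩

section Expr

variable [Fintype α]

/-- Expression for the words without letters of `C` with given first and last letter. -/
noncomputable def wExpr : Option α → Option α → GRegex α
  | none, none => GRegex.one
  | some a, some b =>
    if C a ∨ C b then GRegex.zero else
      GRegex.union (if a = b then GRegex.letter a else GRegex.zero)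
        (GRegex.concat (GRegex.letter a)
          (GRegex.concat (GRegex.allIn (fun x => ¬ C x)) (GRegex.letter b)))
  | _, _ => GRegex.zero

lemma starHeight_wExpr (h l : Option α) : (wExpr C h l).starHeight = 0 := by
  cases h with
  | none =>
    cases l with
    | none => rfl
    | some b => rfl
  | some a =>
    cases l with
    | none => rfl
    | some b =>
      show (if C a ∨ C b then GRegex.zero else
        GRegex.union (if a = b then GRegex.letter a else GRegex.zero)
          (GRegex.concat (GRegex.letter a)
            (GRegex.concat (GRegex.allIn (fun x => ¬ C x)) (GRegex.letter b)))).starHeight = 0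
      split_ifs <;> simp [GRegex.starHeight, GRegex.starHeight_allIn]

lemma lang_wExpr (h l : Option α) :
    (wExpr C h l).lang = {u | (∀ x ∈ u, ¬ C x) ∧ u.head? = h ∧ u.getLast? = l} := by
  ext w
  cases h with
  | none =>
    cases l with
    | none =>
      show w = [] ↔ _
      constructor
      · rintro rfl
        exact ⟨by simp, rfl, rfl⟩
      · rintro ⟨-, h1, -⟩
        exact List.head?_eq_none_iff.mp h1
    | some b =>
      show False ↔ _
      constructor
      · intro h; exact h.elim
      · rintro ⟨-, h1, h2⟩
        rw [List.head?_eq_none_iff.mp h1] at h2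
        simp at h2
  | some a =>
    cases l with
    | none =>
      show False ↔ _
      constructor
      · intro h; exact h.elim
      · rintro ⟨-, h1, h2⟩
        rw [List.getLast?_eq_none_iff.mp h2] at h1
        simp at h1
    | some b =>
      show w ∈ (if C a ∨ C b then GRegex.zero else
        GRegex.union (if a = b then GRegex.letter a else GRegex.zero)
          (GRegex.concat (GRegex.letter a)
            (GRegex.concat (GRegex.allIn (fun x => ¬ C x)) (GRegex.letter b)))).lang ↔ _
      by_cases hC : C a ∨ C b
      · rw [if_pos hC]
        constructor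
        · intro h; exact h.elim
        · rintro ⟨hw, h1, h2⟩
          obtain ⟨ys, rfl⟩ := List.head?_eq_some_iff.mp h1
          obtain ⟨zs, hzs⟩ := List.getLast?_eq_some_iff.mp h2
          rcases hC with hC | hC
          · exact hw a (by simp) hC
          · exact hw b (by rw [hzs]; simp) hC
      · rw [if_neg hC]
        push_neg at hC
        rw [GRegex.mem_lang_union, GRegex.mem_lang_concat]
        constructor
        · rintro (hw | ⟨x, hx, y, hy, rfl⟩)
          · by_cases hab : a = b
            · rw [if_pos hab] at hw
              have hw' : w = [a] := hw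
              subst hw'
              subst hab
              refine ⟨?_, rfl, rfl⟩
              intro x hx
              rw [List.mem_singleton.mp hx]
              exact hC.1
            · rw [if_neg hab] at hw
              exact hw.elim
          · rw [GRegex.mem_lang_letter] at hx
            subst hx
            rw [GRegex.mem_lang_concat] at hy
            obtain ⟨mid, hmid, z, hz, rfl⟩ := hy
            rw [GRegex.mem_lang_letter] at hz
            subst hz
            rw [GRegex.mem_lang_allIn] at hmid
            refine ⟨?_, rfl, ?_⟩
            · intro x hx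
              simp only [List.cons_append, List.nil_append, List.mem_cons, List.mem_append,
                List.not_mem_nil, or_false] at hx
              rcases hx with rfl | hx | rfl
              · exact hC.1
              · exact hmid x hx
              · exact hC.2
            · have : [a] ++ (mid ++ [b]) = (a :: mid) ++ [b] := by simp
              rw [this, List.getLast?_concat]
        · rintro ⟨hw, h1, h2⟩
          obtain ⟨ys, rfl⟩ := List.head?_eq_some_iff.mp h1
          obtain ⟨zs, hzs⟩ := List.getLast?_eq_some_iff.mp h2
          cases zs with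
          | nil =>
            simp only [List.nil_append, List.cons.injEq] at hzs
            left
            rw [if_pos hzs.1, hzs.2]
            rfl
          | cons z zs =>
            simp only [List.cons_append, List.cons.injEq] at hzs
            right
            refine ⟨[a], rfl, zs ++ [b], ?_, by rw [hzs.2]; rfl⟩
            rw [GRegex.mem_lang_concat]
            refine ⟨zs, ?_, [b], rfl, rfl⟩
            rw [GRegex.mem_lang_allIn]
            intro x hx
            exact hw x (by rw [hzs.2]; simp [hx])

/-- Expression for the blocks of type `t`. -/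
noncomputable def xExpr (t : Ty α) : GRegex α :=
  if C t.2.2 then GRegex.concat (wExpr C t.1 t.2.1) (GRegex.letter t.2.2) else GRegex.zero

lemma starHeight_xExpr (t : Ty α) : (xExpr C t).starHeight = 0 := by
  unfold xExpr
  split_ifs
  · simp [GRegex.starHeight, starHeight_wExpr]
  · rfl

lemma lang_xExpr (t : Ty α) : (xExpr C t).lang = X C t := by
  ext w
  unfold xExpr
  by_cases hc : C t.2.2
  · rw [if_pos hc, GRegex.mem_lang_concat, lang_wExpr]
    constructor
    · rintro ⟨u, ⟨hu, h1, h2⟩, v, hv, rfl⟩
      rw [GRegex.mem_lang_letter] at hv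
      subst hv
      refine ⟨u, t.2.2, rfl, hu, hc, ?_⟩
      unfold bty
      rw [h1, h2]
    · rintro ⟨u, c, rfl, hu, -, hty⟩
      subst hty
      exact ⟨u, ⟨hu, rfl, rfl⟩, [c], rfl, rfl⟩
  · rw [if_neg hc]
    constructor
    · intro h; exact h.elim
    · rintro ⟨u, c, rfl, -, hc', hty⟩
      subst hty
      exact hc hc'

/-- Expression for the products of blocks: the empty word and the words ending with a letter
of `C`. -/
noncomputable def uExpr : GRegex α :=
  GRegex.union GRegex.one (GRegex.concat GRegex.top (GRegex.letters C))

lemma starHeight_uExpr : (uExpr C).starHeight = 0 := by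
  simp [uExpr, GRegex.starHeight, GRegex.starHeight_letters]

lemma lang_uExpr : (uExpr C).lang = {w | ∃ ts, w ∈ Subst.dec (X C) ts} := by
  ext w
  unfold uExpr
  rw [GRegex.mem_lang_union, GRegex.mem_lang_concat]
  constructor
  · rintro (hw | ⟨u, -, v, hv, rfl⟩)
    · exact ⟨[], hw⟩
    · rw [GRegex.mem_lang_letters] at hv
      obtain ⟨c, hc, rfl⟩ := hv
      obtain ⟨ts, m, t, rfl, hm, ht⟩ := exists_dec C u
      refine ⟨ts ++ [bty t c], ?_⟩
      rw [Subst.dec_append]
      exact Language.mem_mul.mpr ⟨m, hm, t ++ [c],
        (mem_dec_single C _ _).mpr ⟨t, c, rfl, ht, hc, rfl⟩, by simp⟩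
  · rintro ⟨ts, hw⟩
    rcases dec_end C ts w hw with rfl | ⟨w', c, rfl, hc⟩
    · exact Or.inl rfl
    · exact Or.inr ⟨w', GRegex.mem_lang_top _, [c],
        (GRegex.mem_lang_letters _ _).mpr ⟨c, hc, rfl⟩, rfl⟩

/-- Expression for the words without letters of `C` with a given first letter. -/
noncomputable def tExpr : Option α → GRegex α
  | none => GRegex.one
  | some v => if C v then GRegex.zero else
      GRegex.concat (GRegex.letter v) (GRegex.allIn (fun x => ¬ C x))

lemma starHeight_tExpr (h : Option α) : (tExpr C h).starHeight = 0 := by
  cases h with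
  | none => rfl
  | some v =>
    show (if C v then GRegex.zero else
      GRegex.concat (GRegex.letter v) (GRegex.allIn (fun x => ¬ C x))).starHeight = 0
    split_ifs <;> simp [GRegex.starHeight, GRegex.starHeight_allIn]

lemma lang_tExpr (h : Option α) :
    (tExpr C h).lang = {t | (∀ x ∈ t, ¬ C x) ∧ t.head? = h} := by
  ext w
  cases h with
  | none =>
    show w = [] ↔ _
    constructor
    · rintro rfl
      exact ⟨by simp, rfl⟩
    · rintro ⟨-, h1⟩
      exact List.head?_eq_none_iff.mp h1
  | some v =>
    show w ∈ (if C v then GRegex.zero else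
      GRegex.concat (GRegex.letter v) (GRegex.allIn (fun x => ¬ C x))).lang ↔ _
    by_cases hv : C v
    · rw [if_pos hv]
      constructor
      · intro h; exact h.elim
      · rintro ⟨hw, h1⟩
        obtain ⟨ys, rfl⟩ := List.head?_eq_some_iff.mp h1
        exact hw v (by simp) hv
    · rw [if_neg hv, GRegex.mem_lang_concat]
      constructor
      · rintro ⟨x, hx, y, hy, rfl⟩
        rw [GRegex.mem_lang_letter] at hx
        subst hx
        rw [GRegex.mem_lang_allIn] at hy
        refine ⟨?_, rfl⟩
        intro x hx
        simp only [List.cons_append, List.nil_append, List.mem_cons] at hx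
        rcases hx with rfl | hx
        · exact hv
        · exact hy x hx
      · rintro ⟨hw, h1⟩
        obtain ⟨ys, rfl⟩ := List.head?_eq_some_iff.mp h1
        refine ⟨[v], rfl, ys, ?_, rfl⟩
        rw [GRegex.mem_lang_allIn]
        intro x hx
        exact hw x (by simp [hx])

/-- **Transfer along the block code.**  A function of the word that only depends on a
function with fibers of height at most one of the word of block types, and on the first letter
of the remainder, has fibers of height at most one. -/
theorem transfer {V U : Type} [Fintype V] (F : List (Ty α) → V) (hF : Fib1 F)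
    (Φ : V → Option α → U) (g : List α → U)
    (hg : ∀ ts m t, m ∈ Subst.dec (X C) ts → (∀ a ∈ t, ¬ C a) →
      g (m ++ t) = Φ (F ts) t.head?) : Fib1 g := by
  intro x
  choose eF heF1 heFl using hF
  have hsub := fun y : V => Subst.subst (X C)
    (fun t => ⟨xExpr C t, starHeight_xExpr C t, lang_xExpr C t⟩)
    (uExpr C) (starHeight_uExpr C) (lang_uExpr C) (dec_unique C) (eF y)
  choose eS heS1 heSl using hsub
  refine ⟨GRegex.sumOver (fun yh : V × Option α =>
    if Φ yh.1 yh.2 = x then GRegex.concat (eS yh.1) (tExpr C yh.2) else GRegex.zero), ?_, ?_⟩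
  · apply GRegex.starHeight_sumOver_le
    intro yh
    split_ifs
    · simp only [GRegex.starHeight, starHeight_tExpr]
      exact max_le (le_trans (heS1 yh.1) (heF1 yh.1)) (Nat.zero_le _)
    · simp [GRegex.starHeight]
  · ext w
    rw [GRegex.mem_lang_sumOver]
    constructor
    · rintro ⟨⟨y, h⟩, hw⟩
      by_cases hx : Φ y h = x
      · rw [if_pos hx, GRegex.mem_lang_concat] at hw
        obtain ⟨m, hm, t, ht, rfl⟩ := hw
        rw [heSl] at hm
        obtain ⟨ts, hts, hm⟩ := hm
        rw [lang_tExpr] at ht
        rw [heFl] at hts
        have hts' : F ts = y := hts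
        show g (m ++ t) = x
        rw [hg ts m t hm ht.1, hts', ht.2, hx]
      · rw [if_neg hx] at hw
        exact hw.elim
    · intro hw
      have hw' : g w = x := hw
      obtain ⟨ts, m, t, rfl, hm, ht⟩ := exists_dec C w
      rw [hg ts m t hm ht] at hw'
      refine ⟨(F ts, t.head?), ?_⟩
      rw [if_pos hw', GRegex.mem_lang_concat]
      refine ⟨m, ?_, t, ?_, rfl⟩
      · rw [heSl]
        refine ⟨ts, ?_, hm⟩
        rw [heFl]
        rfl
      · rw [lang_tExpr]
        exact ⟨ht, rfl⟩

end Expr

end Blk

end Vale.Agent.Lib.P329
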