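import Vale.Agent.Lib.P329.PCut

/-!
The cascade of a counter-free automaton with a register in a finite commutative group: the
register is multiplied, at each transition, by a group element depending on the current state
and the letter.  Every language accepted by such a cascade has generalized star height at
most one.
-/

namespace Vale.Agent.Lib.P329

open Classical

namespace Cascade

open SF Ev

variable {α σ G : Type} [CommGroup G]

/-- The cascade step: the automaton `step` drives a `G`-valued register through `g`. -/
def cstep (step : σ → α → σ) (g : σ → α → G) (s : σ × G) (a : α) : σ × G :=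
  (step s.1 a, s.2 * g s.1 a)

/-- The event: the transition `t` is used. -/
def tev (t : σ × α) (q : σ) (a : α) : Prop := q = t.1 ∧ a = t.2

lemma prod_single [Fintype α] [Fintype σ] (g : σ → α → G) (q : σ) (a : α) :
    ∏ t : σ × α, g t.1 t.2 ^ (if tev t q a then 1 else 0) = g q a := by
  rw [Finset.prod_eq_single (q, a)]
  · simp [tev]
  · intro t _ ht
    have : ¬ tev t q a := by
      rintro ⟨h1, h2⟩
      apply ht
      ext
      · exact h1.symm
      · exact h2.symm
    simp [this]
  · intro h
    exact absurd (Finset.mem_univ _) h

/-- The register after reading `w` is the product of the powers of the values of `g` at the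
transitions, with exponents the numbers of uses of the transitions. -/
lemma casc_run [Fintype α] [Fintype σ] (step : σ → α → σ) (g : σ → α → G) :
    ∀ (w : List α) (q : σ) (x : G), w.foldl (cstep step g) (q, x) =
      (run step q w, x * ∏ t : σ × α, g t.1 t.2 ^ cnt step (tev t) q w) := by
  intro w
  induction w with
  | nil =>
    intro q x
    simp [cnt_nil]
  | cons a w ih =>
    intro q x
    rw [List.foldl_cons]
    show w.foldl (cstep step g) (step q a, x * g q a) = _
    rw [ih]
    congr 1
    have h1 : ∀ t : σ × α, g t.1 t.2 ^ cnt step (tev t) q (a :: w) =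
        g t.1 t.2 ^ (if tev t q a then 1 else 0) * g t.1 t.2 ^ cnt step (tev t) (step q a) w := by
      intro t
      rw [cnt_cons, pow_add]
    rw [Finset.prod_congr rfl (fun t _ => h1 t), Finset.prod_mul_distrib, prod_single,
      mul_assoc]

lemma rep_eq {α : Type} (u : List α) : ∀ n : ℕ, rep u n = (List.replicate n u).flatten := by
  intro n
  induction n with
  | zero => simp [rep]
  | succ n ih => simp [rep, ih, List.replicate_succ]

/-- **Cascades of counter-free automata with commutative groups.** -/
theorem main [Fintype α] [Fintype σ] [Fintype G] (step : σ → α → σ) (hcf : CounterFree step)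
    (g : σ → α → G) (q0 : σ) (P : Set (σ × G)) :
    ∃ e : GRegex α, e.starHeight ≤ 1 ∧
      e.lang = {w : List α | w.foldl (cstep step g) (q0, 1) ∈ P} := by
  have hN : NeZero (Fintype.card G) := ⟨Fintype.card_ne_zero⟩
  have f0 : Fib1 (fun w : List α => run step q0 w) := by
    have h := fib1_count_free step (fun _ _ => False) q0 (fun _ _ h => h.elim)
      (fun u q n hn hrun _ => hcf u q n hn hrun) (Fintype.card G) q0
    exact h.comp Prod.snd
  have f1 : Fib1 (fun (w : List α) (t : σ × α) =>
      ((cnt step (tev t) q0 w : ℕ) : ZMod (Fintype.card G))) := by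
    refine Fib1.pi (fun t => ?_)
    have h := fib1_count_free step (tev t) (step t.1 t.2)
      (fun q a h => by rw [h.1, h.2])
      (fun u q n hn hrun _ => hcf u q n hn hrun) (Fintype.card G) q0
    exact h.comp Prod.fst
  have f := (f0.pair f1).comp
    (fun v : σ × (σ × α → ZMod (Fintype.card G)) =>
      (v.1, ∏ t : σ × α, g t.1 t.2 ^ (v.2 t).val))
  have f' : Fib1 (fun w : List α => w.foldl (cstep step g) (q0, 1)) := by
    refine f.congr ?_
    intro w
    rw [casc_run, one_mul]
    congr 1
    apply Finset.prod_congr rfl
    intro t _
    rw [ZMod.val_natCast, pow_mod_card]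
  exact f'.set P

/-- The same statement for an automaton given as a `DFA`. -/
theorem main_dfa [Fintype α] [Fintype σ] [Fintype G] (M : DFA α σ)
    (hM : ∀ (q : σ) (u : List α) (n : ℕ), 0 < n →
      M.evalFrom q (List.replicate n u).flatten = q → M.evalFrom q u = q)
    (g : σ → α → G) (P : Set (σ × G)) :
    ∃ e : GRegex α, e.starHeight ≤ 1 ∧
      e.lang = {w : List α | w.foldl (fun (s : σ × G) (a : α) =>
        (M.step s.1 a, s.2 * g s.1 a)) (M.start, 1) ∈ P} := by
  have hcf : CounterFree M.step := by
    intro u q n hn hrun
    rw [rep_eq] at hrun
    exact hM q u n hn hrun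
  exact main M.step hcf g M.start P

end Cascade

end Vale.Agent.Lib.P329
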