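import Vale.Agent.Lib.P329.SF
import Mathlib.Data.List.GetD

/-!
A checkable certificate for counter-freeness of a concrete automaton given by tables of
natural numbers: a finite set of transformations that contains the identity, is closed under
the letters and consists of aperiodic transformations.
-/

namespace Vale.Agent.Lib.P329

namespace Cert

open SF

/-- Composition of transformations coded as lists of images: first `f`, then `g`. -/
def comp (f g : List ℕ) : List ℕ := f.map (fun i => g.getD i 0)

/-- Powers of a coded transformation on `n` points. -/
def pw (n : ℕ) (f : List ℕ) : ℕ → List ℕ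
  | 0 => List.range n
  | k + 1 => comp (pw n f k) f

/-- The certificate: the tables are valid, and `S` contains the identity, is closed under
composition with the letters and all its members satisfy `f ^ n = f ^ (n + 1)`. -/
def Check (n : ℕ) (gens S : List (List ℕ)) : Prop :=
  (∀ g ∈ gens, g.length = n ∧ ∀ x ∈ g, x < n) ∧ List.range n ∈ S ∧
    (∀ f ∈ S, ∀ g ∈ gens, comp f g ∈ S) ∧ (∀ f ∈ S, pw n f n = pw n f (n + 1))

instance (n : ℕ) (gens S : List (List ℕ)) : Decidable (Check n gens S) := by
  unfold Check
  infer_instance

/-- The transition table read as a function on natural numbers. -/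
def natStep (gens : List (List ℕ)) (q a : ℕ) : ℕ := (gens.getD a []).getD q 0

/-- The automaton on `Fin n` with alphabet `Fin m` given by the tables. -/
def tstep (n m : ℕ) [NeZero n] (gens : List (List ℕ)) (q : Fin n) (a : Fin m) : Fin n :=
  Fin.ofNat n (natStep gens q.val a.val)

section Sound

variable (n : ℕ) (gens S : List (List ℕ))

/-- The images of all points under a word. -/
def img (u : List ℕ) : List ℕ := (List.range n).map (fun q => run (natStep gens) q u)

lemma img_nil : img n gens [] = List.range n := by
  simp [img]

lemma img_concat (u : List ℕ) (a : ℕ) :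
    img n gens (u ++ [a]) = comp (img n gens u) (gens.getD a []) := by
  simp only [img, comp, List.map_map]
  apply List.map_congr_left
  intro q _
  simp [run_concat, natStep]

lemma rep_add {β : Type*} (u : List β) : ∀ a b : ℕ, rep u (a + b) = rep u a ++ rep u b := by
  intro a b
  induction a with
  | zero => simp [rep]
  | succ a ih =>
    have : a + 1 + b = (a + b) + 1 := by omega
    rw [this]
    simp [rep, ih]

lemma rep_one {β : Type*} (u : List β) : rep u 1 = u := by simp [rep]

lemma rep_succ' {β : Type*} (u : List β) (k : ℕ) : rep u (k + 1) = rep u k ++ u := by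
  rw [rep_add, rep_one]

variable {n gens S}

lemma valid_step (h : Check n gens S) (a : ℕ) (ha : a < gens.length) (q : ℕ) (hq : q < n) :
    natStep gens q a < n := by
  have hg : gens.getD a [] ∈ gens := by
    rw [List.getD_eq_getElem _ _ ha]
    exact List.getElem_mem ha
  obtain ⟨h1, h2⟩ := h.1 _ hg
  unfold natStep
  rw [List.getD_eq_getElem _ _ (by omega)]
  exact h2 _ (List.getElem_mem _)

lemma valid_run (h : Check n gens S) : ∀ (u : List ℕ), (∀ a ∈ u, a < gens.length) →
    ∀ q, q < n → run (natStep gens) q u < n := by
  intro u
  induction u with
  | nil => intro _ q hq; exact hq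
  | cons a u ih =>
    intro hu q hq
    rw [run_cons]
    exact ih (fun b hb => hu b (by simp [hb])) _ (valid_step h a (hu a (by simp)) q hq)

lemma img_mem (h : Check n gens S) : ∀ (u : List ℕ), (∀ a ∈ u, a < gens.length) →
    img n gens u ∈ S := by
  intro u
  induction u using List.reverseRecOn with
  | nil => intro _; rw [img_nil]; exact h.2.1
  | append_singleton u a ih =>
    intro hu
    rw [img_concat]
    have ha : a < gens.length := hu a (by simp)
    have hg : gens.getD a [] ∈ gens := by
      rw [List.getD_eq_getElem _ _ ha]
      exact List.getElem_mem ha
    exact h.2.2.1 _ (ih (fun b hb => hu b (by simp [hb]))) _ hg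

lemma img_getD (u : List ℕ) (i : ℕ) (hi : i < n) :
    (img n gens u).getD i 0 = run (natStep gens) i u := by
  simp [img, List.getD_eq_getElem?_getD, hi]

lemma pw_img (h : Check n gens S) (u : List ℕ) (hu : ∀ a ∈ u, a < gens.length) : ∀ k,
    pw n (img n gens u) k = img n gens (rep u k) := by
  intro k
  induction k with
  | zero => simp [pw, rep, img_nil]
  | succ k ih =>
    rw [pw, ih, rep_succ']
    simp only [img, comp, List.map_map]
    apply List.map_congr_left
    intro q hq
    have hq' : q < n := List.mem_range.mp hq
    have hrep : ∀ a ∈ rep u k, a < gens.length := by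
      clear ih
      induction k with
      | zero => intro a ha; simp [rep] at ha
      | succ k ih =>
        intro a ha
        simp only [rep, List.mem_append] at ha
        rcases ha with ha | ha
        · exact hu a ha
        · exact ih a ha
    have hlt := valid_run h (rep u k) hrep q hq'
    simp only [Function.comp]
    rw [run_append]
    have := img_getD (n := n) (gens := gens) u _ hlt
    simp only [img] at this
    exact this

/-- A valid certificate proves that the automaton on natural numbers has no counter. -/
lemma nat_counterFree (h : Check n gens S) (u : List ℕ) (hu : ∀ a ∈ u, a < gens.length)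
    (q : ℕ) (hq : q < n) (k : ℕ) (hk : 0 < k) (hfix : run (natStep gens) q (rep u k) = q) :
    run (natStep gens) q u = q := by
  have hrep : ∀ j, ∀ a ∈ rep u j, a < gens.length := by
    intro j
    induction j with
    | zero => intro a ha; simp [rep] at ha
    | succ j ih =>
      intro a ha
      simp only [rep, List.mem_append] at ha
      rcases ha with ha | ha
      · exact hu a ha
      · exact ih a ha
  -- every point in the image of `u ^ n` is fixed by `u`
  have hfixed : ∀ x, x < n → run (natStep gens) (run (natStep gens) x (rep u n)) u =
      run (natStep gens) x (rep u n) := by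
    intro x hx
    have h1 := h.2.2.2 _ (img_mem h u hu)
    rw [pw_img h u hu, pw_img h u hu] at h1
    have h2 : ∀ y ∈ List.range n, run (natStep gens) y (rep u n) =
        run (natStep gens) y (rep u (n + 1)) := List.map_inj_left.mp h1
    have h3 := h2 x (List.mem_range.mpr hx)
    rw [rep_succ', run_append] at h3
    exact h3.symm
  -- `q` is in the image of `u ^ n`
  have hiter : ∀ j, run (natStep gens) q (rep u (k * j)) = q := by
    intro j
    induction j with
    | zero => simp [rep]
    | succ j ih =>
      have : k * (j + 1) = k * j + k := by ring
      rw [this, rep_add, run_append, ih, hfix]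
  have hkn : k * n = (k * n - n) + n := by
    have : n ≤ k * n := Nat.le_mul_of_pos_left n hk
    omega
  have hq2 := hiter n
  rw [hkn, rep_add, run_append] at hq2
  have := hfixed _ (valid_run h _ (hrep (k * n - n)) q hq)
  rw [hq2] at this
  exact this

theorem counterFree_of_check (n m : ℕ) [NeZero n] (gens S : List (List ℕ))
    (hm : gens.length = m) (h : Check n gens S) : CounterFree (tstep n m gens) := by
  have hval : ∀ (u : List (Fin m)) (q : Fin n),
      (run (tstep n m gens) q u).val = run (natStep gens) q.val (u.map Fin.val) := by
    intro u
    induction u with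
    | nil => intro q; rfl
    | cons a u ih =>
      intro q
      rw [run_cons, ih, List.map_cons, run_cons]
      congr 1
      show (Fin.ofNat n (natStep gens q.val a.val)).val = _
      rw [Fin.val_ofNat]
      exact Nat.mod_eq_of_lt (valid_step h a.val (hm ▸ a.2) q.val q.2)
  intro u q k hk hfix
  apply Fin.ext
  rw [hval]
  have hfix' := congrArg Fin.val hfix
  rw [hval, ← rep_map] at hfix'
  apply nat_counterFree h _ _ _ q.2 k hk hfix'
  intro a ha
  obtain ⟨b, -, rfl⟩ := List.mem_map.mp ha
  exact hm ▸ b.2

end Sound

end Cert

end Vale.Agent.Lib.P329
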