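import Vale.Agent.Lib.P329.Basic

/-!
Combinators for functions on words all of whose fibers have generalized star height at most
one, and inverse images of expressions under letter-erasing and letter-renaming maps.
-/

namespace Vale.Agent.Lib.P329

universe u v w

open Classical

/-- Inverse image of an expression under a map that renames or erases letters. -/
lemma exists_preimage_filterMap {α : Type u} {β : Type v} [Fintype α] (f : α → Option β) :
    ∀ e : GRegex β, ∃ e' : GRegex α, e'.starHeight ≤ e.starHeight ∧
      e'.lang = {w | w.filterMap f ∈ e.lang} := by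
  intro e
  induction e with
  | zero => exact ⟨GRegex.zero, le_refl _, rfl⟩
  | one =>
    refine ⟨GRegex.allIn (fun a => f a = none), by simp [GRegex.starHeight_allIn], ?_⟩
    ext w
    rw [GRegex.mem_lang_allIn]
    show _ ↔ w.filterMap f = []
    rw [List.filterMap_eq_nil_iff]
  | letter b =>
    refine ⟨GRegex.concat (GRegex.allIn (fun a => f a = none))
      (GRegex.concat (GRegex.letters (fun a => f a = some b))
        (GRegex.allIn (fun a => f a = none))), ?_, ?_⟩
    · simp [GRegex.starHeight, GRegex.starHeight_allIn, GRegex.starHeight_letters]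
    · ext w
      rw [GRegex.mem_lang_concat]
      show _ ↔ w.filterMap f = [b]
      rw [List.filterMap_eq_cons_iff]
      constructor
      · rintro ⟨l1, h1, r, hr, rfl⟩
        rw [GRegex.mem_lang_concat] at hr
        obtain ⟨x, hx, l2, h2, rfl⟩ := hr
        rw [GRegex.mem_lang_letters] at hx
        obtain ⟨a, ha, rfl⟩ := hx
        rw [GRegex.mem_lang_allIn] at h1 h2
        exact ⟨l1, a, l2, by simp, h1, ha, List.filterMap_eq_nil_iff.mpr h2⟩
      · rintro ⟨l1, a, l2, rfl, h1, ha, h2⟩
        refine ⟨l1, (GRegex.mem_lang_allIn _ _).mpr h1, a :: l2, ?_, rfl⟩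
        rw [GRegex.mem_lang_concat]
        exact ⟨[a], (GRegex.mem_lang_letters _ _).mpr ⟨a, ha, rfl⟩, l2,
          (GRegex.mem_lang_allIn _ _).mpr (List.filterMap_eq_nil_iff.mp h2), rfl⟩
  | union p q ihp ihq =>
    obtain ⟨p', hp1, hp2⟩ := ihp
    obtain ⟨q', hq1, hq2⟩ := ihq
    refine ⟨GRegex.union p' q', ?_, ?_⟩
    · simp only [GRegex.starHeight]
      exact max_le_max hp1 hq1
    · ext w
      rw [GRegex.mem_lang_union, hp2, hq2]
      rfl
  | concat p q ihp ihq =>
    obtain ⟨p', hp1, hp2⟩ := ihp
    obtain ⟨q', hq1, hq2⟩ := ihq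
    refine ⟨GRegex.concat p' q', ?_, ?_⟩
    · simp only [GRegex.starHeight]
      exact max_le_max hp1 hq1
    · ext w
      rw [GRegex.mem_lang_concat, hp2, hq2]
      show _ ↔ w.filterMap f ∈ p.lang * q.lang
      rw [Language.mem_mul]
      constructor
      · rintro ⟨w1, h1, w2, h2, rfl⟩
        exact ⟨_, h1, _, h2, List.filterMap_append.symm⟩
      · rintro ⟨l1, h1, l2, h2, heq⟩
        obtain ⟨w1, w2, rfl, e1, e2⟩ := List.filterMap_eq_append_iff.mp heq.symm
        exact ⟨w1, by rw [← e1] at h1; exact h1, w2, by rw [← e2] at h2; exact h2, rfl⟩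
  | compl p ihp =>
    obtain ⟨p', hp1, hp2⟩ := ihp
    refine ⟨GRegex.compl p', hp1, ?_⟩
    ext w
    rw [GRegex.mem_lang_compl, hp2]
    rfl
  | star p ihp =>
    obtain ⟨p', hp1, hp2⟩ := ihp
    refine ⟨GRegex.union (GRegex.star p') (GRegex.allIn (fun a => f a = none)), ?_, ?_⟩
    · simp only [GRegex.starHeight, GRegex.starHeight_allIn]
      omega
    · ext w
      rw [GRegex.mem_lang_union, GRegex.lang_star, GRegex.mem_lang_allIn]
      show _ ↔ w.filterMap f ∈ KStar.kstar p.lang
      constructor
      · rintro (hw | hw)
        · rw [Language.mem_kstar] at hw ⊢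
          obtain ⟨L, rfl, hL⟩ := hw
          refine ⟨L.map (List.filterMap f), List.filterMap_flatten, ?_⟩
          intro y hy
          obtain ⟨x, hx, rfl⟩ := List.mem_map.mp hy
          have := hL x hx
          rw [hp2] at this
          exact this
        · rw [List.filterMap_eq_nil_iff.mpr hw]
          exact Language.nil_mem_kstar _
      · intro hw
        rw [Language.mem_kstar] at hw
        obtain ⟨L, hL1, hL2⟩ := hw
        have key : ∀ (L : List (List β)) (w : List α), w.filterMap f = L.flatten →
            (∀ y ∈ L, y ∈ p.lang) →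
            w ∈ KStar.kstar p'.lang ∨ ∀ a ∈ w, f a = none := by
          intro L
          induction L with
          | nil =>
            intro w hw _
            right
            exact List.filterMap_eq_nil_iff.mp (by simpa using hw)
          | cons y L ih =>
            intro w hw hL
            left
            rw [List.flatten_cons] at hw
            obtain ⟨w1, w2, rfl, e1, e2⟩ := List.filterMap_eq_append_iff.mp hw
            have hy : y ∈ p.lang := hL y (by simp)
            rcases ih w2 e2 (fun z hz => hL z (by simp [hz])) with h2 | h2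
            · have h1 : w1 ∈ p'.lang := by rw [hp2]; show w1.filterMap f ∈ p.lang; rw [e1]; exact hy
              rw [Language.mem_kstar] at h2 ⊢
              obtain ⟨S, rfl, hS⟩ := h2
              refine ⟨w1 :: S, by simp, ?_⟩
              intro z hz
              rcases List.mem_cons.mp hz with rfl | hz
              · exact h1
              · exact hS z hz
            · have h1 : w1 ++ w2 ∈ p'.lang := by
                rw [hp2]
                show (w1 ++ w2).filterMap f ∈ p.lang
                rw [List.filterMap_append, e1, List.filterMap_eq_nil_iff.mpr h2, List.append_nil]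
                exact hy
              rw [Language.mem_kstar]
              refine ⟨[w1 ++ w2], by simp, ?_⟩
              intro z hz
              rw [List.mem_singleton.mp hz]
              exact h1
        exact key L w hL1 hL2

/-- All fibers of `g` have generalized star height at most one. -/
def Fib1 {α : Type u} {V : Type v} (g : List α → V) : Prop :=
  ∀ x, ∃ e : GRegex α, e.starHeight ≤ 1 ∧ e.lang = {w | g w = x}

namespace Fib1

variable {α : Type u} {V : Type v} {U : Type w}

lemma pair {g : List α → V} {h : List α → U} (hg : Fib1 g) (hh : Fib1 h) :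
    Fib1 (fun w => (g w, h w)) := by
  rintro ⟨x, y⟩
  obtain ⟨e1, h1, l1⟩ := hg x
  obtain ⟨e2, h2, l2⟩ := hh y
  refine ⟨GRegex.inter e1 e2, by simp [h1, h2], ?_⟩
  ext w
  rw [GRegex.mem_lang_inter, l1, l2]
  show (g w = x ∧ h w = y) ↔ (g w, h w) = (x, y)
  rw [Prod.mk.injEq]

lemma comp [Fintype V] {g : List α → V} (hg : Fib1 g) (φ : V → U) :
    Fib1 (fun w => φ (g w)) := by
  intro y
  choose E hE1 hE2 using hg
  refine ⟨GRegex.sumOver (fun x => if φ x = y then E x else GRegex.zero), ?_, ?_⟩
  · apply GRegex.starHeight_sumOver_le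
    intro x
    split_ifs
    · exact hE1 x
    · simp [GRegex.starHeight]
  · ext w
    rw [GRegex.mem_lang_sumOver]
    constructor
    · rintro ⟨x, hx⟩
      by_cases hxy : φ x = y
      · rw [if_pos hxy, hE2] at hx
        have : g w = x := hx
        show φ (g w) = y
        rw [this, hxy]
      · rw [if_neg hxy] at hx; exact hx.elim
    · intro hw
      have hw' : φ (g w) = y := hw
      refine ⟨g w, ?_⟩
      rw [if_pos hw', hE2]
      rfl

lemma pi {ι : Type w} [Fintype ι] {W : ι → Type v} {g : ∀ i, List α → W i}
    (hg : ∀ i, Fib1 (g i)) : Fib1 (fun w i => g i w) := by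
  intro y
  choose E hE1 hE2 using hg
  refine ⟨GRegex.interOver (fun i => E i (y i)), ?_, ?_⟩
  · exact GRegex.starHeight_interOver_le _ 1 (fun i => hE1 i _)
  · ext w
    rw [GRegex.mem_lang_interOver]
    constructor
    · intro h
      funext i
      have := h i
      rw [hE2] at this
      exact this
    · intro h i
      rw [hE2]
      exact congrFun h i

lemma filterMap {β : Type v} [Fintype α] {g : List β → V} (hg : Fib1 g) (f : α → Option β) :
    Fib1 (fun w : List α => g (w.filterMap f)) := by
  intro y
  obtain ⟨e, he1, he2⟩ := hg y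
  obtain ⟨e', he'1, he'2⟩ := exists_preimage_filterMap f e
  refine ⟨e', le_trans he'1 he1, ?_⟩
  rw [he'2, he2]
  rfl

lemma congr {g h : List α → V} (hg : Fib1 g) (hgh : ∀ w, g w = h w) : Fib1 h := by
  have : g = h := funext hgh
  rw [← this]
  exact hg

lemma set [Fintype V] {g : List α → V} (hg : Fib1 g) (P : Set V) :
    ∃ e : GRegex α, e.starHeight ≤ 1 ∧ e.lang = {w | g w ∈ P} := by
  obtain ⟨e, he1, he2⟩ := (hg.comp (fun x => x ∈ P)) True
  refine ⟨e, he1, ?_⟩
  rw [he2]
  ext w
  simp

end Fib1

end Vale.Agent.Lib.P329
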