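import Vale.Agent.Lib.P329.OneLoop

/-!
Counting modulo `N` how often a one-checkpoint automaton reads a loop letter at its
checkpoint state: the resulting languages have generalized star height at most one.
-/

namespace Vale.Agent.Lib.P329

universe u v

open Classical

namespace Count

open OneLoop

variable {α : Type u} {σ : Type v}

/-- The number of positions of `w` at which the automaton, started in `q`, is in state `p`
and reads a letter satisfying `P`. -/
noncomputable def visits (M : DFA α σ) (p : σ) (P : α → Prop) : σ → List α → ℕ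
  | _, [] => 0
  | q, a :: w => (if q = p ∧ P a then 1 else 0) + visits M p P (M.step q a) w

/-- The number of steps of the run of `w` from `q` that enter `p` from another state. -/
noncomputable def ent (M : DFA α σ) (p : σ) : σ → List α → ℕ
  | _, [] => 0
  | q, a :: w => (if q ≠ p ∧ M.step q a = p then 1 else 0) + ent M p (M.step q a) w

lemma visits_append (M : DFA α σ) (p : σ) (P : α → Prop) : ∀ (u v : List α) (q : σ),
    visits M p P q (u ++ v) = visits M p P q u + visits M p P (M.evalFrom q u) v := by
  intro u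
  induction u with
  | nil => intro v q; simp [visits]
  | cons a u ih =>
    intro v q
    simp only [List.cons_append, visits, ih, DFA.evalFrom_cons]
    ring

lemma ent_append (M : DFA α σ) (p : σ) : ∀ (u v : List α) (q : σ),
    ent M p q (u ++ v) = ent M p q u + ent M p (M.evalFrom q u) v := by
  intro u
  induction u with
  | nil => intro v q; simp [ent]
  | cons a u ih =>
    intro v q
    simp only [List.cons_append, ent, ih, DFA.evalFrom_cons]
    ring

/-- The automaton `M` with every state accepting. -/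
def allAcc (M : DFA α σ) : DFA α σ := ⟨M.step, M.start, Set.univ⟩

/-- `kap M p P q w`: counted letters read at `p` plus entrances into `p`. -/
noncomputable def kap (M : DFA α σ) (p : σ) (P : α → Prop) (q : σ) (w : List α) : ℕ :=
  visits M p P q w + ent M p q w

lemma kap_append (M : DFA α σ) (p : σ) (P : α → Prop) (u v : List α) (q : σ) :
    kap M p P q (u ++ v) = kap M p P q u + kap M p P (M.evalFrom q u) v := by
  simp only [kap, visits_append, ent_append]; ring

lemma ret_facts (M : DFA α σ) (p : σ) (P : α → Prop) : ∀ (r : List α) (q : σ), q ≠ p →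
    ret (allAcc M) p q r → M.evalFrom q r = p ∧ visits M p P q r = 0 ∧ ent M p q r = 1 := by
  intro r
  induction r with
  | nil => intro q _ h; exact h.elim
  | cons a r ih =>
    intro q hq h
    rcases h with ⟨h1, rfl⟩ | ⟨h1, h2⟩
    · have h1' : M.step q a = p := h1
      refine ⟨by simpa using h1', ?_, ?_⟩
      · simp [visits, hq]
      · simp [ent, hq, h1']
    · have h1' : M.step q a ≠ p := h1
      obtain ⟨e1, e2, e3⟩ := ih (M.step q a) h1' h2
      refine ⟨by simpa using e1, ?_, ?_⟩
      · simp [visits, hq, e2]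
      · simp [ent, h1', e3]

lemma avoid_facts (M : DFA α σ) (p : σ) (P : α → Prop) : ∀ (t : List α) (q : σ), q ≠ p →
    avoid (allAcc M) p q t → visits M p P q t = 0 ∧ ent M p q t = 0 := by
  intro t
  induction t with
  | nil => intro q _ _; simp [visits, ent]
  | cons a t ih =>
    intro q hq h
    have h1 : M.step q a ≠ p := h.1
    obtain ⟨e1, e2⟩ := ih (M.step q a) h1 h.2
    refine ⟨?_, ?_⟩
    · simp [visits, hq, e1]
    · simp [ent, h1, e2]

/-- Loop letters at `p` that are not counted. -/
def idle (M : DFA α σ) (p : σ) (P : α → Prop) (a : α) : Prop := M.step p a = p ∧ ¬ P a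

/-- Words of uncounted loop letters. -/
def Idle (M : DFA α σ) (p : σ) (P : α → Prop) : Language α :=
  {s | ∀ a ∈ s, idle M p P a}

/-- One counted event: a counted loop letter, or an excursion from `p` back to `p`. -/
def Ev (M : DFA α σ) (p : σ) (P : α → Prop) : Language α :=
  {x | (∃ a, P a ∧ x = [a]) ∨ ∃ a r, x = a :: r ∧ M.step p a ≠ p ∧ ret (allAcc M) p (M.step p a) r}

/-- Tails without any counted event. -/
def Tl (M : DFA α σ) (p : σ) : Language α :=
  {x | x = [] ∨ ∃ a t, x = a :: t ∧ M.step p a ≠ p ∧ avoid (allAcc M) p (M.step p a) t}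

/-- The code: idle letters followed by one event. -/
def KP (M : DFA α σ) (p : σ) (P : α → Prop) : Language α := Idle M p P * Ev M p P

/-- Tails: idle letters followed by an unfinished excursion. -/
def TP (M : DFA α σ) (p : σ) (P : α → Prop) : Language α := Idle M p P * Tl M p

lemma nil_mem_Idle (M : DFA α σ) (p : σ) (P : α → Prop) : ([] : List α) ∈ Idle M p P :=
  fun a ha => by simp at ha

lemma idle_facts (M : DFA α σ) (p : σ) (P : α → Prop) : ∀ (s : List α), s ∈ Idle M p P →
    M.evalFrom p s = p ∧ visits M p P p s = 0 ∧ ent M p p s = 0 := by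
  intro s
  induction s with
  | nil => intro _; simp [visits, ent]
  | cons a s ih =>
    intro hs
    have ha : idle M p P a := hs a (by simp)
    obtain ⟨e1, e2, e3⟩ := ih (fun b hb => hs b (by simp [hb]))
    refine ⟨?_, ?_, ?_⟩
    · rw [DFA.evalFrom_cons, ha.1]; exact e1
    · simp [visits, ha.1, ha.2, e2]
    · simp [ent, ha.1, e3]

lemma KP_facts (M : DFA α σ) (p : σ) (P : α → Prop) (hP : ∀ a, P a → M.step p a = p)
    (k : List α) (hk : k ∈ KP M p P) : M.evalFrom p k = p ∧ kap M p P p k = 1 := by
  obtain ⟨s, hs, x, hx, rfl⟩ := Language.mem_mul.mp hk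
  obtain ⟨e1, e2, e3⟩ := idle_facts M p P s hs
  rw [DFA.evalFrom_of_append, kap_append, e1]
  have h0 : kap M p P p s = 0 := by simp [kap, e2, e3]
  rw [h0, zero_add]
  rcases hx with ⟨a, ha, rfl⟩ | ⟨a, r, rfl, h1, h2⟩
  · have := hP a ha
    refine ⟨by simpa using this, ?_⟩
    simp [kap, visits, ent, ha]
  · obtain ⟨f1, f2, f3⟩ := ret_facts M p P r (M.step p a) h1 h2
    refine ⟨by simpa using f1, ?_⟩
    have hPa : ¬ P a := fun h => h1 (hP a h)
    simp [kap, visits, ent, hPa, f2, f3, h1]

lemma TP_facts (M : DFA α σ) (p : σ) (P : α → Prop) (hP : ∀ a, P a → M.step p a = p)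
    (t : List α) (ht : t ∈ TP M p P) : kap M p P p t = 0 := by
  obtain ⟨s, hs, x, hx, rfl⟩ := Language.mem_mul.mp ht
  obtain ⟨e1, e2, e3⟩ := idle_facts M p P s hs
  rw [kap_append, e1]
  have h0 : kap M p P p s = 0 := by simp [kap, e2, e3]
  rw [h0, zero_add]
  rcases hx with rfl | ⟨a, r, rfl, h1, h2⟩
  · simp [kap, visits, ent]
  · obtain ⟨f1, f2⟩ := avoid_facts M p P r (M.step p a) h1 h2
    have hPa : ¬ P a := fun h => h1 (hP a h)
    simp [kap, visits, ent, hPa, f1, f2, h1]

lemma decomp (M : DFA α σ) (p : σ) (P : α → Prop) :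
    ∀ w : List α, w ∈ TP M p P ∨ ∃ k ∈ KP M p P, ∃ w', w = k ++ w' := by
  intro w
  induction w with
  | nil => exact Or.inl (Language.mem_mul.mpr ⟨[], nil_mem_Idle M p P, [], Or.inl rfl, rfl⟩)
  | cons a w ih =>
    by_cases hPa : P a
    · right
      exact ⟨[a], Language.mem_mul.mpr ⟨[], nil_mem_Idle M p P, [a], Or.inl ⟨a, hPa, rfl⟩, rfl⟩,
        w, rfl⟩
    · by_cases hl : M.step p a = p
      · have hid : idle M p P a := ⟨hl, hPa⟩
        rcases ih with h | ⟨k, hk, w', rfl⟩
        · left
          obtain ⟨s, hs, x, hx, rfl⟩ := Language.mem_mul.mp h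
          refine Language.mem_mul.mpr ⟨a :: s, ?_, x, hx, rfl⟩
          intro b hb
          rcases List.mem_cons.mp hb with rfl | hb
          · exact hid
          · exact hs b hb
        · right
          obtain ⟨s, hs, x, hx, rfl⟩ := Language.mem_mul.mp hk
          refine ⟨a :: (s ++ x), Language.mem_mul.mpr ⟨a :: s, ?_, x, hx, rfl⟩, w', rfl⟩
          intro b hb
          rcases List.mem_cons.mp hb with rfl | hb
          · exact hid
          · exact hs b hb
      · have hd := (dichotomy (allAcc M) p w (M.step p a)).mp (Set.mem_univ _)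
        rcases hd with h | ⟨u, v, rfl, hu, -⟩
        · left
          exact Language.mem_mul.mpr ⟨[], nil_mem_Idle M p P, a :: w, Or.inr ⟨a, w, rfl, hl, h⟩, rfl⟩
        · right
          exact ⟨a :: u, Language.mem_mul.mpr ⟨[], nil_mem_Idle M p P, a :: u,
            Or.inr ⟨a, u, rfl, hl, hu⟩, rfl⟩, v, rfl⟩

lemma mem_pow_mul_iff (M : DFA α σ) (p : σ) (P : α → Prop) (hP : ∀ a, P a → M.step p a = p) :
    ∀ (n : ℕ) (w : List α), w ∈ KP M p P ^ n * TP M p P ↔ kap M p P p w = n := by
  intro n
  induction n with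
  | zero =>
    intro w
    rw [pow_zero, one_mul]
    constructor
    · exact TP_facts M p P hP w
    · intro h
      rcases decomp M p P w with h1 | ⟨k, hk, w', rfl⟩
      · exact h1
      · obtain ⟨e1, e2⟩ := KP_facts M p P hP k hk
        rw [kap_append, e2] at h
        omega
  | succ n ih =>
    intro w
    rw [pow_succ', mul_assoc]
    constructor
    · intro h
      obtain ⟨k, hk, w', hw', rfl⟩ := Language.mem_mul.mp h
      obtain ⟨e1, e2⟩ := KP_facts M p P hP k hk
      rw [kap_append, e2, e1, (ih w').mp hw']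
      omega
    · intro h
      rcases decomp M p P w with h1 | ⟨k, hk, w', rfl⟩
      · have := TP_facts M p P hP w h1
        omega
      · obtain ⟨e1, e2⟩ := KP_facts M p P hP k hk
        rw [kap_append, e2, e1] at h
        exact Language.mem_mul.mpr ⟨k, hk, w', (ih w').mpr (by omega), rfl⟩

lemma mem_star_iff (M : DFA α σ) (p : σ) (P : α → Prop) (hP : ∀ a, P a → M.step p a = p)
    (N : ℕ) (r : ℕ) (hr : r < N) (w : List α) :
    w ∈ KStar.kstar (KP M p P ^ N) * (KP M p P ^ r * TP M p P) ↔ kap M p P p w % N = r := by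
  constructor
  · intro h
    obtain ⟨s, hs, t, ht, rfl⟩ := Language.mem_mul.mp h
    rw [Language.kstar_eq_iSup_pow, Language.mem_iSup] at hs
    obtain ⟨m, hm⟩ := hs
    rw [← pow_mul] at hm
    have h1 : s ++ t ∈ KP M p P ^ (N * m + r) * TP M p P := by
      rw [pow_add, mul_assoc]
      exact Language.mem_mul.mpr ⟨s, hm, t, ht, rfl⟩
    rw [(mem_pow_mul_iff M p P hP _ _).mp h1, Nat.mul_add_mod, Nat.mod_eq_of_lt hr]
  · intro h
    have h1 : w ∈ KP M p P ^ (N * (kap M p P p w / N) + r) * TP M p P := by
      rw [mem_pow_mul_iff M p P hP]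
      rw [← h]
      exact (Nat.div_add_mod _ _).symm
    rw [pow_add, mul_assoc, pow_mul] at h1
    obtain ⟨s, hs, t, ht, rfl⟩ := Language.mem_mul.mp h1
    refine Language.mem_mul.mpr ⟨s, ?_, t, ht, rfl⟩
    rw [Language.kstar_eq_iSup_pow, Language.mem_iSup]
    exact ⟨_, hs⟩

/-! ### expressions -/

section Expr

variable [Fintype α]

/-- `n`-fold concatenation power of an expression. -/
def ePow (e : GRegex α) : ℕ → GRegex α
  | 0 => GRegex.one
  | n + 1 => GRegex.concat e (ePow e n)

lemma lang_ePow (e : GRegex α) : ∀ n, (ePow e n).lang = e.lang ^ n := by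
  intro n
  induction n with
  | zero => rfl
  | succ n ih => rw [pow_succ', ← ih]; rfl

lemma starHeight_ePow (e : GRegex α) : ∀ n, (ePow e n).starHeight ≤ e.starHeight := by
  intro n
  induction n with
  | zero => simp [ePow, GRegex.starHeight]
  | succ n ih => simp [ePow, GRegex.starHeight, ih]

/-- Expression for `Ev`. -/
noncomputable def eEv (M : DFA α σ) (p : σ) (P : α → Prop) (K : ℕ) : GRegex α :=
  GRegex.union (GRegex.letters P)
    (GRegex.sumOver (fun a => if M.step p a = p then GRegex.zero
      else GRegex.concat (GRegex.letter a) (eRt (allAcc M) p K (M.step p a))))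

/-- Expression for `Tl`. -/
noncomputable def eTl (M : DFA α σ) (p : σ) (K : ℕ) : GRegex α :=
  GRegex.union GRegex.one
    (GRegex.sumOver (fun a => if M.step p a = p then GRegex.zero
      else GRegex.concat (GRegex.letter a) (eAv (allAcc M) p K (M.step p a))))

lemma starHeight_eEv (M : DFA α σ) (p : σ) (P : α → Prop) (K : ℕ) :
    (eEv M p P K).starHeight = 0 := by
  apply Nat.le_zero.mp
  simp only [eEv, GRegex.starHeight, GRegex.starHeight_letters]
  apply max_le (le_refl _)
  apply GRegex.starHeight_sumOver_le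
  intro a
  split_ifs <;> simp [GRegex.starHeight, starHeight_eRt]

lemma starHeight_eTl (M : DFA α σ) (p : σ) (K : ℕ) : (eTl M p K).starHeight = 0 := by
  apply Nat.le_zero.mp
  simp only [eTl, GRegex.starHeight]
  apply max_le (le_refl _)
  apply GRegex.starHeight_sumOver_le
  intro a
  split_ifs <;> simp [GRegex.starHeight, starHeight_eAv]

variable (M : DFA α σ) (p : σ) (r : σ → ℕ) (R : ℕ) (hR : ∀ q, r q ≤ R)
  (h : ∀ q a, q ≠ p → M.step q a = p ∨ M.step q a = q ∨ r q < r (M.step q a))

include hR h in
lemma lang_eEv (P : α → Prop) : (eEv M p P (R + 1)).lang = Ev M p P := by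
  ext w
  simp only [eEv, GRegex.mem_lang_union, GRegex.mem_lang_letters, GRegex.mem_lang_sumOver]
  show _ ↔ (∃ a, P a ∧ w = [a]) ∨
    ∃ a r, w = a :: r ∧ M.step p a ≠ p ∧ ret (allAcc M) p (M.step p a) r
  constructor
  · rintro (hw | ⟨a, ha⟩)
    · exact Or.inl hw
    · by_cases hp : M.step p a = p
      · rw [if_pos hp] at ha; exact ha.elim
      · rw [if_neg hp] at ha
        obtain ⟨u, hu, y, hy, rfl⟩ := (GRegex.mem_lang_concat _ _ _).mp ha
        have hu' : u = [a] := hu
        subst hu'
        exact Or.inr ⟨a, y, rfl, hp,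
          (lang_eRt (allAcc M) p r R hR h (R + 1) (M.step p a) hp (by omega) y).mp hy⟩
  · rintro (hw | ⟨a, y, rfl, hp, hy⟩)
    · exact Or.inl hw
    · right
      refine ⟨a, ?_⟩
      rw [if_neg hp]
      exact (GRegex.mem_lang_concat _ _ _).mpr ⟨[a], rfl, y,
        (lang_eRt (allAcc M) p r R hR h (R + 1) (M.step p a) hp (by omega) y).mpr hy, rfl⟩

include hR h in
lemma lang_eTl : (eTl M p (R + 1)).lang = Tl M p := by
  ext w
  simp only [eTl, GRegex.mem_lang_union, GRegex.mem_lang_one, GRegex.mem_lang_sumOver]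
  show _ ↔ w = [] ∨ ∃ a t, w = a :: t ∧ M.step p a ≠ p ∧ avoid (allAcc M) p (M.step p a) t
  constructor
  · rintro (hw | ⟨a, ha⟩)
    · exact Or.inl hw
    · by_cases hp : M.step p a = p
      · rw [if_pos hp] at ha; exact ha.elim
      · rw [if_neg hp] at ha
        obtain ⟨u, hu, y, hy, rfl⟩ := (GRegex.mem_lang_concat _ _ _).mp ha
        have hu' : u = [a] := hu
        subst hu'
        exact Or.inr ⟨a, y, rfl, hp,
          (lang_eAv (allAcc M) p r R hR h (R + 1) (M.step p a) hp (by omega) y).mp hy⟩
  · rintro (hw | ⟨a, y, rfl, hp, hy⟩)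
    · exact Or.inl hw
    · right
      refine ⟨a, ?_⟩
      rw [if_neg hp]
      exact (GRegex.mem_lang_concat _ _ _).mpr ⟨[a], rfl, y,
        (lang_eAv (allAcc M) p r R hR h (R + 1) (M.step p a) hp (by omega) y).mpr hy, rfl⟩

/-- Expression for `{w | kap M p P p w % N = t}`. -/
noncomputable def eMod (P : α → Prop) (K N t : ℕ) : GRegex α :=
  GRegex.concat (GRegex.star (ePow (GRegex.concat (GRegex.allIn (idle M p P)) (eEv M p P K)) N))
    (GRegex.concat (ePow (GRegex.concat (GRegex.allIn (idle M p P)) (eEv M p P K)) t)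
      (GRegex.concat (GRegex.allIn (idle M p P)) (eTl M p K)))

lemma starHeight_eMod (P : α → Prop) (K N t : ℕ) : (eMod M p P K N t).starHeight ≤ 1 := by
  have h1 : (GRegex.concat (GRegex.allIn (idle M p P)) (eEv M p P K)).starHeight = 0 := by
    simp [GRegex.starHeight, GRegex.starHeight_allIn, starHeight_eEv]
  have h2 := starHeight_ePow (GRegex.concat (GRegex.allIn (idle M p P)) (eEv M p P K)) N
  have h3 := starHeight_ePow (GRegex.concat (GRegex.allIn (idle M p P)) (eEv M p P K)) t
  rw [h1] at h2 h3
  simp only [eMod, GRegex.starHeight, GRegex.starHeight_allIn, starHeight_eTl]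
  omega

include hR h in
lemma lang_eMod (P : α → Prop) (hP : ∀ a, P a → M.step p a = p) (N t : ℕ) (ht : t < N) :
    (eMod M p P (R + 1) N t).lang = {w | kap M p P p w % N = t} := by
  have hK : (GRegex.concat (GRegex.allIn (idle M p P)) (eEv M p P (R + 1))).lang = KP M p P := by
    rw [GRegex.lang_concat, lang_eEv M p r R hR h P]
    congr 1
    ext w
    exact GRegex.mem_lang_allIn _ w
  have hT : (GRegex.concat (GRegex.allIn (idle M p P)) (eTl M p (R + 1))).lang = TP M p P := by
    rw [GRegex.lang_concat, lang_eTl M p r R hR h]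
    congr 1
    ext w
    exact GRegex.mem_lang_allIn _ w
  ext w
  simp only [eMod]
  rw [GRegex.lang_concat, GRegex.lang_star, GRegex.lang_concat, lang_ePow, lang_ePow, hK, hT]
  exact mem_star_iff M p P hP N t ht w

end Expr

lemma visits_false (M : DFA α σ) (p : σ) : ∀ (w : List α) (q : σ),
    visits M p (fun _ => False) q w = 0 := by
  intro w
  induction w with
  | nil => intro q; rfl
  | cons a w ih => intro q; simp [visits, ih]

/-- Counting visits modulo `N`, starting from the checkpoint. -/
theorem exists_regex_visits_base [Fintype α] [Fintype σ] (M : DFA α σ) (p : σ) (r : σ → ℕ)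
    (h : ∀ q a, q ≠ p → M.step q a = p ∨ M.step q a = q ∨ r q < r (M.step q a))
    (P : α → Prop) (hP : ∀ a, P a → M.step p a = p) (N : ℕ) (k : ℕ) (hk : k < N) :
    ∃ e : GRegex α, e.starHeight ≤ 1 ∧ e.lang = {w | visits M p P p w % N = k} := by
  obtain ⟨R, hR⟩ : ∃ R, ∀ q, r q ≤ R :=
    ⟨Finset.univ.sup r, fun q => Finset.le_sup (Finset.mem_univ q)⟩
  have hN : 0 < N := by omega
  haveI : NeZero N := ⟨by omega⟩
  refine ⟨GRegex.sumOver (fun t : Fin N => GRegex.inter (eMod M p (fun _ => False) (R + 1) N t)
    (eMod M p P (R + 1) N ((k + t) % N))), ?_, ?_⟩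
  · apply GRegex.starHeight_sumOver_le
    intro t
    rw [GRegex.starHeight_inter]
    exact max_le (starHeight_eMod _ _ _ _ _ _) (starHeight_eMod _ _ _ _ _ _)
  · ext w
    rw [GRegex.mem_lang_sumOver]
    simp only [GRegex.mem_lang_inter]
    have e1 : ∀ t : Fin N, (eMod M p (fun _ => False) (R + 1) N t).lang =
        {w | kap M p (fun _ => False) p w % N = t} :=
      fun t => lang_eMod M p r R hR h _ (fun a ha => ha.elim) N t t.2
    have e2 : ∀ t : Fin N, (eMod M p P (R + 1) N ((k + t) % N)).lang =
        {w | kap M p P p w % N = (k + t) % N} :=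
      fun t => lang_eMod M p r R hR h P hP N _ (Nat.mod_lt _ hN)
    simp only [e1, e2]
    have hkap : kap M p (fun _ => False) p w = ent M p p w := by
      simp [kap, visits_false]
    constructor
    · rintro ⟨t, ht1, ht2⟩
      have ht1' : kap M p (fun _ => False) p w % N = t := ht1
      have ht2' : kap M p P p w % N = (k + t) % N := ht2
      show visits M p P p w % N = k
      rw [hkap] at ht1'
      simp only [kap] at ht2'
      have h3 : (visits M p P p w + ent M p p w) % N = (k + ent M p p w) % N := by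
        rw [ht2', ← ht1', Nat.add_mod_mod]
      have h4 : visits M p P p w % N = k % N := by
        have := Nat.ModEq.add_right_cancel' (ent M p p w) h3
        exact this
      rw [h4, Nat.mod_eq_of_lt hk]
    · intro hw
      have hw' : visits M p P p w % N = k := hw
      refine ⟨⟨ent M p p w % N, Nat.mod_lt _ hN⟩, ?_, ?_⟩
      · show kap M p (fun _ => False) p w % N = ent M p p w % N
        rw [hkap]
      · show kap M p P p w % N = (k + ent M p p w % N) % N
        simp only [kap]
        rw [Nat.add_mod_mod, ← hw', Nat.mod_add_mod]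

/-- Counting visits modulo `N`, from an arbitrary start state. -/
theorem exists_regex_visits [Fintype α] [Fintype σ] (M : DFA α σ) (p : σ) (r : σ → ℕ)
    (h : ∀ q a, q ≠ p → M.step q a = p ∨ M.step q a = q ∨ r q < r (M.step q a))
    (P : α → Prop) (hP : ∀ a, P a → M.step p a = p) (N : ℕ) (k : ℕ) (hk : k < N) (q₀ : σ) :
    ∃ e : GRegex α, e.starHeight ≤ 1 ∧ e.lang = {w | visits M p P q₀ w % N = k} := by
  obtain ⟨E, hE1, hE2⟩ := exists_regex_visits_base M p r h P hP N k hk
  by_cases hq : q₀ = p
  · subst hq; exact ⟨E, hE1, hE2⟩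
  obtain ⟨R, hR⟩ : ∃ R, ∀ q, r q ≤ R :=
    ⟨Finset.univ.sup r, fun q => Finset.le_sup (Finset.mem_univ q)⟩
  have hN : 0 < N := by omega
  refine ⟨GRegex.union (if k = 0 then eAv (allAcc M) p (R + 1) q₀ else GRegex.zero)
    (GRegex.concat (eRt (allAcc M) p (R + 1) q₀) E), ?_, ?_⟩
  · simp only [GRegex.starHeight, starHeight_eRt]
    apply max_le
    · split_ifs <;> simp [GRegex.starHeight, starHeight_eAv]
    · simpa using hE1
  · ext w
    rw [GRegex.mem_lang_union, GRegex.mem_lang_concat]
    show _ ↔ visits M p P q₀ w % N = k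
    have hd := (dichotomy (allAcc M) p w q₀).mp (Set.mem_univ _)
    constructor
    · rintro (hw | ⟨u, hu, v, hv, rfl⟩)
      · by_cases hk0 : k = 0
        · rw [if_pos hk0] at hw
          have := (lang_eAv (allAcc M) p r R hR h (R + 1) q₀ hq (by omega) w).mp hw
          rw [(avoid_facts M p P w q₀ hq this).1, hk0]
          exact Nat.zero_mod N
        · rw [if_neg hk0] at hw; exact hw.elim
      · have hu' := (lang_eRt (allAcc M) p r R hR h (R + 1) q₀ hq (by omega) u).mp hu
        obtain ⟨f1, f2, -⟩ := ret_facts M p P u q₀ hq hu'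
        rw [visits_append, f1, f2, zero_add]
        rw [hE2] at hv
        exact hv
    · intro hw
      rcases hd with hav | ⟨u, v, rfl, hu, -⟩
      · left
        have h0 := (avoid_facts M p P w q₀ hq hav).1
        rw [h0, Nat.zero_mod] at hw
        rw [if_pos hw.symm]
        exact (lang_eAv (allAcc M) p r R hR h (R + 1) q₀ hq (by omega) w).mpr hav
      · right
        obtain ⟨f1, f2, -⟩ := ret_facts M p P u q₀ hq hu
        rw [visits_append, f1, f2, zero_add] at hw
        refine ⟨u, (lang_eRt (allAcc M) p r R hR h (R + 1) q₀ hq (by omega) u).mpr hu, v, ?_, rfl⟩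
        rw [hE2]
        exact hw

end Count

end Vale.Agent.Lib.P329
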