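import Mathlib.Computability.Language
import Mathlib.Computability.DFA

/-!
Generalized regular expressions (union, concatenation, complement, Kleene star),
the language they denote and their star height.
-/

namespace Vale.Agent.Lib.P329

universe u

/-- Generalized regular expressions over the alphabet `α`: built from `0`, `1` and letters
by union, concatenation, complement and Kleene star. -/
inductive GRegex (α : Type u) : Type u
  | zero : GRegex α
  | one : GRegex α
  | letter : α → GRegex α
  | union : GRegex α → GRegex α → GRegex α
  | concat : GRegex α → GRegex α → GRegex α
  | compl : GRegex α → GRegex α
  | star : GRegex α → GRegex α

namespace GRegex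

variable {α : Type u}

/-- The language denoted by a generalized regular expression; complement is taken
in the set of all words over `α`. -/
def lang : GRegex α → Language α
  | zero => 0
  | one => 1
  | letter a => {[a]}
  | union p q => p.lang + q.lang
  | concat p q => p.lang * q.lang
  | compl p => (p.lang)ᶜ
  | star p => KStar.kstar p.lang

/-- Star height: the maximal nesting depth of Kleene stars. -/
def starHeight : GRegex α → ℕ
  | zero => 0
  | one => 0
  | letter _ => 0
  | union p q => max p.starHeight q.starHeight
  | concat p q => max p.starHeight q.starHeight
  | compl p => p.starHeight
  | star p => p.starHeight + 1

end GRegex

end Vale.Agent.Lib.P329
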