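import Vale.Agent.Lib.P329.Sim
import Vale.Agent.Lib.P329.Comb
import Vale.Agent.Lib.P329.Count
import Mathlib.Data.ZMod.Basic

/-!
Counting events of a deterministic automaton modulo `N`: if all events lead to one base
state and the automaton cut at its events is counter-free, then the languages defined by
the number of events modulo `N` and the final state have generalized star height at most one.
-/

set_option linter.unusedSectionVars false

namespace Vale.Agent.Lib.P329

open Classical

namespace Ev

open SF

variable {α σ τ : Type}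

/-- `cstep` is the automaton `step` cut at its events: every event transition leads to the
state `done`, which leads to the absorbing state `dead`; all events of `step` lead to the
base state `p`. -/
structure Cut (step : σ → α → σ) (ev : σ → α → Prop) (p : σ) (cstep : τ → α → τ)
    (emb : σ → τ) (done dead : τ) : Prop where
  inj : Function.Injective emb
  ne_done : ∀ q, emb q ≠ done
  ne_dead : ∀ q, emb q ≠ dead
  done_ne : done ≠ dead
  step_ev : ∀ q a, ev q a → cstep (emb q) a = done
  step_nev : ∀ q a, ¬ ev q a → cstep (emb q) a = emb (step q a)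
  step_done : ∀ a, cstep done a = dead
  step_dead : ∀ a, cstep dead a = dead
  ev_base : ∀ q a, ev q a → step q a = p

section

variable {step : σ → α → σ} {ev : σ → α → Prop} {p : σ} {cstep : τ → α → τ}
  {emb : σ → τ} {done dead : τ}

lemma crun_dead (h : Cut step ev p cstep emb done dead) : ∀ w : List α,
    run cstep dead w = dead := by
  intro w
  induction w with
  | nil => rfl
  | cons a w ih => rw [run_cons, h.step_dead, ih]

lemma crun_done (h : Cut step ev p cstep emb done dead) (w : List α) :
    run cstep done w = done ∨ run cstep done w = dead := by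
  cases w with
  | nil => exact Or.inl rfl
  | cons a w => right; rw [run_cons, h.step_done, crun_dead h]

lemma crun_done_eq (h : Cut step ev p cstep emb done dead) (w : List α)
    (hw : run cstep done w = done) : w = [] := by
  cases w with
  | nil => rfl
  | cons a w =>
    rw [run_cons, h.step_done, crun_dead h] at hw
    exact (h.done_ne hw.symm).elim

/-- Words reaching `done`: they end with their first event. -/
lemma kp_facts (h : Cut step ev p cstep emb done dead) : ∀ (k : List α) (q : σ),
    run cstep (emb q) k = done → run step q k = p ∧ cnt step ev q k = 1 := by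
  intro k
  induction k with
  | nil => intro q hq; exact (h.ne_done q hq).elim
  | cons a k ih =>
    intro q hq
    rw [run_cons] at hq
    by_cases he : ev q a
    · rw [h.step_ev q a he] at hq
      have := crun_done_eq h k hq
      subst this
      exact ⟨h.ev_base q a he, by simp [cnt, he]⟩
    · rw [h.step_nev q a he] at hq
      obtain ⟨e1, e2⟩ := ih _ hq
      exact ⟨by rw [run_cons, e1], by simp [cnt, he, e2]⟩

/-- Words staying among the original states: they contain no event. -/
lemma tp_facts (h : Cut step ev p cstep emb done dead) : ∀ (t : List α) (q s : σ),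
    run cstep (emb q) t = emb s → run step q t = s ∧ cnt step ev q t = 0 := by
  intro t
  induction t with
  | nil => intro q s hq; exact ⟨h.inj hq, rfl⟩
  | cons a t ih =>
    intro q s hq
    rw [run_cons] at hq
    by_cases he : ev q a
    · rw [h.step_ev q a he] at hq
      rcases crun_done h t with h1 | h1
      · rw [h1] at hq; exact (h.ne_done s hq.symm).elim
      · rw [h1] at hq; exact (h.ne_dead s hq.symm).elim
    · rw [h.step_nev q a he] at hq
      obtain ⟨e1, e2⟩ := ih _ _ hq
      exact ⟨by rw [run_cons, e1], by simp [cnt, he, e2]⟩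

lemma noev (h : Cut step ev p cstep emb done dead) : ∀ (w : List α) (q : σ),
    cnt step ev q w = 0 → run cstep (emb q) w = emb (run step q w) := by
  intro w
  induction w with
  | nil => intro q _; rfl
  | cons a w ih =>
    intro q hq
    by_cases he : ev q a
    · simp [cnt, he] at hq
    · simp only [cnt, he, if_false, zero_add] at hq
      rw [run_cons, run_cons, h.step_nev q a he, ih _ hq]

lemma haveev (h : Cut step ev p cstep emb done dead) : ∀ (w : List α) (q : σ),
    cnt step ev q w ≠ 0 → ∃ k v, w = k ++ v ∧ run cstep (emb q) k = done := by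
  intro w
  induction w with
  | nil => intro q hq; exact (hq rfl).elim
  | cons a w ih =>
    intro q hq
    by_cases he : ev q a
    · exact ⟨[a], w, rfl, by rw [run_cons, h.step_ev q a he]; rfl⟩
    · simp only [cnt, he, if_false, zero_add] at hq
      obtain ⟨k, v, rfl, hk⟩ := ih _ hq
      exact ⟨a :: k, v, rfl, by rw [run_cons, h.step_nev q a he, hk]⟩

/-- The code of first-event words from `q`. -/
def KP (cstep : τ → α → τ) (emb : σ → τ) (done : τ) (q : σ) : Language α :=
  {k | run cstep (emb q) k = done}

/-- The event-free words from `q` to `s`. -/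
def TP (cstep : τ → α → τ) (emb : σ → τ) (q s : σ) : Language α :=
  {t | run cstep (emb q) t = emb s}

lemma mem_pow_mul_iff (h : Cut step ev p cstep emb done dead) (s : σ) :
    ∀ (n : ℕ) (w : List α), w ∈ KP cstep emb done p ^ n * TP cstep emb p s ↔
      cnt step ev p w = n ∧ run step p w = s := by
  intro n
  induction n with
  | zero =>
    intro w
    rw [pow_zero, one_mul]
    constructor
    · intro hw
      obtain ⟨e1, e2⟩ := tp_facts h w p s hw
      exact ⟨e2, e1⟩
    · rintro ⟨h1, h2⟩
      show run cstep (emb p) w = emb s
      rw [noev h w p h1, h2]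
  | succ n ih =>
    intro w
    rw [pow_succ', mul_assoc]
    constructor
    · intro hw
      obtain ⟨k, hk, w', hw', rfl⟩ := Language.mem_mul.mp hw
      obtain ⟨e1, e2⟩ := kp_facts h k p hk
      obtain ⟨f1, f2⟩ := (ih w').mp hw'
      rw [cnt_append, e1, e2, f1, run_append, e1, f2]
      exact ⟨by omega, rfl⟩
    · rintro ⟨h1, h2⟩
      obtain ⟨k, v, rfl, hk⟩ := haveev h w p (by omega)
      obtain ⟨e1, e2⟩ := kp_facts h k p hk
      rw [cnt_append, e1, e2] at h1
      rw [run_append, e1] at h2
      exact Language.mem_mul.mpr ⟨k, hk, v, (ih v).mpr ⟨by omega, h2⟩, rfl⟩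

lemma mem_star_iff (h : Cut step ev p cstep emb done dead) (s : σ) (N r : ℕ) (hr : r < N)
    (w : List α) :
    w ∈ KStar.kstar (KP cstep emb done p ^ N) *
        (KP cstep emb done p ^ r * TP cstep emb p s) ↔
      cnt step ev p w % N = r ∧ run step p w = s := by
  constructor
  · intro hw
    obtain ⟨x, hx, t, ht, rfl⟩ := Language.mem_mul.mp hw
    rw [Language.kstar_eq_iSup_pow, Language.mem_iSup] at hx
    obtain ⟨m, hm⟩ := hx
    rw [← pow_mul] at hm
    have h1 : x ++ t ∈ KP cstep emb done p ^ (N * m + r) * TP cstep emb p s := by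
      rw [pow_add, mul_assoc]
      exact Language.mem_mul.mpr ⟨x, hm, t, ht, rfl⟩
    obtain ⟨e1, e2⟩ := (mem_pow_mul_iff h s _ _).mp h1
    exact ⟨by rw [e1, Nat.mul_add_mod, Nat.mod_eq_of_lt hr], e2⟩
  · rintro ⟨h1, h2⟩
    have h3 : w ∈ KP cstep emb done p ^ (N * (cnt step ev p w / N) + r) *
        TP cstep emb p s := by
      rw [mem_pow_mul_iff h s]
      refine ⟨?_, h2⟩
      rw [← h1]
      exact (Nat.div_add_mod _ _).symm
    rw [pow_add, mul_assoc, pow_mul] at h3
    obtain ⟨x, hx, t, ht, rfl⟩ := Language.mem_mul.mp h3
    refine Language.mem_mul.mpr ⟨x, ?_, t, ht, rfl⟩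
    rw [Language.kstar_eq_iSup_pow, Language.mem_iSup]
    exact ⟨_, hx⟩

lemma natCast_eq_iff (N : ℕ) [NeZero N] (c : ℕ) (v : ZMod N) :
    (c : ZMod N) = v ↔ c % N = v.val := by
  constructor
  · intro hc
    rw [← hc, ZMod.val_natCast]
  · intro hc
    rw [← ZMod.natCast_mod, hc, ZMod.natCast_zmod_val]

/-- **Counting events modulo `N`.** -/
theorem fib_count [Fintype α] [Fintype τ] (h : Cut step ev p cstep emb done dead)
    (hcf : CounterFree cstep) (N : ℕ) [NeZero N] (q0 : σ) (v : ZMod N) (s : σ) :
    ∃ e : GRegex α, e.starHeight ≤ 1 ∧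
      e.lang = {w | (cnt step ev q0 w : ZMod N) = v ∧ run step q0 w = s} := by
  have hK := fun q : σ => starFree_of_counterFree cstep hcf (emb q) done
  choose eK hK0 hKl using hK
  have hT := fun q s : σ => starFree_of_counterFree cstep hcf (emb q) (emb s)
  choose eT hT0 hTl using hT
  have hKl' : ∀ q, (eK q).lang = KP cstep emb done q := hKl
  have hTl' : ∀ q s, (eT q s).lang = TP cstep emb q s := hTl
  -- the base case
  have base : ∀ (v : ZMod N), ∃ e : GRegex α, e.starHeight ≤ 1 ∧
      e.lang = {w | (cnt step ev p w : ZMod N) = v ∧ run step p w = s} := by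
    intro v
    refine ⟨GRegex.concat (GRegex.star (Count.ePow (eK p) N))
      (GRegex.concat (Count.ePow (eK p) v.val) (eT p s)), ?_, ?_⟩
    · have h1 := Count.starHeight_ePow (eK p) N
      have h2 := Count.starHeight_ePow (eK p) v.val
      rw [hK0] at h1 h2
      simp only [GRegex.starHeight, hT0]
      omega
    · ext w
      rw [GRegex.lang_concat, GRegex.lang_star, GRegex.lang_concat, Count.lang_ePow,
        Count.lang_ePow, hKl', hTl']
      rw [mem_star_iff h s N v.val (ZMod.val_lt v) w]
      show _ ↔ (cnt step ev p w : ZMod N) = v ∧ run step p w = s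
      rw [natCast_eq_iff]
  obtain ⟨E, hE1, hEl⟩ := base (v - 1)
  refine ⟨GRegex.union (if v = 0 then eT q0 s else GRegex.zero)
    (GRegex.concat (eK q0) E), ?_, ?_⟩
  · simp only [GRegex.starHeight, hK0]
    apply max_le
    · split_ifs
      · rw [hT0]; omega
      · simp [GRegex.starHeight]
    · simpa using hE1
  · ext w
    rw [GRegex.mem_lang_union, GRegex.mem_lang_concat]
    show _ ↔ (cnt step ev q0 w : ZMod N) = v ∧ run step q0 w = s
    constructor
    · rintro (hw | ⟨k, hk, w', hw', rfl⟩)
      · by_cases hv : v = 0
        · rw [if_pos hv, hTl'] at hw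
          obtain ⟨e1, e2⟩ := tp_facts h w q0 s hw
          exact ⟨by rw [e2, hv]; simp, e1⟩
        · rw [if_neg hv] at hw; exact hw.elim
      · rw [hKl'] at hk
        rw [hEl] at hw'
        obtain ⟨e1, e2⟩ := kp_facts h k q0 hk
        obtain ⟨f1, f2⟩ := hw'
        rw [cnt_append, e1, e2, run_append, e1]
        refine ⟨?_, f2⟩
        push_cast
        rw [f1]
        ring
    · rintro ⟨h1, h2⟩
      by_cases hc : cnt step ev q0 w = 0
      · left
        rw [hc] at h1
        have hv : v = 0 := by rw [← h1]; simp
        rw [if_pos hv, hTl']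
        show run cstep (emb q0) w = emb s
        rw [noev h w q0 hc, h2]
      · right
        obtain ⟨k, w', rfl, hk⟩ := haveev h w q0 hc
        obtain ⟨e1, e2⟩ := kp_facts h k q0 hk
        rw [cnt_append, e1, e2] at h1
        rw [run_append, e1] at h2
        refine ⟨k, by rw [hKl']; exact hk, w', ?_, rfl⟩
        rw [hEl]
        refine ⟨?_, h2⟩
        push_cast at h1
        rw [← h1]
        ring

/-- The residue of the number of events together with the final state has fibers of
generalized star height at most one. -/
theorem fib1_count [Fintype α] [Fintype τ] (h : Cut step ev p cstep emb done dead)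
    (hcf : CounterFree cstep) (N : ℕ) [NeZero N] (q0 : σ) :
    Fib1 (fun w => ((cnt step ev q0 w : ZMod N), run step q0 w)) := by
  rintro ⟨v, s⟩
  obtain ⟨e, he1, he2⟩ := fib_count h hcf N q0 v s
  refine ⟨e, he1, ?_⟩
  rw [he2]
  ext w
  show _ ↔ ((cnt step ev q0 w : ZMod N), run step q0 w) = (v, s)
  rw [Prod.mk.injEq]
  rfl

end

end Ev

end Vale.Agent.Lib.P329
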