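import Vale.Agent.Lib.P329.M4Def

/-!
Iterated conjugation in a commutative group on which commuting multiplicative maps act, any
three of which compose to the trivial map: closed formulas with numbers of occurrences of
letters and of scattered subwords of length two as exponents.
-/

namespace Vale.Agent.Lib.P329

universe u v

open Classical

namespace M4

open _root_.Vale.Agent.Lib.P329.Sub

variable {α : Type u} {A : Type v} [CommGroup A]

/-- A multiplicative map sends the unit to the unit. -/
lemma abs_D_one (D : α → A → A) (hmul : ∀ c a b, D c (a * b) = D c a * D c b) (c : α) :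
    D c 1 = 1 := by
  have h := hmul c 1 1
  rw [mul_one] at h
  exact left_eq_mul.mp h

/-- Iterated conjugation is multiplicative. -/
lemma cjL_mul (D : α → A → A) (hmul : ∀ c a b, D c (a * b) = D c a * D c b) (l : List α)
    (a b : A) : cjL D l (a * b) = cjL D l a * cjL D l b := by
  induction l with
  | nil => rfl
  | cons c l ih =>
    change D c (cjL D l (a * b)) * cjL D l (a * b) =
      (D c (cjL D l a) * cjL D l a) * (D c (cjL D l b) * cjL D l b)
    rw [ih, hmul, mul_mul_mul_comm]

/-- Iterated conjugation fixes the unit. -/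
lemma cjL_one (D : α → A → A) (hmul : ∀ c a b, D c (a * b) = D c a * D c b) (l : List α) :
    cjL D l (1 : A) = 1 := by
  induction l with
  | nil => rfl
  | cons c l ih =>
    change D c (cjL D l 1) * cjL D l 1 = 1
    rw [ih, abs_D_one D hmul, mul_one]

/-- Iterated conjugation commutes with powers. -/
lemma cjL_pow (D : α → A → A) (hmul : ∀ c a b, D c (a * b) = D c a * D c b) (l : List α)
    (a : A) (n : ℕ) : cjL D l (a ^ n) = cjL D l a ^ n := by
  induction n with
  | zero => rw [pow_zero, pow_zero, cjL_one D hmul]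
  | succ n ih => rw [pow_succ, pow_succ, cjL_mul D hmul, ih]

/-- Iterated conjugation by a list with one more letter at the end. -/
lemma cjL_concat (D : α → A → A) (l : List α) (c0 : α) (a : A) :
    cjL D (l ++ [c0]) a = cjL D l (D c0 a * a) := by
  induction l with
  | nil => rfl
  | cons c l ih =>
    change D c (cjL D (l ++ [c0]) a) * cjL D (l ++ [c0]) a =
      D c (cjL D l (D c0 a * a)) * cjL D l (D c0 a * a)
    rw [ih]

/-- A product of powers with sums as exponents. -/
lemma abs_prod_add [Fintype α] (f : α → A) (e1 e2 : α → ℕ) :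
    ∏ c, f c ^ (e1 c + e2 c) = (∏ c, f c ^ e1 c) * ∏ c, f c ^ e2 c := by
  rw [← Finset.prod_mul_distrib]
  exact Finset.prod_congr rfl (fun c _ => pow_add _ _ _)

/-- A product of powers with multiples as exponents. -/
lemma abs_prod_mul [Fintype α] (f : α → A) (n : ℕ) (e : α → ℕ) :
    ∏ c, f c ^ (n * e c) = (∏ c, f c ^ e c) ^ n := by
  rw [← Finset.prod_pow]
  exact Finset.prod_congr rfl (fun c _ => pow_mul' _ _ _)

/-- A product of powers whose exponents vanish off one index. -/
lemma abs_prod_ind [Fintype α] (f : α → A) (x : α) (e : α → ℕ) :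
    ∏ c, f c ^ (if c = x then e c else 0) = f x ^ e x := by
  rw [Finset.prod_eq_single x]
  · rw [if_pos rfl]
  · intro b _ hb
    rw [if_neg hb, pow_zero]
  · intro h
    exact absurd (Finset.mem_univ x) h

/-- A product of powers whose exponents vanish off one index, in the other orientation. -/
lemma abs_prod_ind' [Fintype α] (f : α → A) (x : α) (e : α → ℕ) :
    ∏ c, f c ^ (if x = c then e c else 0) = f x ^ e x := by
  rw [Finset.prod_eq_single x]
  · rw [if_pos rfl]
  · intro b _ hb
    rw [if_neg (Ne.symm hb), pow_zero]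
  · intro h
    exact absurd (Finset.mem_univ x) h

/-- A product of powers whose exponents are a multiple plus a term at one index. -/
lemma abs_prod_ind_add [Fintype α] (f : α → A) (x : α) (m n : ℕ) (e : α → ℕ) :
    ∏ c, f c ^ ((if c = x then m else 0) + n * e c) = f x ^ m * (∏ c, f c ^ e c) ^ n := by
  rw [abs_prod_add, abs_prod_ind f x (fun _ => m), abs_prod_mul]

/-- Iterated conjugation of an element. -/
theorem cjL_formula [Fintype α] (D : α → A → A)
    (hmul : ∀ c a b, D c (a * b) = D c a * D c b)
    (hcomm : ∀ c d a, D c (D d a) = D d (D c a))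
    (htri : ∀ c d e a, D c (D d (D e a)) = 1) (l : List α) (a : A) :
    cjL D l a = a * (∏ c, D c a ^ l.count c) * ∏ c, ∏ d, D c (D d a) ^ SC [c, d] l := by
  have _ := hcomm
  induction l using List.reverseRecOn generalizing a with
  | nil =>
    have h1 : ∀ c : α, D c a ^ ([] : List α).count c = 1 := fun c => by
      rw [List.count_nil, pow_zero]
    have h2 : ∀ c d : α, D c (D d a) ^ SC [c, d] ([] : List α) = 1 := fun c d => by
      rw [SC2_empty, pow_zero]
    simp only [h1, h2, Finset.prod_const_one, mul_one]
    rfl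
  | append_singleton l c0 ih =>
    rw [cjL_concat, cjL_mul D hmul, ih a, ih (D c0 a)]
    have h3 : ∀ c d : α, D c (D d (D c0 a)) ^ SC [c, d] l = 1 := fun c d => by
      rw [htri, one_pow]
    have e1 : ∏ c, D c a ^ (l ++ [c0]).count c = (∏ c, D c a ^ l.count c) * D c0 a := by
      have h : ∀ c : α, D c a ^ (l ++ [c0]).count c =
          D c a ^ (l.count c + if c0 = c then 1 else 0) := fun c => by
        rw [count_concat']
      simp only [h]
      rw [abs_prod_add, abs_prod_ind' (fun c => D c a) c0 (fun _ => 1), pow_one]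
    have e2 : ∏ c, ∏ d, D c (D d a) ^ SC [c, d] (l ++ [c0]) =
        (∏ c, ∏ d, D c (D d a) ^ SC [c, d] l) * ∏ c, D c (D c0 a) ^ l.count c := by
      rw [← Finset.prod_mul_distrib]
      refine Finset.prod_congr rfl (fun c _ => ?_)
      have h : ∀ d : α, D c (D d a) ^ SC [c, d] (l ++ [c0]) =
          D c (D d a) ^ (SC [c, d] l + if c0 = d then l.count c else 0) := fun d => by
        rw [SC2_concat, SC1_eq]
      simp only [h]
      rw [abs_prod_add, abs_prod_ind' (fun d => D c (D d a)) c0 (fun _ => l.count c)]
    simp only [h3, Finset.prod_const_one, mul_one]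
    rw [e1, e2]
    generalize (∏ c, D c a ^ l.count c) = P1
    generalize (∏ c, ∏ d, D c (D d a) ^ SC [c, d] l) = P2
    generalize (∏ c, D c (D c0 a) ^ l.count c) = Q
    generalize D c0 a = b
    ac_rfl

/-- Iterated conjugation of a product of powers of an element and of its images under the
map of the letter `x`. -/
theorem T_abs [Fintype α] (D : α → A → A)
    (hmul : ∀ c a b, D c (a * b) = D c a * D c b)
    (hcomm : ∀ c d a, D c (D d a) = D d (D c a))
    (htri : ∀ c d e a, D c (D d (D e a)) = 1) (x : α) (l : List α) (k1 : A) (n m2 m3 : ℕ) :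
    cjL D l (k1 ^ n * D x k1 ^ m2 * D x (D x k1) ^ m3) =
      k1 ^ n * (∏ c, D c k1 ^ ((if c = x then m2 else 0) + n * l.count c)) *
        ∏ c, ∏ d, D c (D d k1) ^
          ((if d = x then (if c = x then m3 else 0) + m2 * l.count c else 0)
            + n * SC [c, d] l) := by
  rw [cjL_mul D hmul, cjL_mul D hmul, cjL_pow D hmul, cjL_pow D hmul, cjL_pow D hmul,
    cjL_formula D hmul hcomm htri l k1, cjL_formula D hmul hcomm htri l (D x k1),
    cjL_formula D hmul hcomm htri l (D x (D x k1))]
  have h3 : ∀ c d : α, D c (D d (D x k1)) ^ SC [c, d] l = 1 := fun c d => by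
    rw [htri, one_pow]
  have h4 : ∀ c : α, D c (D x (D x k1)) ^ l.count c = 1 := fun c => by
    rw [htri, one_pow]
  have h5 : ∀ c d : α, D c (D d (D x (D x k1))) ^ SC [c, d] l = 1 := fun c d => by
    rw [htri, one_pow]
  simp only [h3, h4, h5, Finset.prod_const_one, mul_one]
  have e1 : ∏ c, D c k1 ^ ((if c = x then m2 else 0) + n * l.count c) =
      D x k1 ^ m2 * (∏ c, D c k1 ^ l.count c) ^ n :=
    abs_prod_ind_add (fun c => D c k1) x m2 n (fun c => l.count c)
  have e2 : ∏ c, ∏ d, D c (D d k1) ^
      ((if d = x then (if c = x then m3 else 0) + m2 * l.count c else 0)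
        + n * SC [c, d] l) =
      D x (D x k1) ^ m3 * (∏ c, D c (D x k1) ^ l.count c) ^ m2 *
        (∏ c, ∏ d, D c (D d k1) ^ SC [c, d] l) ^ n := by
    have h : ∀ c : α, ∏ d, D c (D d k1) ^
        ((if d = x then (if c = x then m3 else 0) + m2 * l.count c else 0)
          + n * SC [c, d] l) =
        D c (D x k1) ^ ((if c = x then m3 else 0) + m2 * l.count c) *
          (∏ d, D c (D d k1) ^ SC [c, d] l) ^ n := fun c =>
      abs_prod_ind_add (fun d => D c (D d k1)) x
        ((if c = x then m3 else 0) + m2 * l.count c) n (fun d => SC [c, d] l)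
    simp only [h]
    rw [Finset.prod_mul_distrib, Finset.prod_pow,
      abs_prod_ind_add (fun c => D c (D x k1)) x m3 m2 (fun c => l.count c)]
  rw [e1, e2, mul_pow, mul_pow, mul_pow]
  generalize (∏ c, D c k1 ^ l.count c) = P1
  generalize (∏ c, ∏ d, D c (D d k1) ^ SC [c, d] l) = P2
  generalize (∏ c, D c (D x k1) ^ l.count c) = Q
  generalize D x (D x k1) = b2
  generalize D x k1 = b1
  generalize k1 ^ n = t1
  generalize P1 ^ n = t2
  generalize P2 ^ n = t3
  generalize Q ^ m2 = t4
  generalize b1 ^ m2 = t5
  generalize b2 ^ m3 = t6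
  ac_rfl

end M4

end Vale.Agent.Lib.P329
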