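import Vale.Agent.Lib.P329.M4Def

/-!
The commutator maps on the commutator subgroup of a group of class at most four with abelian
commutator subgroup: they are multiplicative, they commute with each other, and any three of
them compose to the trivial map.
-/

namespace Vale.Agent.Lib.P329

universe u v

open Classical

namespace M4

open scoped commutatorElement

variable {α : Type u} {G : Type v} [Group G]

lemma Dm_val (t : G) (a : commutator G) : ((Dm t a : commutator G) : G) = ⁅t, (a : G)⁆ := rfl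

lemma Dm_one (t : G) : Dm t (1 : commutator G) = 1 := by
  apply Subtype.ext
  rw [Dm_val, OneMemClass.coe_one, commutatorElement_one_right]

lemma kap1_self (g : α → G) (x : α) : Nil3.kap1 g x x = 1 := by
  apply Subtype.ext
  change ⁅g x, g x⁆ = 1
  exact commutatorElement_self (g x)

/-- Conjugation written with the commutator map. -/
lemma cj_val (t : G) (a : commutator G) :
    t * (a : G) * t⁻¹ = ((Dm t a * a : commutator G) : G) := by
  rw [Subgroup.coe_mul, Dm_val, commutatorElement_def]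
  group

lemma Dm_mul (hM : ∀ a b : G, a ∈ commutator G → b ∈ commutator G → a * b = b * a)
    (t : G) (a b : commutator G) : Dm t (a * b) = Dm t a * Dm t b := by
  apply Subtype.ext
  rw [Subgroup.coe_mul, Dm_val, Dm_val, Dm_val, Subgroup.coe_mul]
  have hc : (a : G) * ⁅t, (b : G)⁆ = ⁅t, (b : G)⁆ * (a : G) :=
    hM _ _ a.2 (Subgroup.commutator_mem_commutator (Subgroup.mem_top _) (Subgroup.mem_top _))
  have key : ⁅t, (a : G) * (b : G)⁆
      = ⁅t, (a : G)⁆ * ((a : G) * ⁅t, (b : G)⁆ * (a : G)⁻¹) := by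
    simp only [commutatorElement_def]
    group
  rw [key, hc, mul_inv_cancel_right]

lemma Dm_comm (hM : ∀ a b : G, a ∈ commutator G → b ∈ commutator G → a * b = b * a)
    (s t : G) (a : commutator G) : Dm s (Dm t a) = Dm t (Dm s a) := by
  apply Subtype.ext
  have hN : (commutator G).Normal := inferInstance
  have ha : (a : G) ∈ commutator G := a.2
  have hp : t * (a : G) * t⁻¹ ∈ commutator G := hN.conj_mem _ ha t
  have hq : s * (a : G) * s⁻¹ ∈ commutator G := hN.conj_mem _ ha s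
  have hz : s⁻¹ * t⁻¹ * s * t * (a : G) = (a : G) * (s⁻¹ * t⁻¹ * s * t) := by
    have hzm : s⁻¹ * t⁻¹ * s * t ∈ commutator G := by
      have h0 : ⁅s⁻¹, t⁻¹⁆ ∈ commutator G :=
        Subgroup.commutator_mem_commutator (Subgroup.mem_top _) (Subgroup.mem_top _)
      rw [commutatorElement_def, inv_inv, inv_inv] at h0
      exact h0
    exact hM _ _ hzm ha
  have hr : s * t * (a : G) * t⁻¹ * s⁻¹ = t * s * (a : G) * s⁻¹ * t⁻¹ := by
    calc s * t * (a : G) * t⁻¹ * s⁻¹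
        = t * s * (s⁻¹ * t⁻¹ * s * t * (a : G)) * t⁻¹ * s⁻¹ := by group
      _ = t * s * ((a : G) * (s⁻¹ * t⁻¹ * s * t)) * t⁻¹ * s⁻¹ := by rw [hz]
      _ = t * s * (a : G) * s⁻¹ * t⁻¹ := by group
  have hpi : (t * (a : G) * t⁻¹)⁻¹ ∈ commutator G := inv_mem hp
  have hqi : (s * (a : G) * s⁻¹)⁻¹ ∈ commutator G := inv_mem hq
  have e1 : ⁅s, ⁅t, (a : G)⁆⁆ = s * t * (a : G) * t⁻¹ * s⁻¹ *
      ((s * (a : G) * s⁻¹)⁻¹ * ((a : G) * (t * (a : G) * t⁻¹)⁻¹)) := by
    simp only [commutatorElement_def]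
    group
  have e2 : ⁅t, ⁅s, (a : G)⁆⁆ = t * s * (a : G) * s⁻¹ * t⁻¹ *
      ((t * (a : G) * t⁻¹)⁻¹ * (a : G) * (s * (a : G) * s⁻¹)⁻¹) := by
    simp only [commutatorElement_def]
    group
  have c1 : (s * (a : G) * s⁻¹)⁻¹ * ((a : G) * (t * (a : G) * t⁻¹)⁻¹)
      = ((a : G) * (t * (a : G) * t⁻¹)⁻¹) * (s * (a : G) * s⁻¹)⁻¹ :=
    hM _ _ hqi (mul_mem ha hpi)
  have c2 : (a : G) * (t * (a : G) * t⁻¹)⁻¹ = (t * (a : G) * t⁻¹)⁻¹ * (a : G) :=
    hM _ _ ha hpi
  change ⁅s, ⁅t, (a : G)⁆⁆ = ⁅t, ⁅s, (a : G)⁆⁆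
  rw [e1, e2, c1, c2, hr]

lemma Dm_triple (hG : (⊤ : Subgroup G).lowerCentralSeries 4 = ⊥) (r s t : G)
    (a : commutator G) : Dm r (Dm s (Dm t a)) = 1 := by
  apply Subtype.ext
  have ha1 : (a : G) ∈ (⊤ : Subgroup G).lowerCentralSeries 1 := a.2
  have h2 : ⁅t, (a : G)⁆ ∈ (⊤ : Subgroup G).lowerCentralSeries 2 :=
    Nil4.mem_lcs_succ 1 t _ ha1
  have h3 : ⁅s, ⁅t, (a : G)⁆⁆ ∈ (⊤ : Subgroup G).lowerCentralSeries 3 :=
    Nil4.mem_lcs_succ 2 s _ h2
  have h4 : ⁅r, ⁅s, ⁅t, (a : G)⁆⁆⁆ ∈ (⊤ : Subgroup G).lowerCentralSeries 4 :=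
    Nil4.mem_lcs_succ 3 r _ h3
  rw [hG] at h4
  exact Subgroup.mem_bot.mp h4

end M4

end Vale.Agent.Lib.P329
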