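import Vale.Agent.Lib.P329.M4TEq

/-!
The correction term of a word, in a group of class at most four with abelian commutator
subgroup, is a product of powers of commutators whose exponents are numbers of scattered
subwords of length at most four.
-/

namespace Vale.Agent.Lib.P329

universe u v

open Classical

namespace M4

open scoped commutatorElement

open _root_.Vale.Agent.Lib.P329.Sub

variable {α : Type u} {G : Type v} [Group G]

/-- **Closed form of the correction term.** -/
theorem K_closed [Fintype α] (hG : (⊤ : Subgroup G).lowerCentralSeries 4 = ⊥)
    (hM : ∀ a b : G, a ∈ commutator G → b ∈ commutator G → a * b = b * a)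
    (g : α → G) (x : α) (w : List α) :
    Nil3.K g x [] w = Theta4 hM g x (fun y => SC [x, y] w) (fun y c => E2 x w y c)
      (fun y c d => E3 x w y c d) := by
  induction w using List.reverseRecOn with
  | nil =>
    have h1 : (fun y => SC [x, y] ([] : List α)) = fun _ => 0 := by
      funext y
      exact SC2_empty x y
    have h2 : (fun y c => E2 x ([] : List α) y c) = fun _ _ => 0 := by
      funext y c
      exact E2_nil x y c
    have h3 : (fun y c d => E3 x ([] : List α) y c d) = fun _ _ _ => 0 := by
      funext y c d
      exact E3_nil x y c d
    rw [h1, h2, h3, Theta4_zero]
    rfl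
  | append_singleton w y' ih =>
    rw [Nil3.K_concat, ih, T_eq hG hM g x w y', ← Theta4_add]
    have h1 : (fun y => SC [x, y] (w ++ [y']))
        = fun y => SC [x, y] w + (if y' = y then w.count x else 0) := by
      funext y
      rw [SC2_concat, SC1_eq]
    have h2 : (fun y c => E2 x (w ++ [y']) y c)
        = fun y c => E2 x w y c + (if y' = y then inc2 x w c else 0) := by
      funext y c
      exact E2_concat x w y' y c
    have h3 : (fun y c d => E3 x (w ++ [y']) y c d)
        = fun y c d => E3 x w y c d + (if y' = y then inc3 x w c d else 0) := by
      funext y c d
      exact E3_concat x w y' y c d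
    rw [h1, h2, h3]

end M4

end Vale.Agent.Lib.P329
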