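import Vale.Agent.Lib.P329.Nil3Theta

/-!
The correction contributed by one letter, in a group of class at most three, as a product of
powers of commutators.
-/

namespace Vale.Agent.Lib.P329

universe u v

open Classical

namespace Nil3

open scoped commutatorElement

variable {α : Type u} {G : Type v} [Group G]

/-- In a commutative monoid, the product of a list of values is the product over all letters
of the powers given by the numbers of occurrences. -/
lemma tEqAux_list_prod [Fintype α] {M : Type*} [CommMonoid M] (l : List α) (f : α → M) :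
    (l.map f).prod = ∏ c, f c ^ l.count c := by
  rw [Finset.prod_list_map_count]
  apply Finset.prod_subset (Finset.subset_univ _)
  intro c _ hc
  rw [List.count_eq_zero_of_not_mem (fun h => hc (List.mem_toFinset.mpr h)), pow_zero]

/-- The image under a monoid homomorphism of a product of powers with exponents proportional
to the numbers of occurrences in a list. -/
lemma tEqAux_hom [Fintype α] {M : Type*} [CommMonoid M] {N : Type*} [Monoid N] (φ : M →* N)
    (l : List α) (f : α → M) (n : ℕ) :
    φ (∏ c, f c ^ (n * l.count c)) = ((l.map (fun c => φ (f c))).prod) ^ n := by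
  have h1 : (∏ c, f c ^ (n * l.count c)) = ((l.map f).prod) ^ n := by
    rw [tEqAux_list_prod l f, ← Finset.prod_pow]
    apply Finset.prod_congr rfl
    intro c _
    rw [← pow_mul, mul_comm]
  rw [h1, map_pow, map_list_prod, List.map_map]
  rfl

/-- The product of the powers of the commutators of the third kind, in the group. -/
lemma tEqAux_prod [Fintype α] (hG : (⊤ : Subgroup G).lowerCentralSeries 3 = ⊥)
    (g : α → G) (x y : α) (l : List α) (n : ℕ) (e : α → ℕ) (he : ∀ c, e c = n * l.count c) :
    (letI := commGroupA hG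
     ((∏ c, kap3 g x y c ^ e c : commutator G) : G)) =
      ((l.map (fun c => ⁅g c, ⁅g x, g y⁆⁆)).prod) ^ n := by
  have he' : e = fun c => n * l.count c := funext he
  subst he'
  let _ := commGroupA hG
  exact tEqAux_hom (commutator G).subtype l (kap3 g x y) n

/-- The value in the group of a product concentrated at one letter. -/
lemma tEqAux_val [Fintype α] (hG : (⊤ : Subgroup G).lowerCentralSeries 3 = ⊥)
    (g : α → G) (x y : α) (n m : ℕ) (e : α → ℕ) (Z : G)
    (hZ : (letI := commGroupA hG
           ((∏ c, kap3 g x y c ^ e c : commutator G) : G)) = Z) :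
    (letI := commGroupA hG
     ((kap1 g x y ^ n * kap2 g x y ^ m * ∏ c, kap3 g x y c ^ e c : commutator G) : G)) =
      ⁅g x, g y⁆ ^ n * ⁅g x, ⁅g x, g y⁆⁆ ^ m * Z := by
  subst hZ
  rfl

/-- The numbers of occurrences after removing one letter. -/
lemma tEqAux_count (x : α) (w : List α) (n : ℕ) (c : α) :
    (if c = x then 0 else n * w.count c) = n * (w.filter (fun y => y ≠ x)).count c := by
  by_cases hc : c = x
  · rw [if_pos hc, List.count_eq_zero_of_not_mem, mul_zero]
    intro hmem
    have h2 := (List.mem_filter.mp hmem).2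
    simp [hc] at h2
  · rw [if_neg hc, List.count_filter]
    simp [hc]

/-- The correction contributed by one letter, as a product of powers of commutators. -/
lemma T_eq [Fintype α] (hG : (⊤ : Subgroup G).lowerCentralSeries 3 = ⊥)
    (g : α → G) (x : α) (w : List α) (y : α) :
    T g x w y = Theta hG g x (fun b => if y = b then w.count x else 0)
      (fun b => if y = b then (w.count x).choose 2 else 0)
      (fun b c => if y = b then (if c = x then 0 else w.count x * w.count c) else 0) := by
  have hTh := Theta_single hG g x y (w.count x) ((w.count x).choose 2)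
    (fun c => if c = x then 0 else w.count x * w.count c)
  have hval := tEqAux_val hG g x y (w.count x) ((w.count x).choose 2)
    (fun c => if c = x then 0 else w.count x * w.count c) _
    (tEqAux_prod hG g x y (w.filter (fun y => y ≠ x)) (w.count x) _
      (fun c => tEqAux_count x w (w.count x) c))
  refine Eq.trans ?_ hTh.symm
  refine Eq.trans ?_ hval.symm
  have hk1 : ⁅g x, g y⁆ ∈ commutator G :=
    Subgroup.commutator_mem_commutator (Subgroup.mem_top _) (Subgroup.mem_top _)
  have hk2 : ⁅g x, ⁅g x, g y⁆⁆ ∈ commutator G :=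
    Subgroup.commutator_mem_commutator (Subgroup.mem_top _) (Subgroup.mem_top _)
  by_cases hy : y = x
  · subst hy
    have hT : T g y w y = 1 := by
      unfold T
      rw [if_pos rfl]
    have hL : ((w.filter (fun c => c ≠ y)).map (fun c => ⁅g c, ⁅g y, g y⁆⁆)).prod = 1 := by
      apply List.prod_eq_one
      intro z hz
      obtain ⟨c, _, rfl⟩ := List.mem_map.mp hz
      rw [commutatorElement_self, commutatorElement_one_right]
    rw [hT, hL, commutatorElement_self, commutatorElement_one_right]
    simp only [one_pow, one_mul]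
  · have hu : ⁅g x ^ w.count x, g y⁆ =
        ⁅g x, g y⁆ ^ w.count x * ⁅g x, ⁅g x, g y⁆⁆ ^ (w.count x).choose 2 :=
      comm_pow_left hG (g x) (g y) (w.count x)
    have hHk2 : ⁅H g x w, ⁅g x, ⁅g x, g y⁆⁆⁆ = 1 :=
      commutatorElement_eq_one_iff_mul_comm.mpr
        (central_left hG (g x) ⁅g x, g y⁆ (H g x w) hk1).symm
    have hHu : ⁅H g x w, ⁅g x, g y⁆ ^ w.count x * ⁅g x, ⁅g x, g y⁆⁆ ^ (w.count x).choose 2⁆ =
        ⁅H g x w, ⁅g x, g y⁆⁆ ^ w.count x := by
      rw [comm_mul_right hG _ _ _ (pow_mem hk1 _) (pow_mem hk2 _), comm_pow_right hG _ _ hk1,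
        comm_pow_right hG _ _ hk2, hHk2, one_pow, mul_one]
    have hHk1 : ⁅H g x w, ⁅g x, g y⁆⁆ =
        ((w.filter (fun c => c ≠ x)).map (fun c => ⁅g c, ⁅g x, g y⁆⁆)).prod := by
      unfold H
      rw [comm_list_prod hG _ _ hk1, List.map_map]
      rfl
    have hcent := central_left hG (H g x w)
      (⁅g x, g y⁆ ^ w.count x * ⁅g x, ⁅g x, g y⁆⁆ ^ (w.count x).choose 2)
      (⁅g x, g y⁆ ^ w.count x * ⁅g x, ⁅g x, g y⁆⁆ ^ (w.count x).choose 2)
      (mul_mem (pow_mem hk1 _) (pow_mem hk2 _))
    rw [hHu, hHk1] at hcent
    unfold T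
    rw [if_neg hy, hu, hHu, hHk1]
    exact hcent

end Nil3

end Vale.Agent.Lib.P329
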