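import Vale.Agent.Lib.P329.M4Def
import Vale.Agent.Lib.P329.Nil3TEq

/-!
Counting identities for the exponents of the closed form: a shuffle identity for scattered
subwords of length three, the effect of appending a letter, and the effect of erasing a
letter.
-/

namespace Vale.Agent.Lib.P329

universe u v

open Classical

namespace M4

open _root_.Vale.Agent.Lib.P329.Sub

variable {α : Type u}

/-- Inserting one letter `x` into the occurrences of a subword of length two without `x`. -/
lemma sh3 (x c d : α) (hc : c ≠ x) (hd : d ≠ x) (w : List α) :
    SC [x, c, d] w + SC [c, x, d] w + SC [c, d, x] w = w.count x * SC [c, d] w := by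
  induction w using List.reverseRecOn with
  | nil => simp [SC]
  | append_singleton w y ih =>
    rw [SC3_concat, SC3_concat, SC3_concat, SC2_concat, count_concat', SC1_eq]
    have h1 := Nil4.sh_xb x c (fun h => hc h.symm) w
    by_cases hyx : y = x
    · have hyd : ¬ y = d := fun h => hd (h.symm.trans hyx)
      simp only [if_neg hyd, if_pos hyx, add_zero]
      rw [Nat.add_mul, one_mul]
      omega
    · by_cases hyd : y = d
      · simp only [if_pos hyd, if_neg hyx, add_zero]
        rw [Nat.mul_add]
        omega
      · simp only [if_neg hyd, if_neg hyx, add_zero]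
        exact ih

private lemma SC4_empty' (a b c d : α) : SC [a, b, c, d] ([] : List α) = 0 := by simp [SC]

lemma E2_nil (x y c : α) : E2 x ([] : List α) y c = 0 := by
  unfold E2
  rw [SC3_empty, SC3_empty, SC3_empty]
  simp

lemma E3_nil (x y c d : α) : E3 x ([] : List α) y c d = 0 := by
  unfold E3
  simp only [SC4_empty', add_zero, ite_self]

lemma E2_concat (x : α) (w : List α) (y' y c : α) :
    E2 x (w ++ [y']) y c = E2 x w y c + (if y' = y then inc2 x w c else 0) := by
  unfold E2 inc2
  by_cases hc : c = x
  · simp only [if_pos hc]
    rw [SC3_concat, Sub4.SC2_self]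
  · simp only [if_neg hc]
    rw [SC3_concat, SC3_concat]
    have h1 := Nil4.sh_xb x c (fun h => hc h.symm) w
    by_cases hy : y' = y
    · simp only [if_pos hy]
      omega
    · simp only [if_neg hy]
      omega

lemma E3_concat (x : α) (w : List α) (y' y c d : α) :
    E3 x (w ++ [y']) y c d = E3 x w y c d + (if y' = y then inc3 x w c d else 0) := by
  unfold E3 inc3
  by_cases hd : d = x
  · by_cases hc : c = x
    · simp only [if_pos hd, if_pos hc]
      rw [Sub4.SC4_concat, Sub4.SC3_self]
    · simp only [if_pos hd, if_neg hc]
      rw [Sub4.SC4_concat, Sub4.SC4_concat, Sub4.SC4_concat]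
      have h1 := Nil4.sh_xxb x c (fun h => hc h.symm) w
      by_cases hy : y' = y
      · simp only [if_pos hy]
        omega
      · simp only [if_neg hy]
        omega
  · by_cases hc : c = x
    · simp only [if_neg hd, if_pos hc]
      simp
    · simp only [if_neg hd, if_neg hc]
      rw [Sub4.SC4_concat, Sub4.SC4_concat, Sub4.SC4_concat]
      have h1 := sh3 x c d hc hd w
      by_cases hy : y' = y
      · simp only [if_pos hy]
        omega
      · simp only [if_neg hy]
        omega

/-- The numbers of occurrences of the letters after erasing the letter `x`. -/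
lemma count_filter_ne (x c : α) (w : List α) :
    (w.filter (fun z => z ≠ x)).count c = if c = x then 0 else w.count c := by
  have h := Nil3.tEqAux_count x w 1 c
  rw [one_mul, one_mul] at h
  exact h.symm

/-- The numbers of scattered subwords of length two after erasing the letter `x`. -/
lemma SC2_filter_ne (x c d : α) (w : List α) :
    SC [c, d] (w.filter (fun z => z ≠ x)) = if c = x ∨ d = x then 0 else SC [c, d] w := by
  induction w using List.reverseRecOn with
  | nil => simp [SC]
  | append_singleton w y ih =>
    rw [List.filter_append]
    by_cases hy : y = x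
    · have hf : List.filter (fun z => decide (z ≠ x)) [y] = [] := by simp [hy]
      rw [hf, List.append_nil, ih, SC2_concat]
      by_cases hcd : c = x ∨ d = x
      · rw [if_pos hcd, if_pos hcd]
      · rw [if_neg hcd, if_neg hcd]
        have hyd : ¬ y = d := fun h => hcd (Or.inr (h.symm.trans hy))
        rw [if_neg hyd, add_zero]
    · have hf : List.filter (fun z => decide (z ≠ x)) [y] = [y] := by simp [hy]
      rw [hf, SC2_concat, SC2_concat, ih, SC1_eq, SC1_eq, count_filter_ne]
      by_cases hcd : c = x ∨ d = x
      · rw [if_pos hcd, if_pos hcd]
        rcases hcd with h | h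
        · simp [h]
        · have hyd : ¬ y = d := fun h' => hy (h'.trans h)
          simp [hyd]
      · have hc : ¬ c = x := fun h => hcd (Or.inl h)
        rw [if_neg hcd, if_neg hcd, if_neg hc]

end M4

end Vale.Agent.Lib.P329
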