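import Mathlib.GroupTheory.Nilpotent

/-!
Commutator calculus in a group of nilpotency class at most three (the fourth term of the
lower central series is trivial).
-/

namespace Vale.Agent.Lib.P329

universe v

namespace Nil3

open scoped commutatorElement

variable {G : Type v} [Group G]

/-- Elements of the third term of the lower central series are central. -/
lemma gamma3_central (hG : (⊤ : Subgroup G).lowerCentralSeries 3 = ⊥) (w t : G)
    (hw : w ∈ ⁅commutator G, (⊤ : Subgroup G)⁆) : w * t = t * w := by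
  have h1 : ⁅w, t⁆ ∈ ⁅⁅commutator G, (⊤ : Subgroup G)⁆, (⊤ : Subgroup G)⁆ :=
    Subgroup.commutator_mem_commutator hw (Subgroup.mem_top t)
  have h2 : ⁅⁅commutator G, (⊤ : Subgroup G)⁆, (⊤ : Subgroup G)⁆ = ⊥ := hG
  rw [h2, Subgroup.mem_bot] at h1
  exact commutatorElement_eq_one_iff_mul_comm.mp h1

/-- Commutators of an arbitrary element with an element of the commutator subgroup are
central. -/
lemma central_left (hG : (⊤ : Subgroup G).lowerCentralSeries 3 = ⊥) (z u t : G)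
    (hu : u ∈ commutator G) : ⁅z, u⁆ * t = t * ⁅z, u⁆ := by
  have hm : ⁅z, u⁆ ∈ ⁅(⊤ : Subgroup G), commutator G⁆ :=
    Subgroup.commutator_mem_commutator (Subgroup.mem_top z) hu
  rw [Subgroup.commutator_comm] at hm
  exact gamma3_central hG _ t hm

lemma central_right (hG : (⊤ : Subgroup G).lowerCentralSeries 3 = ⊥) (u z t : G)
    (hu : u ∈ commutator G) : ⁅u, z⁆ * t = t * ⁅u, z⁆ :=
  gamma3_central hG _ t (Subgroup.commutator_mem_commutator hu (Subgroup.mem_top z))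

/-- The commutator subgroup is commutative. -/
lemma comm_comm (hG : (⊤ : Subgroup G).lowerCentralSeries 3 = ⊥) (u v : G)
    (hu : u ∈ commutator G) (hv : v ∈ commutator G) : u * v = v * u := by
  have h2 : ⁅⁅commutator G, (⊤ : Subgroup G)⁆, (⊤ : Subgroup G)⁆ = ⊥ := hG
  have h1 : ⁅⁅(⊤ : Subgroup G), commutator G⁆, (⊤ : Subgroup G)⁆ = ⊥ := by
    rw [Subgroup.commutator_comm (⊤ : Subgroup G) (commutator G)]
    exact h2
  have h3 : ⁅⁅(⊤ : Subgroup G), (⊤ : Subgroup G)⁆, commutator G⁆ = ⊥ :=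
    Subgroup.commutator_commutator_eq_bot_of_rotate h1 h2
  have h4 : ⁅u, v⁆ ∈ ⁅⁅(⊤ : Subgroup G), (⊤ : Subgroup G)⁆, commutator G⁆ :=
    Subgroup.commutator_mem_commutator hu hv
  rw [h3, Subgroup.mem_bot] at h4
  exact commutatorElement_eq_one_iff_mul_comm.mp h4

/-- A general commutator identity for a product in the first slot. -/
lemma comm_mul_left_gen (h k u : G) : ⁅h * k, u⁆ = h * ⁅k, u⁆ * h⁻¹ * ⁅h, u⁆ := by
  simp only [commutatorElement_def, mul_inv_rev, mul_assoc, inv_mul_cancel_left]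

/-- A general commutator identity for a product in the second slot. -/
lemma comm_mul_right_gen (h u v : G) : ⁅h, u * v⁆ = ⁅h, u⁆ * (u * ⁅h, v⁆ * u⁻¹) := by
  simp only [commutatorElement_def, mul_inv_rev, mul_assoc, inv_mul_cancel_left]

lemma comm_mul_left (hG : (⊤ : Subgroup G).lowerCentralSeries 3 = ⊥) (h k u : G)
    (hu : u ∈ commutator G) : ⁅h * k, u⁆ = ⁅h, u⁆ * ⁅k, u⁆ := by
  have c1 := central_left hG k u h hu
  have c2 := central_left hG k u ⁅h, u⁆ hu
  rw [comm_mul_left_gen, ← c1, mul_inv_cancel_right, c2]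

lemma comm_mul_right (hG : (⊤ : Subgroup G).lowerCentralSeries 3 = ⊥) (h u v : G)
    (hu : u ∈ commutator G) (hv : v ∈ commutator G) : ⁅h, u * v⁆ = ⁅h, u⁆ * ⁅h, v⁆ := by
  have c1 := central_left hG h v u hv
  have _hu' := hu
  rw [comm_mul_right_gen, ← c1, mul_inv_cancel_right]

lemma comm_pow_right (hG : (⊤ : Subgroup G).lowerCentralSeries 3 = ⊥) (h u : G)
    (hu : u ∈ commutator G) (n : ℕ) : ⁅h, u ^ n⁆ = ⁅h, u⁆ ^ n := by
  induction n with
  | zero => rw [pow_zero, pow_zero, commutatorElement_one_right]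
  | succ n ih =>
    rw [pow_succ, comm_mul_right hG h (u ^ n) u (Subgroup.pow_mem _ hu n) hu, ih, pow_succ]

/-- Conjugation written with a commutator. -/
lemma comm_conj_gen (x U y : G) : ⁅x * U, y⁆ = ⁅x, ⁅U, y⁆⁆ * ⁅U, y⁆ * ⁅x, y⁆ := by
  simp only [commutatorElement_def, mul_inv_rev, inv_inv, mul_assoc, inv_mul_cancel_left,
    mul_inv_cancel_left]

/-- Rearrangement of central factors. -/
lemma central_rearr (A a B C : G) (hB : ∀ t : G, B * t = t * B) (hC : ∀ t : G, C * t = t * C) :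
    B * (A * C) * a = A * a * (B * C) := by
  calc B * (A * C) * a = A * C * B * a := by rw [hB (A * C)]
    _ = A * C * (B * a) := by rw [mul_assoc]
    _ = A * C * (a * B) := by rw [hB a]
    _ = A * (C * (a * B)) := by rw [mul_assoc]
    _ = A * (a * B * C) := by rw [hC (a * B)]
    _ = A * a * (B * C) := by simp only [mul_assoc]

/-- Powers of a central element are central. -/
lemma central_pow (b : G) (hb : ∀ t : G, b * t = t * b) (n : ℕ) (t : G) :
    b ^ n * t = t * b ^ n := by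
  have hc : Commute b t := hb t
  exact (hc.pow_left n).eq

lemma comm_pow_left (hG : (⊤ : Subgroup G).lowerCentralSeries 3 = ⊥) (x y : G) (n : ℕ) :
    ⁅x ^ n, y⁆ = ⁅x, y⁆ ^ n * ⁅x, ⁅x, y⁆⁆ ^ (n.choose 2) := by
  have ha : ⁅x, y⁆ ∈ commutator G :=
    Subgroup.commutator_mem_commutator (Subgroup.mem_top x) (Subgroup.mem_top y)
  have hbm : ⁅x, ⁅x, y⁆⁆ ∈ commutator G :=
    Subgroup.commutator_mem_commutator (Subgroup.mem_top x) (Subgroup.mem_top _)
  have hb : ∀ t : G, ⁅x, ⁅x, y⁆⁆ * t = t * ⁅x, ⁅x, y⁆⁆ := fun t => central_left hG x _ t ha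
  induction n with
  | zero =>
    rw [pow_zero, pow_zero, Nat.choose_zero_succ, pow_zero, commutatorElement_one_left, one_mul]
  | succ n ih =>
    have hC : ∀ t : G, ⁅x, ⁅x, y⁆⁆ ^ (n.choose 2) * t = t * ⁅x, ⁅x, y⁆⁆ ^ (n.choose 2) :=
      central_pow _ hb _
    have hB : ∀ t : G, ⁅x, ⁅x, y⁆⁆ ^ n * t = t * ⁅x, ⁅x, y⁆⁆ ^ n := central_pow _ hb _
    have h1 : ⁅x, ⁅x, y⁆⁆ ^ (n.choose 2) ∈ commutator G := Subgroup.pow_mem _ hbm _
    have h2 : ⁅x, y⁆ ^ n ∈ commutator G := Subgroup.pow_mem _ ha _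
    have h3 : ⁅x, ⁅x, ⁅x, y⁆⁆ ^ (n.choose 2)⁆ = 1 :=
      commutatorElement_eq_one_iff_mul_comm.mpr (hC x).symm
    have h4 : ⁅x, ⁅x, y⁆ ^ n * ⁅x, ⁅x, y⁆⁆ ^ (n.choose 2)⁆ = ⁅x, ⁅x, y⁆⁆ ^ n := by
      rw [comm_mul_right hG x _ _ h2 h1, h3, mul_one, comm_pow_right hG x _ ha n]
    have h5 : (n + 1).choose 2 = n + n.choose 2 := by
      rw [Nat.choose_succ_succ, Nat.choose_one_right]
    have r1 : ⁅x, y⁆ ^ (n + 1) = ⁅x, y⁆ ^ n * ⁅x, y⁆ := pow_succ _ _
    have r2 : ⁅x, ⁅x, y⁆⁆ ^ ((n + 1).choose 2)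
        = ⁅x, ⁅x, y⁆⁆ ^ n * ⁅x, ⁅x, y⁆⁆ ^ (n.choose 2) := by rw [h5, pow_add]
    have l1 : x ^ (n + 1) = x * x ^ n := pow_succ' _ _
    rw [l1, comm_conj_gen, ih, h4, r1, r2]
    exact central_rearr _ _ _ _ hB hC

lemma comm_list_prod (hG : (⊤ : Subgroup G).lowerCentralSeries 3 = ⊥) (l : List G) (u : G)
    (hu : u ∈ commutator G) : ⁅l.prod, u⁆ = (l.map (fun h => ⁅h, u⁆)).prod := by
  induction l with
  | nil => rw [List.prod_nil, List.map_nil, List.prod_nil, commutatorElement_one_left]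
  | cons h l ih =>
    rw [List.prod_cons, comm_mul_left hG h l.prod u hu, List.map_cons, List.prod_cons, ih]

end Nil3

end Vale.Agent.Lib.P329
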