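import Vale.Agent.Lib.P329.Nil4Base
import Vale.Agent.Lib.P329.Nil3Calc

/-!
Commutator calculus in a group of nilpotency class at most four: the commutator of a power
with an element, and its conjugates by the powers of that element.
-/

namespace Vale.Agent.Lib.P329

universe v

namespace Nil4

open scoped commutatorElement IsMulCommutative

/-- Rearrangement in a commutative monoid (step for the commutator of a power). -/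
lemma cm_A {H : Type v} [CommMonoid H] (a b c : H) (n k l : ℕ) :
    (b * a) ^ n * (c * b) ^ k * c ^ l * a = a ^ (n + 1) * b ^ (n + k) * c ^ (k + l) := by
  simp only [mul_pow, pow_add, pow_one, mul_comm, mul_assoc]

/-- Rearrangement in a commutative monoid (step for the conjugates of the commutator). -/
lemma cm_B {H : Type v} [CommMonoid H] (a b c : H) (n l : ℕ) :
    (b * a) * (c * b) ^ n * c ^ l = a * b ^ (n + 1) * c ^ (n + l) := by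
  simp only [mul_pow, pow_add, pow_one, mul_comm, mul_assoc]

/-- Rearrangement in a commutative monoid (step for the conjugates of the double
commutator). -/
lemma cm_C {H : Type v} [CommMonoid H] (a b : H) (n : ℕ) :
    (b * a) * b ^ n = a * b ^ (n + 1) := by
  simp only [pow_add, pow_one, mul_comm, mul_assoc]

/-- Rearrangement in a commutative monoid (the final formula). -/
lemma cm_D {H : Type v} [CommMonoid H] (a b c d e f : H) (n β q k l : ℕ) :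
    (a * b ^ β * c ^ q) ^ n * (d * e ^ β) ^ k * f ^ l =
      a ^ n * b ^ (n * β) * c ^ (n * q) * d ^ k * e ^ (k * β) * f ^ l := by
  simp only [mul_pow, ← pow_mul, mul_comm, mul_assoc]

variable {G : Type v} [Group G]

lemma tr_A {T : Set G} (hT : ∀ a ∈ T, ∀ b ∈ T, a * b = b * a) {a b c : G}
    (ha : a ∈ T) (hb : b ∈ T) (hc : c ∈ T) (n k l : ℕ) :
    (b * a) ^ n * (c * b) ^ k * c ^ l * a = a ^ (n + 1) * b ^ (n + k) * c ^ (k + l) := by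
  have hcomm : IsMulCommutative (Subgroup.closure T) := Subgroup.isMulCommutative_closure hT
  exact congrArg Subtype.val
    (cm_A (⟨a, Subgroup.subset_closure ha⟩ : Subgroup.closure T)
      ⟨b, Subgroup.subset_closure hb⟩ ⟨c, Subgroup.subset_closure hc⟩ n k l)

lemma tr_B {T : Set G} (hT : ∀ a ∈ T, ∀ b ∈ T, a * b = b * a) {a b c : G}
    (ha : a ∈ T) (hb : b ∈ T) (hc : c ∈ T) (n l : ℕ) :
    (b * a) * (c * b) ^ n * c ^ l = a * b ^ (n + 1) * c ^ (n + l) := by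
  have hcomm : IsMulCommutative (Subgroup.closure T) := Subgroup.isMulCommutative_closure hT
  exact congrArg Subtype.val
    (cm_B (⟨a, Subgroup.subset_closure ha⟩ : Subgroup.closure T)
      ⟨b, Subgroup.subset_closure hb⟩ ⟨c, Subgroup.subset_closure hc⟩ n l)

lemma tr_C {T : Set G} (hT : ∀ a ∈ T, ∀ b ∈ T, a * b = b * a) {a b : G}
    (ha : a ∈ T) (hb : b ∈ T) (n : ℕ) :
    (b * a) * b ^ n = a * b ^ (n + 1) := by
  have hcomm : IsMulCommutative (Subgroup.closure T) := Subgroup.isMulCommutative_closure hT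
  exact congrArg Subtype.val
    (cm_C (⟨a, Subgroup.subset_closure ha⟩ : Subgroup.closure T)
      ⟨b, Subgroup.subset_closure hb⟩ n)

lemma tr_D {T : Set G} (hT : ∀ a ∈ T, ∀ b ∈ T, a * b = b * a) {a b c d e f : G}
    (ha : a ∈ T) (hb : b ∈ T) (hc : c ∈ T) (hd : d ∈ T) (he : e ∈ T) (hf : f ∈ T)
    (n β q k l : ℕ) :
    (a * b ^ β * c ^ q) ^ n * (d * e ^ β) ^ k * f ^ l =
      a ^ n * b ^ (n * β) * c ^ (n * q) * d ^ k * e ^ (k * β) * f ^ l := by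
  have hcomm : IsMulCommutative (Subgroup.closure T) := Subgroup.isMulCommutative_closure hT
  exact congrArg Subtype.val
    (cm_D (⟨a, Subgroup.subset_closure ha⟩ : Subgroup.closure T)
      ⟨b, Subgroup.subset_closure hb⟩ ⟨c, Subgroup.subset_closure hc⟩
      ⟨d, Subgroup.subset_closure hd⟩ ⟨e, Subgroup.subset_closure he⟩
      ⟨f, Subgroup.subset_closure hf⟩ n β q k l)

/-- Conjugation of a product of three factors. -/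
lemma cj3 (t a b c : G) :
    t * (a * b * c) * t⁻¹ = (t * a * t⁻¹) * (t * b * t⁻¹) * (t * c * t⁻¹) := by
  simp only [mul_assoc, inv_mul_cancel_left]

/-- Conjugation of a product of two factors. -/
lemma cj2 (t a b : G) : t * (a * b) * t⁻¹ = (t * a * t⁻¹) * (t * b * t⁻¹) := by
  simp only [mul_assoc, inv_mul_cancel_left]

/-- Conjugation of a power. -/
lemma cjpow (t a : G) (k : ℕ) : t * a ^ k * t⁻¹ = (t * a * t⁻¹) ^ k := conj_pow.symm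

/-- Conjugation written with a commutator. -/
lemma cjcomm (t c : G) : t * c * t⁻¹ = ⁅t, c⁆ * c := by
  simp only [commutatorElement_def, inv_mul_cancel_right]

/-- Conjugation fixes the elements of the fourth term. -/
lemma cjcentral (hG : (⊤ : Subgroup G).lowerCentralSeries 4 = ⊥) (t c : G)
    (hc : c ∈ (⊤ : Subgroup G).lowerCentralSeries 3) : t * c * t⁻¹ = c := by
  rw [← central4 hG c t hc, mul_inv_cancel_right]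

lemma u1_mem (X Y : G) : ⁅X, Y⁆ ∈ (⊤ : Subgroup G).lowerCentralSeries 1 :=
  mem_lcs_succ 0 X Y (Subgroup.mem_top Y)

lemma u2_mem (X Y : G) : ⁅X, ⁅X, Y⁆⁆ ∈ (⊤ : Subgroup G).lowerCentralSeries 2 :=
  mem_lcs_succ 1 X _ (u1_mem X Y)

lemma u3_mem (X Y : G) : ⁅X, ⁅X, ⁅X, Y⁆⁆⁆ ∈ (⊤ : Subgroup G).lowerCentralSeries 3 :=
  mem_lcs_succ 2 X _ (u2_mem X Y)

lemma v_mem (X Y : G) : ⁅Y, ⁅X, Y⁆⁆ ∈ (⊤ : Subgroup G).lowerCentralSeries 2 :=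
  mem_lcs_succ 1 Y _ (u1_mem X Y)

lemma ww_mem (X Y : G) : ⁅Y, ⁅Y, ⁅X, Y⁆⁆⁆ ∈ (⊤ : Subgroup G).lowerCentralSeries 3 :=
  mem_lcs_succ 2 Y _ (v_mem X Y)

lemma z_mem (X Y : G) : ⁅Y, ⁅X, ⁅X, Y⁆⁆⁆ ∈ (⊤ : Subgroup G).lowerCentralSeries 3 :=
  mem_lcs_succ 2 Y _ (u2_mem X Y)

lemma six1 (X Y : G) : ⁅X, Y⁆ ∈ six X Y := by
  unfold six; simp

lemma six2 (X Y : G) : ⁅Y, ⁅X, Y⁆⁆ ∈ six X Y := by
  unfold six; simp

lemma six3 (X Y : G) : ⁅Y, ⁅Y, ⁅X, Y⁆⁆⁆ ∈ six X Y := by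
  unfold six; simp

lemma six4 (X Y : G) : ⁅X, ⁅X, Y⁆⁆ ∈ six X Y := by
  unfold six; simp

lemma six5 (X Y : G) : ⁅Y, ⁅X, ⁅X, Y⁆⁆⁆ ∈ six X Y := by
  unfold six; simp

lemma six6 (X Y : G) : ⁅X, ⁅X, ⁅X, Y⁆⁆⁆ ∈ six X Y := by
  unfold six; simp

/-- The commutator of a power. -/
lemma comm_pow4 (hG : (⊤ : Subgroup G).lowerCentralSeries 4 = ⊥) (X Y : G) (n : ℕ) :
    ⁅X ^ n, Y⁆ = ⁅X, Y⁆ ^ n * ⁅X, ⁅X, Y⁆⁆ ^ (n.choose 2) * ⁅X, ⁅X, ⁅X, Y⁆⁆⁆ ^ (n.choose 3) := by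
  induction n with
  | zero =>
    rw [pow_zero, pow_zero, Nat.choose_zero_succ, Nat.choose_zero_succ, pow_zero, pow_zero,
      commutatorElement_one_left, one_mul, one_mul]
  | succ n ih =>
    have e2 : (n + 1).choose 2 = n + n.choose 2 := by
      rw [Nat.choose_succ_succ, Nat.choose_one_right]
    have e3 : (n + 1).choose 3 = n.choose 2 + n.choose 3 := Nat.choose_succ_succ n 2
    have c1 : X * ⁅X, Y⁆ * X⁻¹ = ⁅X, ⁅X, Y⁆⁆ * ⁅X, Y⁆ := cjcomm X _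
    have c2 : X * ⁅X, ⁅X, Y⁆⁆ * X⁻¹ = ⁅X, ⁅X, ⁅X, Y⁆⁆⁆ * ⁅X, ⁅X, Y⁆⁆ := cjcomm X _
    have c3 : X * ⁅X, ⁅X, ⁅X, Y⁆⁆⁆ * X⁻¹ = ⁅X, ⁅X, ⁅X, Y⁆⁆⁆ :=
      cjcentral hG X _ (u3_mem X Y)
    rw [pow_succ' X n, Nil3.comm_mul_left_gen, ih, cj3, cjpow, cjpow, cjpow, c1, c2, c3, e2, e3]
    exact tr_A (six_comm hG X Y) (six1 X Y) (six4 X Y) (six6 X Y) n (n.choose 2) (n.choose 3)

/-- Conjugating the commutator by a power of its second entry. -/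
lemma conj_pow_u1 (hG : (⊤ : Subgroup G).lowerCentralSeries 4 = ⊥) (X Y : G) (β : ℕ) :
    Y ^ β * ⁅X, Y⁆ * (Y ^ β)⁻¹ =
      ⁅X, Y⁆ * ⁅Y, ⁅X, Y⁆⁆ ^ β * ⁅Y, ⁅Y, ⁅X, Y⁆⁆⁆ ^ (β.choose 2) := by
  induction β with
  | zero =>
    simp
  | succ β ih =>
    have e2 : (β + 1).choose 2 = β + β.choose 2 := by
      rw [Nat.choose_succ_succ, Nat.choose_one_right]
    have c1 : Y * ⁅X, Y⁆ * Y⁻¹ = ⁅Y, ⁅X, Y⁆⁆ * ⁅X, Y⁆ := cjcomm Y _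
    have c2 : Y * ⁅Y, ⁅X, Y⁆⁆ * Y⁻¹ = ⁅Y, ⁅Y, ⁅X, Y⁆⁆⁆ * ⁅Y, ⁅X, Y⁆⁆ := cjcomm Y _
    have c3 : Y * ⁅Y, ⁅Y, ⁅X, Y⁆⁆⁆ * Y⁻¹ = ⁅Y, ⁅Y, ⁅X, Y⁆⁆⁆ :=
      cjcentral hG Y _ (ww_mem X Y)
    have s1 : Y ^ (β + 1) * ⁅X, Y⁆ * (Y ^ (β + 1))⁻¹ =
        Y * (Y ^ β * ⁅X, Y⁆ * (Y ^ β)⁻¹) * Y⁻¹ := by
      rw [pow_succ' Y β, mul_inv_rev]
      simp only [mul_assoc]
    rw [s1, ih, cj3, cjpow, cjpow, c1, c2, c3, e2]
    exact tr_B (six_comm hG X Y) (six1 X Y) (six2 X Y) (six3 X Y) β (β.choose 2)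

/-- Conjugating the double commutator by a power. -/
lemma conj_pow_u2 (hG : (⊤ : Subgroup G).lowerCentralSeries 4 = ⊥) (X Y : G) (β : ℕ) :
    Y ^ β * ⁅X, ⁅X, Y⁆⁆ * (Y ^ β)⁻¹ = ⁅X, ⁅X, Y⁆⁆ * ⁅Y, ⁅X, ⁅X, Y⁆⁆⁆ ^ β := by
  induction β with
  | zero =>
    simp
  | succ β ih =>
    have c1 : Y * ⁅X, ⁅X, Y⁆⁆ * Y⁻¹ = ⁅Y, ⁅X, ⁅X, Y⁆⁆⁆ * ⁅X, ⁅X, Y⁆⁆ := cjcomm Y _
    have c2 : Y * ⁅Y, ⁅X, ⁅X, Y⁆⁆⁆ * Y⁻¹ = ⁅Y, ⁅X, ⁅X, Y⁆⁆⁆ :=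
      cjcentral hG Y _ (z_mem X Y)
    have s1 : Y ^ (β + 1) * ⁅X, ⁅X, Y⁆⁆ * (Y ^ (β + 1))⁻¹ =
        Y * (Y ^ β * ⁅X, ⁅X, Y⁆⁆ * (Y ^ β)⁻¹) * Y⁻¹ := by
      rw [pow_succ' Y β, mul_inv_rev]
      simp only [mul_assoc]
    rw [s1, ih, cj2, cjpow, c1, c2]
    exact tr_C (six_comm hG X Y) (six4 X Y) (six5 X Y) β

/-- **The conjugate by a power of `Y` of the commutator of a power of `X` with `Y`.** -/
theorem conj_comm_pow (hG : (⊤ : Subgroup G).lowerCentralSeries 4 = ⊥) (X Y : G) (n β : ℕ) :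
    Y ^ β * ⁅X ^ n, Y⁆ * (Y ^ β)⁻¹ =
      ⁅X, Y⁆ ^ n * ⁅Y, ⁅X, Y⁆⁆ ^ (n * β) * ⁅Y, ⁅Y, ⁅X, Y⁆⁆⁆ ^ (n * β.choose 2)
        * ⁅X, ⁅X, Y⁆⁆ ^ (n.choose 2) * ⁅Y, ⁅X, ⁅X, Y⁆⁆⁆ ^ (n.choose 2 * β)
        * ⁅X, ⁅X, ⁅X, Y⁆⁆⁆ ^ (n.choose 3) := by
  have c3 : Y ^ β * ⁅X, ⁅X, ⁅X, Y⁆⁆⁆ * (Y ^ β)⁻¹ = ⁅X, ⁅X, ⁅X, Y⁆⁆⁆ :=
    cjcentral hG (Y ^ β) _ (u3_mem X Y)
  rw [comm_pow4 hG X Y n, cj3, cjpow, cjpow, cjpow, conj_pow_u1 hG X Y β, conj_pow_u2 hG X Y β,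
    c3]
  exact tr_D (six_comm hG X Y) (six1 X Y) (six2 X Y) (six3 X Y) (six4 X Y) (six5 X Y)
    (six6 X Y) n β (β.choose 2) (n.choose 2) (n.choose 3)

end Nil4

end Vale.Agent.Lib.P329
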