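import Vale.Agent.Lib.P329.Sub4B

/-!
Shuffle identities between numbers of scattered subwords over two letters and products of
binomial coefficients of the numbers of occurrences of the two letters.
-/

namespace Vale.Agent.Lib.P329

universe u v

open Classical

namespace Nil4

open _root_.Vale.Agent.Lib.P329.Sub

variable {α : Type u}

lemma sh_xb (x b : α) (hxb : x ≠ b) (w : List α) :
    SC [x, b] w + SC [b, x] w = w.count x * w.count b := by
  induction w using List.reverseRecOn with
  | nil => simp [SC]
  | append_singleton w y ih =>
    rw [SC2_concat, SC2_concat, count_concat', count_concat', SC1_eq, SC1_eq]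
    by_cases h1 : y = x
    · have hyb : ¬ y = b := fun h => hxb (h1.symm.trans h)
      simp only [if_pos h1, if_neg hyb, add_zero]
      have e : (w.count x + 1) * w.count b = w.count x * w.count b + w.count b := by ring
      rw [e, ← ih]
      ring
    · by_cases h2 : y = b
      · simp only [if_pos h2, if_neg h1, add_zero]
        have e : w.count x * (w.count b + 1) = w.count x * w.count b + w.count x := by ring
        rw [e, ← ih]
        ring
      · simp only [if_neg h2, if_neg h1, add_zero]
        exact ih

lemma sh_xbb (x b : α) (hxb : x ≠ b) (w : List α) :
    SC [x, b, b] w + SC [b, x, b] w + SC [b, b, x] w = w.count x * (w.count b).choose 2 := by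
  induction w using List.reverseRecOn with
  | nil => simp [SC]
  | append_singleton w y ih =>
    rw [SC3_concat, SC3_concat, SC3_concat, count_concat', count_concat']
    by_cases h1 : y = x
    · have hyb : ¬ y = b := fun h => hxb (h1.symm.trans h)
      simp only [if_pos h1, if_neg hyb, add_zero]
      rw [Sub4.SC2_self b w]
      have e : (w.count x + 1) * (w.count b).choose 2
          = w.count x * (w.count b).choose 2 + (w.count b).choose 2 := by ring
      rw [e, ← ih]
      ring
    · by_cases h2 : y = b
      · simp only [if_pos h2, if_neg h1, add_zero]
        have hp := sh_xb x b hxb w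
        rw [Sub4.ch_succ2 (w.count b)]
        have e : w.count x * (w.count b + (w.count b).choose 2)
            = w.count x * (w.count b).choose 2 + w.count x * w.count b := by ring
        rw [e, ← ih, ← hp]
        ring
      · simp only [if_neg h2, if_neg h1, add_zero]
        exact ih

lemma sh_xxb (x b : α) (hxb : x ≠ b) (w : List α) :
    SC [x, x, b] w + SC [x, b, x] w + SC [b, x, x] w = (w.count x).choose 2 * w.count b := by
  induction w using List.reverseRecOn with
  | nil => simp [SC]
  | append_singleton w y ih =>
    rw [SC3_concat, SC3_concat, SC3_concat, count_concat', count_concat']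
    by_cases h1 : y = x
    · have hyb : ¬ y = b := fun h => hxb (h1.symm.trans h)
      simp only [if_pos h1, if_neg hyb, add_zero]
      have hp := sh_xb x b hxb w
      rw [Sub4.ch_succ2 (w.count x)]
      have e : (w.count x + (w.count x).choose 2) * w.count b
          = (w.count x).choose 2 * w.count b + w.count x * w.count b := by ring
      rw [e, ← ih, ← hp]
      ring
    · by_cases h2 : y = b
      · simp only [if_pos h2, if_neg h1, add_zero]
        rw [Sub4.SC2_self x w]
        have e : (w.count x).choose 2 * (w.count b + 1)
            = (w.count x).choose 2 * w.count b + (w.count x).choose 2 := by ring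
        rw [e, ← ih]
        ring
      · simp only [if_neg h2, if_neg h1, add_zero]
        exact ih

end Nil4

end Vale.Agent.Lib.P329
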