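import Vale.Agent.Lib.P329.Comb

/-!
Reversal of generalized regular expressions: the mirror image of a language has the same
generalized star height.
-/

namespace Vale.Agent.Lib.P329

universe u

namespace GRegex

variable {α : Type u}

/-- The mirror image of an expression. -/
def rev : GRegex α → GRegex α
  | zero => zero
  | one => one
  | letter a => letter a
  | union p q => union p.rev q.rev
  | concat p q => concat q.rev p.rev
  | compl p => compl p.rev
  | star p => star p.rev

lemma starHeight_rev (e : GRegex α) : e.rev.starHeight = e.starHeight := by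
  induction e with
  | zero => rfl
  | one => rfl
  | letter a => rfl
  | union p q ihp ihq => simp [rev, starHeight, ihp, ihq]
  | concat p q ihp ihq => simp [rev, starHeight, ihp, ihq, max_comm]
  | compl p ih => simp [rev, starHeight, ih]
  | star p ih => simp [rev, starHeight, ih]

lemma mem_lang_rev (e : GRegex α) : ∀ w : List α, w ∈ e.rev.lang ↔ w.reverse ∈ e.lang := by
  induction e with
  | zero => intro w; exact Iff.rfl
  | one =>
    intro w
    show w = [] ↔ w.reverse = []
    rw [List.reverse_eq_nil_iff]
  | letter a =>
    intro w
    show w = [a] ↔ w.reverse = [a]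
    constructor
    · rintro rfl; rfl
    · intro h
      have := congrArg List.reverse h
      rwa [List.reverse_reverse] at this
  | union p q ihp ihq =>
    intro w
    show (w ∈ p.rev.lang ∨ w ∈ q.rev.lang) ↔ (w.reverse ∈ p.lang ∨ w.reverse ∈ q.lang)
    rw [ihp, ihq]
  | concat p q ihp ihq =>
    intro w
    show w ∈ q.rev.lang * p.rev.lang ↔ w.reverse ∈ p.lang * q.lang
    rw [Language.mem_mul, Language.mem_mul]
    constructor
    · rintro ⟨x, hx, y, hy, rfl⟩
      refine ⟨y.reverse, (ihp y).mp hy, x.reverse, (ihq x).mp hx, ?_⟩
      rw [List.reverse_append]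
    · rintro ⟨x, hx, y, hy, hxy⟩
      refine ⟨y.reverse, (ihq _).mpr (by rwa [List.reverse_reverse]), x.reverse,
        (ihp _).mpr (by rwa [List.reverse_reverse]), ?_⟩
      rw [← List.reverse_append, hxy, List.reverse_reverse]
  | compl p ih =>
    intro w
    show w ∉ p.rev.lang ↔ w.reverse ∉ p.lang
    rw [ih]
  | star p ih =>
    intro w
    have h1 : p.rev.lang = p.lang.reverse := by
      ext x
      rw [ih x]
      rfl
    show w ∈ KStar.kstar p.rev.lang ↔ w.reverse ∈ KStar.kstar p.lang
    rw [h1, ← Language.reverse_kstar]
    rfl

end GRegex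

end Vale.Agent.Lib.P329
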