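import Vale.Agent.Lib.P329.Subword
import Vale.Agent.Lib.P329.Rev

/-!
General tools: fibers of height at most one and mirror images, the number of scattered
subwords of the mirror image, and the passage from prime power moduli to all moduli.
-/

namespace Vale.Agent.Lib.P329

universe u v

namespace Sub4

open Phase Sub

variable {α : Type u}

/-- Composition with the mirror image. -/
lemma fib_rev {V : Type v} {g : List α → V} (hg : Fib1 g) : Fib1 (fun w => g w.reverse) := by
  intro x
  obtain ⟨e, he1, he2⟩ := hg x
  refine ⟨e.rev, ?_, ?_⟩
  · rw [GRegex.starHeight_rev]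
    exact he1
  · ext w
    rw [GRegex.mem_lang_rev, he2]
    exact Iff.rfl

/-- Scattered subwords and mirror images. -/
lemma SC_reverse [DecidableEq α] (u w : List α) : SC u.reverse w.reverse = SC u w := by
  show (w.reverse.sublists).count u.reverse = w.sublists.count u
  rw [List.sublists_reverse, List.count_map_of_injective _ _ List.reverse_injective]
  exact ((List.sublists_perm_sublists' w).count_eq u).symm

/-- The value of the inverse of the Chinese remainder isomorphism on a pair of casts. -/
lemma crt_symm_natCast {a b : ℕ} (hcop : Nat.Coprime a b) (n : ℕ) :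
    (ZMod.chineseRemainder hcop).symm ((n : ZMod a), (n : ZMod b)) = ((n : ℕ) : ZMod (a * b)) := by
  have h1 : (ZMod.chineseRemainder hcop) ((n : ℕ) : ZMod (a * b))
      = ((n : ZMod a), (n : ZMod b)) := by
    rw [map_natCast]
    rfl
  rw [← h1, RingEquiv.symm_apply_apply]

/-- From all prime power moduli to all moduli. -/
lemma fib_of_pp (g : List α → ℕ)
    (h : ∀ (p e : ℕ), p.Prime → ∀ (d : ℕ) [NeZero d], d = p ^ e →
      Fib1 (fun w => ((g w : ℕ) : ZMod d))) :
    ∀ (N : ℕ) [NeZero N], Fib1 (fun w => ((g w : ℕ) : ZMod N)) := by
  have key : ∀ N : ℕ, NeZero N → Fib1 (fun w => ((g w : ℕ) : ZMod N)) := by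
    intro N
    induction N using Nat.recOnPosPrimePosCoprime with
    | prime_pow p n hp hn =>
      intro inst
      exact @h p n hp (p ^ n) inst rfl
    | zero =>
      intro inst
      exact (inst.out rfl).elim
    | one =>
      intro inst
      exact @h 2 0 Nat.prime_two 1 inst (pow_zero 2).symm
    | coprime a b ha hb hcop iha ihb =>
      intro inst
      have ia : NeZero a := ⟨by omega⟩
      have ib : NeZero b := ⟨by omega⟩
      have Fa := iha ia
      have Fb := ihb ib
      have Fp := (Fa.pair Fb).comp (fun x => (ZMod.chineseRemainder hcop).symm x)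
      exact Fp.congr (fun w => crt_symm_natCast hcop (g w))
  intro N inst
  exact key N inst

end Sub4

end Vale.Agent.Lib.P329
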