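import Vale.Agent.Lib.P329.Sub4C
import Vale.Agent.Lib.P329.Sub4D

/-!
Counting, modulo any `N`, the occurrences of a word of length at most four in which at most
two distinct letters occur, as a scattered subword: the fibers have generalized star height at
most one.
-/

namespace Vale.Agent.Lib.P329

universe u v

namespace Sub4

open Phase Sub

variable {α : Type u} [DecidableEq α]

/-- Three equal letters followed by a letter, modulo a prime power. -/
lemma fib_aaab_pp [Fintype α] (a b : α) (p e : ℕ) (hp : p.Prime) (d : ℕ) [NeZero d]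
    (hd : d = p ^ e) : Fib1 (fun w : List α => ((SC [a, a, a, b] w : ℕ) : ZMod d)) :=
  (fib_ps3 (fun y => y = a) b p e hp d hd).congr (fun w => by rw [id4_aaab])

/-- Two letters `a` followed by two letters `b`, modulo a prime power. -/
lemma fib_aabb_pp [Fintype α] (a b : α) (hab : a ≠ b) (p e : ℕ) (hp : p.Prime) (d : ℕ)
    [NeZero d] (hd : d = p ^ e) :
    Fib1 (fun w : List α => ((SC [a, a, b, b] w : ℕ) : ZMod d)) := by
  have f1 := fib_ps3 (fun y => y = a ∨ y = b) b p e hp d hd
  have f2 := fib_ps3 (fun y => y = b) a p e hp d hd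
  have f3 := fib_SC d [a, a, b] (by simp)
  have f4 := fib_cnt b d
  have f5 := fib_ps3 (fun y => y = a) b p e hp d hd
  have f6 := fib_cnt a d
  have f7 := fib_SC d [b, b, b] (by simp)
  have f8 := fib_ps3 (fun y => y = b) b p e hp d hd
  refine ((((f1.pair f2).pair (f3.pair f4)).pair ((f5.pair f6).pair (f7.pair f8))).comp
    (fun t => t.1.2.2 * t.1.2.1 + t.2.1.1 + t.2.1.2 * t.2.2.1 + t.2.2.2 - t.1.1.1 - t.1.1.2
      - t.1.2.1)).congr ?_
  intro w
  have := congrArg (Nat.cast : ℕ → ZMod d) (id4_aabb a b hab w)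
  push_cast at this ⊢
  linear_combination (-1 : ZMod d) * this

lemma fib_aaab [Fintype α] (a b : α) (N : ℕ) [NeZero N] :
    Fib1 (fun w : List α => ((SC [a, a, a, b] w : ℕ) : ZMod N)) :=
  fib_of_pp (fun w => SC [a, a, a, b] w) (fun p e hp d _ hd => fib_aaab_pp a b p e hp d hd) N

lemma fib_aabb [Fintype α] (a b : α) (hab : a ≠ b) (N : ℕ) [NeZero N] :
    Fib1 (fun w : List α => ((SC [a, a, b, b] w : ℕ) : ZMod N)) :=
  fib_of_pp (fun w => SC [a, a, b, b] w)
    (fun p e hp d _ hd => fib_aabb_pp a b hab p e hp d hd) N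

lemma fib_aaba [Fintype α] (a b : α) (hab : a ≠ b) (N : ℕ) [NeZero N] :
    Fib1 (fun w : List α => ((SC [a, a, b, a] w : ℕ) : ZMod N)) := by
  refine ((((fib_cnt a N).pair (fib_SC N [a, a, b] (by simp))).pair (fib_aaab a b N)).comp
    (fun t => t.1.1 * t.1.2 - 3 * t.2 - 2 * t.1.2)).congr ?_
  intro w
  have := congrArg (Nat.cast : ℕ → ZMod N) (id4_aaba a b hab w)
  push_cast at this ⊢
  linear_combination (-1 : ZMod N) * this

lemma fib_abab [Fintype α] (a b : α) (hab : a ≠ b) (N : ℕ) [NeZero N] :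
    Fib1 (fun w : List α => ((SC [a, b, a, b] w : ℕ) : ZMod N)) := by
  have : NeZero (2 * N) := ⟨Nat.mul_ne_zero (by norm_num) (NeZero.ne N)⟩
  refine fib_div N 2 (by norm_num) (fun w => SC [a, b, a, b] w) _
    ((((fib_SC (2 * N) [a, b] (by simp)).pair (fib_aabb a b hab (2 * N))).pair
      ((fib_SC (2 * N) [a, b, b] (by simp)).pair (fib_SC (2 * N) [a, a, b] (by simp)))).comp
      (fun t => t.1.1 * t.1.1 - 4 * t.1.2 - 2 * t.2.1 - 2 * t.2.2 - t.1.1)) ?_
  intro w
  have := congrArg (Nat.cast : ℕ → ZMod (2 * N)) (id4_abab a b hab w)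
  push_cast at this ⊢
  linear_combination this

lemma fib_abba [Fintype α] (a b : α) (hab : a ≠ b) (N : ℕ) [NeZero N] :
    Fib1 (fun w : List α => ((SC [a, b, b, a] w : ℕ) : ZMod N)) := by
  refine ((((fib_cnt a N).pair (fib_SC N [a, b, b] (by simp))).pair
    ((fib_aabb a b hab N).pair (fib_abab a b hab N))).comp
    (fun t => t.1.1 * t.1.2 - 2 * t.2.1 - t.2.2 - t.1.2)).congr ?_
  intro w
  have := congrArg (Nat.cast : ℕ → ZMod N) (id4_abba a b hab w)
  push_cast at this ⊢
  linear_combination (-1 : ZMod N) * this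

/-- The mirror image of a countable subword is countable. -/
lemma fib_SC_rev [Fintype α] (N : ℕ) [NeZero N] (u : List α)
    (h : Fib1 (fun w : List α => ((SC u w : ℕ) : ZMod N))) :
    Fib1 (fun w : List α => ((SC u.reverse w : ℕ) : ZMod N)) := by
  refine (fib_rev h).congr ?_
  intro w
  show ((SC u w.reverse : ℕ) : ZMod N) = ((SC u.reverse w : ℕ) : ZMod N)
  have h1 := SC_reverse u.reverse w
  rw [List.reverse_reverse] at h1
  rw [h1]

/-- All words of length four over two distinct letters. -/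
theorem fib_four [Fintype α] (N : ℕ) [NeZero N] (a b : α) (hab : a ≠ b) (x1 x2 x3 x4 : α)
    (h1 : x1 = a ∨ x1 = b) (h2 : x2 = a ∨ x2 = b) (h3 : x3 = a ∨ x3 = b)
    (h4 : x4 = a ∨ x4 = b) :
    Fib1 (fun w : List α => ((SC [x1, x2, x3, x4] w : ℕ) : ZMod N)) := by
  have hba : b ≠ a := fun h => hab h.symm
  rcases h1 with h1 | h1 <;> rcases h2 with h2 | h2 <;> rcases h3 with h3 | h3 <;>
    rcases h4 with h4 | h4 <;> rw [h1, h2, h3, h4]
  · exact fib_aaab a a N
  · exact fib_aaab a b N
  · exact fib_aaba a b hab N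
  · exact fib_aabb a b hab N
  · exact fib_SC_rev N [a, a, b, a] (fib_aaba a b hab N)
  · exact fib_abab a b hab N
  · exact fib_abba a b hab N
  · exact fib_SC_rev N [b, b, b, a] (fib_aaab b a N)
  · exact fib_SC_rev N [a, a, a, b] (fib_aaab a b N)
  · exact fib_abba b a hba N
  · exact fib_abab b a hba N
  · exact fib_SC_rev N [b, b, a, b] (fib_aaba b a hba N)
  · exact fib_aabb b a hba N
  · exact fib_aaba b a hba N
  · exact fib_aaab b a N
  · exact fib_aaab b b N

/-- **Scattered subwords of length at most four with at most two distinct letters can be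
counted modulo any `N`.** -/
theorem fib_SC4 [Fintype α] (N : ℕ) [NeZero N] (a b : α) : ∀ (v : List α), v.length ≤ 4 →
    (∀ x ∈ v, x = a ∨ x = b) → Fib1 (fun w : List α => ((SC v w : ℕ) : ZMod N))
  | [], _, _ => fib_SC N [] (by simp)
  | [x1], _, _ => fib_SC N [x1] (by simp)
  | [x1, x2], _, _ => fib_SC N [x1, x2] (by simp)
  | [x1, x2, x3], _, _ => fib_SC N [x1, x2, x3] (by simp)
  | [x1, x2, x3, x4], _, hv => by
    by_cases hab : a = b
    · have e : ∀ x ∈ [x1, x2, x3, x4], x = a := by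
        intro x hx
        rcases hv x hx with h | h
        · exact h
        · exact h.trans hab.symm
      rw [e x1 (by simp), e x2 (by simp), e x3 (by simp), e x4 (by simp)]
      exact fib_aaab a a N
    · exact fib_four N a b hab x1 x2 x3 x4 (hv x1 (by simp)) (hv x2 (by simp))
        (hv x3 (by simp)) (hv x4 (by simp))
  | _ :: _ :: _ :: _ :: _ :: _, h, _ => absurd h (by simp only [List.length_cons]; omega)

/-- The hand-in form: the residue of the number of occurrences. -/
theorem main [Fintype α] (v : List α) (hv : v.length ≤ 4) (a b : α)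
    (hv2 : ∀ x ∈ v, x = a ∨ x = b) (n : ℕ) (hn : 0 < n) (k : ℕ) :
    ∃ e : GRegex α, e.starHeight ≤ 1 ∧ e.lang = {w : List α | w.sublists.count v % n = k} := by
  have : NeZero n := ⟨Nat.pos_iff_ne_zero.mp hn⟩
  obtain ⟨e, he1, he2⟩ := ((fib_SC4 n a b v hv hv2).comp (fun z : ZMod n => z.val)) k
  refine ⟨e, he1, ?_⟩
  rw [he2]
  ext w
  show ((SC v w : ℕ) : ZMod n).val = k ↔ w.sublists.count v % n = k
  rw [ZMod.val_natCast]

end Sub4

end Vale.Agent.Lib.P329
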