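import Vale.Agent.Lib.P329.Nil3Theta
import Vale.Agent.Lib.P329.Nil4Calc
import Vale.Agent.Lib.P329.Nil4Id
import Vale.Agent.Lib.P329.Sub4Main

/-!
Groups of nilpotency class at most four whose commutator subgroup is abelian: definitions
for the closed form of the correction term of the erasure of one letter, over an arbitrary
finite alphabet.
-/

namespace Vale.Agent.Lib.P329

universe u v

open Classical

namespace M4

open scoped commutatorElement

open _root_.Vale.Agent.Lib.P329.Sub

variable {α : Type u} {G : Type v} [Group G]

/-- The commutator subgroup as a commutative group, when its elements commute. -/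
@[reducible] noncomputable def cgA
    (hM : ∀ a b : G, a ∈ commutator G → b ∈ commutator G → a * b = b * a) :
    CommGroup (commutator G) :=
  { (inferInstance : Group (commutator G)) with
    mul_comm := fun a b => Subtype.ext (hM a.1 b.1 a.2 b.2) }

/-- The commutator of an element of the group with an element of the commutator subgroup,
as an element of the commutator subgroup. -/
def Dm (t : G) (a : commutator G) : commutator G :=
  ⟨⁅t, (a : G)⁆, Subgroup.commutator_mem_commutator (Subgroup.mem_top _) (Subgroup.mem_top _)⟩

/-- Iterated conjugation by the letters of a list, written with difference maps `D c`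
(conjugation by the letter `c` is `a ↦ D c a * a`). -/
def cjL {A : Type v} [Mul A] (D : α → A → A) : List α → A → A
  | [], a => a
  | c :: l, a => D c (cjL D l a) * cjL D l a

/-- The product of powers of the commutators of weight two, three and four that are linear
in the letter `y`, with the given exponents. -/
noncomputable def Theta4 [Fintype α]
    (hM : ∀ a b : G, a ∈ commutator G → b ∈ commutator G → a * b = b * a)
    (g : α → G) (x : α) (e1 : α → ℕ) (e2 : α → α → ℕ) (e3 : α → α → α → ℕ) : G :=
  letI := cgA hM
  ((∏ y, (Nil3.kap1 g x y ^ e1 y * (∏ c, Dm (g c) (Nil3.kap1 g x y) ^ e2 y c) *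
      ∏ c, ∏ d, Dm (g c) (Dm (g d) (Nil3.kap1 g x y)) ^ e3 y c d) : commutator G) : G)

/-- The increment of the exponents of weight three when a letter is read after `w`. -/
noncomputable def inc2 (x : α) (w : List α) (c : α) : ℕ :=
  if c = x then (w.count x).choose 2 else w.count x * w.count c

/-- The increment of the exponents of weight four when a letter is read after `w`. -/
noncomputable def inc3 (x : α) (w : List α) (c d : α) : ℕ :=
  if d = x then (if c = x then (w.count x).choose 3 else (w.count x).choose 2 * w.count c)
  else if c = x then 0 else w.count x * SC [c, d] w

/-- The exponents of weight three of the closed form. -/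
noncomputable def E2 (x : α) (w : List α) (y c : α) : ℕ :=
  if c = x then SC [x, x, y] w else SC [x, c, y] w + SC [c, x, y] w

/-- The exponents of weight four of the closed form. -/
noncomputable def E3 (x : α) (w : List α) (y c d : α) : ℕ :=
  if d = x then
    (if c = x then SC [x, x, x, y] w
      else SC [x, x, c, y] w + SC [x, c, x, y] w + SC [c, x, x, y] w)
  else if c = x then 0 else SC [x, c, d, y] w + SC [c, x, d, y] w + SC [c, d, x, y] w

/-- The exponents of weight four, collected on the pairs `c, d` with `c` before `d` in a
fixed enumeration of the alphabet. -/
noncomputable def E3s [Fintype α] (x : α) (w : List α) (y c d : α) : ℕ :=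
  if c = d then E3 x w y c c
  else if Fintype.equivFin α c < Fintype.equivFin α d then E3 x w y c d + E3 x w y d c else 0

/-- Three letters of which one is `x`, in the three positions of `x` relative to the others
that keep `x` twice. -/
noncomputable def R5 (x c y : α) (w : List α) : ℕ :=
  SC [x, x, c, y] w + SC [x, c, x, y] w + SC [c, x, x, y] w

/-- The six scattered subwords of length four ending in `y` in which `x`, `c`, `d` occur. -/
noncomputable def R3 (x c d y : α) (w : List α) : ℕ :=
  (SC [x, c, d, y] w + SC [c, x, d, y] w + SC [c, d, x, y] w) +
    (SC [x, d, c, y] w + SC [d, x, c, y] w + SC [d, c, x, y] w)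

/-- The cube of a natural number. -/
def cube : ℕ → ℕ := fun n => n ^ 3

/-- The weight function with value `1` at `x`, `-1` at `c` and `0` elsewhere. -/
noncomputable def kz (D : ℕ) (x c : α) : α → ZMod D :=
  fun a => if a = x then 1 else if a = c then -1 else 0

/-- The sum, over the positions carrying `b`, of `F` of the weighted count modulo `d` of the
earlier letters, starting from `s`. -/
noncomputable def psZ {d : ℕ} (k : α → ZMod d) (b : α) (F : ZMod d → ZMod d) :
    ZMod d → List α → ZMod d
  | _, [] => 0
  | s, a :: w => (if a = b then F s else 0) + psZ k b F (s + k a) w

end M4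

end Vale.Agent.Lib.P329
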