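import Vale.Agent.Lib.P329.M4Def

/-!
The number of occurrences of the six scattered subwords of length four that end in `y` and
contain the three distinct letters `x`, `c`, `d` before it, counted modulo any `N`, has
fibers of generalized star height at most one.
-/

namespace Vale.Agent.Lib.P329

universe u v

open Classical

namespace M4

open Phase

open _root_.Vale.Agent.Lib.P329.Sub

open _root_.Vale.Agent.Lib.P329.Sub4

variable {α : Type u}

/-- The number of letters of a word among three distinct letters. -/
lemma pc_triple (x c d : α) (hxc : x ≠ c) (hxd : x ≠ d) (hcd : c ≠ d) (w : List α) :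
    pc (fun z => z = x ∨ z = c ∨ z = d) w = w.count x + w.count c + w.count d := by
  induction w using List.reverseRecOn with
  | nil => simp [pc]
  | append_singleton w a ih =>
    rw [pc_concat, count_concat', count_concat', count_concat', ih]
    by_cases h1 : a = x
    · have h2 : ¬ a = c := fun h => hxc (h1.symm.trans h)
      have h3 : ¬ a = d := fun h => hxd (h1.symm.trans h)
      have h4 : a = x ∨ a = c ∨ a = d := Or.inl h1
      simp only [if_pos h4, if_pos h1, if_neg h2, if_neg h3]
      omega
    · by_cases h2 : a = c
      · have h3 : ¬ a = d := fun h => hcd (h2.symm.trans h)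
        have h4 : a = x ∨ a = c ∨ a = d := Or.inr (Or.inl h2)
        simp only [if_pos h4, if_neg h1, if_pos h2, if_neg h3]
        omega
      · by_cases h3 : a = d
        · have h4 : a = x ∨ a = c ∨ a = d := Or.inr (Or.inr h3)
          simp only [if_pos h4, if_neg h1, if_neg h2, if_pos h3]
          omega
        · have h4 : ¬ (a = x ∨ a = c ∨ a = d) := by
            rintro (h | h | h)
            · exact h1 h
            · exact h2 h
            · exact h3 h
          simp only [if_neg h4, if_neg h1, if_neg h2, if_neg h3, add_zero]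

/-- Inserting one letter `x` into the occurrences of a subword of two other letters. -/
lemma sh3_ins (x c d : α) (hxc : x ≠ c) (hxd : x ≠ d) (w : List α) :
    SC [x, c, d] w + SC [c, x, d] w + SC [c, d, x] w = w.count x * SC [c, d] w := by
  induction w using List.reverseRecOn with
  | nil => simp [SC]
  | append_singleton w a ih =>
    rw [SC3_concat, SC3_concat, SC3_concat, SC2_concat, count_concat', SC1_eq]
    by_cases h1 : a = x
    · have h2 : ¬ a = d := fun h => hxd (h1.symm.trans h)
      simp only [if_pos h1, if_neg h2, add_zero]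
      have e : (w.count x + 1) * SC [c, d] w = w.count x * SC [c, d] w + SC [c, d] w := by
        ring
      rw [e, ← ih]
      ring
    · by_cases h2 : a = d
      · simp only [if_neg h1, if_pos h2, add_zero]
        have hp := Nil4.sh_xb x c hxc w
        have e : w.count x * (SC [c, d] w + w.count c)
            = w.count x * SC [c, d] w + w.count x * w.count c := by ring
        rw [e, ← ih, ← hp]
        ring
      · simp only [if_neg h1, if_neg h2, add_zero]
        exact ih

/-- The six subwords of length three on three distinct letters. -/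
lemma six_sum (x c d : α) (hxc : x ≠ c) (hxd : x ≠ d) (hcd : c ≠ d) (w : List α) :
    (SC [x, c, d] w + SC [c, x, d] w + SC [c, d, x] w)
        + (SC [x, d, c] w + SC [d, x, c] w + SC [d, c, x] w) =
      w.count x * (w.count c * w.count d) := by
  rw [sh3_ins x c d hxc hxd w, sh3_ins x d c hxd hxc w, ← Nil4.sh_xb c d hcd w]
  ring

/-- The identity behind the count. -/
lemma idR3 (x c d y : α) (hxc : x ≠ c) (hxd : x ≠ d) (hcd : c ≠ d) (w : List α) :
    R3 x c d y w + psumN (fun z => z = x ∨ z = c) y ch3 0 w
        + psumN (fun z => z = x ∨ z = d) y ch3 0 w + psumN (fun z => z = c ∨ z = d) y ch3 0 w =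
      psumN (fun z => z = x ∨ z = c ∨ z = d) y ch3 0 w + psumN (fun z => z = x) y ch3 0 w
        + psumN (fun z => z = c) y ch3 0 w + psumN (fun z => z = d) y ch3 0 w := by
  induction w using List.reverseRecOn with
  | nil => simp [R3, SC, psumN_nil]
  | append_singleton w a ih =>
    unfold R3 at ih ⊢
    rw [SC4_concat, SC4_concat, SC4_concat, SC4_concat, SC4_concat, SC4_concat,
      psumN_concat, psumN_concat, psumN_concat, psumN_concat, psumN_concat, psumN_concat,
      psumN_concat]
    by_cases h : a = y
    · simp only [if_pos h]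
      rw [pc_pair x c hxc, pc_pair x d hxd, pc_pair c d hcd, pc_triple x c d hxc hxd hcd,
        pc_single, pc_single, pc_single]
      simp only [ch3]
      have hsix := congrArg (Nat.cast : ℕ → ℤ) (six_sum x c d hxc hxd hcd w)
      have e1 := congrArg (Nat.cast : ℕ → ℤ) (vand3 (w.count x + w.count c) (w.count d))
      have e2 := congrArg (Nat.cast : ℕ → ℤ) (vand2 (w.count x) (w.count c))
      have e4 := congrArg (Nat.cast : ℕ → ℤ) (vand3 (w.count x) (w.count d))
      have e5 := congrArg (Nat.cast : ℕ → ℤ) (vand3 (w.count c) (w.count d))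
      have ih' := congrArg (Nat.cast : ℕ → ℤ) ih
      apply Nat.cast_injective (R := ℤ)
      push_cast at hsix e1 e2 e4 e5 ih' ⊢
      linear_combination ih' + hsix - e1 - ((w.count d : ℕ) : ℤ) * e2 + e4 + e5
    · simp only [if_neg h, add_zero]
      exact ih

/-- **The count modulo `N`.** -/
theorem fib_R3 [Fintype α] (N : ℕ) [NeZero N] (x c d y : α) (hxc : x ≠ c) (hxd : x ≠ d)
    (hcd : c ≠ d) :
    Fib1 (fun w : List α => ((R3 x c d y w : ℕ) : ZMod N)) := by
  refine fib_of_pp (fun w => R3 x c d y w) (fun p e hp dd _ hd => ?_) N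
  have h1 := fib_ps3 (fun z => z = x ∨ z = c) y p e hp dd hd
  have h2 := fib_ps3 (fun z => z = x ∨ z = d) y p e hp dd hd
  have h3 := fib_ps3 (fun z => z = c ∨ z = d) y p e hp dd hd
  have h4 := fib_ps3 (fun z => z = x ∨ z = c ∨ z = d) y p e hp dd hd
  have h5 := fib_ps3 (fun z => z = x) y p e hp dd hd
  have h6 := fib_ps3 (fun z => z = c) y p e hp dd hd
  have h7 := fib_ps3 (fun z => z = d) y p e hp dd hd
  refine ((((h4.pair h5).pair (h6.pair h7)).pair ((h1.pair h2).pair h3)).comp
    (fun t => t.1.1.1 + t.1.1.2 + t.1.2.1 + t.1.2.2 - t.2.1.1 - t.2.1.2 - t.2.2)).congr ?_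
  intro w
  have hid := congrArg (Nat.cast : ℕ → ZMod dd) (idR3 x c d y hxc hxd hcd w)
  push_cast at hid ⊢
  linear_combination (-1 : ZMod dd) * hid

end M4

end Vale.Agent.Lib.P329
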