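import Vale.Agent.Lib.P329.PsZ

/-!
The number of occurrences of the scattered subwords `x x c y`, `x c x y`, `c x x y`, counted
modulo any `N`, has fibers of generalized star height at most one.
-/

namespace Vale.Agent.Lib.P329

universe u v

open Classical

namespace M4

open Phase

open _root_.Vale.Agent.Lib.P329.Sub

variable {α : Type u}

/-- The weighted count of the weight function `kz`. -/
lemma ksum_kz (D : ℕ) (x c : α) (hxc : x ≠ c) (w : List α) :
    Zp.ksum (kz D x c) w = ((w.count x : ℕ) : ZMod D) - ((w.count c : ℕ) : ZMod D) := by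
  induction w using List.reverseRecOn with
  | nil => simp [Zp.ksum_nil]
  | append_singleton w a ih =>
    rw [Zp.ksum_append, Zp.ksum_cons, Zp.ksum_nil, count_concat', count_concat', ih]
    unfold kz
    by_cases h1 : a = x
    · have hac : ¬ a = c := fun h => hxc (h1.symm.trans h)
      rw [if_pos h1, if_pos h1, if_neg hac]
      push_cast
      ring
    · by_cases h2 : a = c
      · rw [if_neg h1, if_pos h2, if_neg h1, if_pos h2]
        push_cast
        ring
      · rw [if_neg h1, if_neg h2, if_neg h1, if_neg h2]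
        push_cast
        ring

/-- Twice the binomial coefficient. -/
lemma two_choose_two (x : α) (w : List α) :
    2 * (w.count x).choose 2 + w.count x = w.count x * w.count x := by
  rw [← Sub4.SC2_self x w]
  exact id2' x w

/-- The identity behind the count, modulo any `D`. -/
lemma idR5 (D : ℕ) (x c y : α) (hxc : x ≠ c) (hxy : x ≠ y) (hcy : c ≠ y) (w : List α) :
    (12 : ZMod D) * ((R5 x c y w : ℕ) : ZMod D)
        + 6 * (((SC [x, c, y] w + SC [c, x, y] w : ℕ)) : ZMod D)
        + 2 * ((psumN (fun z => z = c) y cube 0 w : ℕ) : ZMod D)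
        + psZ (kz D x c) y (fun s => s ^ 3) 0 w =
      ((psumN (fun z => z = x ∨ z = c) y cube 0 w : ℕ) : ZMod D) := by
  induction w using List.reverseRecOn with
  | nil => simp [R5, SC, psumN_nil, psZ_nil]
  | append_singleton w a ih =>
    unfold R5 at ih ⊢
    rw [Sub4.SC4_concat, Sub4.SC4_concat, Sub4.SC4_concat, SC3_concat, SC3_concat,
      psumN_concat, psumN_concat, psZ_concat]
    by_cases h : a = y
    · simp only [if_pos h]
      have hA := congrArg (Nat.cast : ℕ → ZMod D) (Nil4.sh_xxb x c hxc w)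
      have hB := congrArg (Nat.cast : ℕ → ZMod D) (Nil4.sh_xb x c hxc w)
      have h2 := congrArg (Nat.cast : ℕ → ZMod D) (two_choose_two x w)
      rw [pc_single, pc_pair x c hxc, ksum_kz D x c hxc w]
      simp only [cube]
      push_cast at hA hB h2 ih ⊢
      linear_combination ih + 12 * hA + 6 * hB + 6 * ((w.count c : ℕ) : ZMod D) * h2
    · simp only [if_neg h, add_zero]
      exact ih

/-- The case of three distinct letters. -/
theorem fib_R5_distinct [Fintype α] (N : ℕ) [NeZero N] (x c y : α) (hxc : x ≠ c)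
    (hxy : x ≠ y) (hcy : c ≠ y) :
    Fib1 (fun w : List α => ((R5 x c y w : ℕ) : ZMod N)) := by
  have hne : NeZero (12 * N) := ⟨Nat.mul_ne_zero (by norm_num) (NeZero.ne N)⟩
  have h1 : Fib1 (fun w : List α =>
      ((psumN (fun z => z = x ∨ z = c) y cube 0 w : ℕ) : ZMod (12 * N))) :=
    fib_psum (fun z => z = x ∨ z = c) y
      (by rintro (h | h); exact hxy h.symm; exact hcy h.symm) (12 * N) cube (fun j => j ^ 3)
      (fun n => by simp [cube])
  have h2 : Fib1 (fun w : List α =>
      ((psumN (fun z => z = c) y cube 0 w : ℕ) : ZMod (12 * N))) :=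
    fib_psum (fun z => z = c) y (fun h => hcy h.symm) (12 * N) cube (fun j => j ^ 3)
      (fun n => by simp [cube])
  have h3 : Fib1 (fun w : List α => ((SC [x, c, y] w : ℕ) : ZMod (12 * N))) :=
    fib_SC (12 * N) [x, c, y] (by simp)
  have h4 : Fib1 (fun w : List α => ((SC [c, x, y] w : ℕ) : ZMod (12 * N))) :=
    fib_SC (12 * N) [c, x, y] (by simp)
  have hk : ∀ a, kz (12 * N) x c a = 0 ∨ kz (12 * N) x c a = 1 ∨ kz (12 * N) x c a = -1 := by
    intro a
    unfold kz
    by_cases ha : a = x
    · rw [if_pos ha]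
      exact Or.inr (Or.inl rfl)
    · by_cases hb : a = c
      · rw [if_neg ha, if_pos hb]
        exact Or.inr (Or.inr rfl)
      · rw [if_neg ha, if_neg hb]
        exact Or.inl rfl
  have hb : kz (12 * N) x c y = 0 := by
    unfold kz
    rw [if_neg (fun h => hxy h.symm), if_neg (fun h => hcy h.symm)]
  have h5 : Fib1 (fun w : List α => psZ (kz (12 * N) x c) y (fun s => s ^ 3) 0 w) :=
    fib_psZ (12 * N) (kz (12 * N) x c) hk y hb (fun s => s ^ 3)
  refine fib_div N 12 (by norm_num) (fun w => R5 x c y w) _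
    ((((h1.pair h2).pair (h3.pair h4)).pair h5).comp
      (fun t => t.1.1.1 - 6 * (t.1.2.1 + t.1.2.2) - 2 * t.1.1.2 - t.2)) ?_
  intro w
  have hid := idR5 (12 * N) x c y hxc hxy hcy w
  push_cast at hid ⊢
  linear_combination hid

/-- **The count modulo `N`.** -/
theorem fib_R5 [Fintype α] (N : ℕ) [NeZero N] (x c y : α) (hxc : x ≠ c) :
    Fib1 (fun w : List α => ((R5 x c y w : ℕ) : ZMod N)) := by
  by_cases hy : y = x ∨ y = c
  · have hmem : ∀ v : List α, (∀ z ∈ v, z = x ∨ z = c ∨ z = y) → ∀ z ∈ v, z = x ∨ z = c := by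
      intro v hv z hz
      rcases hv z hz with h | h | h
      · exact Or.inl h
      · exact Or.inr h
      · rcases hy with h' | h'
        · exact Or.inl (h.trans h')
        · exact Or.inr (h.trans h')
    have h1 := Sub4.fib_SC4 N x c [x, x, c, y] (by simp) (hmem _ (by simp))
    have h2 := Sub4.fib_SC4 N x c [x, c, x, y] (by simp) (hmem _ (by simp))
    have h3 := Sub4.fib_SC4 N x c [c, x, x, y] (by simp) (hmem _ (by simp))
    refine (((h1.pair h2).pair h3).comp (fun t => t.1.1 + t.1.2 + t.2)).congr ?_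
    intro w
    show ((SC [x, x, c, y] w : ℕ) : ZMod N) + ((SC [x, c, x, y] w : ℕ) : ZMod N)
        + ((SC [c, x, x, y] w : ℕ) : ZMod N) = ((R5 x c y w : ℕ) : ZMod N)
    unfold R5
    rw [Nat.cast_add, Nat.cast_add]
  · have hy' := not_or.mp hy
    exact fib_R5_distinct N x c y hxc (fun h => hy'.1 h.symm) (fun h => hy'.2 h.symm)

end M4

end Vale.Agent.Lib.P329
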