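import Vale.Agent.Lib.P329.Nil3Closed

/-!
Languages recognized by finite nilpotent groups of class at most three have generalized star
height at most one.
-/

namespace Vale.Agent.Lib.P329

universe u v

open Classical

namespace Nil3

open scoped commutatorElement

open _root_.Vale.Agent.Lib.P329.Sub

variable {α : Type u} {G : Type v} [Group G]

/-- Restricting the word to the letters satisfying `P` preserves the fiber property. -/
lemma fib_filter [Fintype α] {V : Type v} {F : List α → V} (hF : Fib1 F) (P : α → Prop)
    [DecidablePred P] :
    Fib1 (fun w : List α => F (w.filter (fun a => P a))) := by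
  intro y
  obtain ⟨e, he1, he2⟩ := hF y
  obtain ⟨e', he'1, he'2⟩ :=
    exists_preimage_filterMap (fun a : α => if P a then some a else none) e
  refine ⟨e', le_trans he'1 he1, ?_⟩
  rw [he'2, he2]
  have key : ∀ w : List α, w.filterMap (fun a : α => if P a then some a else none)
      = w.filter (fun a => P a) := by
    intro w
    induction w with
    | nil => rfl
    | cons a w ih =>
      by_cases h : P a
      · simp [h, ih]
      · simp [h, ih]
  ext w
  show F (w.filterMap (fun a : α => if P a then some a else none)) = y ↔
    F (w.filter (fun a => P a)) = y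
  rw [key]

/-- The correction term has fibers of generalized star height at most one. -/
theorem fib_K [Fintype α] [Fintype G] (hG : (⊤ : Subgroup G).lowerCentralSeries 3 = ⊥)
    (g : α → G) (x : α) : Fib1 (fun w : List α => K g x [] w) := by
  have hN : NeZero (Fintype.card G) := ⟨Fintype.card_ne_zero⟩
  have f1 : Fib1 (fun (w : List α) (b : α) => ((SC [x, b] w : ℕ) : ZMod (Fintype.card G))) :=
    Fib1.pi (fun b => fib_SC (Fintype.card G) [x, b] (by simp))
  have f2 : Fib1 (fun (w : List α) (b : α) =>
      ((SC [x, x, b] w : ℕ) : ZMod (Fintype.card G))) :=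
    Fib1.pi (fun b => fib_SC (Fintype.card G) [x, x, b] (by simp))
  have f3 : Fib1 (fun (w : List α) (b : α) (c : α) =>
      (((if c = x then 0 else SC [x, c, b] w + SC [c, x, b] w : ℕ)) :
        ZMod (Fintype.card G))) := by
    refine Fib1.pi (fun b => Fib1.pi (fun c => ?_))
    by_cases hc : c = x
    · refine (fib_const (0 : ZMod (Fintype.card G))).congr ?_
      intro w
      simp [hc]
    · refine (((fib_SC (Fintype.card G) [x, c, b] (by simp)).pair
        (fib_SC (Fintype.card G) [c, x, b] (by simp))).comp (fun t => t.1 + t.2)).congr ?_
      intro w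
      simp [hc]
  have f := ((f1.pair f2).pair f3).comp
    (fun t : ((α → ZMod (Fintype.card G)) × (α → ZMod (Fintype.card G))) ×
        (α → α → ZMod (Fintype.card G)) =>
      Theta hG g x (fun b => (t.1.1 b).val) (fun b => (t.1.2 b).val)
        (fun b c => (t.2 b c).val))
  refine f.congr ?_
  intro w
  rw [K_closed hG g x w]
  exact (Theta_mod hG g x _ _ _).symm

/-- Induction on the set of letters that are kept. -/
theorem fib_prod_filter [Fintype α] [Fintype G]
    (hG : (⊤ : Subgroup G).lowerCentralSeries 3 = ⊥) (g : α → G) (S : Finset α) :
    Fib1 (fun w : List α => ((w.filter (fun a => a ∈ S)).map g).prod) := by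
  induction S using Finset.induction_on with
  | empty =>
    refine (fib_const (1 : G)).congr ?_
    intro w
    simp
  | insert x S hx ih =>
    have hN : NeZero (Fintype.card G) := ⟨Fintype.card_ne_zero⟩
    have fK := fib_filter (fib_K hG g x) (fun a => a ∈ insert x S)
    have fc := Phase.fib_count (α := α) x (Fintype.card G)
    have f := ((fK.pair ih).pair fc).comp
      (fun t : (G × G) × ZMod (Fintype.card G) => t.1.1 * t.1.2 * g x ^ t.2.val)
    refine f.congr ?_
    intro w
    rw [decomp g x (w.filter (fun a => a ∈ insert x S))]
    have h1 : H g x (w.filter (fun a => a ∈ insert x S)) =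
        ((w.filter (fun a => a ∈ S)).map g).prod := by
      unfold H
      rw [List.filter_filter]
      congr 2
      apply List.filter_congr
      intro a _
      by_cases ha : a = x
      · subst ha
        simp [hx]
      · by_cases haS : a ∈ S
        · simp [ha, haS]
        · simp [ha, haS]
    have h2 : (w.filter (fun a => a ∈ insert x S)).count x = w.count x := by
      rw [List.count_filter]
      simp
    have h3 : g x ^ ((w.count x : ℕ) : ZMod (Fintype.card G)).val = g x ^ w.count x := by
      rw [ZMod.val_natCast, pow_mod_card]
    rw [h1, h2, h3]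

/-- **Main theorem: finite nilpotent groups of class at most three.** -/
theorem main [Fintype α] [Fintype G] [Group.IsNilpotent G]
    (hcl : Group.nilpotencyClass G ≤ 3) (φ : α → G) (P : Set G) :
    ∃ e : GRegex α, e.starHeight ≤ 1 ∧ e.lang = {w : List α | (w.map φ).prod ∈ P} := by
  have hG : (⊤ : Subgroup G).lowerCentralSeries 3 = ⊥ :=
    Subgroup.lowerCentralSeries_eq_bot_iff_nilpotencyClass_le.mpr hcl
  have h := fib_prod_filter hG φ Finset.univ
  have h' : Fib1 (fun w : List α => (w.map φ).prod) := by
    refine h.congr ?_
    intro w
    simp
  exact h'.set P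

end Nil3

end Vale.Agent.Lib.P329
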