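import Vale.Agent.Lib.P329.M4Closed
import Vale.Agent.Lib.P329.M4R5
import Vale.Agent.Lib.P329.M4R3
import Vale.Agent.Lib.P329.Nil3Main

/-!
Languages recognized by finite nilpotent groups of class at most four whose commutator
subgroup is abelian have generalized star height at most one, over every finite alphabet.
-/

namespace Vale.Agent.Lib.P329

universe u v

open Classical

namespace M4

open scoped commutatorElement

open _root_.Vale.Agent.Lib.P329.Sub

variable {α : Type u} {G : Type v} [Group G]

/-- The exponents of weight three, modulo `N`. -/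
lemma fib_E2 [Fintype α] (N : ℕ) [NeZero N] (x y c : α) :
    Fib1 (fun w : List α => ((E2 x w y c : ℕ) : ZMod N)) := by
  by_cases hc : c = x
  · refine (fib_SC N [x, x, y] (by simp)).congr ?_
    intro w
    simp only [E2, if_pos hc]
  · refine (((fib_SC N [x, c, y] (by simp)).pair (fib_SC N [c, x, y] (by simp))).comp
      (fun t => t.1 + t.2)).congr ?_
    intro w
    simp only [E2, if_neg hc, Nat.cast_add]

/-- The diagonal exponents of weight four, modulo `N`. -/
lemma fib_E3_diag [Fintype α] (N : ℕ) [NeZero N] (x y c : α) :
    Fib1 (fun w : List α => ((E3 x w y c c : ℕ) : ZMod N)) := by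
  by_cases hc : c = x
  · refine (Sub4.fib_SC4 N x y [x, x, x, y] (by simp) (by simp)).congr ?_
    intro w
    simp only [E3, if_pos hc]
  · refine (fib_R5 N c x y hc).congr ?_
    intro w
    simp only [E3, R5, if_neg hc, Nat.cast_add]
    ring

/-- The sums of two exponents of weight four at a pair of distinct letters, modulo `N`. -/
lemma fib_E3_pair [Fintype α] (N : ℕ) [NeZero N] (x y c d : α) (hcd : c ≠ d) :
    Fib1 (fun w : List α => (((E3 x w y c d + E3 x w y d c : ℕ)) : ZMod N)) := by
  by_cases hd : d = x
  · have hc : c ≠ x := fun h => hcd (h.trans hd.symm)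
    refine (fib_R5 N x c y (fun h => hc h.symm)).congr ?_
    intro w
    simp only [E3, R5, if_pos hd, if_neg hc, add_zero]
  · by_cases hc : c = x
    · refine (fib_R5 N x d y (fun h => hd h.symm)).congr ?_
      intro w
      simp only [E3, R5, if_pos hc, if_neg hd, zero_add]
    · refine (fib_R3 N x c d y (fun h => hc h.symm) (fun h => hd h.symm) hcd).congr ?_
      intro w
      simp only [E3, R3, if_neg hc, if_neg hd]

/-- The collected exponents of weight four, modulo `N`. -/
lemma fib_E3s [Fintype α] (N : ℕ) [NeZero N] (x y c d : α) :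
    Fib1 (fun w : List α => ((E3s x w y c d : ℕ) : ZMod N)) := by
  by_cases hcd : c = d
  · refine (fib_E3_diag N x y c).congr ?_
    intro w
    simp only [E3s, if_pos hcd]
  · by_cases hlt : Fintype.equivFin α c < Fintype.equivFin α d
    · refine (fib_E3_pair N x y c d hcd).congr ?_
      intro w
      simp only [E3s, if_neg hcd, if_pos hlt]
    · refine (fib_const (0 : ZMod N)).congr ?_
      intro w
      simp only [E3s, if_neg hcd, if_neg hlt, Nat.cast_zero]

lemma E3s_diag [Fintype α] (x : α) (w : List α) (y c : α) : E3 x w y c c = E3s x w y c c := by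
  simp only [E3s, if_true]

lemma E3s_sym [Fintype α] (x : α) (w : List α) (y c d : α) (hcd : c ≠ d) :
    E3 x w y c d + E3 x w y d c = E3s x w y c d + E3s x w y d c := by
  have hne : Fintype.equivFin α c ≠ Fintype.equivFin α d :=
    fun h => hcd ((Fintype.equivFin α).injective h)
  have hdc : d ≠ c := fun h => hcd h.symm
  rcases lt_or_gt_of_ne hne with h | h
  · have h' : ¬ Fintype.equivFin α d < Fintype.equivFin α c := not_lt.mpr (le_of_lt h)
    simp only [E3s, if_neg hcd, if_neg hdc, if_pos h, if_neg h', add_zero]
  · have h' : ¬ Fintype.equivFin α c < Fintype.equivFin α d := not_lt.mpr (le_of_lt h)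
    simp only [E3s, if_neg hcd, if_neg hdc, if_pos h, if_neg h', zero_add]
    exact add_comm _ _

/-- The correction term has fibers of generalized star height at most one. -/
theorem fib_K [Fintype α] [Fintype G] (hG : (⊤ : Subgroup G).lowerCentralSeries 4 = ⊥)
    (hM : ∀ a b : G, a ∈ commutator G → b ∈ commutator G → a * b = b * a)
    (g : α → G) (x : α) : Fib1 (fun w : List α => Nil3.K g x [] w) := by
  have hN : NeZero (Fintype.card G) := ⟨Fintype.card_ne_zero⟩
  have f1 : Fib1 (fun (w : List α) (y : α) => ((SC [x, y] w : ℕ) : ZMod (Fintype.card G))) :=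
    Fib1.pi (fun y => fib_SC (Fintype.card G) [x, y] (by simp))
  have f2 : Fib1 (fun (w : List α) (y : α) (c : α) =>
      ((E2 x w y c : ℕ) : ZMod (Fintype.card G))) :=
    Fib1.pi (fun y => Fib1.pi (fun c => fib_E2 (Fintype.card G) x y c))
  have f3 : Fib1 (fun (w : List α) (y : α) (c : α) (d : α) =>
      ((E3s x w y c d : ℕ) : ZMod (Fintype.card G))) :=
    Fib1.pi (fun y => Fib1.pi (fun c => Fib1.pi (fun d => fib_E3s (Fintype.card G) x y c d)))
  have f := ((f1.pair f2).pair f3).comp
    (fun t : ((α → ZMod (Fintype.card G)) × (α → α → ZMod (Fintype.card G))) ×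
        (α → α → α → ZMod (Fintype.card G)) =>
      Theta4 hM g x (fun y => (t.1.1 y).val) (fun y c => (t.1.2 y c).val)
        (fun y c d => (t.2 y c d).val))
  refine f.congr ?_
  intro w
  rw [K_closed hG hM g x w, Theta4_symm hM g x (Dm_comm hM) _ _ _
    (fun y c d => E3s x w y c d) (fun y c => E3s_diag x w y c)
    (fun y c d hcd => E3s_sym x w y c d hcd)]
  exact (Theta4_mod hM g x _ _ _).symm

/-- Induction on the set of letters that are kept. -/
theorem fib_prod_filter [Fintype α] [Fintype G]
    (hG : (⊤ : Subgroup G).lowerCentralSeries 4 = ⊥)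
    (hM : ∀ a b : G, a ∈ commutator G → b ∈ commutator G → a * b = b * a)
    (g : α → G) (S : Finset α) :
    Fib1 (fun w : List α => ((w.filter (fun a => a ∈ S)).map g).prod) := by
  induction S using Finset.induction_on with
  | empty =>
    refine (fib_const (1 : G)).congr ?_
    intro w
    simp
  | insert x S hx ih =>
    have hN : NeZero (Fintype.card G) := ⟨Fintype.card_ne_zero⟩
    have fK := Nil3.fib_filter (fib_K hG hM g x) (fun a => a ∈ insert x S)
    have fc := Phase.fib_count (α := α) x (Fintype.card G)
    have f := ((fK.pair ih).pair fc).comp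
      (fun t : (G × G) × ZMod (Fintype.card G) => t.1.1 * t.1.2 * g x ^ t.2.val)
    refine f.congr ?_
    intro w
    rw [Nil3.decomp g x (w.filter (fun a => a ∈ insert x S))]
    have h1 : Nil3.H g x (w.filter (fun a => a ∈ insert x S)) =
        ((w.filter (fun a => a ∈ S)).map g).prod := by
      unfold Nil3.H
      rw [List.filter_filter]
      congr 2
      apply List.filter_congr
      intro a _
      by_cases ha : a = x
      · subst ha
        simp [hx]
      · by_cases haS : a ∈ S
        · simp [ha, haS]
        · simp [ha, haS]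
    have h2 : (w.filter (fun a => a ∈ insert x S)).count x = w.count x := by
      rw [List.count_filter]
      simp
    have h3 : g x ^ ((w.count x : ℕ) : ZMod (Fintype.card G)).val = g x ^ w.count x := by
      rw [ZMod.val_natCast, pow_mod_card]
    rw [h1, h2, h3]

/-- **Main theorem: finite nilpotent groups of class at most four with abelian commutator
subgroup.** -/
theorem main [Fintype α] [Fintype G] [Group.IsNilpotent G]
    (hcl : Group.nilpotencyClass G ≤ 4)
    (hM : ∀ a b : G, a ∈ commutator G → b ∈ commutator G → a * b = b * a)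
    (φ : α → G) (P : Set G) :
    ∃ e : GRegex α, e.starHeight ≤ 1 ∧ e.lang = {w : List α | (w.map φ).prod ∈ P} := by
  have hG : (⊤ : Subgroup G).lowerCentralSeries 4 = ⊥ :=
    Subgroup.lowerCentralSeries_eq_bot_iff_nilpotencyClass_le.mpr hcl
  have h := fib_prod_filter hG hM φ Finset.univ
  have h' : Fib1 (fun w : List α => (w.map φ).prod) := by
    refine h.congr ?_
    intro w
    simp
  exact h'.set P

end M4

end Vale.Agent.Lib.P329
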