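import Vale.Agent.Lib.P329.M4Def

/-!
The product of powers of commutators `Theta4`: it is trivial for zero exponents, additive in
the exponents, depends on the exponents only modulo the order of the group, and its exponents
of weight four may be moved between the pairs `c, d` and `d, c`.
-/

namespace Vale.Agent.Lib.P329

universe u v

open Classical

namespace M4

open scoped commutatorElement

variable {α : Type u} {G : Type v} [Group G]

lemma Theta4_aux_zero {A' : Type v} [CommGroup A'] [Fintype α] (k1 : α → A')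
    (k2 : α → α → A') (k3 : α → α → α → A') :
    ∏ y, (k1 y ^ (0 : ℕ) * (∏ c, k2 y c ^ (0 : ℕ)) * ∏ c, ∏ d, k3 y c d ^ (0 : ℕ)) = 1 := by
  simp only [pow_zero, Finset.prod_const_one, mul_one]

lemma Theta4_aux_pp_add {A' : Type v} [CommGroup A'] [Fintype α] (B : α → α → A')
    (e f : α → α → ℕ) :
    ∏ c, ∏ d, B c d ^ (e c d + f c d) =
      (∏ c, ∏ d, B c d ^ e c d) * ∏ c, ∏ d, B c d ^ f c d := by
  rw [← Finset.prod_mul_distrib]
  refine Finset.prod_congr rfl (fun c _ => ?_)
  rw [← Finset.prod_mul_distrib]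
  exact Finset.prod_congr rfl (fun d _ => pow_add _ _ _)

lemma Theta4_aux_add {A' : Type v} [CommGroup A'] [Fintype α] (k1 : α → A')
    (k2 : α → α → A') (k3 : α → α → α → A') (e1 f1 : α → ℕ) (e2 f2 : α → α → ℕ)
    (e3 f3 : α → α → α → ℕ) :
    ∏ y, (k1 y ^ (e1 y + f1 y) * (∏ c, k2 y c ^ (e2 y c + f2 y c)) *
        ∏ c, ∏ d, k3 y c d ^ (e3 y c d + f3 y c d)) =
      (∏ y, (k1 y ^ e1 y * (∏ c, k2 y c ^ e2 y c) * ∏ c, ∏ d, k3 y c d ^ e3 y c d)) *
        ∏ y, (k1 y ^ f1 y * (∏ c, k2 y c ^ f2 y c) * ∏ c, ∏ d, k3 y c d ^ f3 y c d) := by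
  rw [← Finset.prod_mul_distrib]
  refine Finset.prod_congr rfl (fun y _ => ?_)
  have h2 : ∏ c, k2 y c ^ (e2 y c + f2 y c) =
      (∏ c, k2 y c ^ e2 y c) * ∏ c, k2 y c ^ f2 y c := by
    rw [← Finset.prod_mul_distrib]
    exact Finset.prod_congr rfl (fun c _ => pow_add _ _ _)
  rw [h2, Theta4_aux_pp_add (k3 y) (e3 y) (f3 y), pow_add,
    mul_mul_mul_comm (k1 y ^ e1 y), mul_mul_mul_comm]

lemma Theta4_aux_congr {A' : Type v} [CommGroup A'] [Fintype α] (k1 : α → A')
    (k2 : α → α → A') (k3 : α → α → α → A') (e1 f1 : α → ℕ) (e2 f2 : α → α → ℕ)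
    (e3 f3 : α → α → α → ℕ)
    (h1 : ∀ y, k1 y ^ e1 y = k1 y ^ f1 y) (h2 : ∀ y c, k2 y c ^ e2 y c = k2 y c ^ f2 y c)
    (h3 : ∀ y c d, k3 y c d ^ e3 y c d = k3 y c d ^ f3 y c d) :
    ∏ y, (k1 y ^ e1 y * (∏ c, k2 y c ^ e2 y c) * ∏ c, ∏ d, k3 y c d ^ e3 y c d) =
      ∏ y, (k1 y ^ f1 y * (∏ c, k2 y c ^ f2 y c) * ∏ c, ∏ d, k3 y c d ^ f3 y c d) := by
  refine Finset.prod_congr rfl (fun y _ => ?_)
  have hB : ∏ c, k2 y c ^ e2 y c = ∏ c, k2 y c ^ f2 y c :=
    Finset.prod_congr rfl (fun c _ => h2 y c)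
  have hC : ∏ c, ∏ d, k3 y c d ^ e3 y c d = ∏ c, ∏ d, k3 y c d ^ f3 y c d :=
    Finset.prod_congr rfl (fun c _ => Finset.prod_congr rfl (fun d _ => h3 y c d))
  rw [h1 y, hB, hC]

lemma Theta4_aux_single {A' : Type v} [CommGroup A'] [Fintype α] (k1 : α → A')
    (k2 : α → α → A') (k3 : α → α → α → A') (y' : α) (n : ℕ) (i2 : α → ℕ)
    (i3 : α → α → ℕ) :
    ∏ y, (k1 y ^ (if y' = y then n else 0) * (∏ c, k2 y c ^ (if y' = y then i2 c else 0)) *
        ∏ c, ∏ d, k3 y c d ^ (if y' = y then i3 c d else 0)) =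
      k1 y' ^ n * (∏ c, k2 y' c ^ i2 c) * ∏ c, ∏ d, k3 y' c d ^ i3 c d := by
  rw [Finset.prod_eq_single y']
  · simp only [if_true]
  · intro y _ hy
    have hyy : ¬ y' = y := fun h => hy h.symm
    simp only [if_neg hyy, pow_zero, Finset.prod_const_one, mul_one]
  · intro h
    exact absurd (Finset.mem_univ y') h

lemma Theta4_aux_pp_transpose {A' : Type v} [CommGroup A'] [Fintype α] (B : α → α → A')
    (hB : ∀ c d, B c d = B d c) (e : α → α → ℕ) :
    ∏ c, ∏ d, B c d ^ e d c = ∏ c, ∏ d, B c d ^ e c d := by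
  rw [Finset.prod_comm]
  refine Finset.prod_congr rfl (fun c _ => Finset.prod_congr rfl (fun d _ => ?_))
  rw [hB d c]

/-- The exponents collected on the pairs in increasing order of a fixed enumeration. -/
lemma Theta4_aux_pp_collect {A' : Type v} [CommGroup A'] [Fintype α] (B : α → α → A')
    (hB : ∀ c d, B c d = B d c) (e : α → α → ℕ) :
    ∏ c, ∏ d, B c d ^ e c d =
      ∏ c, ∏ d, B c d ^
        ((if Fintype.equivFin α c < Fintype.equivFin α d then e c d + e d c else 0) +
          (if c = d then e c c else 0)) := by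
  have hsplit : ∀ c d, e c d =
      ((if Fintype.equivFin α c < Fintype.equivFin α d then e c d else 0) +
        (if c = d then e c d else 0)) +
        (if Fintype.equivFin α d < Fintype.equivFin α c then e c d else 0) := by
    intro c d
    rcases lt_trichotomy (Fintype.equivFin α c) (Fintype.equivFin α d) with h | h | h
    · have hne : ¬ c = d := fun hcd => by rw [hcd] at h; exact lt_irrefl _ h
      rw [if_pos h, if_neg hne, if_neg (lt_asymm h)]
      simp
    · have hcd : c = d := (Fintype.equivFin α).injective h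
      rw [if_neg (by rw [h]; exact lt_irrefl _), if_pos hcd, if_neg (by rw [h]; exact lt_irrefl _)]
      simp
    · have hne : ¬ c = d := fun hcd => by rw [hcd] at h; exact lt_irrefl _ h
      rw [if_neg (lt_asymm h), if_neg hne, if_pos h]
      simp
  have hL : ∏ c, ∏ d, B c d ^ e c d =
      ((∏ c, ∏ d, B c d ^
          (if Fintype.equivFin α c < Fintype.equivFin α d then e c d else 0)) *
        (∏ c, ∏ d, B c d ^ (if c = d then e c d else 0))) *
        ∏ c, ∏ d, B c d ^
          (if Fintype.equivFin α d < Fintype.equivFin α c then e c d else 0) := by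
    rw [← Theta4_aux_pp_add, ← Theta4_aux_pp_add]
    exact Finset.prod_congr rfl (fun c _ => Finset.prod_congr rfl (fun d _ => by
      rw [← hsplit c d]))
  have hT : ∏ c, ∏ d, B c d ^
        (if Fintype.equivFin α d < Fintype.equivFin α c then e c d else 0) =
      ∏ c, ∏ d, B c d ^
        (if Fintype.equivFin α c < Fintype.equivFin α d then e d c else 0) :=
    (Theta4_aux_pp_transpose B hB
      (fun c d => if Fintype.equivFin α d < Fintype.equivFin α c then e c d else 0)).symm
  have hR : ∏ c, ∏ d, B c d ^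
        ((if Fintype.equivFin α c < Fintype.equivFin α d then e c d + e d c else 0) +
          (if c = d then e c c else 0)) =
      ((∏ c, ∏ d, B c d ^
          (if Fintype.equivFin α c < Fintype.equivFin α d then e c d else 0)) *
        (∏ c, ∏ d, B c d ^
          (if Fintype.equivFin α c < Fintype.equivFin α d then e d c else 0))) *
        ∏ c, ∏ d, B c d ^ (if c = d then e c d else 0) := by
    rw [← Theta4_aux_pp_add, ← Theta4_aux_pp_add]
    refine Finset.prod_congr rfl (fun c _ => Finset.prod_congr rfl (fun d _ => ?_))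
    have hx : ((if Fintype.equivFin α c < Fintype.equivFin α d then e c d + e d c else 0) +
          (if c = d then e c c else 0)) =
        ((if Fintype.equivFin α c < Fintype.equivFin α d then e c d else 0) +
          (if Fintype.equivFin α c < Fintype.equivFin α d then e d c else 0)) +
          (if c = d then e c d else 0) := by
      by_cases h : Fintype.equivFin α c < Fintype.equivFin α d
      · by_cases hcd : c = d
        · rw [if_pos h, if_pos hcd, if_pos h, if_pos h, if_pos hcd, hcd]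
        · rw [if_pos h, if_neg hcd, if_pos h, if_pos h, if_neg hcd]
      · by_cases hcd : c = d
        · rw [if_neg h, if_pos hcd, if_neg h, if_neg h, if_pos hcd, hcd]
        · rw [if_neg h, if_neg hcd, if_neg h, if_neg h, if_neg hcd]
    rw [hx]
  rw [hL, hT, hR, mul_right_comm]

lemma Theta4_aux_pp_symm {A' : Type v} [CommGroup A'] [Fintype α] (B : α → α → A')
    (hB : ∀ c d, B c d = B d c) (e e' : α → α → ℕ) (hdiag : ∀ c, e c c = e' c c)
    (hsym : ∀ c d, c ≠ d → e c d + e d c = e' c d + e' d c) :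
    ∏ c, ∏ d, B c d ^ e c d = ∏ c, ∏ d, B c d ^ e' c d := by
  rw [Theta4_aux_pp_collect B hB e, Theta4_aux_pp_collect B hB e']
  refine Finset.prod_congr rfl (fun c _ => Finset.prod_congr rfl (fun d _ => ?_))
  have hx : ((if Fintype.equivFin α c < Fintype.equivFin α d then e c d + e d c else 0) +
        (if c = d then e c c else 0)) =
      ((if Fintype.equivFin α c < Fintype.equivFin α d then e' c d + e' d c else 0) +
        (if c = d then e' c c else 0)) := by
    rw [hdiag c]
    by_cases h : Fintype.equivFin α c < Fintype.equivFin α d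
    · have hne : c ≠ d := fun hcd => by rw [hcd] at h; exact lt_irrefl _ h
      rw [if_pos h, if_pos h, hsym c d hne]
    · rw [if_neg h, if_neg h]
  rw [hx]

lemma Theta4_aux_symm {A' : Type v} [CommGroup A'] [Fintype α] (k1 : α → A')
    (k2 : α → α → A') (k3 : α → α → α → A') (hk : ∀ y c d, k3 y c d = k3 y d c)
    (e1 : α → ℕ) (e2 : α → α → ℕ) (e3 e3' : α → α → α → ℕ)
    (hdiag : ∀ y c, e3 y c c = e3' y c c)
    (hsym : ∀ y c d, c ≠ d → e3 y c d + e3 y d c = e3' y c d + e3' y d c) :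
    ∏ y, (k1 y ^ e1 y * (∏ c, k2 y c ^ e2 y c) * ∏ c, ∏ d, k3 y c d ^ e3 y c d) =
      ∏ y, (k1 y ^ e1 y * (∏ c, k2 y c ^ e2 y c) * ∏ c, ∏ d, k3 y c d ^ e3' y c d) := by
  refine Finset.prod_congr rfl (fun y _ => ?_)
  rw [Theta4_aux_pp_symm (k3 y) (hk y) (e3 y) (e3' y) (hdiag y) (hsym y)]

lemma Theta4_zero [Fintype α]
    (hM : ∀ a b : G, a ∈ commutator G → b ∈ commutator G → a * b = b * a)
    (g : α → G) (x : α) :
    Theta4 hM g x (fun _ => 0) (fun _ _ => 0) (fun _ _ _ => 0) = 1 := by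
  unfold Theta4
  let := cgA hM
  exact congrArg Subtype.val (Theta4_aux_zero (Nil3.kap1 g x)
    (fun y c => Dm (g c) (Nil3.kap1 g x y))
    (fun y c d => Dm (g c) (Dm (g d) (Nil3.kap1 g x y))))

lemma Theta4_add [Fintype α]
    (hM : ∀ a b : G, a ∈ commutator G → b ∈ commutator G → a * b = b * a)
    (g : α → G) (x : α) (e1 f1 : α → ℕ) (e2 f2 : α → α → ℕ) (e3 f3 : α → α → α → ℕ) :
    Theta4 hM g x (fun y => e1 y + f1 y) (fun y c => e2 y c + f2 y c)
        (fun y c d => e3 y c d + f3 y c d) =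
      Theta4 hM g x e1 e2 e3 * Theta4 hM g x f1 f2 f3 := by
  unfold Theta4
  let := cgA hM
  exact congrArg Subtype.val (Theta4_aux_add (Nil3.kap1 g x)
    (fun y c => Dm (g c) (Nil3.kap1 g x y))
    (fun y c d => Dm (g c) (Dm (g d) (Nil3.kap1 g x y))) e1 f1 e2 f2 e3 f3)

/-- The exponents only matter modulo the order of the group. -/
lemma Theta4_mod [Fintype α] [Fintype G]
    (hM : ∀ a b : G, a ∈ commutator G → b ∈ commutator G → a * b = b * a)
    (g : α → G) (x : α) (e1 : α → ℕ) (e2 : α → α → ℕ) (e3 : α → α → α → ℕ) :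
    Theta4 hM g x e1 e2 e3 =
      Theta4 hM g x (fun y => ((e1 y : ℕ) : ZMod (Fintype.card G)).val)
        (fun y c => ((e2 y c : ℕ) : ZMod (Fintype.card G)).val)
        (fun y c d => ((e3 y c d : ℕ) : ZMod (Fintype.card G)).val) := by
  unfold Theta4
  let := cgA hM
  exact congrArg Subtype.val (Theta4_aux_congr (Nil3.kap1 g x)
    (fun y c => Dm (g c) (Nil3.kap1 g x y))
    (fun y c d => Dm (g c) (Dm (g d) (Nil3.kap1 g x y))) _ _ _ _ _ _
    (fun y => (Nil3.Theta_aux_pow (Nil3.kap1 g x y) (e1 y)).symm)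
    (fun y c => (Nil3.Theta_aux_pow (Dm (g c) (Nil3.kap1 g x y)) (e2 y c)).symm)
    (fun y c d =>
      (Nil3.Theta_aux_pow (Dm (g c) (Dm (g d) (Nil3.kap1 g x y))) (e3 y c d)).symm))

/-- A product concentrated at one letter `y'`. -/
lemma Theta4_single [Fintype α]
    (hM : ∀ a b : G, a ∈ commutator G → b ∈ commutator G → a * b = b * a)
    (g : α → G) (x : α) (y' : α) (n : ℕ) (i2 : α → ℕ) (i3 : α → α → ℕ) :
    Theta4 hM g x (fun y => if y' = y then n else 0) (fun y c => if y' = y then i2 c else 0)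
        (fun y c d => if y' = y then i3 c d else 0) =
      letI := cgA hM
      ((Nil3.kap1 g x y' ^ n * (∏ c, Dm (g c) (Nil3.kap1 g x y') ^ i2 c) *
        ∏ c, ∏ d, Dm (g c) (Dm (g d) (Nil3.kap1 g x y')) ^ i3 c d : commutator G) : G) := by
  unfold Theta4
  let := cgA hM
  exact congrArg Subtype.val (Theta4_aux_single (Nil3.kap1 g x)
    (fun y c => Dm (g c) (Nil3.kap1 g x y))
    (fun y c d => Dm (g c) (Dm (g d) (Nil3.kap1 g x y))) y' n i2 i3)

/-- When the commutator maps commute, only the diagonal exponents of weight four and the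
sums of the exponents at `c, d` and at `d, c` matter. -/
lemma Theta4_symm [Fintype α]
    (hM : ∀ a b : G, a ∈ commutator G → b ∈ commutator G → a * b = b * a)
    (g : α → G) (x : α)
    (hcomm : ∀ (s t : G) (a : commutator G), Dm s (Dm t a) = Dm t (Dm s a))
    (e1 : α → ℕ) (e2 : α → α → ℕ) (e3 e3' : α → α → α → ℕ)
    (hdiag : ∀ y c, e3 y c c = e3' y c c)
    (hsym : ∀ y c d, c ≠ d → e3 y c d + e3 y d c = e3' y c d + e3' y d c) :
    Theta4 hM g x e1 e2 e3 = Theta4 hM g x e1 e2 e3' := by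
  unfold Theta4
  let := cgA hM
  exact congrArg Subtype.val (Theta4_aux_symm (Nil3.kap1 g x)
    (fun y c => Dm (g c) (Nil3.kap1 g x y))
    (fun y c d => Dm (g c) (Dm (g d) (Nil3.kap1 g x y)))
    (fun y c d => hcomm (g c) (g d) (Nil3.kap1 g x y)) e1 e2 e3 e3' hdiag hsym)

end M4

end Vale.Agent.Lib.P329
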