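import Vale.Agent.Lib.P329.M4Base
import Vale.Agent.Lib.P329.M4Abs
import Vale.Agent.Lib.P329.M4Theta
import Vale.Agent.Lib.P329.M4Count

/-!
The correction contributed by one letter, in a group of class at most four with abelian
commutator subgroup, as a product of powers of commutators.
-/

namespace Vale.Agent.Lib.P329

universe u v

open Classical

namespace M4

open scoped commutatorElement

open _root_.Vale.Agent.Lib.P329.Sub

variable {α : Type u} {G : Type v} [Group G]

/-- Conjugation by the product of the images of the letters of a list. -/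
lemma cj_list (g : α → G) (l : List α) (a : commutator G) :
    (l.map g).prod * (a : G) * ((l.map g).prod)⁻¹ =
      ((cjL (fun c => Dm (g c)) l a : commutator G) : G) := by
  induction l with
  | nil =>
    show ([] : List G).prod * (a : G) * (([] : List G).prod)⁻¹ = (a : G)
    rw [List.prod_nil, one_mul, inv_one, mul_one]
  | cons c l ih =>
    have h1 : ((c :: l).map g).prod * (a : G) * (((c :: l).map g).prod)⁻¹
        = g c * ((l.map g).prod * (a : G) * ((l.map g).prod)⁻¹) * (g c)⁻¹ := by
      rw [List.map_cons, List.prod_cons, mul_inv_rev]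
      group
    rw [h1, ih, cj_val (g c) (cjL (fun c => Dm (g c)) l a)]
    rfl

/-- The exponents of weight three after erasing the letter `x`. -/
lemma tEq_e2 (x : α) (w : List α) (c : α) :
    (if c = x then (w.count x).choose 2 else 0)
      + w.count x * (w.filter (fun z => z ≠ x)).count c = inc2 x w c := by
  rw [count_filter_ne]
  unfold inc2
  by_cases hc : c = x
  · simp [hc]
  · simp [hc]

/-- The exponents of weight four after erasing the letter `x`. -/
lemma tEq_e3 (x : α) (w : List α) (c d : α) :
    (if d = x then (if c = x then (w.count x).choose 3 else 0)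
        + (w.count x).choose 2 * (w.filter (fun z => z ≠ x)).count c else 0)
      + w.count x * SC [c, d] (w.filter (fun z => z ≠ x)) = inc3 x w c d := by
  rw [count_filter_ne, SC2_filter_ne]
  unfold inc3
  by_cases hd : d = x
  · by_cases hc : c = x
    · simp [hc, hd]
    · simp [hc, hd]
  · by_cases hc : c = x
    · simp [hc, hd]
    · simp [hc, hd]

/-- The iterated conjugate of the commutator of a power, in closed form. -/
lemma tEq_abs [Fintype α] (hG : (⊤ : Subgroup G).lowerCentralSeries 4 = ⊥)
    (hM : ∀ a b : G, a ∈ commutator G → b ∈ commutator G → a * b = b * a)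
    (g : α → G) (x : α) (w : List α) (k1 : commutator G) :
    ((cjL (fun c => Dm (g c)) (w.filter (fun z => z ≠ x))
        (k1 ^ w.count x * Dm (g x) k1 ^ (w.count x).choose 2
          * Dm (g x) (Dm (g x) k1) ^ (w.count x).choose 3) : commutator G) : G) =
      (letI := cgA hM
       ((k1 ^ w.count x * (∏ c, Dm (g c) k1 ^ inc2 x w c) *
        ∏ c, ∏ d, Dm (g c) (Dm (g d) k1) ^ inc3 x w c d : commutator G) : G)) := by
  let _ := cgA hM
  have h := T_abs (A := commutator G) (fun c => Dm (g c))
    (fun c a b => Dm_mul hM (g c) a b) (fun c d a => Dm_comm hM (g c) (g d) a)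
    (fun c d e a => Dm_triple hG (g c) (g d) (g e) a) x (w.filter (fun z => z ≠ x)) k1
    (w.count x) ((w.count x).choose 2) ((w.count x).choose 3)
  simp only [tEq_e2, tEq_e3] at h
  exact congrArg Subtype.val h

/-- The correction contributed by one letter, as a product of powers of commutators. -/
lemma T_eq [Fintype α] (hG : (⊤ : Subgroup G).lowerCentralSeries 4 = ⊥)
    (hM : ∀ a b : G, a ∈ commutator G → b ∈ commutator G → a * b = b * a)
    (g : α → G) (x : α) (w : List α) (y' : α) :
    Nil3.T g x w y' = Theta4 hM g x (fun y => if y' = y then w.count x else 0)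
      (fun y c => if y' = y then inc2 x w c else 0)
      (fun y c d => if y' = y then inc3 x w c d else 0) := by
  rw [Theta4_single hM g x y' (w.count x) (inc2 x w) (inc3 x w)]
  by_cases hy : y' = x
  · subst hy
    have hT : Nil3.T g y' w y' = 1 := by
      unfold Nil3.T
      rw [if_pos rfl]
    rw [hT, kap1_self]
    let _ := cgA hM
    simp only [Dm_one, one_pow, Finset.prod_const_one, mul_one, OneMemClass.coe_one]
  · have hk := tEq_abs hG hM g x w (Nil3.kap1 g x y')
    have hu : ⁅g x ^ w.count x, g y'⁆ =
        ((Nil3.kap1 g x y' ^ w.count x * Dm (g x) (Nil3.kap1 g x y') ^ (w.count x).choose 2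
          * Dm (g x) (Dm (g x) (Nil3.kap1 g x y')) ^ (w.count x).choose 3 : commutator G) : G) := by
      rw [Nil4.comm_pow4 hG (g x) (g y') (w.count x)]
      rfl
    have hcj := cj_list g (w.filter (fun z => z ≠ x))
      (Nil3.kap1 g x y' ^ w.count x * Dm (g x) (Nil3.kap1 g x y') ^ (w.count x).choose 2
        * Dm (g x) (Dm (g x) (Nil3.kap1 g x y')) ^ (w.count x).choose 3)
    have hconj : ∀ (h u : G), ⁅h, u⁆ * u = h * u * h⁻¹ := by
      intro h u
      rw [commutatorElement_def, inv_mul_cancel_right]
    have hT : Nil3.T g x w y' =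
        ((w.filter (fun z => z ≠ x)).map g).prod * ⁅g x ^ w.count x, g y'⁆
          * (((w.filter (fun z => z ≠ x)).map g).prod)⁻¹ := by
      unfold Nil3.T
      rw [if_neg hy, hconj]
      rfl
    rw [hT, hu, hcj]
    exact hk

end M4

end Vale.Agent.Lib.P329
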