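import Vale.Agent.Lib.P329.Count
import Mathlib.GroupTheory.OrderOfElement
import Mathlib.Data.ZMod.Basic
import Mathlib.Algebra.Group.Subgroup.Basic

/-!
Morphisms into a finite group sending all letters but one into an abelian normal subgroup:
every recognized language has generalized star height at most one.
-/

namespace Vale.Agent.Lib.P329

universe u v

open Classical

namespace Metab

open OneLoop Count

variable {α : Type u}

/-- The automaton counting the occurrences of the letter `b` modulo `d`. -/
noncomputable def ctr (b : α) (d : ℕ) (S : Set (ZMod d)) : DFA α (ZMod d) :=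
  ⟨fun q x => if x = b then q + 1 else q, 0, S⟩

lemma evalFrom_ctr (b : α) (d : ℕ) (S : Set (ZMod d)) : ∀ (w : List α) (q : ZMod d),
    (ctr b d S).evalFrom q w = q + (w.count b : ZMod d) := by
  intro w
  induction w with
  | nil => intro q; simp
  | cons x w ih =>
    intro q
    rw [DFA.evalFrom_cons, ih]
    by_cases hx : x = b
    · subst hx
      simp [ctr]; ring
    · have : (x == b) = false := by simpa using hx
      simp [ctr, hx, List.count_cons, this]

lemma val_add_one {d : ℕ} [NeZero d] (z : ZMod d) (hz : z + 1 ≠ 0) : (z + 1).val = z.val + 1 := by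
  have h1 := ZMod.val_lt z
  have h2 := ZMod.val_add z 1
  rw [ZMod.val_one_eq_one_mod] at h2
  by_cases hd : d = 1
  · subst hd
    exact (hz (Subsingleton.elim _ _)).elim
  · have hd0 : d ≠ 0 := NeZero.ne d
    have h3 : 1 % d = 1 := Nat.mod_eq_of_lt (by omega)
    rw [h3] at h2
    by_cases h4 : z.val + 1 < d
    · rw [h2, Nat.mod_eq_of_lt h4]
    · have h5 : z.val + 1 = d := by omega
      rw [h5, Nat.mod_self] at h2
      exact (hz ((ZMod.val_eq_zero _).mp h2)).elim

lemma ctr_hyp (b : α) (d : ℕ) [NeZero d] (S : Set (ZMod d)) (j : ZMod d) :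
    ∀ q x, q ≠ j → (ctr b d S).step q x = j ∨ (ctr b d S).step q x = q ∨
      (q - j).val < ((ctr b d S).step q x - j).val := by
  intro q x hq
  by_cases hx : x = b
  · have hs : (ctr b d S).step q x = q + 1 := by simp [ctr, hx]
    rw [hs]
    by_cases h1 : q + 1 = j
    · exact Or.inl h1
    · right; right
      have h2 : q + 1 - j = (q - j) + 1 := by ring
      rw [h2, val_add_one]
      · omega
      · intro h3
        apply h1
        have : q + 1 - j = 0 := by rw [h2]; exact h3
        exact sub_eq_zero.mp this
  · right; left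
    simp [ctr, hx]

/-- The number of occurrences of `a` in `w` preceded by a number of `b`'s congruent to `j`. -/
noncomputable def cnt (b : α) (d : ℕ) (a : α) (j : ZMod d) (w : List α) : ℕ :=
  visits (ctr b d Set.univ) j (fun x => x = a ∧ x ≠ b) 0 w

lemma cnt_append_singleton (b : α) (d : ℕ) (a : α) (j : ZMod d) (w : List α) (x : α) :
    cnt b d a j (w ++ [x]) =
      cnt b d a j w + if ((w.count b : ZMod d) = j ∧ (x = a ∧ x ≠ b)) then 1 else 0 := by
  simp only [cnt, visits_append, evalFrom_ctr, zero_add, visits, add_zero]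

lemma exists_regex_cnt [Fintype α] (b : α) (d : ℕ) [NeZero d] (a : α) (j : ZMod d) (N k : ℕ)
    (hk : k < N) :
    ∃ e : GRegex α, e.starHeight ≤ 1 ∧ e.lang = {w | cnt b d a j w % N = k} :=
  exists_regex_visits (ctr b d Set.univ) j (fun q => (q - j).val) (ctr_hyp b d Set.univ j)
    (fun x => x = a ∧ x ≠ b) (fun x hx => by simp [ctr, hx.2]) N k hk 0

lemma exists_regex_count [Fintype α] (b : α) (d : ℕ) [NeZero d] (m : ZMod d) :
    ∃ e : GRegex α, e.starHeight ≤ 1 ∧ e.lang = {w : List α | (w.count b : ZMod d) = m} := by
  obtain ⟨e, he, hl⟩ := exists_regex_acceptsFrom (ctr b d {m}) 0 (fun q => (q - 0).val)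
    (ctr_hyp b d {m} 0) 0
  refine ⟨e, he, ?_⟩
  rw [hl]
  ext w
  rw [DFA.mem_acceptsFrom, evalFrom_ctr, zero_add]
  rfl

/-! ### the group computation -/

section Group

variable {G : Type v} [Group G]

lemma prod_pow_update {ι : Type*} [DecidableEq ι] (f : ι → G) (hf : ∀ i j, Commute (f i) (f j)) (n : ι → ℕ)
    (i0 : ι) : ∀ (L : List ι), L.Nodup → i0 ∈ L →
    (L.map (fun i => f i ^ (n i + if i = i0 then 1 else 0))).prod =
      (L.map (fun i => f i ^ n i)).prod * f i0 := by
  intro L
  induction L with
  | nil => intro _ h; simp at h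
  | cons h t ih =>
    intro hnd hmem
    rw [List.nodup_cons] at hnd
    by_cases hh : h = i0
    · subst hh
      have htail : t.map (fun i => f i ^ (n i + if i = h then 1 else 0)) =
          t.map (fun i => f i ^ n i) := by
        apply List.map_congr_left
        intro i hi
        have : i ≠ h := fun e => hnd.1 (e ▸ hi)
        simp [this]
      rw [List.map_cons, List.prod_cons, htail, List.map_cons, List.prod_cons]
      simp only [if_true]
      have hc : Commute (f h) (t.map (fun i => f i ^ n i)).prod := by
        apply Commute.list_prod_right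
        intro x hx
        obtain ⟨i, -, rfl⟩ := List.mem_map.mp hx
        exact (hf h i).pow_right _
      rw [pow_succ, mul_assoc, hc.eq, mul_assoc]
    · have hmem' : i0 ∈ t := by
        rcases List.mem_cons.mp hmem with e | e
        · exact (hh e.symm).elim
        · exact e
      rw [List.map_cons, List.prod_cons, ih hnd.2 hmem', List.map_cons, List.prod_cons]
      simp [hh, mul_assoc]

variable [Fintype G] [Fintype α] (φ : α → G) (b : α) (d : ℕ) [NeZero d]

/-- The conjugate of `φ a` by the `j`-th power of `φ b` (and `1` if `a = b`). -/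
noncomputable def gA (ij : α × ZMod d) : G :=
  if ij.1 = b then 1 else φ b ^ ij.2.val * φ ij.1 * (φ b ^ ij.2.val)⁻¹

/-- The value of the morphism in terms of the counting invariants. -/
noncomputable def F (v : α × ZMod d → ℕ) (c : ℕ) : G :=
  ((Finset.univ : Finset (α × ZMod d)).toList.map
    (fun i => gA φ b d i ^ v i)).prod * φ b ^ c

lemma gA_comm (A : Subgroup G) [A.Normal] (hA : ∀ x ∈ A, ∀ y ∈ A, x * y = y * x)
    (hφ : ∀ a, a ≠ b → φ a ∈ A) : ∀ i j, Commute (gA φ b d i) (gA φ b d j) := by
  have hmem : ∀ i, gA φ b d i ∈ A := by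
    intro i
    unfold gA
    split_ifs with h
    · exact A.one_mem
    · exact Subgroup.Normal.conj_mem inferInstance _ (hφ _ h) _
  intro i j
  exact hA _ (hmem i) _ (hmem j)

lemma formula (hd : φ b ^ d = 1) (A : Subgroup G) [A.Normal]
    (hA : ∀ x ∈ A, ∀ y ∈ A, x * y = y * x)
    (hφ : ∀ a, a ≠ b → φ a ∈ A) (w : List α) :
    (w.map φ).prod = F φ b d (fun i => cnt b d i.1 i.2 w) (w.count b) := by
  induction w using List.reverseRecOn with
  | nil =>
    have h0 : ∀ i : α × ZMod d, cnt b d i.1 i.2 [] = 0 :=
      fun i => rfl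
    simp [F, h0]
  | append_singleton w x ih =>
    rw [List.map_append, List.prod_append, ih]
    simp only [List.map_cons, List.map_nil, List.prod_cons, List.prod_nil, mul_one]
    by_cases hx : x = b
    · subst hx
      have h1 : ∀ i : α × ZMod d, cnt x d i.1 i.2 (w ++ [x]) =
          cnt x d i.1 i.2 w := by
        intro i
        rw [cnt_append_singleton]
        simp
      simp only [F, h1, List.count_append, List.count_singleton_self, pow_succ, mul_assoc]
    · have h1 : ∀ i : α × ZMod d, cnt b d i.1 i.2 (w ++ [x]) =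
          cnt b d i.1 i.2 w +
            if i = (x, (w.count b : ZMod d)) then 1 else 0 := by
        intro i
        rw [cnt_append_singleton]
        congr 1
        have : ((w.count b : ZMod d) = i.2 ∧ x = i.1 ∧ x ≠ b) ↔
            i = (x, (w.count b : ZMod d)) := by
          constructor
          · rintro ⟨e1, e2, -⟩
            exact Prod.ext e2.symm e1.symm
          · rintro rfl
            exact ⟨rfl, rfl, hx⟩
        simp only [this]
      have hcount : (w ++ [x]).count b = w.count b := by
        simp [List.count_append, hx]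
      simp only [F, h1, hcount]
      rw [prod_pow_update (gA φ b d) (gA_comm φ b d A hA hφ)
        (fun i : α × ZMod d => cnt b d i.1 i.2 w) (x, (w.count b : ZMod d))
        (Finset.univ : Finset (α × ZMod d)).toList (Finset.nodup_toList _)
        (Finset.mem_toList.mpr (Finset.mem_univ _))]
      have hg : gA φ b d (x, (w.count b : ZMod d)) =
          φ b ^ (w.count b) * φ x * (φ b ^ (w.count b))⁻¹ := by
        unfold gA
        rw [if_neg hx]
        simp only
        rw [ZMod.val_natCast, ← pow_eq_pow_mod _ hd]
      rw [hg]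
      group

lemma F_mod (hd : φ b ^ d = 1) (v : α × ZMod d → ℕ) (c : ℕ) :
    F φ b d v c = F φ b d (fun i => v i % Fintype.card G) (c % d) := by
  unfold F
  rw [← pow_eq_pow_mod _ hd]
  congr 2
  apply List.map_congr_left
  intro i _
  exact (pow_mod_card _ _).symm

end Group

theorem main {G : Type v} [Group G] [Fintype G] [Fintype α] (φ : α → G) (b : α)
    (A : Subgroup G) [A.Normal] (hA : ∀ x ∈ A, ∀ y ∈ A, x * y = y * x)
    (hφ : ∀ a, a ≠ b → φ a ∈ A) (P : Set G) :
    ∃ e : GRegex α, e.starHeight ≤ 1 ∧ e.lang = {w : List α | (w.map φ).prod ∈ P} := by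
  have hN : 0 < Fintype.card G := Fintype.card_pos
  obtain ⟨d, hd0, hd⟩ : ∃ d : ℕ, 0 < d ∧ φ b ^ d = 1 :=
    ⟨orderOf (φ b), orderOf_pos _, pow_orderOf_eq_one _⟩
  have : NeZero d := ⟨hd0.ne'⟩
  choose E1 hE1 hE1' using fun (i : α × ZMod d) (k : Fin (Fintype.card G)) =>
    exists_regex_cnt b d i.1 i.2 (Fintype.card G) k k.2
  choose E2 hE2 hE2' using fun (m : ZMod d) =>
    exists_regex_count (α := α) b d m
  refine ⟨GRegex.sumOver (fun vm : (α × ZMod d → Fin (Fintype.card G)) × ZMod d =>
    if F φ b d (fun i => (vm.1 i : ℕ)) vm.2.val ∈ P then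
      GRegex.inter (GRegex.interOver (fun i => E1 i (vm.1 i))) (E2 vm.2)
    else GRegex.zero), ?_, ?_⟩
  · apply GRegex.starHeight_sumOver_le
    intro vm
    split_ifs
    · rw [GRegex.starHeight_inter]
      exact max_le (GRegex.starHeight_interOver_le _ 1 (fun i => hE1 i _)) (hE2 _)
    · simp [GRegex.starHeight]
  · ext w
    rw [GRegex.mem_lang_sumOver]
    show _ ↔ (w.map φ).prod ∈ P
    have hform := formula φ b d hd A hA hφ w
    rw [F_mod φ b d hd] at hform
    constructor
    · rintro ⟨vm, hvm⟩
      by_cases hP : F φ b d (fun i => (vm.1 i : ℕ)) vm.2.val ∈ P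
      · rw [if_pos hP, GRegex.mem_lang_inter, GRegex.mem_lang_interOver] at hvm
        obtain ⟨h1, h2⟩ := hvm
        have h1' : ∀ i, cnt b d i.1 i.2 w % Fintype.card G = (vm.1 i : ℕ) := by
          intro i
          have := h1 i
          rw [hE1'] at this
          exact this
        have h2' : (w.count b : ZMod d) = vm.2 := by
          have := h2
          rw [hE2'] at this
          exact this
        rw [hform]
        have e1 : (fun i : α × ZMod d =>
            cnt b d i.1 i.2 w % Fintype.card G) = fun i => (vm.1 i : ℕ) :=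
          funext h1'
        have e2 : w.count b % d = vm.2.val := by
          rw [← h2', ZMod.val_natCast]
        rw [e1, e2]
        exact hP
      · rw [if_neg hP] at hvm; exact hvm.elim
    · intro hw
      refine ⟨(fun i => ⟨cnt b d i.1 i.2 w % Fintype.card G, Nat.mod_lt _ hN⟩,
        (w.count b : ZMod d)), ?_⟩
      have hP : F φ b d (fun i => cnt b d i.1 i.2 w % Fintype.card G)
          ((w.count b : ZMod d).val) ∈ P := by
        rw [ZMod.val_natCast, ← hform]
        exact hw
      rw [if_pos hP, GRegex.mem_lang_inter, GRegex.mem_lang_interOver]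
      refine ⟨fun i => ?_, ?_⟩
      · rw [hE1']
        rfl
      · rw [hE2']
        rfl

end Metab

end Vale.Agent.Lib.P329
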