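import Vale.Agent.Lib.P329.Nil3TEq

/-!
The correction term of a word, in a group of class at most three, is a product of powers of
commutators whose exponents are numbers of scattered subwords of length at most three.
-/

namespace Vale.Agent.Lib.P329

universe u v

open Classical

namespace Nil3

open scoped commutatorElement

open _root_.Vale.Agent.Lib.P329.Sub

variable {α : Type u} {G : Type v} [Group G]

private lemma nil3c_choose (n S : ℕ) (h : 2 * S + n = n * n) : S = n.choose 2 := by
  rw [Nat.choose_two_right]
  have h2 : n * (n - 1) = 2 * S := by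
    rw [Nat.mul_sub_one]
    omega
  rw [h2, Nat.mul_div_cancel_left _ (by norm_num : 0 < 2)]

private lemma nil3c_sc2_self (x : α) (w : List α) : SC [x, x] w = (w.count x).choose 2 :=
  nil3c_choose (w.count x) (SC [x, x] w) (id2' x w)

private lemma nil3c_sc2_pair (x c : α) (hxc : x ≠ c) (w : List α) :
    SC [x, c] w + SC [c, x] w = w.count x * w.count c := by
  rw [id2 c x]
  exact id2_rev x c hxc w

private lemma nil3c_e1 (x : α) (w : List α) (y b : α) :
    SC [x, b] (w ++ [y]) = SC [x, b] w + (if y = b then w.count x else 0) := by
  rw [SC2_concat, SC1_eq]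

private lemma nil3c_e2 (x : α) (w : List α) (y b : α) :
    SC [x, x, b] (w ++ [y]) = SC [x, x, b] w + (if y = b then (w.count x).choose 2 else 0) := by
  rw [SC3_concat, nil3c_sc2_self]

private lemma nil3c_e3 (x : α) (w : List α) (y b c : α) :
    (if c = x then 0 else SC [x, c, b] (w ++ [y]) + SC [c, x, b] (w ++ [y])) =
      (if c = x then 0 else SC [x, c, b] w + SC [c, x, b] w) +
        (if y = b then (if c = x then 0 else w.count x * w.count c) else 0) := by
  by_cases hc : c = x
  · rw [if_pos hc, if_pos hc, if_pos hc]
    by_cases hy : y = b
    · rw [if_pos hy]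
    · rw [if_neg hy]
  · rw [if_neg hc, if_neg hc, if_neg hc, SC3_concat, SC3_concat]
    have hxc : x ≠ c := fun h => hc h.symm
    have hp := nil3c_sc2_pair x c hxc w
    by_cases hy : y = b
    · rw [if_pos hy, if_pos hy, if_pos hy]
      omega
    · rw [if_neg hy, if_neg hy, if_neg hy]
      omega

/-- **Closed form of the correction term.** -/
theorem K_closed [Fintype α] (hG : (⊤ : Subgroup G).lowerCentralSeries 3 = ⊥)
    (g : α → G) (x : α) (w : List α) :
    K g x [] w = Theta hG g x (fun b => SC [x, b] w) (fun b => SC [x, x, b] w)
      (fun b c => if c = x then 0 else SC [x, c, b] w + SC [c, x, b] w) := by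
  induction w using List.reverseRecOn with
  | nil =>
    have h1 : (fun b => SC [x, b] ([] : List α)) = fun _ => 0 := by
      funext b
      exact SC2_empty x b
    have h2 : (fun b => SC [x, x, b] ([] : List α)) = fun _ => 0 := by
      funext b
      exact SC3_empty x x b
    have h3 : (fun b c => if c = x then 0 else SC [x, c, b] ([] : List α) + SC [c, x, b] [])
        = fun _ _ => 0 := by
      funext b c
      rw [SC3_empty, SC3_empty, ite_self]
    rw [h1, h2, h3, Theta_zero]
    rfl
  | append_singleton w y ih =>
    rw [K_concat, ih, T_eq hG g x w y, ← Theta_add]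
    have h1 : (fun b => SC [x, b] (w ++ [y]))
        = fun b => SC [x, b] w + (if y = b then w.count x else 0) := by
      funext b
      exact nil3c_e1 x w y b
    have h2 : (fun b => SC [x, x, b] (w ++ [y]))
        = fun b => SC [x, x, b] w + (if y = b then (w.count x).choose 2 else 0) := by
      funext b
      exact nil3c_e2 x w y b
    have h3 : (fun b c => if c = x then 0 else SC [x, c, b] (w ++ [y]) + SC [c, x, b] (w ++ [y]))
        = fun b c => (if c = x then 0 else SC [x, c, b] w + SC [c, x, b] w) +
          (if y = b then (if c = x then 0 else w.count x * w.count c) else 0) := by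
      funext b c
      exact nil3c_e3 x w y b c
    rw [h1, h2, h3]

end Nil3

end Vale.Agent.Lib.P329
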