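import Vale.Agent.Lib.P329.Subword
import Mathlib.GroupTheory.Nilpotent

/-!
Erasing one letter: in any group, the product of the images of the letters of a word equals a
correction term times the product over the word with the letter `x` erased times a power of
the image of `x`.
-/

namespace Vale.Agent.Lib.P329

universe u v

open Classical

namespace Nil3

open scoped commutatorElement

variable {α : Type u} {G : Type v} [Group G]

/-- The product of the images of the letters of `w` other than `x`. -/
noncomputable def H (g : α → G) (x : α) (w : List α) : G :=
  ((w.filter (fun y => y ≠ x)).map g).prod

/-- The correction contributed by the letter `y` read after the initial segment `p`. -/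
noncomputable def T (g : α → G) (x : α) (p : List α) (y : α) : G :=
  if y = x then 1 else ⁅H g x p, ⁅g x ^ p.count x, g y⁆⁆ * ⁅g x ^ p.count x, g y⁆

/-- The correction term of the word `w` read after the initial segment `p`. -/
noncomputable def K (g : α → G) (x : α) : List α → List α → G
  | _, [] => 1
  | p, y :: w => T g x p y * K g x (p ++ [y]) w

lemma K_append (g : α → G) (x : α) : ∀ (s t p : List α),
    K g x p (s ++ t) = K g x p s * K g x (p ++ s) t := by
  intro s
  induction s with
  | nil => intro t p; simp [K]
  | cons y s ih =>
    intro t p
    simp only [List.cons_append, K, ih, mul_assoc]
    simp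

lemma K_concat (g : α → G) (x : α) (w : List α) (y : α) :
    K g x [] (w ++ [y]) = K g x [] w * T g x w y := by
  rw [K_append]
  simp [K]

lemma H_nil (g : α → G) (x : α) : H g x [] = 1 := by simp [H]

lemma H_concat_self (g : α → G) (x : α) (w : List α) : H g x (w ++ [x]) = H g x w := by
  simp [H, List.filter_append]

lemma H_concat_ne (g : α → G) (x : α) (w : List α) (y : α) (hy : y ≠ x) :
    H g x (w ++ [y]) = H g x w * g y := by
  simp [H, List.filter_append, hy]

/-- **Erasing the letter `x`.** -/
theorem decomp (g : α → G) (x : α) (w : List α) :
    (w.map g).prod = K g x [] w * H g x w * g x ^ w.count x := by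
  induction w using List.reverseRecOn with
  | nil => simp [K, H]
  | append_singleton w y ih =>
    rw [List.map_append, List.prod_append, ih, K_concat]
    simp only [List.map_cons, List.map_nil, List.prod_cons, List.prod_nil, mul_one]
    by_cases hy : y = x
    · subst hy
      rw [H_concat_self, T, if_pos rfl, mul_one, List.count_append, List.count_singleton_self,
        pow_succ]
      simp only [mul_assoc]
    · rw [H_concat_ne g x w y hy, T, if_neg hy, List.count_append]
      have h0 : List.count x [y] = 0 := by
        rw [List.count_singleton]
        simp [hy]
      rw [h0, add_zero]
      simp only [commutatorElement_def]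
      group

end Nil3

end Vale.Agent.Lib.P329
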