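import Vale.Agent.Lib.P329.Nil3Calc
import Vale.Agent.Lib.P329.Nil3Decomp

/-!
Products of powers of commutators in a group of class at most three, and the correction
term of one letter as such a product.
-/

namespace Vale.Agent.Lib.P329

universe u v

open Classical

namespace Nil3

open scoped commutatorElement

variable {α : Type u} {G : Type v} [Group G]

/-- The commutator subgroup of a group of class at most three, as a commutative group. -/
@[reducible] noncomputable def commGroupA (hG : (⊤ : Subgroup G).lowerCentralSeries 3 = ⊥) :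
    CommGroup (commutator G) :=
  { (inferInstance : Group (commutator G)) with
    mul_comm := fun a b => Subtype.ext (comm_comm hG a.1 b.1 a.2 b.2) }

/-- The commutator of the images of `x` and `b`. -/
def kap1 (g : α → G) (x b : α) : commutator G :=
  ⟨⁅g x, g b⁆, Subgroup.commutator_mem_commutator (Subgroup.mem_top _) (Subgroup.mem_top _)⟩

/-- The commutator of the image of `x` with `kap1`. -/
def kap2 (g : α → G) (x b : α) : commutator G :=
  ⟨⁅g x, ⁅g x, g b⁆⁆, Subgroup.commutator_mem_commutator (Subgroup.mem_top _)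
    (Subgroup.mem_top _)⟩

/-- The commutator of the image of `c` with `kap1`. -/
def kap3 (g : α → G) (x b c : α) : commutator G :=
  ⟨⁅g c, ⁅g x, g b⁆⁆, Subgroup.commutator_mem_commutator (Subgroup.mem_top _)
    (Subgroup.mem_top _)⟩

/-- The product of powers of the commutators with the given exponents. -/
noncomputable def Theta [Fintype α] (hG : (⊤ : Subgroup G).lowerCentralSeries 3 = ⊥)
    (g : α → G) (x : α) (e1 e2 : α → ℕ) (e3 : α → α → ℕ) : G :=
  letI := commGroupA hG
  ((∏ b, (kap1 g x b ^ e1 b * kap2 g x b ^ e2 b * ∏ c, kap3 g x b c ^ e3 b c) :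
    commutator G) : G)

lemma Theta_aux_zero {A : Type v} [CommGroup A] [Fintype α] (k1 k2 : α → A)
    (k3 : α → α → A) :
    ∏ b, (k1 b ^ (0 : ℕ) * k2 b ^ (0 : ℕ) * ∏ c, k3 b c ^ (0 : ℕ)) = 1 := by
  simp only [pow_zero, Finset.prod_const_one, mul_one]

lemma Theta_aux_add {A : Type v} [CommGroup A] [Fintype α] (k1 k2 : α → A)
    (k3 : α → α → A) (e1 e1' e2 e2' : α → ℕ) (e3 e3' : α → α → ℕ) :
    ∏ b, (k1 b ^ (e1 b + e1' b) * k2 b ^ (e2 b + e2' b) *
        ∏ c, k3 b c ^ (e3 b c + e3' b c)) =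
      (∏ b, (k1 b ^ e1 b * k2 b ^ e2 b * ∏ c, k3 b c ^ e3 b c)) *
        ∏ b, (k1 b ^ e1' b * k2 b ^ e2' b * ∏ c, k3 b c ^ e3' b c) := by
  rw [← Finset.prod_mul_distrib]
  refine Finset.prod_congr rfl (fun b _ => ?_)
  have h : ∏ c, k3 b c ^ (e3 b c + e3' b c) =
      (∏ c, k3 b c ^ e3 b c) * ∏ c, k3 b c ^ e3' b c := by
    rw [← Finset.prod_mul_distrib]
    exact Finset.prod_congr rfl (fun c _ => pow_add _ _ _)
  rw [h, pow_add, pow_add, mul_mul_mul_comm (k1 b ^ e1 b), mul_mul_mul_comm]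

lemma Theta_aux_congr {A : Type v} [CommGroup A] [Fintype α] (k1 k2 : α → A)
    (k3 : α → α → A) (e1 e1' e2 e2' : α → ℕ) (e3 e3' : α → α → ℕ)
    (h1 : ∀ b, k1 b ^ e1 b = k1 b ^ e1' b) (h2 : ∀ b, k2 b ^ e2 b = k2 b ^ e2' b)
    (h3 : ∀ b c, k3 b c ^ e3 b c = k3 b c ^ e3' b c) :
    ∏ b, (k1 b ^ e1 b * k2 b ^ e2 b * ∏ c, k3 b c ^ e3 b c) =
      ∏ b, (k1 b ^ e1' b * k2 b ^ e2' b * ∏ c, k3 b c ^ e3' b c) := by
  refine Finset.prod_congr rfl (fun b _ => ?_)
  have h : ∏ c, k3 b c ^ e3 b c = ∏ c, k3 b c ^ e3' b c :=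
    Finset.prod_congr rfl (fun c _ => h3 b c)
  rw [h1 b, h2 b, h]

lemma Theta_aux_single {A : Type v} [CommGroup A] [Fintype α] (k1 k2 : α → A)
    (k3 : α → α → A) (y : α) (n m : ℕ) (e : α → ℕ) :
    ∏ b, (k1 b ^ (if y = b then n else 0) * k2 b ^ (if y = b then m else 0) *
        ∏ c, k3 b c ^ (if y = b then e c else 0)) =
      k1 y ^ n * k2 y ^ m * ∏ c, k3 y c ^ e c := by
  rw [Finset.prod_eq_single y]
  · simp only [if_true]
  · intro b _ hb
    have hyb : ¬ y = b := fun h => hb h.symm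
    simp only [if_neg hyb, pow_zero, Finset.prod_const_one, mul_one]
  · intro h
    exact absurd (Finset.mem_univ y) h

lemma Theta_aux_pow [Fintype G] (a : commutator G) (k : ℕ) :
    a ^ ((k : ZMod (Fintype.card G)).val) = a ^ k := by
  rw [ZMod.val_natCast]
  apply Subtype.ext
  rw [Subgroup.coe_pow, Subgroup.coe_pow]
  exact pow_mod_card (a : G) k

lemma Theta_zero [Fintype α] (hG : (⊤ : Subgroup G).lowerCentralSeries 3 = ⊥)
    (g : α → G) (x : α) :
    Theta hG g x (fun _ => 0) (fun _ => 0) (fun _ _ => 0) = 1 := by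
  unfold Theta
  let := commGroupA hG
  exact congrArg Subtype.val (Theta_aux_zero (kap1 g x) (kap2 g x) (kap3 g x))

lemma Theta_add [Fintype α] (hG : (⊤ : Subgroup G).lowerCentralSeries 3 = ⊥)
    (g : α → G) (x : α) (e1 e1' e2 e2' : α → ℕ) (e3 e3' : α → α → ℕ) :
    Theta hG g x (fun b => e1 b + e1' b) (fun b => e2 b + e2' b)
        (fun b c => e3 b c + e3' b c) =
      Theta hG g x e1 e2 e3 * Theta hG g x e1' e2' e3' := by
  unfold Theta
  let := commGroupA hG
  exact congrArg Subtype.val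
    (Theta_aux_add (kap1 g x) (kap2 g x) (kap3 g x) e1 e1' e2 e2' e3 e3')

/-- The exponents only matter modulo the order of the group. -/
lemma Theta_mod [Fintype α] [Fintype G] (hG : (⊤ : Subgroup G).lowerCentralSeries 3 = ⊥)
    (g : α → G) (x : α) (e1 e2 : α → ℕ) (e3 : α → α → ℕ) :
    Theta hG g x e1 e2 e3 =
      Theta hG g x (fun b => ((e1 b : ℕ) : ZMod (Fintype.card G)).val)
        (fun b => ((e2 b : ℕ) : ZMod (Fintype.card G)).val)
        (fun b c => ((e3 b c : ℕ) : ZMod (Fintype.card G)).val) := by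
  unfold Theta
  let := commGroupA hG
  exact congrArg Subtype.val
    (Theta_aux_congr (kap1 g x) (kap2 g x) (kap3 g x) _ _ _ _ _ _
      (fun b => (Theta_aux_pow (kap1 g x b) (e1 b)).symm)
      (fun b => (Theta_aux_pow (kap2 g x b) (e2 b)).symm)
      (fun b c => (Theta_aux_pow (kap3 g x b c) (e3 b c)).symm))

/-- A product concentrated at one letter `y`. -/
lemma Theta_single [Fintype α] (hG : (⊤ : Subgroup G).lowerCentralSeries 3 = ⊥)
    (g : α → G) (x : α) (y : α) (n m : ℕ) (e : α → ℕ) :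
    Theta hG g x (fun b => if y = b then n else 0) (fun b => if y = b then m else 0)
        (fun b c => if y = b then e c else 0) =
      letI := commGroupA hG
      ((kap1 g x y ^ n * kap2 g x y ^ m * ∏ c, kap3 g x y c ^ e c : commutator G) : G) := by
  unfold Theta
  let := commGroupA hG
  exact congrArg Subtype.val
    (Theta_aux_single (kap1 g x) (kap2 g x) (kap3 g x) y n m e)

end Nil3

end Vale.Agent.Lib.P329
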