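import Mathlib.GroupTheory.Nilpotent

/-!
Groups of nilpotency class at most four (the fifth term of the lower central series is
trivial): the fourth term is central, the second and third terms commute elementwise, and so
do six iterated commutators of two elements.
-/

namespace Vale.Agent.Lib.P329

universe v

namespace Nil4

open scoped commutatorElement

variable {G : Type v} [Group G]

/-- Commutators with an element of a term of the lower central series lie in the next term. -/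
lemma mem_lcs_succ (n : ℕ) (t c : G) (hc : c ∈ (⊤ : Subgroup G).lowerCentralSeries n) :
    ⁅t, c⁆ ∈ (⊤ : Subgroup G).lowerCentralSeries (n + 1) := by
  have h1 : ⁅t, c⁆ ∈ ⁅(⊤ : Subgroup G), (⊤ : Subgroup G).lowerCentralSeries n⁆ :=
    Subgroup.commutator_mem_commutator (Subgroup.mem_top t) hc
  rw [Subgroup.commutator_comm] at h1
  exact h1

/-- The fourth term of the lower central series is central. -/
lemma central4 (hG : (⊤ : Subgroup G).lowerCentralSeries 4 = ⊥) (c t : G)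
    (hc : c ∈ (⊤ : Subgroup G).lowerCentralSeries 3) : c * t = t * c := by
  have h1 : ⁅c, t⁆ ∈ ⁅(⊤ : Subgroup G).lowerCentralSeries 3, (⊤ : Subgroup G)⁆ :=
    Subgroup.commutator_mem_commutator hc (Subgroup.mem_top t)
  have h2 : ⁅(⊤ : Subgroup G).lowerCentralSeries 3, (⊤ : Subgroup G)⁆ = ⊥ := hG
  rw [h2, Subgroup.mem_bot] at h1
  exact commutatorElement_eq_one_iff_mul_comm.mp h1

/-- The second and the third term of the lower central series commute elementwise. -/
lemma comm23 (hG : (⊤ : Subgroup G).lowerCentralSeries 4 = ⊥) (a c : G)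
    (ha : a ∈ (⊤ : Subgroup G).lowerCentralSeries 1)
    (hc : c ∈ (⊤ : Subgroup G).lowerCentralSeries 2) : a * c = c * a := by
  have h2 : ⁅⁅(⊤ : Subgroup G).lowerCentralSeries 2, (⊤ : Subgroup G)⁆, (⊤ : Subgroup G)⁆
      = ⊥ := hG
  have h1 : ⁅⁅(⊤ : Subgroup G), (⊤ : Subgroup G).lowerCentralSeries 2⁆, (⊤ : Subgroup G)⁆
      = ⊥ := by
    rw [Subgroup.commutator_comm (⊤ : Subgroup G) ((⊤ : Subgroup G).lowerCentralSeries 2)]
    exact h2
  have h3 : ⁅⁅(⊤ : Subgroup G), (⊤ : Subgroup G)⁆, (⊤ : Subgroup G).lowerCentralSeries 2⁆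
      = ⊥ :=
    Subgroup.commutator_commutator_eq_bot_of_rotate h1 h2
  have ha' : a ∈ ⁅(⊤ : Subgroup G), (⊤ : Subgroup G)⁆ := ha
  have h4 : ⁅a, c⁆ ∈ ⁅⁅(⊤ : Subgroup G), (⊤ : Subgroup G)⁆,
      (⊤ : Subgroup G).lowerCentralSeries 2⁆ :=
    Subgroup.commutator_mem_commutator ha' hc
  rw [h3, Subgroup.mem_bot] at h4
  exact commutatorElement_eq_one_iff_mul_comm.mp h4

/-- The six iterated commutators of `X` and `Y` that govern the words in two letters. -/
def six (X Y : G) : Set G :=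
  {⁅X, Y⁆, ⁅Y, ⁅X, Y⁆⁆, ⁅Y, ⁅Y, ⁅X, Y⁆⁆⁆, ⁅X, ⁅X, Y⁆⁆, ⁅Y, ⁅X, ⁅X, Y⁆⁆⁆, ⁅X, ⁅X, ⁅X, Y⁆⁆⁆}

/-- The commutator of two elements lies in the second term. -/
lemma six_base (X Y : G) : ⁅X, Y⁆ ∈ (⊤ : Subgroup G).lowerCentralSeries 1 :=
  mem_lcs_succ 0 X Y (Subgroup.mem_top Y)

/-- The third term is contained in the second term. -/
lemma six_le (c : G) (hc : c ∈ (⊤ : Subgroup G).lowerCentralSeries 2) :
    c ∈ (⊤ : Subgroup G).lowerCentralSeries 1 :=
  (Subgroup.lowerCentralSeries_antitone (S := (⊤ : Subgroup G)) (Nat.le_succ 1)) hc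

/-- Each of the six commutators lies in the fourth term, or in the third term, or is the
commutator of the two elements. -/
lemma six_class (X Y : G) : ∀ a ∈ six X Y,
    a ∈ (⊤ : Subgroup G).lowerCentralSeries 3 ∨
      a ∈ (⊤ : Subgroup G).lowerCentralSeries 2 ∨ a = ⁅X, Y⁆ := by
  intro a ha
  have hu1 : ⁅X, Y⁆ ∈ (⊤ : Subgroup G).lowerCentralSeries 1 := six_base X Y
  have hY : ⁅Y, ⁅X, Y⁆⁆ ∈ (⊤ : Subgroup G).lowerCentralSeries 2 := mem_lcs_succ 1 Y _ hu1
  have hX : ⁅X, ⁅X, Y⁆⁆ ∈ (⊤ : Subgroup G).lowerCentralSeries 2 := mem_lcs_succ 1 X _ hu1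
  simp only [six, Set.mem_insert_iff, Set.mem_singleton_iff] at ha
  rcases ha with rfl | rfl | rfl | rfl | rfl | rfl
  · exact Or.inr (Or.inr rfl)
  · exact Or.inr (Or.inl hY)
  · exact Or.inl (mem_lcs_succ 2 Y _ hY)
  · exact Or.inr (Or.inl hX)
  · exact Or.inl (mem_lcs_succ 2 Y _ hX)
  · exact Or.inl (mem_lcs_succ 2 X _ hX)

/-- The six iterated commutators commute pairwise. -/
lemma six_comm (hG : (⊤ : Subgroup G).lowerCentralSeries 4 = ⊥) (X Y : G) :
    ∀ a ∈ six X Y, ∀ b ∈ six X Y, a * b = b * a := by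
  intro a ha b hb
  have hu1 : ⁅X, Y⁆ ∈ (⊤ : Subgroup G).lowerCentralSeries 1 := six_base X Y
  rcases six_class X Y a ha with h3a | h2a | rfl
  · exact central4 hG a b h3a
  · rcases six_class X Y b hb with h3b | h2b | rfl
    · exact (central4 hG b a h3b).symm
    · exact comm23 hG a b (six_le a h2a) h2b
    · exact (comm23 hG _ a hu1 h2a).symm
  · rcases six_class X Y b hb with h3b | h2b | rfl
    · exact (central4 hG b _ h3b).symm
    · exact comm23 hG _ b hu1 h2b
    · rfl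

end Nil4

end Vale.Agent.Lib.P329
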