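import Vale.Agent.Lib.P329.Nil3Decomp
import Vale.Agent.Lib.P329.Nil4Calc
import Vale.Agent.Lib.P329.Nil4Id

/-!
Words in two letters in a group of nilpotency class at most four: the correction term of the
erasure of one letter is a product of powers of six iterated commutators whose exponents are
numbers of scattered subwords of length at most four.
-/

namespace Vale.Agent.Lib.P329

universe u v

open Classical

namespace Nil4

open scoped commutatorElement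

open _root_.Vale.Agent.Lib.P329.Sub

variable {α : Type u} {G : Type v} [Group G]

/-- The product of powers of the six iterated commutators with the given exponents. -/
def Th (X Y : G) (e1 e2 e3 e4 e5 e6 : ℕ) : G :=
  ⁅X, Y⁆ ^ e1 * ⁅Y, ⁅X, Y⁆⁆ ^ e2 * ⁅Y, ⁅Y, ⁅X, Y⁆⁆⁆ ^ e3 * ⁅X, ⁅X, Y⁆⁆ ^ e4
    * ⁅Y, ⁅X, ⁅X, Y⁆⁆⁆ ^ e5 * ⁅X, ⁅X, ⁅X, Y⁆⁆⁆ ^ e6

lemma Th_zero (X Y : G) : Th X Y 0 0 0 0 0 0 = 1 := by
  simp [Th]

private lemma th_step {M : Type v} [Monoid M] (A B c : M) (e f : ℕ) (h : Commute c B) :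
    (A * c ^ e) * (B * c ^ f) = (A * B) * c ^ (e + f) := by
  rw [pow_add, mul_assoc A, ← mul_assoc (c ^ e) B, (h.pow_left e).eq, mul_assoc B,
    ← mul_assoc A B]

private lemma SC4_empty' (a b c d : α) : SC [a, b, c, d] ([] : List α) = 0 := by simp [SC]

lemma Th_add (hG : (⊤ : Subgroup G).lowerCentralSeries 4 = ⊥) (X Y : G)
    (e1 e2 e3 e4 e5 e6 f1 f2 f3 f4 f5 f6 : ℕ) :
    Th X Y e1 e2 e3 e4 e5 e6 * Th X Y f1 f2 f3 f4 f5 f6 =
      Th X Y (e1 + f1) (e2 + f2) (e3 + f3) (e4 + f4) (e5 + f5) (e6 + f6) := by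
  have hc : ∀ a ∈ six X Y, ∀ b ∈ six X Y, Commute a b :=
    fun a ha b hb => six_comm hG X Y a ha b hb
  have m1 : ⁅X, Y⁆ ∈ six X Y := by simp [six]
  have m2 : ⁅Y, ⁅X, Y⁆⁆ ∈ six X Y := by simp [six]
  have m3 : ⁅Y, ⁅Y, ⁅X, Y⁆⁆⁆ ∈ six X Y := by simp [six]
  have m4 : ⁅X, ⁅X, Y⁆⁆ ∈ six X Y := by simp [six]
  have m5 : ⁅Y, ⁅X, ⁅X, Y⁆⁆⁆ ∈ six X Y := by simp [six]
  have m6 : ⁅X, ⁅X, ⁅X, Y⁆⁆⁆ ∈ six X Y := by simp [six]
  have c21 : Commute ⁅Y, ⁅X, Y⁆⁆ (⁅X, Y⁆ ^ f1) := (hc _ m2 _ m1).pow_right f1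
  have c32 : Commute ⁅Y, ⁅Y, ⁅X, Y⁆⁆⁆ (⁅X, Y⁆ ^ f1 * ⁅Y, ⁅X, Y⁆⁆ ^ f2) :=
    ((hc _ m3 _ m1).pow_right f1).mul_right ((hc _ m3 _ m2).pow_right f2)
  have c43 : Commute ⁅X, ⁅X, Y⁆⁆ (⁅X, Y⁆ ^ f1 * ⁅Y, ⁅X, Y⁆⁆ ^ f2 * ⁅Y, ⁅Y, ⁅X, Y⁆⁆⁆ ^ f3) :=
    (((hc _ m4 _ m1).pow_right f1).mul_right ((hc _ m4 _ m2).pow_right f2)).mul_right
      ((hc _ m4 _ m3).pow_right f3)
  have c54 : Commute ⁅Y, ⁅X, ⁅X, Y⁆⁆⁆
      (⁅X, Y⁆ ^ f1 * ⁅Y, ⁅X, Y⁆⁆ ^ f2 * ⁅Y, ⁅Y, ⁅X, Y⁆⁆⁆ ^ f3 * ⁅X, ⁅X, Y⁆⁆ ^ f4) :=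
    ((((hc _ m5 _ m1).pow_right f1).mul_right ((hc _ m5 _ m2).pow_right f2)).mul_right
      ((hc _ m5 _ m3).pow_right f3)).mul_right ((hc _ m5 _ m4).pow_right f4)
  have c65 : Commute ⁅X, ⁅X, ⁅X, Y⁆⁆⁆
      (⁅X, Y⁆ ^ f1 * ⁅Y, ⁅X, Y⁆⁆ ^ f2 * ⁅Y, ⁅Y, ⁅X, Y⁆⁆⁆ ^ f3 * ⁅X, ⁅X, Y⁆⁆ ^ f4
        * ⁅Y, ⁅X, ⁅X, Y⁆⁆⁆ ^ f5) :=
    (((((hc _ m6 _ m1).pow_right f1).mul_right ((hc _ m6 _ m2).pow_right f2)).mul_right
      ((hc _ m6 _ m3).pow_right f3)).mul_right ((hc _ m6 _ m4).pow_right f4)).mul_right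
        ((hc _ m6 _ m5).pow_right f5)
  unfold Th
  rw [th_step _ _ _ e6 f6 c65, th_step _ _ _ e5 f5 c54, th_step _ _ _ e4 f4 c43,
    th_step _ _ _ e3 f3 c32, th_step _ _ _ e2 f2 c21, ← pow_add]

lemma Th_mod [Fintype G] (X Y : G) (e1 e2 e3 e4 e5 e6 : ℕ) :
    Th X Y (e1 % Fintype.card G) (e2 % Fintype.card G) (e3 % Fintype.card G)
      (e4 % Fintype.card G) (e5 % Fintype.card G) (e6 % Fintype.card G) =
      Th X Y e1 e2 e3 e4 e5 e6 := by
  unfold Th
  simp only [pow_mod_card]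

/-- Over two letters, the product of the letters other than `x` is a power. -/
lemma H_two (g : α → G) (x b : α) (hxb : x ≠ b) (hcov : ∀ c, c = x ∨ c = b) (w : List α) :
    Nil3.H g x w = g b ^ (w.count b) := by
  induction w using List.reverseRecOn with
  | nil => rw [Nil3.H_nil, List.count_nil, pow_zero]
  | append_singleton w y ih =>
    rcases hcov y with hy | hy
    · rw [hy, Nil3.H_concat_self, ih, count_concat', if_neg hxb, add_zero]
    · rw [hy, Nil3.H_concat_ne g x w b hxb.symm, ih, count_concat', if_pos rfl, pow_succ]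

/-- **Closed form of the correction term over two letters.** -/
theorem K_closed4 (hG : (⊤ : Subgroup G).lowerCentralSeries 4 = ⊥) (g : α → G) (x b : α)
    (hxb : x ≠ b) (hcov : ∀ c, c = x ∨ c = b) (w : List α) :
    Nil3.K g x [] w = Th (g x) (g b) (SC [x, b] w) (SC [x, b, b] w + SC [b, x, b] w)
      (SC [x, b, b, b] w + SC [b, x, b, b] w + SC [b, b, x, b] w) (SC [x, x, b] w)
      (SC [x, x, b, b] w + SC [x, b, x, b] w + SC [b, x, x, b] w) (SC [x, x, x, b] w) := by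
  induction w using List.reverseRecOn with
  | nil =>
    simp only [SC2_empty, SC3_empty, SC4_empty', add_zero, Th_zero]
    rfl
  | append_singleton w y ih =>
    rw [Nil3.K_concat, ih]
    rcases hcov y with hy | hy
    · rw [hy]
      have hT : Nil3.T g x w x = 1 := by rw [Nil3.T, if_pos rfl]
      rw [hT, mul_one, SC2_concat x b w x, SC3_concat x b b w x, SC3_concat b x b w x,
        SC3_concat x x b w x, Sub4.SC4_concat x b b b w x, Sub4.SC4_concat b x b b w x,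
        Sub4.SC4_concat b b x b w x, Sub4.SC4_concat x x b b w x, Sub4.SC4_concat x b x b w x,
        Sub4.SC4_concat b x x b w x, Sub4.SC4_concat x x x b w x]
      simp only [if_neg hxb, add_zero]
    · rw [hy]
      have hT : Nil3.T g x w b = Th (g x) (g b) (w.count x) (w.count x * w.count b)
          (w.count x * (w.count b).choose 2) ((w.count x).choose 2)
          ((w.count x).choose 2 * w.count b) ((w.count x).choose 3) := by
        have h := conj_comm_pow hG (g x) (g b) (w.count x) (w.count b)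
        have h' : ⁅g b ^ w.count b, ⁅g x ^ w.count x, g b⁆⁆ * ⁅g x ^ w.count x, g b⁆ =
            g b ^ w.count b * ⁅g x ^ w.count x, g b⁆ * (g b ^ w.count b)⁻¹ := by
          generalize ⁅g x ^ w.count x, g b⁆ = c
          generalize g b ^ w.count b = d
          rw [commutatorElement_def]
          group
        rw [Nil3.T, if_neg hxb.symm, H_two g x b hxb hcov w]
        exact h'.trans h
      have h1 : SC [x, b] (w ++ [b]) = SC [x, b] w + w.count x := by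
        rw [SC2_concat x b w b, if_pos rfl, SC1_eq]
      have h2 : SC [x, b, b] (w ++ [b]) + SC [b, x, b] (w ++ [b]) =
          SC [x, b, b] w + SC [b, x, b] w + w.count x * w.count b := by
        rw [SC3_concat x b b w b, SC3_concat b x b w b, if_pos rfl, if_pos rfl,
          ← sh_xb x b hxb w]
        ring
      have h3 : SC [x, b, b, b] (w ++ [b]) + SC [b, x, b, b] (w ++ [b])
          + SC [b, b, x, b] (w ++ [b]) =
          SC [x, b, b, b] w + SC [b, x, b, b] w + SC [b, b, x, b] w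
            + w.count x * (w.count b).choose 2 := by
        rw [Sub4.SC4_concat x b b b w b, Sub4.SC4_concat b x b b w b,
          Sub4.SC4_concat b b x b w b, if_pos rfl, if_pos rfl, if_pos rfl,
          ← sh_xbb x b hxb w]
        ring
      have h4 : SC [x, x, b] (w ++ [b]) = SC [x, x, b] w + (w.count x).choose 2 := by
        rw [SC3_concat x x b w b, if_pos rfl, Sub4.SC2_self]
      have h5 : SC [x, x, b, b] (w ++ [b]) + SC [x, b, x, b] (w ++ [b])
          + SC [b, x, x, b] (w ++ [b]) =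
          SC [x, x, b, b] w + SC [x, b, x, b] w + SC [b, x, x, b] w
            + (w.count x).choose 2 * w.count b := by
        rw [Sub4.SC4_concat x x b b w b, Sub4.SC4_concat x b x b w b,
          Sub4.SC4_concat b x x b w b, if_pos rfl, if_pos rfl, if_pos rfl,
          ← sh_xxb x b hxb w]
        ring
      have h6 : SC [x, x, x, b] (w ++ [b]) = SC [x, x, x, b] w + (w.count x).choose 3 := by
        rw [Sub4.SC4_concat x x x b w b, if_pos rfl, Sub4.SC3_self]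
      rw [hT, Th_add hG, h1, h2, h3, h4, h5, h6]

end Nil4

end Vale.Agent.Lib.P329
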