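import Vale.Agent.Lib.P329.Nil4Closed
import Vale.Agent.Lib.P329.Sub4Main

/-!
Languages recognized by a finite nilpotent group of class at most four through a map sending
the letters to at most two elements other than the identity have generalized star height at
most one.
-/

namespace Vale.Agent.Lib.P329

universe u v

open Classical

namespace Nil4

open scoped commutatorElement

open _root_.Vale.Agent.Lib.P329.Sub

variable {α : Type u} {G : Type v} [Group G]

/-- Exponents with the same residues modulo the order of the group give the same product. -/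
lemma Th_val [Fintype G] (X Y : G) (e1 e2 e3 e4 e5 e6 : ℕ) :
    Th X Y ((e1 : ZMod (Fintype.card G))).val ((e2 : ZMod (Fintype.card G))).val
      ((e3 : ZMod (Fintype.card G))).val ((e4 : ZMod (Fintype.card G))).val
      ((e5 : ZMod (Fintype.card G))).val ((e6 : ZMod (Fintype.card G))).val =
      Th X Y e1 e2 e3 e4 e5 e6 := by
  simp only [ZMod.val_natCast]
  exact Th_mod X Y e1 e2 e3 e4 e5 e6

/-- **Two letters, class at most four**: the product of a word has fibers of height at most
one. -/
theorem main_two [Fintype α] [Fintype G] (hG : (⊤ : Subgroup G).lowerCentralSeries 4 = ⊥)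
    (g : α → G) (x b : α) (hxb : x ≠ b) (hcov : ∀ c, c = x ∨ c = b) :
    Fib1 (fun w : List α => (w.map g).prod) := by
  have hN : NeZero (Fintype.card G) := ⟨Fintype.card_ne_zero⟩
  have F := fun (v : List α) (hv : v.length ≤ 4) =>
    Sub4.fib_SC4 (Fintype.card G) x b v hv (fun y _ => hcov y)
  have f1 := F [x, b] (by simp)
  have f2 : Fib1 (fun w : List α =>
      ((SC [x, b, b] w + SC [b, x, b] w : ℕ) : ZMod (Fintype.card G))) := by
    refine (((F [x, b, b] (by simp)).pair (F [b, x, b] (by simp))).comp
      (fun t => t.1 + t.2)).congr ?_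
    intro w
    push_cast
    rfl
  have f3 : Fib1 (fun w : List α =>
      ((SC [x, b, b, b] w + SC [b, x, b, b] w + SC [b, b, x, b] w : ℕ) :
        ZMod (Fintype.card G))) := by
    refine ((((F [x, b, b, b] (by simp)).pair (F [b, x, b, b] (by simp))).pair
      (F [b, b, x, b] (by simp))).comp (fun t => t.1.1 + t.1.2 + t.2)).congr ?_
    intro w
    push_cast
    rfl
  have f4 := F [x, x, b] (by simp)
  have f5 : Fib1 (fun w : List α =>
      ((SC [x, x, b, b] w + SC [x, b, x, b] w + SC [b, x, x, b] w : ℕ) :
        ZMod (Fintype.card G))) := by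
    refine ((((F [x, x, b, b] (by simp)).pair (F [x, b, x, b] (by simp))).pair
      (F [b, x, x, b] (by simp))).comp (fun t => t.1.1 + t.1.2 + t.2)).congr ?_
    intro w
    push_cast
    rfl
  have f6 := F [x, x, x, b] (by simp)
  have fb := Phase.fib_count (α := α) b (Fintype.card G)
  have fx := Phase.fib_count (α := α) x (Fintype.card G)
  have f := (((f1.pair f2).pair (f3.pair f4)).pair ((f5.pair f6).pair (fb.pair fx))).comp
    (fun t : ((ZMod (Fintype.card G) × ZMod (Fintype.card G)) ×
        (ZMod (Fintype.card G) × ZMod (Fintype.card G))) ×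
        ((ZMod (Fintype.card G) × ZMod (Fintype.card G)) ×
        (ZMod (Fintype.card G) × ZMod (Fintype.card G))) =>
      Th (g x) (g b) t.1.1.1.val t.1.1.2.val t.1.2.1.val t.1.2.2.val t.2.1.1.val t.2.1.2.val
        * g b ^ t.2.2.1.val * g x ^ t.2.2.2.val)
  refine f.congr ?_
  intro w
  rw [Nil3.decomp g x w, K_closed4 hG g x b hxb hcov w, H_two g x b hxb hcov w]
  show Th (g x) (g b) _ _ _ _ _ _ * g b ^ ((w.count b : ℕ) : ZMod (Fintype.card G)).val
      * g x ^ ((w.count x : ℕ) : ZMod (Fintype.card G)).val = _
  rw [Th_val, ZMod.val_natCast, ZMod.val_natCast, pow_mod_card, pow_mod_card]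

/-- **Main theorem: finite nilpotent groups of class at most four, at most two letters with a
nontrivial image.** -/
theorem main [Fintype α] [Fintype G] [Group.IsNilpotent G]
    (hcl : Group.nilpotencyClass G ≤ 4) (φ : α → G)
    (hφ : ∃ x y : G, ∀ a, φ a = 1 ∨ φ a = x ∨ φ a = y) (P : Set G) :
    ∃ e : GRegex α, e.starHeight ≤ 1 ∧ e.lang = {w : List α | (w.map φ).prod ∈ P} := by
  have hG : (⊤ : Subgroup G).lowerCentralSeries 4 = ⊥ :=
    Subgroup.lowerCentralSeries_eq_bot_iff_nilpotencyClass_le.mpr hcl
  obtain ⟨X, Y, hXY⟩ := hφ
  have hne : (ULift.up true : ULift.{v} Bool) ≠ ULift.up false := by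
    intro h
    have := congrArg ULift.down h
    simp at this
  have hcov : ∀ c : ULift.{v} Bool, c = ULift.up true ∨ c = ULift.up false := by
    rintro ⟨c⟩
    cases c
    · right; rfl
    · left; rfl
  have h2 := main_two (α := ULift.{v} Bool) hG (fun c => if c.down = true then X else Y)
    (ULift.up true) (ULift.up false) hne hcov
  have h := h2.filterMap (fun a : α => if φ a = X then some (ULift.up true)
    else if φ a = Y then some (ULift.up false) else none)
  have h' : Fib1 (fun w : List α => (w.map φ).prod) := by
    refine h.congr ?_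
    intro w
    induction w with
    | nil => simp
    | cons a w ih =>
      by_cases h1 : φ a = X
      · rw [List.filterMap_cons_some (b := ULift.up true) (by rw [if_pos h1]), List.map_cons,
          List.prod_cons, List.map_cons, List.prod_cons, ih, h1]
        simp
      · by_cases h2 : φ a = Y
        · rw [List.filterMap_cons_some (b := ULift.up false) (by rw [if_neg h1, if_pos h2]),
            List.map_cons, List.prod_cons, List.map_cons, List.prod_cons, ih, h2]
          simp
        · have h3 : φ a = 1 := by
            rcases hXY a with h | h | h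
            · exact h
            · exact absurd h h1
            · exact absurd h h2
          rw [List.filterMap_cons_none (by rw [if_neg h1, if_neg h2]), List.map_cons,
            List.prod_cons, h3, one_mul, ih]
  exact h'.set P

end Nil4

end Vale.Agent.Lib.P329
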