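import Vale.Agent.Lib.P329.Subword

/-!
Languages recognized through a map into a finite ring `R` all of whose values `φ a` satisfy
`(φ a - 1) (φ b - 1) (φ c - 1) (φ d - 1) = 0` (for instance upper unitriangular `4 × 4` matrices
over a finite ring) have generalized star height at most one.
-/

namespace Vale.Agent.Lib.P329

universe u v

open Classical

namespace NilFour

open Sub

variable {α : Type u} {R : Type v} [Fintype α] [Ring R]

/-- The terms of degree one, two and three in the expansion of a product. -/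
noncomputable def T1 (φ : α → R) (w : List α) : R := ∑ a, SC [a] w • (φ a - 1)

noncomputable def T2 (φ : α → R) (w : List α) : R :=
  ∑ a, ∑ b, SC [a, b] w • ((φ a - 1) * (φ b - 1))

noncomputable def T3 (φ : α → R) (w : List α) : R :=
  ∑ a, ∑ b, ∑ c, SC [a, b, c] w • ((φ a - 1) * (φ b - 1) * (φ c - 1))

lemma T1_concat (φ : α → R) (w : List α) (x : α) :
    T1 φ (w ++ [x]) = T1 φ w + (φ x - 1) := by
  unfold T1
  simp only [SC1_concat, add_smul, Finset.sum_add_distrib, ite_smul, one_smul, zero_smul,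
    Finset.sum_ite_eq, Finset.mem_univ, if_true]

lemma T2_concat (φ : α → R) (w : List α) (x : α) :
    T2 φ (w ++ [x]) = T2 φ w + T1 φ w * (φ x - 1) := by
  unfold T2 T1
  simp only [SC2_concat, add_smul, Finset.sum_add_distrib, ite_smul, zero_smul,
    Finset.sum_ite_eq, Finset.mem_univ, if_true, Finset.sum_mul, smul_mul_assoc]

lemma T3_concat (φ : α → R) (w : List α) (x : α) :
    T3 φ (w ++ [x]) = T3 φ w + T2 φ w * (φ x - 1) := by
  unfold T3 T2
  simp only [SC3_concat, add_smul, Finset.sum_add_distrib, ite_smul, zero_smul,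
    Finset.sum_ite_eq, Finset.mem_univ, if_true, Finset.sum_mul, smul_mul_assoc]

lemma T3_mul (φ : α → R)
    (h : ∀ a b c d : α, (φ a - 1) * (φ b - 1) * (φ c - 1) * (φ d - 1) = 0)
    (w : List α) (x : α) : T3 φ w * (φ x - 1) = 0 := by
  unfold T3
  simp only [Finset.sum_mul, smul_mul_assoc, h, smul_zero, Finset.sum_const_zero]

/-- The expansion of a product of values of `φ`. -/
lemma prod_expand (φ : α → R)
    (h : ∀ a b c d : α, (φ a - 1) * (φ b - 1) * (φ c - 1) * (φ d - 1) = 0) (w : List α) :
    (w.map φ).prod = 1 + T1 φ w + T2 φ w + T3 φ w := by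
  induction w using List.reverseRecOn with
  | nil => simp [T1, T2, T3, SC1_empty, SC2_empty, SC3_empty]
  | append_singleton w x ih =>
    rw [List.map_append, List.prod_append, ih, T1_concat, T2_concat, T3_concat]
    simp only [List.map_cons, List.map_nil, List.prod_cons, List.prod_nil, mul_one]
    have h3 := T3_mul φ h w x
    have e : (1 + T1 φ w + T2 φ w + T3 φ w) * φ x =
        (1 + T1 φ w + T2 φ w + T3 φ w) + (φ x - 1) + T1 φ w * (φ x - 1) + T2 φ w * (φ x - 1)
          + T3 φ w * (φ x - 1) := by noncomm_ring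
    rw [e, h3]
    abel

lemma nsmul_mod [Fintype R] (n : ℕ) (r : R) : n • r = (n % Fintype.card R) • r := by
  conv_lhs => rw [← Nat.mod_add_div n (Fintype.card R)]
  rw [add_smul, mul_smul, card_nsmul_eq_zero, add_zero]

lemma nsmul_val [Fintype R] (n : ℕ) (r : R) :
    n • r = ((n : ℕ) : ZMod (Fintype.card R)).val • r := by
  rw [ZMod.val_natCast, ← nsmul_mod]

/-- **Main theorem for rings.** -/
theorem main [Fintype R] (φ : α → R)
    (h : ∀ a b c d : α, (φ a - 1) * (φ b - 1) * (φ c - 1) * (φ d - 1) = 0) (P : Set R) :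
    ∃ e : GRegex α, e.starHeight ≤ 1 ∧ e.lang = {w : List α | (w.map φ).prod ∈ P} := by
  have hN : NeZero (Fintype.card R) := ⟨Fintype.card_ne_zero⟩
  have f1 : Fib1 (fun (w : List α) (a : α) => ((SC [a] w : ℕ) : ZMod (Fintype.card R))) :=
    Fib1.pi (fun a => fib_SC (Fintype.card R) [a] (by simp))
  have f2 : Fib1 (fun (w : List α) (a : α) (b : α) =>
      ((SC [a, b] w : ℕ) : ZMod (Fintype.card R))) :=
    Fib1.pi (fun a => Fib1.pi (fun b => fib_SC (Fintype.card R) [a, b] (by simp)))
  have f3 : Fib1 (fun (w : List α) (a : α) (b : α) (c : α) =>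
      ((SC [a, b, c] w : ℕ) : ZMod (Fintype.card R))) :=
    Fib1.pi (fun a => Fib1.pi (fun b => Fib1.pi (fun c =>
      fib_SC (Fintype.card R) [a, b, c] (by simp))))
  have f := ((f1.pair f2).pair f3).comp
    (fun t : ((α → ZMod (Fintype.card R)) × (α → α → ZMod (Fintype.card R))) ×
        (α → α → α → ZMod (Fintype.card R)) =>
      (1 : R) + ∑ a, (t.1.1 a).val • (φ a - 1)
        + ∑ a, ∑ b, (t.1.2 a b).val • ((φ a - 1) * (φ b - 1))
        + ∑ a, ∑ b, ∑ c, (t.2 a b c).val • ((φ a - 1) * (φ b - 1) * (φ c - 1)))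
  have g : Fib1 (fun w : List α => (w.map φ).prod) := by
    refine f.congr ?_
    intro w
    rw [prod_expand φ h w]
    simp only [T1, T2, T3, ← nsmul_val]
  exact g.set P

end NilFour

end Vale.Agent.Lib.P329
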