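import Vale.Agent.Lib.P329.Basic

/-!
Deterministic automata in which every cycle other than a self-loop passes through
one fixed state `p` accept languages of generalized star height at most one.
-/

namespace Vale.Agent.Lib.P329

universe u v

open Classical

namespace OneLoop

variable {α : Type u} {σ : Type v}

/-- Reading `w` from `q`, no step enters `p`, and the final state is accepting. -/
def avoid (M : DFA α σ) (p : σ) : σ → List α → Prop
  | q, [] => q ∈ M.accept
  | q, a :: w => M.step q a ≠ p ∧ avoid M p (M.step q a) w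

/-- Reading `w` from `q`, the run enters `p` exactly at its last step. -/
def ret (M : DFA α σ) (p : σ) : σ → List α → Prop
  | _, [] => False
  | q, a :: w => (M.step q a = p ∧ w = []) ∨ (M.step q a ≠ p ∧ ret M p (M.step q a) w)

lemma dichotomy (M : DFA α σ) (p : σ) : ∀ (w : List α) (q : σ),
    M.evalFrom q w ∈ M.accept ↔
      avoid M p q w ∨ ∃ u v, w = u ++ v ∧ ret M p q u ∧ M.evalFrom p v ∈ M.accept := by
  intro w
  induction w with
  | nil =>
    intro q
    constructor
    · intro h; exact Or.inl h
    · rintro (h | ⟨u, v, huv, hu, -⟩)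
      · exact h
      · have : u = [] := by
          cases u with
          | nil => rfl
          | cons a u => simp at huv
        subst this
        exact hu.elim
  | cons a w ih =>
    intro q
    rw [DFA.evalFrom_cons]
    by_cases hp : M.step q a = p
    · constructor
      · intro h
        refine Or.inr ⟨[a], w, rfl, Or.inl ⟨hp, rfl⟩, ?_⟩
        rw [← hp]; exact h
      · rintro (h | ⟨u, v, huv, hu, hv⟩)
        · exact (h.1 hp).elim
        · cases u with
          | nil => exact hu.elim
          | cons b u =>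
            simp only [List.cons_append, List.cons.injEq] at huv
            obtain ⟨rfl, rfl⟩ := huv
            rcases hu with ⟨-, rfl⟩ | ⟨h1, -⟩
            · rw [hp]; simpa using hv
            · exact (h1 hp).elim
    · rw [ih (M.step q a)]
      constructor
      · rintro (h | ⟨u, v, rfl, hu, hv⟩)
        · exact Or.inl ⟨hp, h⟩
        · exact Or.inr ⟨a :: u, v, rfl, Or.inr ⟨hp, hu⟩, hv⟩
      · rintro (h | ⟨u, v, huv, hu, hv⟩)
        · exact Or.inl h.2
        · cases u with
          | nil => exact hu.elim
          | cons b u =>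
            simp only [List.cons_append, List.cons.injEq] at huv
            obtain ⟨rfl, rfl⟩ := huv
            rcases hu with ⟨h1, -⟩ | ⟨-, h2⟩
            · exact (hp h1).elim
            · exact Or.inr ⟨u, v, rfl, h2, hv⟩

/-- The language of words leading from `q` to acceptance without entering `p`. -/
def Av (M : DFA α σ) (p q : σ) : Language α := {w | avoid M p q w}

/-- The language of words leading from `q` to a first entrance into `p`. -/
def Rt (M : DFA α σ) (p q : σ) : Language α := {w | ret M p q w}

lemma acceptsFrom_eq (M : DFA α σ) (p q : σ) :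
    M.acceptsFrom q = Rt M p q * M.acceptsFrom p + Av M p q := by
  ext w
  rw [DFA.mem_acceptsFrom, dichotomy M p w q, Language.mem_add, Language.mem_mul]
  constructor
  · rintro (h | ⟨u, v, rfl, hu, hv⟩)
    · exact Or.inr h
    · exact Or.inl ⟨u, hu, v, hv, rfl⟩
  · rintro (⟨u, hu, v, hv, rfl⟩ | h)
    · exact Or.inr ⟨u, v, rfl, hu, hv⟩
    · exact Or.inl h

lemma acceptsFrom_base (M : DFA α σ) (p : σ) :
    M.acceptsFrom p = KStar.kstar (Rt M p p) * Av M p p := by
  have h0 : ([] : List α) ∉ Rt M p p := fun h => h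
  exact (Language.self_eq_mul_add_iff h0).mp (acceptsFrom_eq M p p)

lemma acceptsFrom_decomp (M : DFA α σ) (p q : σ) :
    M.acceptsFrom q = Rt M p q * (KStar.kstar (Rt M p p) * Av M p p) + Av M p q := by
  rw [← acceptsFrom_base]; exact acceptsFrom_eq M p q

/-! ### loops -/

lemma ret_loop (M : DFA α σ) (p q : σ) (hq : q ≠ p) (s x : List α)
    (hs : ∀ a ∈ s, M.step q a = q) : ret M p q (s ++ x) ↔ ret M p q x := by
  induction s with
  | nil => simp
  | cons b s ih =>
    have hb : M.step q b = q := hs b (by simp)
    have ih' := ih (fun a ha => hs a (by simp [ha]))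
    show (M.step q b = p ∧ s ++ x = []) ∨ (M.step q b ≠ p ∧ ret M p (M.step q b) (s ++ x)) ↔ _
    rw [hb]
    constructor
    · rintro (⟨h, -⟩ | ⟨-, h⟩)
      · exact (hq h).elim
      · exact ih'.mp h
    · intro h
      exact Or.inr ⟨hq, ih'.mpr h⟩

lemma avoid_loop (M : DFA α σ) (p q : σ) (hq : q ≠ p) (s x : List α)
    (hs : ∀ a ∈ s, M.step q a = q) : avoid M p q (s ++ x) ↔ avoid M p q x := by
  induction s with
  | nil => simp
  | cons b s ih =>
    have hb : M.step q b = q := hs b (by simp)
    have ih' := ih (fun a ha => hs a (by simp [ha]))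
    show (M.step q b ≠ p ∧ avoid M p (M.step q b) (s ++ x)) ↔ _
    rw [hb]
    constructor
    · rintro ⟨-, h⟩
      exact ih'.mp h
    · intro h
      exact ⟨hq, ih'.mpr h⟩

lemma ret_split (M : DFA α σ) (p q : σ) (hq : q ≠ p) (w : List α) (h : ret M p q w) :
    ∃ s a x, w = s ++ a :: x ∧ (∀ b ∈ s, M.step q b = q) ∧ M.step q a ≠ q ∧
      ((M.step q a = p ∧ x = []) ∨ (M.step q a ≠ p ∧ ret M p (M.step q a) x)) := by
  induction w with
  | nil => exact h.elim
  | cons b w ih =>
    by_cases hb : M.step q b = q
    · have h' : ret M p q w := by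
        rcases h with ⟨h1, -⟩ | ⟨-, h2⟩
        · exact (hq (hb ▸ h1)).elim
        · rw [hb] at h2; exact h2
      obtain ⟨s, a, x, rfl, hs, ha, hx⟩ := ih h'
      refine ⟨b :: s, a, x, rfl, ?_, ha, hx⟩
      intro c hc
      rcases List.mem_cons.mp hc with rfl | hc
      · exact hb
      · exact hs c hc
    · exact ⟨[], b, w, rfl, by simp, hb, h⟩

lemma avoid_split (M : DFA α σ) (p q : σ) (w : List α) (h : avoid M p q w) :
    ∃ s x, w = s ++ x ∧ (∀ b ∈ s, M.step q b = q) ∧
      ((x = [] ∧ q ∈ M.accept) ∨ ∃ a y, x = a :: y ∧ M.step q a ≠ q ∧ M.step q a ≠ p ∧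
        avoid M p (M.step q a) y) := by
  induction w with
  | nil => exact ⟨[], [], rfl, by simp, Or.inl ⟨rfl, h⟩⟩
  | cons b w ih =>
    by_cases hb : M.step q b = q
    · have h' : avoid M p q w := by
        have h2 := h.2
        rw [hb] at h2; exact h2
      obtain ⟨s, x, rfl, hs, hx⟩ := ih h'
      refine ⟨b :: s, x, rfl, ?_, hx⟩
      intro c hc
      rcases List.mem_cons.mp hc with rfl | hc
      · exact hb
      · exact hs c hc
    · exact ⟨[], b :: w, rfl, by simp, Or.inr ⟨b, w, rfl, hb, h.1, h.2⟩⟩

/-! ### star-free expressions -/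

variable [Fintype α]

/-- Star-free expression for `Rt M p q` (`q ≠ p`), with fuel `k`. -/
noncomputable def eRt (M : DFA α σ) (p : σ) : ℕ → σ → GRegex α
  | 0, _ => GRegex.zero
  | k + 1, q => GRegex.concat (GRegex.allIn (fun a => M.step q a = q))
      (GRegex.sumOver (fun a => if M.step q a = p then GRegex.letter a
          else if M.step q a = q then GRegex.zero
          else GRegex.concat (GRegex.letter a) (eRt M p k (M.step q a))))

/-- Star-free expression for `Av M p q` (`q ≠ p`), with fuel `k`. -/
noncomputable def eAv (M : DFA α σ) (p : σ) : ℕ → σ → GRegex α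
  | 0, _ => GRegex.zero
  | k + 1, q => GRegex.concat (GRegex.allIn (fun a => M.step q a = q))
      (GRegex.union (if q ∈ M.accept then GRegex.one else GRegex.zero)
        (GRegex.sumOver (fun a => if M.step q a = p ∨ M.step q a = q then GRegex.zero
          else GRegex.concat (GRegex.letter a) (eAv M p k (M.step q a)))))

lemma starHeight_eRt (M : DFA α σ) (p : σ) : ∀ (k : ℕ) (q : σ), (eRt M p k q).starHeight = 0 := by
  intro k
  induction k with
  | zero => intro q; rfl
  | succ k ih =>
    intro q
    simp only [eRt, GRegex.starHeight, GRegex.starHeight_allIn, Nat.zero_max]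
    apply Nat.le_zero.mp
    apply GRegex.starHeight_sumOver_le
    intro a
    split_ifs <;> simp [GRegex.starHeight, ih]

lemma starHeight_eAv (M : DFA α σ) (p : σ) : ∀ (k : ℕ) (q : σ), (eAv M p k q).starHeight = 0 := by
  intro k
  induction k with
  | zero => intro q; rfl
  | succ k ih =>
    intro q
    simp only [eAv, GRegex.starHeight, GRegex.starHeight_allIn, Nat.zero_max]
    apply Nat.le_zero.mp
    apply max_le
    · split_ifs <;> simp [GRegex.starHeight]
    · apply GRegex.starHeight_sumOver_le
      intro a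
      split_ifs <;> simp [GRegex.starHeight, ih]

lemma lang_eRt (M : DFA α σ) (p : σ) (r : σ → ℕ) (R : ℕ) (hR : ∀ q, r q ≤ R)
    (h : ∀ q a, q ≠ p → M.step q a = p ∨ M.step q a = q ∨ r q < r (M.step q a)) :
    ∀ (k : ℕ) (q : σ), q ≠ p → R < r q + k → ∀ w, w ∈ (eRt M p k q).lang ↔ ret M p q w := by
  intro k
  induction k with
  | zero =>
    intro q _ hk
    have := hR q
    omega
  | succ k ih =>
    intro q hq hk w
    simp only [eRt, GRegex.mem_lang_concat, GRegex.mem_lang_allIn, GRegex.mem_lang_sumOver]
    constructor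
    · rintro ⟨s, hs, x, ⟨a, ha⟩, rfl⟩
      rw [ret_loop M p q hq s x hs]
      by_cases hp : M.step q a = p
      · rw [if_pos hp] at ha
        have hx : x = [a] := ha
        subst hx
        exact Or.inl ⟨hp, rfl⟩
      · rw [if_neg hp] at ha
        by_cases hl : M.step q a = q
        · rw [if_pos hl] at ha; exact ha.elim
        · rw [if_neg hl] at ha
          obtain ⟨u, hu, y, hy, rfl⟩ := (GRegex.mem_lang_concat _ _ _).mp ha
          have hu' : u = [a] := hu
          subst hu'
          have hlt : r q < r (M.step q a) := by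
            rcases h q a hq with h1 | h1 | h1
            · exact (hp h1).elim
            · exact (hl h1).elim
            · exact h1
          have := (ih (M.step q a) hp (by omega) y).mp hy
          exact Or.inr ⟨hp, this⟩
    · intro hw
      obtain ⟨s, a, x, rfl, hs, ha, hx⟩ := ret_split M p q hq w hw
      refine ⟨s, hs, a :: x, ⟨a, ?_⟩, rfl⟩
      rcases hx with ⟨hp, rfl⟩ | ⟨hp, hx⟩
      · rw [if_pos hp]; rfl
      · rw [if_neg hp, if_neg ha]
        have hlt : r q < r (M.step q a) := by
          rcases h q a hq with h1 | h1 | h1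
          · exact (hp h1).elim
          · exact (ha h1).elim
          · exact h1
        exact (GRegex.mem_lang_concat _ _ _).mpr
          ⟨[a], rfl, x, (ih (M.step q a) hp (by omega) x).mpr hx, rfl⟩

lemma lang_eAv (M : DFA α σ) (p : σ) (r : σ → ℕ) (R : ℕ) (hR : ∀ q, r q ≤ R)
    (h : ∀ q a, q ≠ p → M.step q a = p ∨ M.step q a = q ∨ r q < r (M.step q a)) :
    ∀ (k : ℕ) (q : σ), q ≠ p → R < r q + k → ∀ w, w ∈ (eAv M p k q).lang ↔ avoid M p q w := by
  intro k
  induction k with
  | zero =>
    intro q _ hk
    have := hR q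
    omega
  | succ k ih =>
    intro q hq hk w
    simp only [eAv, GRegex.mem_lang_concat, GRegex.mem_lang_allIn, GRegex.mem_lang_union,
      GRegex.mem_lang_sumOver]
    constructor
    · rintro ⟨s, hs, x, hx, rfl⟩
      rw [avoid_loop M p q hq s x hs]
      rcases hx with hx | ⟨a, ha⟩
      · by_cases hacc : q ∈ M.accept
        · rw [if_pos hacc] at hx
          have hx' : x = [] := hx
          subst hx'
          exact hacc
        · rw [if_neg hacc] at hx; exact hx.elim
      · by_cases hpl : M.step q a = p ∨ M.step q a = q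
        · rw [if_pos hpl] at ha; exact ha.elim
        · rw [if_neg hpl] at ha
          rw [not_or] at hpl
          obtain ⟨u, hu, y, hy, rfl⟩ := (GRegex.mem_lang_concat _ _ _).mp ha
          have hu' : u = [a] := hu
          subst hu'
          have hlt : r q < r (M.step q a) := by
            rcases h q a hq with h1 | h1 | h1
            · exact (hpl.1 h1).elim
            · exact (hpl.2 h1).elim
            · exact h1
          have := (ih (M.step q a) hpl.1 (by omega) y).mp hy
          exact ⟨hpl.1, this⟩
    · intro hw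
      obtain ⟨s, x, rfl, hs, hx⟩ := avoid_split M p q w hw
      refine ⟨s, hs, x, ?_, rfl⟩
      rcases hx with ⟨rfl, hacc⟩ | ⟨a, y, rfl, ha, hp, hy⟩
      · left; rw [if_pos hacc]; rfl
      · right
        refine ⟨a, ?_⟩
        rw [if_neg (not_or.mpr ⟨hp, ha⟩)]
        have hlt : r q < r (M.step q a) := by
          rcases h q a hq with h1 | h1 | h1
          · exact (hp h1).elim
          · exact (ha h1).elim
          · exact h1
        exact (GRegex.mem_lang_concat _ _ _).mpr
          ⟨[a], rfl, y, (ih (M.step q a) hp (by omega) y).mpr hy, rfl⟩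

/-- Star-free expression for `Rt M p p`. -/
noncomputable def eRtP (M : DFA α σ) (p : σ) (K : ℕ) : GRegex α :=
  GRegex.sumOver (fun a => if M.step p a = p then GRegex.letter a
    else GRegex.concat (GRegex.letter a) (eRt M p K (M.step p a)))

/-- Star-free expression for `Av M p p`. -/
noncomputable def eAvP (M : DFA α σ) (p : σ) (K : ℕ) : GRegex α :=
  GRegex.union (if p ∈ M.accept then GRegex.one else GRegex.zero)
    (GRegex.sumOver (fun a => if M.step p a = p then GRegex.zero
      else GRegex.concat (GRegex.letter a) (eAv M p K (M.step p a))))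

lemma starHeight_eRtP (M : DFA α σ) (p : σ) (K : ℕ) : (eRtP M p K).starHeight = 0 := by
  apply Nat.le_zero.mp
  apply GRegex.starHeight_sumOver_le
  intro a
  split_ifs <;> simp [GRegex.starHeight, starHeight_eRt]

lemma starHeight_eAvP (M : DFA α σ) (p : σ) (K : ℕ) : (eAvP M p K).starHeight = 0 := by
  apply Nat.le_zero.mp
  simp only [eAvP, GRegex.starHeight]
  apply max_le
  · split_ifs <;> simp [GRegex.starHeight]
  · apply GRegex.starHeight_sumOver_le
    intro a
    split_ifs <;> simp [GRegex.starHeight, starHeight_eAv]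

lemma lang_eRtP (M : DFA α σ) (p : σ) (r : σ → ℕ) (R : ℕ) (hR : ∀ q, r q ≤ R)
    (h : ∀ q a, q ≠ p → M.step q a = p ∨ M.step q a = q ∨ r q < r (M.step q a)) :
    (eRtP M p (R + 1)).lang = Rt M p p := by
  ext w
  simp only [eRtP, GRegex.mem_lang_sumOver]
  show _ ↔ ret M p p w
  constructor
  · rintro ⟨a, ha⟩
    by_cases hp : M.step p a = p
    · rw [if_pos hp] at ha
      have hx : w = [a] := ha
      subst hx
      exact Or.inl ⟨hp, rfl⟩
    · rw [if_neg hp] at ha
      obtain ⟨u, hu, y, hy, rfl⟩ := (GRegex.mem_lang_concat _ _ _).mp ha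
      have hu' : u = [a] := hu
      subst hu'
      have := (lang_eRt M p r R hR h (R + 1) (M.step p a) hp (by omega) y).mp hy
      exact Or.inr ⟨hp, this⟩
  · intro hw
    cases w with
    | nil => exact hw.elim
    | cons a x =>
      refine ⟨a, ?_⟩
      rcases hw with ⟨hp, rfl⟩ | ⟨hp, hx⟩
      · rw [if_pos hp]; rfl
      · rw [if_neg hp]
        exact (GRegex.mem_lang_concat _ _ _).mpr
          ⟨[a], rfl, x, (lang_eRt M p r R hR h (R + 1) (M.step p a) hp (by omega) x).mpr hx, rfl⟩

lemma lang_eAvP (M : DFA α σ) (p : σ) (r : σ → ℕ) (R : ℕ) (hR : ∀ q, r q ≤ R)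
    (h : ∀ q a, q ≠ p → M.step q a = p ∨ M.step q a = q ∨ r q < r (M.step q a)) :
    (eAvP M p (R + 1)).lang = Av M p p := by
  ext w
  simp only [eAvP, GRegex.mem_lang_union, GRegex.mem_lang_sumOver]
  show _ ↔ avoid M p p w
  constructor
  · rintro (hx | ⟨a, ha⟩)
    · by_cases hacc : p ∈ M.accept
      · rw [if_pos hacc] at hx
        have hx' : w = [] := hx
        subst hx'
        exact hacc
      · rw [if_neg hacc] at hx; exact hx.elim
    · by_cases hp : M.step p a = p
      · rw [if_pos hp] at ha; exact ha.elim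
      · rw [if_neg hp] at ha
        obtain ⟨u, hu, y, hy, rfl⟩ := (GRegex.mem_lang_concat _ _ _).mp ha
        have hu' : u = [a] := hu
        subst hu'
        have := (lang_eAv M p r R hR h (R + 1) (M.step p a) hp (by omega) y).mp hy
        exact ⟨hp, this⟩
  · intro hw
    cases w with
    | nil =>
      left
      have hacc : p ∈ M.accept := hw
      rw [if_pos hacc]; rfl
    | cons a x =>
      right
      refine ⟨a, ?_⟩
      obtain ⟨hp, hx⟩ := hw
      rw [if_neg hp]
      exact (GRegex.mem_lang_concat _ _ _).mpr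
        ⟨[a], rfl, x, (lang_eAv M p r R hR h (R + 1) (M.step p a) hp (by omega) x).mpr hx, rfl⟩

/-- Main theorem, from an arbitrary state `q`. -/
theorem exists_regex_acceptsFrom [Fintype σ] (M : DFA α σ) (p : σ) (r : σ → ℕ)
    (h : ∀ q a, q ≠ p → M.step q a = p ∨ M.step q a = q ∨ r q < r (M.step q a)) (q : σ) :
    ∃ e : GRegex α, e.starHeight ≤ 1 ∧ e.lang = M.acceptsFrom q := by
  obtain ⟨R, hR⟩ : ∃ R, ∀ q, r q ≤ R :=
    ⟨Finset.univ.sup r, fun q => Finset.le_sup (Finset.mem_univ q)⟩
  have hRt := lang_eRtP M p r R hR h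
  have hAv := lang_eAvP M p r R hR h
  by_cases hq : q = p
  · subst hq
    refine ⟨GRegex.concat (GRegex.star (eRtP M q (R + 1))) (eAvP M q (R + 1)), ?_, ?_⟩
    · simp [GRegex.starHeight, starHeight_eRtP, starHeight_eAvP]
    · rw [acceptsFrom_base M q, GRegex.lang_concat, GRegex.lang_star, hRt, hAv]
  · refine ⟨GRegex.union (GRegex.concat (eRt M p (R + 1) q)
      (GRegex.concat (GRegex.star (eRtP M p (R + 1))) (eAvP M p (R + 1)))) (eAv M p (R + 1) q),
      ?_, ?_⟩
    · simp [GRegex.starHeight, starHeight_eRtP, starHeight_eAvP, starHeight_eRt, starHeight_eAv]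
    · have h1 : (eRt M p (R + 1) q).lang = Rt M p q := by
        ext w
        exact lang_eRt M p r R hR h (R + 1) q hq (by omega) w
      have h2 : (eAv M p (R + 1) q).lang = Av M p q := by
        ext w
        exact lang_eAv M p r R hR h (R + 1) q hq (by omega) w
      rw [acceptsFrom_decomp M p q, GRegex.lang_union, GRegex.lang_concat, GRegex.lang_concat,
        GRegex.lang_star, hRt, hAv, h1, h2]

end OneLoop

end Vale.Agent.Lib.P329
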