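import Vale.Agent.Lib.P329.PLoop

/-!
The block automaton over an alphabet whose letters all have a nonzero weight modulo a
prime `p`: it follows the phase relative to a checkpoint and marks the blocks (factors
between two consecutive visits of the checkpoint) whose first letter lies in a set `fst`
and whose second letter lies in a set `snd` disjoint from `fst`.  The two cut automata
used to count the marked blocks modulo `M` are counter-free.
-/

set_option linter.unusedSectionVars false

namespace Vale.Agent.Lib.P329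

open Classical

namespace Zp

open SF Ev

section Block

variable {β : Type} {p : ℕ} [Fact p.Prime] (k : β → ZMod p) (fst snd : β → Prop)

/-- The block automaton.  A state is the phase relative to the checkpoint and a type:
`0` inside an unmarked block, `1` after a first letter in `fst`, `2` inside a marked
block.  The checkpoint state is `(0, 0)`. -/
noncomputable def bstep (q : ZMod p × Fin 3) (b : β) : ZMod p × Fin 3 :=
  if q.1 + k b = 0 then (0, 0)
  else if q.1 = 0 then (q.1 + k b, if fst b then 1 else 0)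
  else (q.1 + k b, if q.2 = 1 then (if snd b then 2 else 0) else q.2)

/-- All arrivals at the checkpoint. -/
def ev0 (q : ZMod p × Fin 3) (b : β) : Prop := q.1 + k b = 0

/-- The arrivals at the checkpoint that do not complete a marked block. -/
def ev1 (q : ZMod p × Fin 3) (b : β) : Prop :=
  q.1 + k b = 0 ∧ ¬ (q.2 = 2 ∨ (q.2 = 1 ∧ snd b))

/-- The transitions that mark a block: its second letter. -/
def zev (q : ZMod p × Fin 3) (b : β) : Prop := q.1 ≠ 0 ∧ q.2 = 1 ∧ snd b

/-- Indicator of the states inside a marked block. -/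
noncomputable def hF (q : ZMod p × Fin 3) : ℤ := if q.2 = 2 ∧ q.1 ≠ 0 then 1 else 0

variable {k fst snd}

lemma bstep_arr {q : ZMod p × Fin 3} {b : β} (h : q.1 + k b = 0) :
    bstep k fst snd q b = (0, 0) := if_pos h

lemma bstep_chk {q : ZMod p × Fin 3} {b : β} (h1 : q.1 + k b ≠ 0) (h2 : q.1 = 0) :
    bstep k fst snd q b = (q.1 + k b, if fst b then 1 else 0) := by
  unfold bstep
  rw [if_neg h1, if_pos h2]

lemma bstep_in {q : ZMod p × Fin 3} {b : β} (h1 : q.1 + k b ≠ 0) (h2 : q.1 ≠ 0) :
    bstep k fst snd q b =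
      (q.1 + k b, if q.2 = 1 then (if snd b then 2 else 0) else q.2) := by
  unfold bstep
  rw [if_neg h1, if_neg h2]

lemma bstep_fst (q : ZMod p × Fin 3) (b : β) : (bstep k fst snd q b).1 = q.1 + k b := by
  by_cases h1 : q.1 + k b = 0
  · rw [bstep_arr h1]
    exact h1.symm
  · by_cases h2 : q.1 = 0
    · rw [bstep_chk h1 h2]
    · rw [bstep_in h1 h2]

lemma brun_fst : ∀ (w : List β) (q : ZMod p × Fin 3),
    (run (bstep k fst snd) q w).1 = q.1 + ksum k w := by
  intro w
  induction w with
  | nil => intro q; simp [ksum_nil]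
  | cons b w ih =>
    intro q
    rw [run_cons, ih, bstep_fst, ksum_cons, add_assoc]

lemma run_zero (w : List β) (q : ZMod p × Fin 3) (hw : w ≠ [])
    (h : (run (bstep k fst snd) q w).1 = 0) : run (bstep k fst snd) q w = (0, 0) := by
  rcases List.eq_nil_or_concat' w with rfl | ⟨w', b, rfl⟩
  · exact (hw rfl).elim
  · rw [run_concat] at h ⊢
    rw [bstep_fst] at h
    exact bstep_arr h

/-- The identity relating the marking transitions to the two kinds of arrivals. -/
lemma ident_block (hk : ∀ b, k b ≠ 0) (q : ZMod p × Fin 3) (b : β) :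
    ((if zev snd q b then 1 else 0) - (if ev0 k q b then 1 else 0)
      + (if ev1 k snd q b then 1 else 0) : ℤ)
      = hF (bstep k fst snd q b) - hF q := by
  obtain ⟨h, t⟩ := q
  have ht : t = 0 ∨ t = 1 ∨ t = 2 := by
    rcases t with ⟨t, ht⟩
    have : t = 0 ∨ t = 1 ∨ t = 2 := by omega
    rcases this with rfl | rfl | rfl
    · left; rfl
    · right; left; rfl
    · right; right; rfl
  have h01 : (0 : Fin 3) ≠ 1 := by decide
  have h02 : (0 : Fin 3) ≠ 2 := by decide
  have h12 : (1 : Fin 3) ≠ 2 := by decide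
  have h21 : (2 : Fin 3) ≠ 1 := by decide
  by_cases harr : h + k b = 0
  · have hh : h ≠ 0 := by
      intro h0
      rw [h0, zero_add] at harr
      exact hk b harr
    rw [bstep_arr (q := (h, t)) harr]
    simp only [zev, ev0, ev1, hF, harr, true_and, ne_eq, hh, not_false_eq_true, and_true,
      not_true_eq_false, and_false, if_false]
    rcases ht with rfl | rfl | rfl
    · simp [h01, h02]
    · by_cases hs : snd b <;> simp [hs, h12]
    · simp [h21]
  · by_cases hh : h = 0
    · rw [bstep_chk (q := (h, t)) harr hh]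
      simp only [zev, ev0, ev1, hF, harr, false_and, ne_eq, hh, not_true_eq_false, and_false,
        if_false]
      split_ifs <;> simp_all
    · rw [bstep_in (q := (h, t)) harr hh]
      simp only [zev, ev0, ev1, hF, harr, false_and, ne_eq, hh, not_false_eq_true, and_true,
        true_and, if_false]
      rcases ht with rfl | rfl | rfl
      · simp [h01, h02]
      · by_cases hs : snd b <;> simp [hs, h12, h02]
      · simp [h21]

lemma zform (hk : ∀ b, k b ≠ 0) : ∀ (w : List β) (q0 : ZMod p × Fin 3),
    (cnt (bstep k fst snd) (zev snd) q0 w : ℤ) =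
      cnt (bstep k fst snd) (ev0 k) q0 w - cnt (bstep k fst snd) (ev1 k snd) q0 w
        + hF (run (bstep k fst snd) q0 w) - hF q0 := by
  intro w
  induction w with
  | nil => intro q0; simp [cnt_nil]
  | cons a w ih =>
    intro q0
    rw [cnt_cons, cnt_cons, cnt_cons, run_cons]
    have h1 := ident_block (fst := fst) (snd := snd) hk q0 a
    have h2 := ih (bstep k fst snd q0 a)
    push_cast
    linarith

/-! ### Cycles of weight zero -/

lemma type_keep : ∀ (w : List β) (r : ZMod p × Fin 3), r.1 ≠ 0 → r.2 ≠ 1 →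
    (∀ u1 u2, w = u1 ++ u2 → u1 ≠ [] → r.1 + ksum k u1 ≠ 0) →
    run (bstep k fst snd) r w = (r.1 + ksum k w, r.2) := by
  intro w
  induction w with
  | nil => intro r _ _ _; simp [ksum_nil]
  | cons b w ih =>
    intro r hr1 hr2 hpre
    have h1 : r.1 + k b ≠ 0 := by
      have := hpre [b] w rfl (by simp)
      simpa [ksum_cons, ksum_nil] using this
    rw [run_cons, bstep_in h1 hr1, if_neg hr2]
    rw [ih (r.1 + k b, r.2) h1 hr2]
    · simp only [ksum_cons, add_assoc]
    · intro u1 u2 hw hu1
      have := hpre (b :: u1) u2 (by simp [hw]) (by simp)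
      simpa [ksum_cons, add_assoc] using this

lemma type_ne_one (w : List β) (r : ZMod p × Fin 3) (hw : w ≠ []) (hr1 : r.1 ≠ 0)
    (hpre : ∀ u1 u2, w = u1 ++ u2 → u1 ≠ [] → r.1 + ksum k u1 ≠ 0) :
    (run (bstep k fst snd) r w).2 ≠ 1 := by
  cases w with
  | nil => exact (hw rfl).elim
  | cons b w =>
    have h1 : r.1 + k b ≠ 0 := by
      have := hpre [b] w rfl (by simp)
      simpa [ksum_cons, ksum_nil] using this
    obtain ⟨t', ht', he⟩ : ∃ t' : Fin 3, t' ≠ 1 ∧ bstep k fst snd r b = (r.1 + k b, t') := by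
      refine ⟨_, ?_, bstep_in h1 hr1⟩
      split_ifs with h3 h4
      · decide
      · decide
      · exact h3
    rw [run_cons, he]
    rw [type_keep w (r.1 + k b, t') h1 ht']
    · exact ht'
    · intro u1 u2 hw' hu1
      have := hpre (b :: u1) u2 (by simp [hw']) (by simp)
      simpa [ksum_cons, add_assoc] using this

/-- A word of weight zero acts in the same way on a state and on its image. -/
lemma loop_zero (u : List β) (q : ZMod p × Fin 3) (hu : ksum k u = 0) :
    run (bstep k fst snd) q (u ++ u) = run (bstep k fst snd) q u := by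
  by_cases hex : ∃ u1 u2, u = u1 ++ u2 ∧ u1 ≠ [] ∧ q.1 + ksum k u1 = 0
  · obtain ⟨u1, u2, rfl, hne, h0⟩ := hex
    have hq1 : (run (bstep k fst snd) q (u1 ++ u2)).1 = q.1 := by
      rw [brun_fst, hu, add_zero]
    have e1 : run (bstep k fst snd) q u1 = (0, 0) :=
      run_zero u1 q hne (by rw [brun_fst]; exact h0)
    have e2 : run (bstep k fst snd) (run (bstep k fst snd) q (u1 ++ u2)) u1 = (0, 0) :=
      run_zero u1 _ hne (by rw [brun_fst, hq1]; exact h0)
    rw [run_append _ q (u1 ++ u2) (u1 ++ u2), run_append _ _ u1 u2, e2, ← e1, ← run_append]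
  · push Not at hex
    by_cases hnil : u = []
    · subst hnil; rfl
    have hq0 : q.1 ≠ 0 := by
      have := hex u [] (by simp) hnil
      rwa [hu, add_zero] at this
    have hq1 : (run (bstep k fst snd) q u).1 = q.1 := by
      rw [brun_fst, hu, add_zero]
    have ht : (run (bstep k fst snd) q u).2 ≠ 1 := type_ne_one u q hnil hq0 hex
    rw [run_append]
    rw [type_keep u (run (bstep k fst snd) q u) (by rw [hq1]; exact hq0) ht
      (by rw [hq1]; exact hex)]
    rw [hu, add_zero]

lemma cycle_zero (u : List β) (q : ZMod p × Fin 3) (n : ℕ) (hn : 0 < n)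
    (hu : ksum k u = 0) (hrun : run (bstep k fst snd) q (rep u n) = q) :
    run (bstep k fst snd) q u = q := by
  obtain ⟨m, rfl⟩ : ∃ m, n = m + 1 := ⟨n - 1, by omega⟩
  rw [← run_rep_of_idem (bstep k fst snd) q u (loop_zero u q hu) m]
  exact hrun

/-! ### Cycles of nonzero weight -/

lemma ev0_end (W : List β) (b : β) (q : ZMod p × Fin 3)
    (h : (run (bstep k fst snd) q (W ++ [b])).1 = 0) :
    cnt (bstep k fst snd) (ev0 k) q (W ++ [b]) ≠ 0 := by
  rw [run_concat, bstep_fst] at h
  rw [cnt_append, cnt_cons, cnt_nil]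
  have : ev0 k (run (bstep k fst snd) q W) b := h
  rw [if_pos this]
  omega

/-- Cycles without any arrival at the checkpoint are trivial. -/
theorem hfree0 (u : List β) (q : ZMod p × Fin 3) (n : ℕ) (hn : 0 < n)
    (hrun : run (bstep k fst snd) q (rep u n) = q)
    (hc : cnt (bstep k fst snd) (ev0 k) q (rep u n) = 0) :
    run (bstep k fst snd) q u = q := by
  by_cases hu : ksum k u = 0
  · exact cycle_zero u q n hn hu hrun
  · exfalso
    have hall := cnt_rep_all (bstep k fst snd) (ev0 k) q u n hn hrun hc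
    rcases List.eq_nil_or_concat' u with rfl | ⟨u', b, rfl⟩
    · exact hu rfl
    · have h1 := hall (((- q.1) / ksum k (u' ++ [b]) - 1).val + 1)
      rw [rep_succ', ← List.append_assoc] at h1
      refine ev0_end _ b q ?_ h1
      rw [List.append_assoc, ← rep_succ', brun_fst, ksum_rep]
      push_cast
      rw [ZMod.natCast_zmod_val, sub_add_cancel, div_mul_cancel₀ _ hu]
      ring

lemma npersist : ∀ (w : List β) (r : ZMod p × Fin 3), r.1 ≠ 0 → r.2 = 0 →
    cnt (bstep k fst snd) (ev1 k snd) r w = 0 →
    (run (bstep k fst snd) r w).1 ≠ 0 ∧ (run (bstep k fst snd) r w).2 = 0 := by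
  intro w
  induction w with
  | nil => intro r h1 h2 _; exact ⟨h1, h2⟩
  | cons b w ih =>
    intro r hr1 hr2 hc
    obtain ⟨hne, hc'⟩ := cnt_cons_zero _ _ r b w hc
    have h01 : (0 : Fin 3) ≠ 1 := by decide
    have h02 : (0 : Fin 3) ≠ 2 := by decide
    have h1 : r.1 + k b ≠ 0 := by
      intro h
      apply hne
      refine ⟨h, ?_⟩
      rw [hr2]
      rintro (h' | ⟨h', _⟩)
      · exact h02 h'
      · exact h01 h'
    have e : bstep k fst snd r b = (r.1 + k b, 0) := by
      rw [bstep_in h1 hr1, hr2, if_neg h01]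
    rw [run_cons, e]
    rw [e] at hc'
    exact ih _ h1 rfl hc'

/-- After a visit of the checkpoint, a path without unmarked arrivals that comes back to
the checkpoint starts with a letter of `fst` followed by a letter of `snd`. -/
lemma first_two (hk : ∀ b, k b ≠ 0) (z : ZMod p × Fin 3) (b c : β) (v : List β)
    (hz : z.1 = 0) (hc : cnt (bstep k fst snd) (ev1 k snd) z (b :: c :: v) = 0)
    (hend : (run (bstep k fst snd) z (b :: c :: v)).1 = 0) : fst b ∧ snd c := by
  obtain ⟨-, hc1⟩ := cnt_cons_zero _ _ z b (c :: v) hc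
  have h1 : z.1 + k b ≠ 0 := by rw [hz, zero_add]; exact hk b
  have e1 : bstep k fst snd z b = (z.1 + k b, if fst b then 1 else 0) := bstep_chk h1 hz
  rw [run_cons, e1] at hend
  rw [e1] at hc1
  have hfst : fst b := by
    by_contra hf
    rw [if_neg hf] at hend hc1
    exact (npersist (c :: v) _ h1 rfl hc1).1 hend
  rw [if_pos hfst] at hend hc1
  obtain ⟨hne, hc2⟩ := cnt_cons_zero _ _ _ c v hc1
  refine ⟨hfst, ?_⟩
  by_contra hs
  have h12 : (1 : Fin 3) ≠ 2 := by decide
  by_cases h2 : z.1 + k b + k c = 0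
  · apply hne
    refine ⟨h2, ?_⟩
    rintro (h' | ⟨_, h'⟩)
    · exact h12 h'
    · exact hs h'
  · have e2 : bstep k fst snd (z.1 + k b, 1) c = (z.1 + k b + k c, 0) := by
      rw [bstep_in (q := (z.1 + k b, 1)) h2 h1, if_pos rfl, if_neg hs]
    rw [run_cons, e2] at hend
    rw [e2] at hc2
    exact (npersist v _ h2 rfl hc2).1 hend

lemma rep_two_le (u : List β) (b c : β) (rest : List β) (huu : u ++ u = b :: c :: rest) :
    ∀ m : ℕ, 2 ≤ m → rep u m = b :: c :: (rest ++ rep u (m - 2)) := by
  intro m hm
  obtain ⟨m', rfl⟩ : ∃ m', m = 2 + m' := ⟨m - 2, by omega⟩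
  rw [rep_add]
  have : rep u 2 = u ++ u := by simp [rep]
  rw [this, huu]
  simp

lemma cycle_first_two (hk : ∀ b, k b ≠ 0) (u : List β) (q : ZMod p × Fin 3) (n : ℕ)
    (hn : 0 < n) (hrun : run (bstep k fst snd) q (rep u n) = q)
    (hc : cnt (bstep k fst snd) (ev1 k snd) q (rep u n) = 0) (hu : ksum k u ≠ 0)
    (b c : β) (rest : List β) (huu : u ++ u = b :: c :: rest) : fst b ∧ snd c := by
  have hall := cnt_rep_all (bstep k fst snd) (ev1 k snd) q u n hn hrun hc
  have hp2 : 2 ≤ p := (Fact.out : p.Prime).two_le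
  have hz : (run (bstep k fst snd) q (rep u ((- q.1) / ksum k u).val)).1 = 0 := by
    rw [brun_fst, ksum_rep, ZMod.natCast_zmod_val, div_mul_cancel₀ _ hu]
    ring
  have hv := rep_two_le u b c rest huu p hp2
  have hcz : cnt (bstep k fst snd) (ev1 k snd)
      (run (bstep k fst snd) q (rep u ((- q.1) / ksum k u).val)) (rep u p) = 0 := by
    have := hall (((- q.1) / ksum k u).val + p)
    rw [rep_add, cnt_append] at this
    omega
  have hend : (run (bstep k fst snd)
      (run (bstep k fst snd) q (rep u ((- q.1) / ksum k u).val)) (rep u p)).1 = 0 := by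
    rw [brun_fst, hz, ksum_rep, ZMod.natCast_self]
    ring
  rw [hv] at hcz hend
  exact first_two hk _ b c _ hz hcz hend

/-- Cycles without unmarked arrivals at the checkpoint are trivial. -/
theorem hfree1 (hk : ∀ b, k b ≠ 0) (hdisj : ∀ b, ¬ (fst b ∧ snd b)) (u : List β)
    (q : ZMod p × Fin 3) (n : ℕ) (hn : 0 < n)
    (hrun : run (bstep k fst snd) q (rep u n) = q)
    (hc : cnt (bstep k fst snd) (ev1 k snd) q (rep u n) = 0) :
    run (bstep k fst snd) q u = q := by
  by_cases hu : ksum k u = 0
  · exact cycle_zero u q n hn hu hrun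
  · exfalso
    cases u with
    | nil => exact hu rfl
    | cons b u' =>
      obtain ⟨c, rest, hcr⟩ : ∃ c rest, u' ++ b :: u' = c :: rest :=
        List.exists_cons_of_ne_nil (by simp)
      have h1 := cycle_first_two hk (b :: u') q n hn hrun hc hu b c rest (by simp [hcr])
      have hrot := rep_rotate b u' n
      have hrun' : run (bstep k fst snd) (bstep k fst snd q b) (rep (u' ++ [b]) n) =
          bstep k fst snd q b := by
        have : run (bstep k fst snd) q (b :: rep (u' ++ [b]) n) =
            run (bstep k fst snd) q (rep (b :: u') n ++ [b]) := by rw [hrot]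
        rw [run_cons, run_concat, hrun] at this
        exact this
      have hc' : cnt (bstep k fst snd) (ev1 k snd) (bstep k fst snd q b)
          (rep (u' ++ [b]) n) = 0 := by
        have : cnt (bstep k fst snd) (ev1 k snd) q (b :: rep (u' ++ [b]) n) =
            cnt (bstep k fst snd) (ev1 k snd) q (rep (b :: u') n ++ [b]) := by rw [hrot]
        rw [cnt_cons, cnt_append, hc, hrun, cnt_cons, cnt_nil] at this
        omega
      have hu' : ksum k (u' ++ [b]) ≠ 0 := by
        rw [ksum_append, ksum_cons, ksum_nil, add_zero, add_comm, ← ksum_cons]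
        exact hu
      obtain ⟨c', rest', hcr'⟩ : ∃ c' rest', rest ++ [b] = c' :: rest' :=
        List.exists_cons_of_ne_nil (by simp)
      have h2 := cycle_first_two hk (u' ++ [b]) (bstep k fst snd q b) n hn hrun' hc' hu'
        c c' rest' (by
          have : (u' ++ [b]) ++ (u' ++ [b]) = (u' ++ b :: u') ++ [b] := by simp
          rw [this, hcr, List.cons_append, hcr'])
      exact hdisj c ⟨h2.1, h1.2⟩

/-- **Counting marked blocks.** -/
theorem fibZ [Fintype β] (hk : ∀ b, k b ≠ 0) (hdisj : ∀ b, ¬ (fst b ∧ snd b)) (M : ℕ)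
    [NeZero M] (q0 : ZMod p × Fin 3) (hq0 : hF q0 = 0) :
    Fib1 (fun w : List β =>
      (((cnt (bstep k fst snd) (zev snd) q0 w : ℕ) : ZMod M), run (bstep k fst snd) q0 w)) := by
  have f0 := fib1_count_free (bstep k fst snd) (ev0 k) (0, 0) (fun q a h => bstep_arr h)
    (fun u q n hn h1 h2 => hfree0 u q n hn h1 h2) M q0
  have f1 := fib1_count_free (bstep k fst snd) (ev1 k snd) (0, 0) (fun q a h => bstep_arr h.1)
    (fun u q n hn h1 h2 => hfree1 hk hdisj u q n hn h1 h2) M q0
  have f := (f0.pair f1).comp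
    (fun x : (ZMod M × (ZMod p × Fin 3)) × (ZMod M × (ZMod p × Fin 3)) =>
      (x.1.1 - x.2.1 + ((hF x.1.2 : ℤ) : ZMod M), x.1.2))
  refine f.congr ?_
  intro w
  have hz := zform (fst := fst) (snd := snd) hk w q0
  rw [hq0, sub_zero] at hz
  have hz' := congrArg (Int.cast : ℤ → ZMod M) hz
  push_cast at hz'
  simp only [Prod.mk.injEq, and_true]
  rw [hz']

end Block

end Zp

end Vale.Agent.Lib.P329
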