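import Vale.Agent.Lib.P329.Events

/-!
The generic cut automaton of a deterministic automaton with events, a criterion for its
counter-freeness (event-free cycles are trivial), and general facts on powers of words.
-/

set_option linter.unusedSectionVars false

namespace Vale.Agent.Lib.P329

open Classical

namespace Ev

open SF

section Rep

variable {α : Type*} {σ : Type*} (step : σ → α → σ)

lemma rep_add (u : List α) : ∀ a b : ℕ, rep u (a + b) = rep u a ++ rep u b := by
  intro a b
  induction a with
  | zero => simp [rep]
  | succ a ih => rw [Nat.succ_add, rep, rep, ih, List.append_assoc]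

lemma rep_one (u : List α) : rep u 1 = u := by simp [rep]

lemma rep_succ' (u : List α) (n : ℕ) : rep u (n + 1) = rep u n ++ u := by
  rw [rep_add, rep_one]

lemma rep_nil_iff (u : List α) (n : ℕ) (hn : 0 < n) (h : rep u n = []) : u = [] := by
  obtain ⟨m, rfl⟩ : ∃ m, n = m + 1 := ⟨n - 1, by omega⟩
  rw [rep] at h
  exact (List.append_eq_nil_iff.mp h).1

/-- Rotating a power of a word. -/
lemma rep_rotate (b : α) (u : List α) : ∀ n : ℕ,
    b :: rep (u ++ [b]) n = rep (b :: u) n ++ [b] := by
  intro n
  induction n with
  | zero => rfl
  | succ n ih =>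
    rw [rep, rep]
    calc b :: (u ++ [b] ++ rep (u ++ [b]) n) = (b :: u) ++ (b :: rep (u ++ [b]) n) := by simp
      _ = (b :: u) ++ (rep (b :: u) n ++ [b]) := by rw [ih]
      _ = b :: u ++ rep (b :: u) n ++ [b] := by simp

/-- In a cycle of a word with identical first and second periods, every period is the same. -/
lemma run_rep_of_idem (q : σ) (u : List α) (h : run step q (u ++ u) = run step q u) :
    ∀ n : ℕ, run step q (rep u (n + 1)) = run step q u := by
  intro n
  induction n with
  | zero => rw [rep_one]
  | succ n ih =>
    rw [rep, rep, ← List.append_assoc, run_append, h, ← run_append]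
    exact ih

variable (ev : σ → α → Prop)

lemma cnt_rep_mul (q : σ) (u : List α) (n : ℕ) (hrun : run step q (rep u n) = q)
    (hc : cnt step ev q (rep u n) = 0) : ∀ m : ℕ,
    cnt step ev q (rep u (n * m)) = 0 ∧ run step q (rep u (n * m)) = q := by
  intro m
  induction m with
  | zero => exact ⟨rfl, rfl⟩
  | succ m ih =>
    rw [Nat.mul_succ, rep_add, cnt_append, run_append, ih.1, ih.2, hc, hrun]
    exact ⟨rfl, rfl⟩

/-- An event-free cycle stays event-free for ever. -/
lemma cnt_rep_all (q : σ) (u : List α) (n : ℕ) (hn : 0 < n) (hrun : run step q (rep u n) = q)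
    (hc : cnt step ev q (rep u n) = 0) (m : ℕ) : cnt step ev q (rep u m) = 0 := by
  have h1 := (cnt_rep_mul step ev q u n hrun hc m).1
  have h2 : n * m = m + (n * m - m) := by
    have : m ≤ n * m := Nat.le_mul_of_pos_left m hn
    omega
  rw [h2, rep_add, cnt_append] at h1
  omega

end Rep

variable {α σ : Type}

/-- The cut automaton: event transitions lead to `inr false`, which leads to the absorbing
state `inr true`. -/
noncomputable def cutStep (step : σ → α → σ) (ev : σ → α → Prop) : σ ⊕ Bool → α → σ ⊕ Bool
  | Sum.inl q, a => if ev q a then Sum.inr false else Sum.inl (step q a)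
  | Sum.inr _, _ => Sum.inr true

theorem cut_cutStep (step : σ → α → σ) (ev : σ → α → Prop) (p : σ)
    (hbase : ∀ q a, ev q a → step q a = p) :
    Cut step ev p (cutStep step ev) Sum.inl (Sum.inr false) (Sum.inr true) where
  inj := Sum.inl_injective
  ne_done := fun q h => by cases h
  ne_dead := fun q h => by cases h
  done_ne := fun h => by cases h
  step_ev := fun q a h => by simp [cutStep, h]
  step_nev := fun q a h => by simp [cutStep, h]
  step_done := fun a => rfl
  step_dead := fun a => rfl
  ev_base := hbase

theorem counterFree_cutStep (step : σ → α → σ) (ev : σ → α → Prop) (p : σ)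
    (hbase : ∀ q a, ev q a → step q a = p)
    (hfree : ∀ (u : List α) (q : σ) (n : ℕ), 0 < n → run step q (rep u n) = q →
      cnt step ev q (rep u n) = 0 → run step q u = q) :
    CounterFree (cutStep step ev) := by
  have hC := cut_cutStep step ev p hbase
  intro u s n hn hrun
  rcases s with q | b
  · obtain ⟨e1, e2⟩ := tp_facts hC (rep u n) q q hrun
    have h1 := hfree u q n hn e1 e2
    have h2 : cnt step ev q u = 0 := by
      have := cnt_rep_all step ev q u n hn e1 e2 1
      rwa [rep_one] at this
    have h3 := noev hC u q h2
    rw [h1] at h3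
    exact h3
  · cases b with
    | true => exact crun_dead hC u
    | false =>
      have h1 := crun_done_eq hC (rep u n) hrun
      have h2 := rep_nil_iff u n hn h1
      rw [h2]
      rfl

/-- **Counting events modulo `N`**, for events leading to a base state such that every
event-free cycle is trivial. -/
theorem fib1_count_free [Fintype α] [Fintype σ] (step : σ → α → σ) (ev : σ → α → Prop)
    (p : σ) (hbase : ∀ q a, ev q a → step q a = p)
    (hfree : ∀ (u : List α) (q : σ) (n : ℕ), 0 < n → run step q (rep u n) = q →
      cnt step ev q (rep u n) = 0 → run step q u = q) (N : ℕ) [NeZero N] (q0 : σ) :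
    Fib1 (fun w => ((cnt step ev q0 w : ZMod N), run step q0 w)) :=
  fib1_count (cut_cutStep step ev p hbase) (counterFree_cutStep step ev p hbase hfree) N q0

end Ev

end Vale.Agent.Lib.P329
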