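import Vale.Agent.Lib.P329.PFourier
import Mathlib.LinearAlgebra.Dual.Lemmas
import Mathlib.Algebra.Module.ZMod
import Mathlib.GroupTheory.QuotientGroup.Basic

/-!
Finite groups that are extensions of an abelian group by an elementary abelian `p`-group:
every language recognized by such a group has generalized star height at most one.
-/

set_option linter.unusedSectionVars false

namespace Vale.Agent.Lib.P329

universe u v w

open Classical

namespace Ab

open SF Ev

/-- Groups with a homomorphism into an elementary abelian `p`-group `ι → ZMod p` whose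
kernel is abelian. -/
theorem vec_main {α : Type u} {G : Type v} {ι : Type w} [Fintype α] [Group G] [Fintype G]
    [Fintype ι] (p : ℕ) [Fact p.Prime] (κ : G → ι → ZMod p)
    (hκ : ∀ g h, κ (g * h) = κ g + κ h)
    (hA : ∀ g h, κ g = 0 → κ h = 0 → g * h = h * g) (φ : α → G) (P : Set G) :
    ∃ e : GRegex α, e.starHeight ≤ 1 ∧ e.lang = {w : List α | (w.map φ).prod ∈ P} := by
  haveI : NeZero (Fintype.card G) := ⟨Fintype.card_ne_zero⟩
  refine group_main κ hκ hA φ ?_ ?_ P
  · intro x h
    exact Fou.fib_vec (fun a => κ (φ a)) x h 0 (Fintype.card G)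
  · refine fibPhase p ?_ _
    intro v
    funext i
    simp

lemma sep_module {W : Type w} [AddCommGroup W] (p : ℕ) [Fact p.Prime] [Module (ZMod p) W]
    (x : W) (hx : x ≠ 0) : ∃ f : W →+ ZMod p, f x ≠ 0 := by
  obtain ⟨f, hf⟩ := Module.Projective.exists_dual_ne_zero (ZMod p) hx
  exact ⟨f.toAddMonoidHom, hf⟩

/-- In a commutative group killed by a prime `p`, every nonzero element is detected by a
homomorphism into the integers modulo `p`. -/
lemma sep_torsion {W : Type w} [AddCommGroup W] (p : ℕ) [Fact p.Prime]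
    (hW : ∀ x : W, p • x = 0) (x : W) (hx : x ≠ 0) : ∃ f : W →+ ZMod p, f x ≠ 0 :=
  @sep_module W _ p _ (AddCommGroup.zmodModule hW) x hx

/-- **Abelian-by-(elementary abelian) groups.** -/
theorem elem_main {α : Type u} {G : Type v} [Fintype α] [Group G] [Fintype G] (p : ℕ)
    [Fact p.Prime] (A : Subgroup G) [A.Normal] (hA : ∀ a ∈ A, ∀ b ∈ A, a * b = b * a)
    (hp : ∀ g : G, g ^ p ∈ A) (hc : ∀ g h : G, g * h * g⁻¹ * h⁻¹ ∈ A) (φ : α → G)
    (P : Set G) :
    ∃ e : GRegex α, e.starHeight ≤ 1 ∧ e.lang = {w : List α | (w.map φ).prod ∈ P} := by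
  letI cg : CommGroup (G ⧸ A) :=
    { (inferInstance : Group (G ⧸ A)) with
      mul_comm := by
        intro x y
        induction x using QuotientGroup.induction_on with
        | H g =>
          induction y using QuotientGroup.induction_on with
          | H h =>
            rw [← QuotientGroup.mk_mul, ← QuotientGroup.mk_mul, QuotientGroup.eq]
            have := hc h⁻¹ g⁻¹
            simpa [mul_assoc] using this }
  let π : G → Additive (G ⧸ A) := fun g => Additive.ofMul (g : G ⧸ A)
  have hπmul : ∀ g h, π (g * h) = π g + π h := fun g h => rfl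
  have hπ0 : ∀ g, π g = 0 ↔ g ∈ A := by
    intro g
    show ((g : G ⧸ A) = 1) ↔ g ∈ A
    exact QuotientGroup.eq_one_iff g
  have hW : ∀ x : Additive (G ⧸ A), p • x = 0 := by
    intro x
    obtain ⟨g, rfl⟩ : ∃ g, π g = x := by
      obtain ⟨g, hg⟩ := QuotientGroup.mk_surjective (s := A) (Additive.toMul x)
      exact ⟨g, by show Additive.ofMul (g : G ⧸ A) = x; rw [hg]; rfl⟩
    have : p • π g = π (g ^ p) := rfl
    rw [this, hπ0]
    exact hp g
  have hsep : ∀ t : G, ∃ f : Additive (G ⧸ A) →+ ZMod p, (t ∉ A → f (π t) ≠ 0) := by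
    intro t
    by_cases ht : t ∈ A
    · exact ⟨0, fun h => (h ht).elim⟩
    · have hx : π t ≠ 0 := fun h => ht ((hπ0 t).mp h)
      obtain ⟨f, hf⟩ := sep_torsion p hW (π t) hx
      exact ⟨f, fun _ => hf⟩
  choose F hF using hsep
  have hker : ∀ g : G, (fun t => F t (π g)) = (0 : G → ZMod p) → g ∈ A := by
    intro g hg
    by_contra hgA
    exact hF g hgA (congrFun hg g)
  refine vec_main p (fun g t => F t (π g)) ?_ ?_ φ P
  · intro g h
    funext t
    show F t (π (g * h)) = F t (π g) + F t (π h)
    rw [hπmul, map_add]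
  · intro g h hg hh
    exact hA g (hker g hg) h (hker h hh)

end Ab

end Vale.Agent.Lib.P329
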