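import Vale.Agent.Lib.P329.PPrime
import Mathlib.GroupTheory.Index

/-!
Counting, modulo `N`, the occurrences of a letter at a given phase of an elementary abelian
`p`-group `ι → ZMod p`: reduction to the cyclic group of order `p` by summing over all the
linear forms (a finite Fourier inversion).
-/

set_option linter.unusedSectionVars false

namespace Vale.Agent.Lib.P329

universe u v w

open Classical

namespace Fou

open SF Ev Ab

section Dot

variable {ι : Type w} [Fintype ι] {p : ℕ} [Fact p.Prime]

/-- The linear form with coefficients `c`. -/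
def dot (c v : ι → ZMod p) : ZMod p := ∑ i, c i * v i

lemma dot_add (c u v : ι → ZMod p) : dot c (u + v) = dot c u + dot c v := by
  simp [dot, mul_add, Finset.sum_add_distrib]

lemma dot_sub (c u v : ι → ZMod p) : dot c (u - v) = dot c u - dot c v := by
  simp [dot, mul_sub, Finset.sum_sub_distrib]

lemma dot_zero (c : ι → ZMod p) : dot c 0 = 0 := by
  simp [dot]

lemma dot_single (i : ι) (t : ZMod p) (v : ι → ZMod p) : dot (Pi.single i t) v = t * v i := by
  unfold dot
  rw [Finset.sum_eq_single i]
  · simp
  · intro j _ hj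
    simp [hj]
  · intro h
    exact (h (Finset.mem_univ i)).elim

/-- Evaluation at `v`, as a homomorphism on the linear forms. -/
def dotHom (v : ι → ZMod p) : (ι → ZMod p) →+ ZMod p where
  toFun c := dot c v
  map_zero' := by simp [dot]
  map_add' a b := by simp [dot, add_mul, Finset.sum_add_distrib]

lemma dotHom_surj (v : ι → ZMod p) (hv : v ≠ 0) : Function.Surjective (dotHom v) := by
  obtain ⟨i, hi⟩ : ∃ i, v i ≠ 0 := by
    by_contra h
    push Not at h
    exact hv (funext h)
  intro t
  refine ⟨Pi.single i (t / v i), ?_⟩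
  show dot (Pi.single i (t / v i)) v = t
  rw [dot_single, div_mul_cancel₀ _ hi]

/-- A nonzero vector is killed by exactly one linear form out of `p`. -/
lemma card_kernel (v : ι → ZMod p) (hv : v ≠ 0) :
    (Finset.univ.filter (fun c : ι → ZMod p => dot c v = 0)).card * p =
      Fintype.card (ι → ZMod p) := by
  have h1 : ∀ t : ZMod p, (Finset.univ.filter (fun c : ι → ZMod p => dotHom v c = t)).card =
      (Finset.univ.filter (fun c : ι → ZMod p => dotHom v c = 0)).card := by
    intro t
    exact AddMonoidHom.card_fiber_eq_of_mem_range (dotHom v) (dotHom_surj v hv t)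
      (dotHom_surj v hv 0)
  have h2 := Finset.card_eq_sum_card_fiberwise (f := fun c : ι → ZMod p => dotHom v c)
    (s := Finset.univ) (t := Finset.univ) (fun _ _ => Finset.mem_univ _)
  rw [Finset.sum_congr rfl (fun t _ => h1 t), Finset.sum_const, Finset.card_univ,
    Finset.card_univ, ZMod.card, smul_eq_mul] at h2
  rw [h2, mul_comm]
  rfl

lemma card_kernel_zero :
    (Finset.univ.filter (fun c : ι → ZMod p => dot c (0 : ι → ZMod p) = 0)).card =
      Fintype.card (ι → ZMod p) := by
  rw [Finset.filter_true_of_mem (fun c _ => dot_zero c), Finset.card_univ]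

/-- The Fourier inversion on one transition. -/
lemma ident_fourier {α : Type u} (x : α) (h q : ι → ZMod p) (a : α) :
    p * ∑ c : ι → ZMod p, (if dot c q = dot c h ∧ a = x then 1 else 0 : ℕ) =
      (p - 1) * Fintype.card (ι → ZMod p) * (if q = h ∧ a = x then 1 else 0)
        + Fintype.card (ι → ZMod p) * (if a = x then 1 else 0) := by
  have hp : 1 ≤ p := (Fact.out : p.Prime).pos
  have key : ∀ T : ℕ, p * T = (p - 1) * T + T := by
    intro T
    have h1 : (p - 1) * T + T = (p - 1 + 1) * T := by ring
    rw [h1, Nat.sub_add_cancel hp]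
  by_cases ha : a = x
  · simp only [ha, and_true, if_true, mul_one]
    have hc : ∑ c : ι → ZMod p, (if dot c q = dot c h then 1 else 0 : ℕ) =
        (Finset.univ.filter (fun c : ι → ZMod p => dot c (q - h) = 0)).card := by
      rw [Finset.card_filter]
      apply Finset.sum_congr rfl
      intro c _
      have e : dot c (q - h) = 0 ↔ dot c q = dot c h := by rw [dot_sub, sub_eq_zero]
      by_cases hh : dot c q = dot c h
      · rw [if_pos hh, if_pos (e.mpr hh)]
      · rw [if_neg hh, if_neg (fun h' => hh (e.mp h'))]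
    rw [hc]
    by_cases hq : q = h
    · rw [if_pos hq, hq, sub_self, card_kernel_zero, mul_one]
      exact key _
    · rw [if_neg hq, mul_zero, zero_add, mul_comm, card_kernel (q - h) (sub_ne_zero.mpr hq)]
  · simp [ha]

end Dot

section Count

variable {α : Type u} {ι : Type w} [Fintype ι] {p : ℕ} [Fact p.Prime] (k : α → ι → ZMod p)

lemma cnt_fourier (x : α) (h : ι → ZMod p) : ∀ (w : List α) (q : ι → ZMod p),
    p * ∑ c : ι → ZMod p,
        cnt (vstep k) (fun q a => dot c q = dot c h ∧ a = x) q w =
      (p - 1) * Fintype.card (ι → ZMod p) * cnt (vstep k) (vX x h) q w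
        + Fintype.card (ι → ZMod p) * cnt (vstep k) (fun _ a => a = x) q w := by
  intro w
  induction w with
  | nil => intro q; simp [cnt_nil]
  | cons a w ih =>
    intro q
    simp only [cnt_cons]
    rw [Finset.sum_add_distrib, mul_add, ih, ident_fourier x h q a]
    unfold vX
    ring_nf

lemma cnt_form (x : α) (h s : ι → ZMod p) (c : ι → ZMod p) (w : List α) :
    cnt (vstep k) (fun q a => dot c q = dot c h ∧ a = x) s w =
      cnt (Zp.ostep (fun a => dot c (k a))) (Zp.oX x (dot c h)) (dot c s) w := by
  apply cnt_eq_of_sim (vstep k) (Zp.ostep (fun a => dot c (k a))) _ _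
    (fun q₁ q₂ => q₂ = dot c q₁)
  · rintro q₁ q₂ a rfl
    refine ⟨Iff.rfl, ?_⟩
    simp only [vstep, Zp.ostep]
    rw [dot_add]
  · rfl

/-- **Counting the occurrences of a letter at a phase of an elementary abelian group.** -/
theorem fib_vec [Fintype α] (x : α) (h s : ι → ZMod p) (N : ℕ) [NeZero N] :
    Fib1 (fun w : List α => ((cnt (vstep k) (vX x h) s w : ℕ) : ZMod N)) := by
  have hp : 2 ≤ p := (Fact.out : p.Prime).two_le
  have hT : 0 < Fintype.card (ι → ZMod p) := Fintype.card_pos
  have hP : 0 < (p - 1) * Fintype.card (ι → ZMod p) := Nat.mul_pos (by omega) hT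
  haveI : NeZero ((p - 1) * Fintype.card (ι → ZMod p) * N) :=
    ⟨by have := NeZero.ne N; positivity⟩
  have fC : Fib1 (fun (w : List α) (c : ι → ZMod p) =>
      ((cnt (Zp.ostep (fun a => dot c (k a))) (Zp.oX x (dot c h)) (dot c s) w : ℕ) :
        ZMod ((p - 1) * Fintype.card (ι → ZMod p) * N))) :=
    Fib1.pi (fun c => Zp.fib_orig (fun a => dot c (k a)) x (dot c h) (dot c s) _)
  have fT : Fib1 (fun w : List α =>
      ((w.count x : ℕ) : ZMod ((p - 1) * Fintype.card (ι → ZMod p) * N))) :=
    fun m => Metab.exists_regex_count x _ m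
  have f := (fC.pair fT).comp
    (fun y : ((ι → ZMod p) → ZMod ((p - 1) * Fintype.card (ι → ZMod p) * N)) ×
        ZMod ((p - 1) * Fintype.card (ι → ZMod p) * N) =>
      (((((p : ZMod ((p - 1) * Fintype.card (ι → ZMod p) * N)) * ∑ c, y.1 c
        - (Fintype.card (ι → ZMod p) : ZMod ((p - 1) * Fintype.card (ι → ZMod p) * N)) * y.2).val
          / ((p - 1) * Fintype.card (ι → ZMod p)) : ℕ)) : ZMod N))
  refine f.congr ?_
  intro w
  have h1 := cnt_fourier k x h w s
  rw [Zp.cnt_letter] at h1
  simp only [cnt_form] at h1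
  have h2 := congrArg (Nat.cast : ℕ → ZMod ((p - 1) * Fintype.card (ι → ZMod p) * N)) h1
  push_cast at h2
  simp only
  rw [← Zp.val_mul_div ((p - 1) * Fintype.card (ι → ZMod p)) N hP (cnt (vstep k) (vX x h) s w)]
  congr 3
  push_cast
  rw [h2]
  ring

end Count

end Fou

end Vale.Agent.Lib.P329
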