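import Vale.Agent.Lib.P329.PRed

/-!
Finite groups with a homomorphism onto a commutative group of phases whose kernel is
abelian: the product of a word is determined by the final phase and by the numbers, modulo
the order of the group, of occurrences of each letter at each phase.
-/

set_option linter.unusedSectionVars false

namespace Vale.Agent.Lib.P329

universe u v w

open Classical

namespace Ab

open SF Ev

section Defs

variable {α : Type u} {V : Type w} [AddCommGroup V]

/-- The phase automaton of a weight function `k` with values in a commutative group. -/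
def vstep (k : α → V) (q : V) (a : α) : V := q + k a

/-- The letter `x` is read at phase `h`. -/
def vX (x : α) (h : V) (q : V) (a : α) : Prop := q = h ∧ a = x

end Defs

section Formula

variable {α : Type u} {G : Type v} {V : Type w} [Group G] [AddCommGroup V] (κ : G → V)

lemma kappa_one (hκ : ∀ g h, κ (g * h) = κ g + κ h) : κ 1 = 0 := by
  have h1 := hκ 1 1
  rw [mul_one] at h1
  have h2 : κ 1 + 0 = κ 1 + κ 1 := by rw [add_zero]; exact h1
  exact (add_left_cancel h2).symm

lemma kappa_inv (hκ : ∀ g h, κ (g * h) = κ g + κ h) (g : G) : κ g⁻¹ = - κ g := by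
  have h1 := hκ g g⁻¹
  rw [mul_inv_cancel, kappa_one κ hκ] at h1
  exact eq_neg_of_add_eq_zero_right h1.symm

/-- A representative of each phase. -/
noncomputable def tau (v : V) : G := if h : ∃ g, κ g = v then Classical.choose h else 1

lemma kappa_tau (v : V) (h : ∃ g, κ g = v) : κ (tau κ v) = v := by
  unfold tau
  rw [dif_pos h]
  exact Classical.choose_spec h

/-- The contribution of the letter `i.1` read at phase `i.2`. -/
noncomputable def cc (φ : α → G) (i : α × V) : G :=
  if ∃ g, κ g = i.2 then tau κ i.2 * φ i.1 * (tau κ (i.2 + κ (φ i.1)))⁻¹ else 1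

lemma kappa_cc (hκ : ∀ g h, κ (g * h) = κ g + κ h) (φ : α → G) (i : α × V) :
    κ (cc κ φ i) = 0 := by
  unfold cc
  by_cases h : ∃ g, κ g = i.2
  · rw [if_pos h]
    have h' : ∃ g, κ g = i.2 + κ (φ i.1) := by
      obtain ⟨g, hg⟩ := h
      exact ⟨g * φ i.1, by rw [hκ, hg]⟩
    rw [hκ, hκ, kappa_inv κ hκ, kappa_tau κ _ h, kappa_tau κ _ h']
    abel
  · rw [if_neg h]
    exact kappa_one κ hκ

/-- The number of occurrences of the letter `i.1` at phase `i.2`. -/
noncomputable def nn (φ : α → G) (i : α × V) (w : List α) : ℕ :=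
  cnt (vstep (fun a => κ (φ a))) (vX i.1 i.2) 0 w

/-- The phase of a word. -/
def phase (φ : α → G) (w : List α) : V := run (vstep (fun a => κ (φ a))) 0 w

lemma nn_concat (φ : α → G) (i : α × V) (w : List α) (a : α) :
    nn κ φ i (w ++ [a]) = nn κ φ i w + if i = (a, phase κ φ w) then 1 else 0 := by
  unfold nn
  rw [cnt_append, cnt_cons, cnt_nil, add_zero]
  congr 1
  have : vX i.1 i.2 (run (vstep fun a => κ (φ a)) 0 w) a ↔ i = (a, phase κ φ w) := by
    constructor
    · rintro ⟨h1, h2⟩
      exact Prod.ext h2.symm h1.symm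
    · rintro rfl
      exact ⟨rfl, rfl⟩
  simp only [this]

lemma run_prod (hκ : ∀ g h, κ (g * h) = κ g + κ h) (φ : α → G) : ∀ (w : List α) (s : V),
    run (vstep (fun a => κ (φ a))) s w = s + κ ((w.map φ).prod) := by
  intro w
  induction w with
  | nil => intro s; simp [kappa_one κ hκ]
  | cons a w ih =>
    intro s
    rw [run_cons, ih, List.map_cons, List.prod_cons, hκ]
    simp only [vstep]
    abel

lemma phase_range (hκ : ∀ g h, κ (g * h) = κ g + κ h) (φ : α → G) (w : List α) :
    ∃ g, κ g = phase κ φ w :=
  ⟨(w.map φ).prod, by unfold phase; rw [run_prod κ hκ, zero_add]⟩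

lemma formula [Fintype α] [Fintype V] (hκ : ∀ g h, κ (g * h) = κ g + κ h)
    (hA : ∀ g h, κ g = 0 → κ h = 0 → g * h = h * g) (φ : α → G) (w : List α) :
    tau κ 0 * (w.map φ).prod = ((Finset.univ : Finset (α × V)).toList.map
      (fun i => cc κ φ i ^ nn κ φ i w)).prod * tau κ (phase κ φ w) := by
  induction w using List.reverseRecOn with
  | nil =>
    have h0 : ∀ i : α × V, nn κ φ i [] = 0 := fun i => rfl
    have h1 : phase κ φ ([] : List α) = 0 := rfl
    simp [h0, h1]
  | append_singleton w a ih =>
    rw [List.map_append, List.prod_append, ← mul_assoc, ih]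
    simp only [List.map_cons, List.map_nil, List.prod_cons, List.prod_nil, mul_one]
    simp only [nn_concat]
    rw [Metab.prod_pow_update (cc κ φ)
      (fun i j => hA _ _ (kappa_cc κ hκ φ i) (kappa_cc κ hκ φ j))
      (fun i : α × V => nn κ φ i w) (a, phase κ φ w)
      (Finset.univ : Finset (α × V)).toList (Finset.nodup_toList _)
      (Finset.mem_toList.mpr (Finset.mem_univ _))]
    have hph : phase κ φ (w ++ [a]) = phase κ φ w + κ (φ a) := by
      unfold phase
      rw [run_concat]
      rfl
    rw [hph]
    have hc : cc κ φ (a, phase κ φ w) * tau κ (phase κ φ w + κ (φ a)) =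
        tau κ (phase κ φ w) * φ a := by
      unfold cc
      rw [if_pos (phase_range κ hκ φ w)]
      simp
    rw [mul_assoc, mul_assoc, hc]

end Formula

/-- **The group computation.**  If the numbers of occurrences of each letter at each phase,
modulo the order of the group, and the final phase have fibers of generalized star height
at most one, then so has the product of a word. -/
theorem group_main {α : Type u} {G : Type v} {V : Type w} [Fintype α] [Group G] [Fintype G]
    [AddCommGroup V] [Fintype V] (κ : G → V) (hκ : ∀ g h, κ (g * h) = κ g + κ h)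
    (hA : ∀ g h, κ g = 0 → κ h = 0 → g * h = h * g) (φ : α → G)
    (hCnt : ∀ (x : α) (h : V), Fib1 (fun w : List α =>
      ((cnt (vstep (fun a => κ (φ a))) (vX x h) 0 w : ℕ) : ZMod (Fintype.card G))))
    (hPh : Fib1 (fun w : List α => run (vstep (fun a => κ (φ a))) 0 w)) (P : Set G) :
    ∃ e : GRegex α, e.starHeight ≤ 1 ∧ e.lang = {w : List α | (w.map φ).prod ∈ P} := by
  haveI : NeZero (Fintype.card G) := ⟨Fintype.card_ne_zero⟩
  have f1 : Fib1 (fun (w : List α) (i : α × V) =>
      ((nn κ φ i w : ℕ) : ZMod (Fintype.card G))) :=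
    Fib1.pi (fun i => hCnt i.1 i.2)
  have f2 : Fib1 (fun w : List α => phase κ φ w) := hPh
  have f := (f1.pair f2).comp
    (fun y : (α × V → ZMod (Fintype.card G)) × V =>
      (tau κ 0)⁻¹ * (((Finset.univ : Finset (α × V)).toList.map
        (fun i => cc κ φ i ^ (y.1 i).val)).prod * tau κ y.2))
  have f3 : Fib1 (fun w : List α => (w.map φ).prod) := by
    refine f.congr ?_
    intro w
    have hf := formula κ hκ hA φ w
    have hpow : ((Finset.univ : Finset (α × V)).toList.map
        (fun i => cc κ φ i ^ ((nn κ φ i w : ZMod (Fintype.card G))).val)) =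
        ((Finset.univ : Finset (α × V)).toList.map (fun i => cc κ φ i ^ nn κ φ i w)) := by
      apply List.map_congr_left
      intro i _
      rw [ZMod.val_natCast]
      exact pow_mod_card _ _
    simp only
    rw [hpow, ← hf, inv_mul_cancel_left]
  exact f3.set P

end Ab

end Vale.Agent.Lib.P329
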