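import Vale.Agent.Lib.P329.PCut

/-!
The phase automaton of a weight function with values in the integers modulo a prime `p`,
and the count, modulo `N`, of the occurrences at a given phase of a letter of weight zero.
-/

set_option linter.unusedSectionVars false

namespace Vale.Agent.Lib.P329

open Classical

namespace Zp

open SF Ev

section Defs

variable {α : Type*} {p : ℕ}

/-- The phase automaton of a weight function `k`. -/
def ostep (k : α → ZMod p) (q : ZMod p) (a : α) : ZMod p := q + k a

/-- The letter `x` is read at phase `j`. -/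
def oX (x : α) (j : ZMod p) (q : ZMod p) (a : α) : Prop := q = j ∧ a = x

/-- The weight of a word. -/
def ksum (k : α → ZMod p) (w : List α) : ZMod p := (w.map k).sum

lemma ksum_nil (k : α → ZMod p) : ksum k [] = 0 := rfl

lemma ksum_cons (k : α → ZMod p) (a : α) (w : List α) : ksum k (a :: w) = k a + ksum k w := by
  simp [ksum]

lemma ksum_append (k : α → ZMod p) (u v : List α) : ksum k (u ++ v) = ksum k u + ksum k v := by
  simp [ksum]

lemma ksum_rep (k : α → ZMod p) (u : List α) : ∀ n : ℕ, ksum k (rep u n) = n * ksum k u := by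
  intro n
  induction n with
  | zero => simp [rep, ksum_nil]
  | succ n ih => rw [rep, ksum_append, ih]; push_cast; ring

lemma run_ostep (k : α → ZMod p) : ∀ (w : List α) (s : ZMod p),
    run (ostep k) s w = s + ksum k w := by
  intro w
  induction w with
  | nil => intro s; simp [ksum_nil]
  | cons a w ih =>
    intro s
    rw [run_cons, ih, ksum_cons]
    simp only [ostep]
    ring

/-- Counting the events of a disjoint union. -/
lemma cnt_union {σ : Type*} (step : σ → α → σ) (e1 e2 e3 : σ → α → Prop)
    (h3 : ∀ q a, e3 q a ↔ e1 q a ∨ e2 q a) (hd : ∀ q a, ¬ (e1 q a ∧ e2 q a)) :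
    ∀ (w : List α) (q : σ), cnt step e3 q w = cnt step e1 q w + cnt step e2 q w := by
  intro w
  induction w with
  | nil => intro q; rfl
  | cons a w ih =>
    intro q
    rw [cnt_cons, cnt_cons, cnt_cons, ih]
    have h5 := h3 q a
    have h6 := hd q a
    by_cases h1 : e1 q a <;> by_cases h2 : e2 q a <;> by_cases h4 : e3 q a <;>
      simp only [h1, h2, h4, if_true, if_false] <;> first | omega | tauto

lemma cnt_cons_zero {σ : Type*} (step : σ → α → σ) (ev : σ → α → Prop) (q : σ) (a : α)
    (w : List α) (h : cnt step ev q (a :: w) = 0) : ¬ ev q a ∧ cnt step ev (step q a) w = 0 := by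
  rw [cnt_cons] at h
  by_cases he : ev q a
  · rw [if_pos he] at h; omega
  · rw [if_neg he] at h; exact ⟨he, by omega⟩

end Defs

section Loop

variable {α : Type} {p : ℕ} [Fact p.Prime] (k : α → ZMod p)

/-- Every path from a phase other than `j` to the phase `j` contains an arrival at `j`. -/
lemma arrive (j : ZMod p) (ev : ZMod p → α → Prop)
    (hsub : ∀ q a, q ≠ j → q + k a = j → ev q a) :
    ∀ (w : List α) (q : ZMod p), q ≠ j → run (ostep k) q w = j →
      cnt (ostep k) ev q w ≠ 0 := by
  intro w
  induction w with
  | nil => intro q hq hrun; exact (hq hrun).elim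
  | cons a w ih =>
    intro q hq hrun
    rw [cnt_cons]
    by_cases h : q + k a = j
    · rw [if_pos (hsub q a hq h)]; omega
    · have := ih (ostep k q a) h hrun
      omega

lemma exists_event (j : ZMod p) (ev : ZMod p → α → Prop)
    (hsub : ∀ q a, q ≠ j → q + k a = j → ev q a) (u : List α) (hu : ksum k u ≠ 0)
    (r : ZMod p) (hr : r ≠ j) : ∃ m : ℕ, cnt (ostep k) ev r (rep u m) ≠ 0 := by
  refine ⟨((j - r) / ksum k u).val, arrive k j ev hsub _ r hr ?_⟩
  rw [run_ostep, ksum_rep, ZMod.natCast_zmod_val, div_mul_cancel₀ _ hu]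
  ring

/-- Event-free cycles of the phase automaton are trivial, as soon as the arrivals at `j`
are events. -/
theorem hfree_phase (j : ZMod p) (ev : ZMod p → α → Prop)
    (hsub : ∀ q a, q ≠ j → q + k a = j → ev q a) (u : List α) (q : ZMod p) (n : ℕ)
    (hn : 0 < n) (hrun : run (ostep k) q (rep u n) = q)
    (hc : cnt (ostep k) ev q (rep u n) = 0) : run (ostep k) q u = q := by
  by_contra hne
  have hu : ksum k u ≠ 0 := by
    intro h0
    apply hne
    rw [run_ostep, h0, add_zero]
  have hall := cnt_rep_all (ostep k) ev q u n hn hrun hc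
  by_cases hq : q = j
  · have hr : q + ksum k u ≠ j := by
      intro h
      apply hu
      rw [hq] at h
      exact add_eq_left.mp h
    obtain ⟨m, hm⟩ := exists_event k j ev hsub u hu _ hr
    have h1 := hall (1 + m)
    rw [rep_add, cnt_append, rep_one, run_ostep] at h1
    omega
  · obtain ⟨m, hm⟩ := exists_event k j ev hsub u hu q hq
    exact hm (hall m)

/-- Arrivals at phase `j` from another phase. -/
def evA (j : ZMod p) (q : ZMod p) (a : α) : Prop := q ≠ j ∧ q + k a = j

/-- Arrivals at phase `j` from another phase, and the letter `x` read at phase `j`. -/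
def evK (x : α) (j : ZMod p) (q : ZMod p) (a : α) : Prop := evA k j q a ∨ oX x j q a

/-- **Counting a letter of weight zero at a phase.** -/
theorem fibLoop [Fintype α] (x : α) (hx : k x = 0) (j s : ZMod p) (N : ℕ) [NeZero N] :
    Fib1 (fun w : List α => ((cnt (ostep k) (oX x j) s w : ℕ) : ZMod N)) := by
  haveI : NeZero p := ⟨(Fact.out : p.Prime).ne_zero⟩
  have fA := fib1_count_free (ostep k) (evA k j) j (fun q a h => h.2)
    (hfree_phase k j (evA k j) (fun q a h1 h2 => ⟨h1, h2⟩)) N s
  have fK := fib1_count_free (ostep k) (evK k x j) j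
    (fun q a h => by
      rcases h with h | h
      · exact h.2
      · show q + k a = j
        rw [h.2, hx, add_zero, h.1])
    (hfree_phase k j (evK k x j) (fun q a h1 h2 => Or.inl ⟨h1, h2⟩)) N s
  have f := (fK.pair fA).comp
    (fun y : (ZMod N × ZMod p) × (ZMod N × ZMod p) => y.1.1 - y.2.1)
  refine f.congr ?_
  intro w
  have h := cnt_union (ostep k) (evA k j) (oX x j) (evK k x j) (fun q a => Iff.rfl)
    (fun q a h => h.1.1 h.2.1) w s
  simp only
  rw [h]
  push_cast
  ring

end Loop

end Zp

end Vale.Agent.Lib.P329
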