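import Vale.Agent.Lib.P329.PBlock
import Vale.Agent.Lib.P329.Metab

/-!
Counting, modulo `N`, the occurrences at a given phase of a letter of nonzero weight, over
an alphabet whose letters all have a nonzero weight modulo a prime `p`: the difference of
the counts at two consecutive phases is expressed through numbers of marked blocks.
-/

set_option linter.unusedSectionVars false

namespace Vale.Agent.Lib.P329

open Classical

namespace Zp

open SF Ev

section Gen

variable {β : Type*} {σ : Type*}

/-- Counting the events of a finite family. -/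
lemma cnt_sum {ι : Type*} [Fintype ι] (step : σ → β → σ) (e : ι → σ → β → Prop)
    (eall : σ → β → Prop)
    (h : ∀ q a, (if eall q a then 1 else 0 : ℕ) = ∑ i, (if e i q a then 1 else 0)) :
    ∀ (w : List β) (q : σ), cnt step eall q w = ∑ i, cnt step (e i) q w := by
  intro w
  induction w with
  | nil => intro q; simp [cnt_nil]
  | cons a w ih =>
    intro q
    rw [cnt_cons, ih, h]
    simp only [cnt_cons]
    rw [Finset.sum_add_distrib]

lemma cnt_letter (step : σ → β → σ) (x : β) : ∀ (w : List β) (q : σ),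
    cnt step (fun _ a => a = x) q w = w.count x := by
  intro w
  induction w with
  | nil => intro q; rfl
  | cons a w ih =>
    intro q
    rw [cnt_cons, ih, List.count_cons]
    by_cases ha : a = x <;> simp [ha] <;> omega

lemma val_mul_div (P N : ℕ) (hP : 0 < P) (x : ℕ) :
    ((((P * x : ℕ) : ZMod (P * N)).val / P : ℕ) : ZMod N) = (x : ZMod N) := by
  rw [ZMod.val_natCast, Nat.mul_mod_mul_left, Nat.mul_div_cancel_left _ hP,
    ZMod.natCast_mod]

/-- The first letter of a word has star-free fibers. -/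
lemma fibHead {β : Type*} [Fintype β] : Fib1 (fun w : List β => w.head?) := by
  intro y
  cases y with
  | none =>
    refine ⟨GRegex.one, by simp [GRegex.starHeight], ?_⟩
    ext w
    constructor
    · intro hw
      have : w = [] := hw
      subst this
      rfl
    · intro hw
      have hw' : w.head? = none := hw
      cases w with
      | nil => rfl
      | cons a w => simp at hw'
  | some b =>
    refine ⟨GRegex.concat (GRegex.letter b) GRegex.top, by simp [GRegex.starHeight], ?_⟩
    ext w
    rw [GRegex.mem_lang_concat]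
    constructor
    · rintro ⟨u, hu, v, -, rfl⟩
      rw [GRegex.mem_lang_letter] at hu
      subst hu
      rfl
    · intro hw
      have hw' : w.head? = some b := hw
      cases w with
      | nil => simp at hw'
      | cons a w =>
        have : a = b := by simpa using hw'
        subst this
        exact ⟨[a], rfl, w, GRegex.mem_lang_top w, rfl⟩

end Gen

section Pair

variable {β : Type} {p : ℕ} [Fact p.Prime] (k : β → ZMod p) (x : β)

/-- The pattern automaton: the phase together with the last letter. -/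
def pstep (s : ZMod p × Option β) (b : β) : ZMod p × Option β := (s.1 + k b, some b)

/-- The letter `x` is read at phase `j`. -/
def pX (j : ZMod p) (s : ZMod p × Option β) (b : β) : Prop := s.1 = j ∧ b = x

/-- Another letter is read right after an `x` read at phase `j`. -/
def pU (j : ZMod p) (s : ZMod p × Option β) (b : β) : Prop :=
  s.1 = j + k x ∧ s.2 = some x ∧ b ≠ x

/-- The letter `x` is read at phase `j + k x` right after another letter, of weight `r`. -/
def pW (j r : ZMod p) (s : ZMod p × Option β) (b : β) : Prop :=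
  s.1 = j + k x ∧ b = x ∧ ∃ c, s.2 = some c ∧ c ≠ x ∧ k c = r

/-- The letter `x` is read at phase `j + k x` right after another letter. -/
def pWall (j : ZMod p) (s : ZMod p × Option β) (b : β) : Prop :=
  s.1 = j + k x ∧ b = x ∧ ∃ c, s.2 = some c ∧ c ≠ x

/-- The letter `x` is read at phase `j + k x` as the first letter. -/
def pS (j : ZMod p) (s : ZMod p × Option β) (b : β) : Prop :=
  s.1 = j + k x ∧ b = x ∧ s.2 = none

/-- Indicator: the last letter was an `x` read at phase `j`. -/
noncomputable def ph (j : ZMod p) (s : ZMod p × Option β) : ℤ :=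
  if s.1 = j + k x ∧ s.2 = some x then 1 else 0

lemma ident2 (j : ZMod p) (s : ZMod p × Option β) (b : β) :
    ((if pX x j s b then 1 else 0) - (if pX x (j + k x) s b then 1 else 0)
      - (if pU k x j s b then 1 else 0) + (if pWall k x j s b then 1 else 0)
      + (if pS k x j s b then 1 else 0) : ℤ) = ph k x j (pstep k s b) - ph k x j s := by
  obtain ⟨s, l⟩ := s
  simp only [pX, pU, pWall, pS, ph, pstep]
  by_cases hb : b = x
  · subst hb
    have e1 : (s + k b = j + k b) ↔ s = j := add_left_inj _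
    rcases l with _ | c
    · by_cases h1 : s = j <;> by_cases h2 : s = j + k b <;> simp [h1, h2, e1]
    · by_cases hc : c = b
      · subst hc
        by_cases h1 : s = j <;> by_cases h2 : s = j + k c <;> simp [h1, h2, e1]
      · by_cases h1 : s = j <;> by_cases h2 : s = j + k b <;> simp [h1, h2, e1, hc]
  · rcases l with _ | c
    · simp [hb]
    · by_cases hc : c = x
      · subst hc
        by_cases h2 : s = j + k c <;> simp [h2, hb]
      · simp [hb, hc]

lemma patform (j : ZMod p) : ∀ (w : List β) (s : ZMod p × Option β),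
    (cnt (pstep k) (pX x j) s w : ℤ) - cnt (pstep k) (pX x (j + k x)) s w
      - cnt (pstep k) (pU k x j) s w + cnt (pstep k) (pWall k x j) s w
      + cnt (pstep k) (pS k x j) s w
      = ph k x j (run (pstep k) s w) - ph k x j s := by
  intro w
  induction w with
  | nil => intro s; simp [cnt_nil]
  | cons a w ih =>
    intro s
    rw [cnt_cons, cnt_cons, cnt_cons, cnt_cons, cnt_cons, run_cons]
    have h1 := ident2 k x j s a
    have h2 := ih (pstep k s a)
    push_cast
    linarith

lemma simR (j : ZMod p) (w : List β) (s : ZMod p) (l : Option β) :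
    cnt (pstep k) (pX x j) (s, l) w = cnt (ostep k) (oX x j) s w := by
  apply cnt_eq_of_sim (pstep k) (ostep k) (pX x j) (oX x j) (fun a b => a.1 = b)
  · rintro a b c rfl
    exact ⟨Iff.rfl, rfl⟩
  · rfl

/-- The states of the pattern automaton and of a block automaton with checkpoint `ck`
correspond. -/
def BInv (fst : β → Prop) (ck : ZMod p) (s : ZMod p × Option β) (q : ZMod p × Fin 3) : Prop :=
  q.1 = s.1 - ck ∧ ((q.2 = 1 ∧ q.1 ≠ 0) ↔ ∃ c, s.2 = some c ∧ fst c ∧ s.1 = ck + k c)

lemma binv_start (fst : β → Prop) (ck s0 : ZMod p) : BInv k fst ck (s0, none) (s0 - ck, 0) := by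
  have h01 : (0 : Fin 3) ≠ 1 := by decide
  refine ⟨rfl, ?_⟩
  constructor
  · rintro ⟨h, -⟩
    exact (h01 h).elim
  · rintro ⟨c, h, -⟩
    cases h

lemma binv_step (hk : ∀ b, k b ≠ 0) (fst snd : β → Prop) (ck : ZMod p)
    (s : ZMod p × Option β) (q : ZMod p × Fin 3) (b : β) (h : BInv k fst ck s q) :
    BInv k fst ck (pstep k s b) (bstep k fst snd q b) := by
  obtain ⟨h1, h2⟩ := h
  have hq0 : q.1 = 0 ↔ s.1 = ck := by rw [h1, sub_eq_zero]
  refine ⟨by rw [bstep_fst, h1]; simp only [pstep]; ring, ?_⟩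
  have hR : (∃ c, (pstep k s b).2 = some c ∧ fst c ∧ (pstep k s b).1 = ck + k c) ↔
      (fst b ∧ q.1 = 0) := by
    simp only [pstep]
    constructor
    · rintro ⟨c, hc, hf, he⟩
      have : b = c := Option.some.inj hc
      subst this
      exact ⟨hf, hq0.mpr (add_right_cancel he)⟩
    · rintro ⟨hf, he⟩
      exact ⟨b, rfl, hf, by rw [hq0.mp he]⟩
  rw [hR]
  have h01 : (0 : Fin 3) ≠ 1 := by decide
  have h21 : (2 : Fin 3) ≠ 1 := by decide
  by_cases harr : q.1 + k b = 0
  · rw [bstep_arr harr]
    constructor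
    · rintro ⟨h, -⟩
      exact (h01 h).elim
    · rintro ⟨-, he⟩
      rw [he, zero_add] at harr
      exact (hk b harr).elim
  · by_cases hh : q.1 = 0
    · rw [bstep_chk harr hh]
      constructor
      · rintro ⟨h, -⟩
        refine ⟨?_, hh⟩
        by_contra hf'
        have h' : (if fst b then (1 : Fin 3) else 0) = 1 := h
        rw [if_neg hf'] at h'
        exact h01 h'
      · rintro ⟨hf, -⟩
        exact ⟨by rw [if_pos hf], harr⟩
    · rw [bstep_in harr hh]
      constructor
      · rintro ⟨h, -⟩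
        exfalso
        have h' : (if q.2 = 1 then (if snd b then (2 : Fin 3) else 0) else q.2) = 1 := h
        split_ifs at h' with h3 h4
        · exact h21 h'
        · exact h01 h'
        · exact h3 h'
      · rintro ⟨-, he⟩
        exact (hh he).elim

lemma binv_zev (fst snd : β → Prop) (ck : ZMod p) (s : ZMod p × Option β)
    (q : ZMod p × Fin 3) (b : β) (h : BInv k fst ck s q) :
    zev snd q b ↔ (∃ c, s.2 = some c ∧ fst c ∧ s.1 = ck + k c) ∧ snd b := by
  rw [← h.2]
  unfold zev
  tauto

/-- The pattern `x c` with `c ≠ x` and `x` read at phase `j`, counted by marked blocks. -/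
lemma cntU (hk : ∀ b, k b ≠ 0) (j s0 : ZMod p) (w : List β) :
    cnt (pstep k) (pU k x j) (s0, none) w =
      cnt (bstep k (fun c => c = x) (fun c => c ≠ x)) (zev (fun c => c ≠ x)) (s0 - j, 0) w := by
  apply cnt_eq_of_sim (pstep k) (bstep k (fun c => c = x) (fun c => c ≠ x)) _ _
    (BInv k (fun c => c = x) j)
  · intro s q b h
    refine ⟨?_, binv_step k hk _ _ j s q b h⟩
    rw [binv_zev k _ _ j s q b h]
    unfold pU
    constructor
    · rintro ⟨h1, h2, h3⟩
      exact ⟨⟨x, h2, rfl, h1⟩, h3⟩
    · rintro ⟨⟨c, h2, rfl, h1⟩, h3⟩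
      exact ⟨h1, h2, h3⟩
  · exact binv_start k _ j s0

/-- The pattern `c x` with `c ≠ x` of weight `r` and `x` read at phase `j + k x`, counted
by marked blocks. -/
lemma cntW (hk : ∀ b, k b ≠ 0) (j r s0 : ZMod p) (w : List β) :
    cnt (pstep k) (pW k x j r) (s0, none) w =
      cnt (bstep k (fun c => c ≠ x ∧ k c = r) (fun c => c = x)) (zev (fun c => c = x))
        (s0 - (j + k x - r), 0) w := by
  apply cnt_eq_of_sim (pstep k) (bstep k (fun c => c ≠ x ∧ k c = r) (fun c => c = x)) _ _
    (BInv k (fun c => c ≠ x ∧ k c = r) (j + k x - r))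
  · intro s q b h
    refine ⟨?_, binv_step k hk _ _ _ s q b h⟩
    rw [binv_zev k _ _ _ s q b h]
    unfold pW
    constructor
    · rintro ⟨h1, h2, c, h3, h4, h5⟩
      exact ⟨⟨c, h3, ⟨h4, h5⟩, by rw [h1, h5]; ring⟩, h2⟩
    · rintro ⟨⟨c, h3, ⟨h4, h5⟩, h1⟩, h2⟩
      exact ⟨by rw [h1, h5]; ring, h2, c, h3, h4, h5⟩
  · exact binv_start k _ _ s0

lemma cntWall (j : ZMod p) (w : List β) (s : ZMod p × Option β) :
    cnt (pstep k) (pWall k x j) s w = ∑ r : ZMod p, cnt (pstep k) (pW k x j r) s w := by
  apply cnt_sum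
  intro q a
  by_cases h : pWall k x j q a
  · obtain ⟨h1, h2, c, h3, h4⟩ := h
    have : ∀ r, pW k x j r q a ↔ k c = r := by
      intro r
      constructor
      · rintro ⟨-, -, c', h3', -, h5⟩
        rw [h3] at h3'
        rw [Option.some.inj h3']
        exact h5
      · intro h5
        exact ⟨h1, h2, c, h3, h4, h5⟩
    rw [if_pos ⟨h1, h2, c, h3, h4⟩]
    simp only [this]
    rw [Finset.sum_ite_eq]
    simp
  · rw [if_neg h]
    symm
    apply Finset.sum_eq_zero
    intro r _
    rw [if_neg]
    rintro ⟨h1, h2, c, h3, h4, -⟩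
    exact h ⟨h1, h2, c, h3, h4⟩

lemma cnt_pS_some (j : ZMod p) : ∀ (w : List β) (s : ZMod p) (c : β),
    cnt (pstep k) (pS k x j) (s, some c) w = 0 := by
  intro w
  induction w with
  | nil => intro s c; rfl
  | cons b w ih =>
    intro s c
    rw [cnt_cons, if_neg, zero_add]
    · exact ih _ _
    · rintro ⟨-, -, h⟩
      cases h

lemma cnt_pS (j s0 : ZMod p) (w : List β) :
    cnt (pstep k) (pS k x j) (s0, none) w =
      if s0 = j + k x ∧ w.head? = some x then 1 else 0 := by
  cases w with
  | nil => simp [cnt_nil]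
  | cons b w =>
    rw [cnt_cons]
    have : cnt (pstep k) (pS k x j) (pstep k (s0, none) b) w = 0 := cnt_pS_some k x j w _ b
    rw [this, add_zero]
    by_cases h : s0 = j + k x ∧ b = x
    · rw [if_pos ⟨h.1, h.2, rfl⟩, if_pos ⟨h.1, by simp [h.2]⟩]
    · rw [if_neg, if_neg]
      · rintro ⟨h1, h2⟩
        exact h ⟨h1, by simpa using h2⟩
      · rintro ⟨h1, h2, -⟩
        exact h ⟨h1, h2⟩

lemma ph_final (hk : ∀ b, k b ≠ 0) (j s0 : ZMod p) (w : List β) :
    ph k x j (run (pstep k) (s0, none) w) =
      if (run (bstep k (fun c => c = x) (fun c => c ≠ x)) (s0 - j, 0) w).2 = 1 ∧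
        (run (bstep k (fun c => c = x) (fun c => c ≠ x)) (s0 - j, 0) w).1 ≠ 0 then 1 else 0 := by
  have hinv := inv_run (pstep k) (bstep k (fun c => c = x) (fun c => c ≠ x))
    (BInv k (fun c => c = x) j) (fun s q b h => binv_step k hk _ _ j s q b h) w _ _
    (binv_start k _ j s0)
  unfold ph
  have : (run (pstep k) (s0, none) w).1 = j + k x ∧ (run (pstep k) (s0, none) w).2 = some x ↔
      ((run (bstep k (fun c => c = x) (fun c => c ≠ x)) (s0 - j, 0) w).2 = 1 ∧
        (run (bstep k (fun c => c = x) (fun c => c ≠ x)) (s0 - j, 0) w).1 ≠ 0) := by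
    rw [hinv.2]
    constructor
    · rintro ⟨h1, h2⟩
      exact ⟨x, h2, rfl, h1⟩
    · rintro ⟨c, h2, rfl, h1⟩
      exact ⟨h1, h2⟩
  simp only [this]

/-- The difference of the numbers of `x` read at the phases `j` and `j + k x`. -/
theorem Xdiff (hk : ∀ b, k b ≠ 0) (j s0 : ZMod p) (w : List β) :
    (cnt (ostep k) (oX x j) s0 w : ℤ) - cnt (ostep k) (oX x (j + k x)) s0 w =
      cnt (bstep k (fun c => c = x) (fun c => c ≠ x)) (zev (fun c => c ≠ x)) (s0 - j, 0) w
      - ∑ r : ZMod p, (cnt (bstep k (fun c => c ≠ x ∧ k c = r) (fun c => c = x))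
          (zev (fun c => c = x)) (s0 - (j + k x - r), 0) w : ℤ)
      - (if s0 = j + k x ∧ w.head? = some x then 1 else 0)
      + (if (run (bstep k (fun c => c = x) (fun c => c ≠ x)) (s0 - j, 0) w).2 = 1 ∧
        (run (bstep k (fun c => c = x) (fun c => c ≠ x)) (s0 - j, 0) w).1 ≠ 0 then 1 else 0) := by
  have h1 := patform k x j w (s0, none)
  rw [simR, simR, cntU k x hk, cntWall, cnt_pS, ph_final k x hk] at h1
  have h0 : ph k x j ((s0, none) : ZMod p × Option β) = 0 := by
    unfold ph
    rw [if_neg]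
    rintro ⟨-, h⟩
    cases h
  rw [h0] at h1
  simp only [cntW k x hk] at h1
  push_cast at h1
  linarith

theorem fibDiff [Fintype β] (hk : ∀ b, k b ≠ 0) (M : ℕ) [NeZero M] (j s0 : ZMod p) :
    Fib1 (fun w : List β => ((cnt (ostep k) (oX x j) s0 w : ℕ) : ZMod M)
      - ((cnt (ostep k) (oX x (j + k x)) s0 w : ℕ) : ZMod M)) := by
  have h02 : (0 : Fin 3) ≠ 2 := by decide
  have hF0 : ∀ h : ZMod p, hF ((h, 0) : ZMod p × Fin 3) = 0 := by
    intro h
    unfold hF
    rw [if_neg]
    rintro ⟨h', -⟩
    exact h02 h'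
  have fU := fibZ (k := k) (fst := fun c => c = x) (snd := fun c => c ≠ x) hk
    (fun b h => h.2 h.1) M (s0 - j, 0) (hF0 _)
  have fW := fun r : ZMod p => fibZ (k := k) (fst := fun c => c ≠ x ∧ k c = r)
    (snd := fun c => c = x) hk (fun b h => h.1.1 h.2) M (s0 - (j + k x - r), 0) (hF0 _)
  have fH : Fib1 (fun w : List β => w.head?) := fibHead
  have f := ((fU.pair (Fib1.pi fW)).pair fH).comp
    (fun y : ((ZMod M × (ZMod p × Fin 3)) × (ZMod p → ZMod M × (ZMod p × Fin 3))) ×
        Option β =>
      y.1.1.1 - ∑ r : ZMod p, (y.1.2 r).1 - (if s0 = j + k x ∧ y.2 = some x then 1 else 0)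
        + (if y.1.1.2.2 = 1 ∧ y.1.1.2.1 ≠ 0 then 1 else 0))
  refine f.congr ?_
  intro w
  have hd := Xdiff k x hk j s0 w
  have hd' := congrArg (Int.cast : ℤ → ZMod M) hd
  push_cast at hd'
  simp only
  rw [hd']

/-! ### From the differences to the counts -/

lemma tele (X : ZMod p → ℤ) (δ j : ZMod p) : ∀ i : ℕ,
    X j - X (j + i • δ) = ∑ l ∈ Finset.range i, (X (j + l • δ) - X (j + l • δ + δ)) := by
  intro i
  induction i with
  | zero => simp
  | succ i ih =>
    rw [Finset.sum_range_succ, ← ih, succ_nsmul, ← add_assoc]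
    ring

lemma sum_all (X : ZMod p → ℤ) (δ j : ZMod p) (hδ : δ ≠ 0) :
    (p : ℤ) * X j = ∑ h : ZMod p, X h + ∑ h : ZMod p,
      ∑ l ∈ Finset.range ((h - j) / δ).val, (X (j + l • δ) - X (j + l • δ + δ)) := by
  have h1 : ∀ h : ZMod p, X j - X h =
      ∑ l ∈ Finset.range ((h - j) / δ).val, (X (j + l • δ) - X (j + l • δ + δ)) := by
    intro h
    rw [← tele X δ j]
    congr 2
    rw [nsmul_eq_mul, ZMod.natCast_zmod_val, div_mul_cancel₀ _ hδ]
    ring
  rw [← Finset.sum_congr rfl (fun h _ => h1 h), Finset.sum_sub_distrib, Finset.sum_const,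
    Finset.card_univ, ZMod.card]
  simp

lemma Xsum (s0 : ZMod p) (w : List β) :
    ∑ h : ZMod p, cnt (ostep k) (oX x h) s0 w = w.count x := by
  rw [← cnt_letter (ostep k) x w s0]
  symm
  apply cnt_sum
  intro q a
  by_cases ha : a = x
  · simp [oX, ha]
  · simp [oX, ha]

/-- **Counting a letter of nonzero weight at a phase**, when all letters have a nonzero
weight. -/
theorem fibX [Fintype β] (hk : ∀ b, k b ≠ 0) (N : ℕ) [NeZero N] (j s0 : ZMod p) :
    Fib1 (fun w : List β => ((cnt (ostep k) (oX x j) s0 w : ℕ) : ZMod N)) := by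
  have hp : 0 < p := (Fact.out : p.Prime).pos
  haveI : NeZero (p * N) := ⟨by have := NeZero.ne N; positivity⟩
  have fT : Fib1 (fun w : List β => ((w.count x : ℕ) : ZMod (p * N))) :=
    fun m => Metab.exists_regex_count x (p * N) m
  have fD : Fib1 (fun (w : List β) (h : ZMod p) =>
      ((cnt (ostep k) (oX x h) s0 w : ℕ) : ZMod (p * N))
        - ((cnt (ostep k) (oX x (h + k x)) s0 w : ℕ) : ZMod (p * N))) :=
    Fib1.pi (fun h => fibDiff k x hk (p * N) h s0)
  have f := (fT.pair fD).comp
    (fun y : ZMod (p * N) × (ZMod p → ZMod (p * N)) =>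
      ((((y.1 + ∑ h : ZMod p, ∑ l ∈ Finset.range ((h - j) / k x).val,
        y.2 (j + l • k x)).val / p : ℕ)) : ZMod N))
  refine f.congr ?_
  intro w
  have h1 := sum_all (fun h => (cnt (ostep k) (oX x h) s0 w : ℤ)) (k x) j (hk x)
  have h2 := Xsum k x s0 w
  have h3 : (∑ h : ZMod p, (cnt (ostep k) (oX x h) s0 w : ℤ)) = (w.count x : ℤ) := by
    rw [← h2]
    push_cast
    rfl
  rw [h3] at h1
  have h4 := congrArg (Int.cast : ℤ → ZMod (p * N)) h1
  push_cast at h4
  simp only
  rw [← val_mul_div p N hp (cnt (ostep k) (oX x j) s0 w)]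
  congr 3
  push_cast
  rw [h4]

end Pair

end Zp

end Vale.Agent.Lib.P329
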