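import Vale.Agent.Lib.P329.PGroup

/-!
Finite groups with an abelian normal subgroup of prime index (more precisely: with a
homomorphism into the integers modulo a prime whose kernel is abelian): every language
recognized by such a group has generalized star height at most one.
-/

set_option linter.unusedSectionVars false

namespace Vale.Agent.Lib.P329

universe u v w

open Classical

namespace Ab

open SF Ev

section Phase

variable {α : Type u} {V : Type w} [AddCommGroup V]

lemma run_vstep (k : α → V) : ∀ (w : List α) (s : V),
    run (vstep k) s w = s + (w.map k).sum := by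
  intro w
  induction w with
  | nil => intro s; simp
  | cons a w ih =>
    intro s
    rw [run_cons, ih]
    simp only [vstep, List.map_cons, List.sum_cons]
    abel

lemma mod_nsmul (e : ℕ) (he : ∀ v : V, e • v = 0) (n : ℕ) (v : V) : (n % e) • v = n • v := by
  conv_rhs => rw [← Nat.mod_add_div n e]
  rw [add_nsmul, mul_nsmul, he, nsmul_zero, add_zero]

lemma sum_count [Fintype α] (e : ℕ) (he : ∀ v : V, e • v = 0) (k : α → V) (w : List α) :
    (w.map k).sum = ∑ a : α, ((w.count a : ℕ) : ZMod e).val • k a := by
  rw [Finset.sum_list_map_count]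
  rw [Finset.sum_subset (Finset.subset_univ w.toFinset)]
  · apply Finset.sum_congr rfl
    intro a _
    rw [ZMod.val_natCast, mod_nsmul e he]
  · intro a _ ha
    have : a ∉ w := fun h => ha (List.mem_toFinset.mpr h)
    rw [List.count_eq_zero_of_not_mem this, zero_nsmul]

/-- The final phase has fibers of generalized star height at most one. -/
theorem fibPhase [Fintype α] (e : ℕ) [NeZero e] (he : ∀ v : V, e • v = 0) (k : α → V) :
    Fib1 (fun w : List α => run (vstep k) 0 w) := by
  have f1 : Fib1 (fun (w : List α) (a : α) => ((w.count a : ℕ) : ZMod e)) :=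
    Fib1.pi (fun a m => Metab.exists_regex_count a e m)
  refine (f1.comp (fun c : α → ZMod e => ∑ a : α, (c a).val • k a)).congr ?_
  intro w
  rw [run_vstep, sum_count e he, zero_add]

end Phase

/-- **Groups with an abelian normal subgroup of prime index.** -/
theorem prime_main {α : Type u} {G : Type v} [Fintype α] [Group G] [Fintype G] (p : ℕ)
    [Fact p.Prime] (κ : G → ZMod p) (hκ : ∀ g h, κ (g * h) = κ g + κ h)
    (hA : ∀ g h, κ g = 0 → κ h = 0 → g * h = h * g) (φ : α → G) (P : Set G) :
    ∃ e : GRegex α, e.starHeight ≤ 1 ∧ e.lang = {w : List α | (w.map φ).prod ∈ P} := by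
  haveI : NeZero (Fintype.card G) := ⟨Fintype.card_ne_zero⟩
  refine group_main κ hκ hA φ ?_ ?_ P
  · intro x h
    exact Zp.fib_orig (fun a => κ (φ a)) x h 0 (Fintype.card G)
  · refine fibPhase p ?_ _
    intro v
    rw [nsmul_eq_mul, ZMod.natCast_self, zero_mul]

end Ab

end Vale.Agent.Lib.P329
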