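import Vale.Agent.Lib.P329.PPair

/-!
Counting, modulo `N`, the occurrences of a letter at a given phase modulo a prime `p`, over
an arbitrary finite alphabet with an arbitrary weight function.
-/

set_option linter.unusedSectionVars false

namespace Vale.Agent.Lib.P329

universe u v

open Classical

namespace Zp

open SF Ev

variable {p : ℕ}

/-- Renaming and erasing letters: erased letters have weight zero and differ from `x`. -/
lemma cnt_red {α : Type u} {β : Type v} (k : α → ZMod p) (kk : β → ZMod p) (x : α) (x' : β)
    (j : ZMod p) (f : α → Option β) (h1 : ∀ a, f a = none → k a = 0 ∧ a ≠ x)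
    (h2 : ∀ a b, f a = some b → kk b = k a ∧ (b = x' ↔ a = x)) :
    ∀ (w : List α) (s : ZMod p), cnt (ostep k) (oX x j) s w =
      cnt (ostep kk) (oX x' j) s (w.filterMap f) := by
  intro w
  induction w with
  | nil => intro s; rfl
  | cons a w ih =>
    intro s
    cases hf : f a with
    | none =>
      obtain ⟨e1, e2⟩ := h1 a hf
      rw [List.filterMap_cons_none hf, cnt_cons, ← ih]
      have hno : ¬ oX x j s a := fun h => e2 h.2
      have hs : ostep k s a = s := by simp [ostep, e1]
      rw [if_neg hno, hs, zero_add]
    | some b =>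
      obtain ⟨e1, e2⟩ := h2 a b hf
      rw [List.filterMap_cons_some hf, cnt_cons, cnt_cons, ← ih]
      have hs : ostep k s a = ostep kk s b := by simp [ostep, e1]
      rw [hs]
      congr 1
      by_cases hx : oX x j s a
      · rw [if_pos hx, if_pos ⟨hx.1, e2.mpr hx.2⟩]
      · rw [if_neg hx, if_neg (fun h => hx ⟨h.1, e2.mp h.2⟩)]

variable [Fact p.Prime]

/-- Counting a letter at a phase, for alphabets in the lowest universe. -/
theorem fib_type {α : Type} [Fintype α] (k : α → ZMod p) (x : α) (j s : ZMod p) (N : ℕ)
    [NeZero N] : Fib1 (fun w : List α => ((cnt (ostep k) (oX x j) s w : ℕ) : ZMod N)) := by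
  by_cases hx : k x = 0
  · exact fibLoop k x hx j s N
  · have h := (fibX (β := {a : α // k a ≠ 0}) (fun b => k b.1) ⟨x, hx⟩ (fun b => b.2) N j
      s).filterMap (fun a => if h : k a ≠ 0 then some ⟨a, h⟩ else none)
    refine h.congr ?_
    intro w
    rw [cnt_red k (fun b : {a : α // k a ≠ 0} => k b.1) x ⟨x, hx⟩ j
      (fun a => if h : k a ≠ 0 then some ⟨a, h⟩ else none) ?_ ?_ w s]
    · intro a ha
      by_cases h0 : k a ≠ 0
      · rw [dif_pos h0] at ha
        cases ha
      · refine ⟨not_not.mp h0, ?_⟩
        rintro rfl
        exact h0 hx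
    · intro a b hab
      by_cases h0 : k a ≠ 0
      · rw [dif_pos h0] at hab
        have hb : b = ⟨a, h0⟩ := (Option.some.inj hab).symm
        subst hb
        refine ⟨rfl, ?_⟩
        constructor
        · intro h
          exact congrArg Subtype.val h
        · intro h
          exact Subtype.ext h
      · rw [dif_neg h0] at hab
        cases hab

/-- **Counting the occurrences of a letter at a phase modulo a prime.** -/
theorem fib_orig {α : Type u} [Fintype α] (k : α → ZMod p) (x : α) (j s : ZMod p) (N : ℕ)
    [NeZero N] : Fib1 (fun w : List α => ((cnt (ostep k) (oX x j) s w : ℕ) : ZMod N)) := by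
  have h := (fib_type (fun b : Fin (Fintype.card α) => k ((Fintype.equivFin α).symm b))
    (Fintype.equivFin α x) j s N).filterMap (fun a => some (Fintype.equivFin α a))
  refine h.congr ?_
  intro w
  rw [cnt_red k (fun b : Fin (Fintype.card α) => k ((Fintype.equivFin α).symm b)) x
    (Fintype.equivFin α x) j (fun a => some (Fintype.equivFin α a)) ?_ ?_ w s]
  · intro a ha
    cases ha
  · intro a b hab
    have hb : b = Fintype.equivFin α a := (Option.some.inj hab).symm
    subst hb
    refine ⟨by simp, ?_⟩
    exact (Fintype.equivFin α).injective.eq_iff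

end Zp

end Vale.Agent.Lib.P329
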