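import Vale.Agent.Lib.P329.Phase
import Mathlib.Data.List.Sublists

/-!
Counting, modulo any `N`, the occurrences of a word of length at most three as a scattered
subword: the fibers have generalized star height at most one.
-/

namespace Vale.Agent.Lib.P329

universe u v

namespace Sub

open Phase

variable {α : Type u} [DecidableEq α]

/-- The number of occurrences of `u` as a scattered subword of `w`. -/
abbrev SC (u w : List α) : ℕ := w.sublists.count u

lemma SC_concat (u : List α) (y : α) (w : List α) (x : α) :
    SC (u ++ [y]) (w ++ [x]) = SC (u ++ [y]) w + (if x = y then SC u w else 0) := by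
  unfold SC
  rw [List.sublists_concat, List.count_append]
  congr 1
  by_cases h : x = y
  · subst h
    rw [if_pos rfl]
    exact List.count_map_of_injective _ (fun z => z ++ [x]) (List.append_left_injective [x]) u
  · rw [if_neg h]
    apply List.count_eq_zero.mpr
    intro hmem
    rw [List.mem_map] at hmem
    obtain ⟨z, -, hz⟩ := hmem
    have := List.append_inj' hz (by simp)
    exact h (by simpa using this.2)

lemma SC_nil (w : List α) : SC [] w = 1 := by
  induction w using List.reverseRecOn with
  | nil => simp [SC]
  | append_singleton w x ih =>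
    unfold SC at ih ⊢
    rw [List.sublists_concat, List.count_append, ih]
    have : List.count [] (List.map (fun z => z ++ [x]) w.sublists) = 0 := by
      apply List.count_eq_zero.mpr
      intro hmem
      rw [List.mem_map] at hmem
      obtain ⟨z, -, hz⟩ := hmem
      simp at hz
    rw [this]

lemma SC1_concat (a : α) (w : List α) (x : α) :
    SC [a] (w ++ [x]) = SC [a] w + (if x = a then 1 else 0) := by
  have := SC_concat [] a w x
  simp only [List.nil_append, SC_nil] at this
  exact this

lemma SC2_concat (a b : α) (w : List α) (x : α) :
    SC [a, b] (w ++ [x]) = SC [a, b] w + (if x = b then SC [a] w else 0) :=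
  SC_concat [a] b w x

lemma SC3_concat (a b c : α) (w : List α) (x : α) :
    SC [a, b, c] (w ++ [x]) = SC [a, b, c] w + (if x = c then SC [a, b] w else 0) :=
  SC_concat [a, b] c w x

lemma SC1_empty (a : α) : SC [a] ([] : List α) = 0 := by simp [SC]

lemma SC2_empty (a b : α) : SC [a, b] ([] : List α) = 0 := by simp [SC]

lemma SC3_empty (a b c : α) : SC [a, b, c] ([] : List α) = 0 := by simp [SC]

lemma count_concat' (a : α) (w : List α) (x : α) :
    (w ++ [x]).count a = w.count a + (if x = a then 1 else 0) := by
  rw [List.count_append, List.count_singleton]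
  congr 1
  by_cases h : x = a <;> simp [h]

lemma SC1_eq (a : α) (w : List α) : SC [a] w = w.count a := by
  induction w using List.reverseRecOn with
  | nil => simp [SC]
  | append_singleton w x ih => rw [SC1_concat, count_concat', ih]

lemma pc_single (a : α) (w : List α) : pc (fun x => x = a) w = w.count a := by
  induction w using List.reverseRecOn with
  | nil => simp [pc]
  | append_singleton w x ih =>
    rw [pc_concat, count_concat', ih]
    congr 1
    by_cases h : x = a <;> simp [h]

lemma pc_pair (a c : α) (hac : a ≠ c) (w : List α) :
    pc (fun x => x = a ∨ x = c) w = w.count a + w.count c := by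
  induction w using List.reverseRecOn with
  | nil => simp [pc]
  | append_singleton w x ih =>
    rw [pc_concat, count_concat', count_concat', ih]
    by_cases h1 : x = a
    · subst h1
      simp only [hac, true_or, if_true, if_false, add_zero]
      omega
    · by_cases h2 : x = c
      · subst h2
        simp only [h1, or_true, if_true, if_false, add_zero]
        omega
      · simp only [h1, h2, or_self, if_false, add_zero]

/-- The identity function and the square, as summands. -/
def fid : ℕ → ℕ := fun n => n

def fsq : ℕ → ℕ := fun n => n * n

lemma psum_concat_single (a b : α) (f : ℕ → ℕ) (w : List α) (x : α) :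
    psumN (fun y => y = a) b f 0 (w ++ [x]) =
      psumN (fun y => y = a) b f 0 w + (if x = b then f (w.count a) else 0) := by
  rw [psumN_concat, pc_single]
  congr 1
  by_cases h : x = b <;> simp [h]

lemma psum_concat_pair (a c b : α) (hac : a ≠ c) (f : ℕ → ℕ) (w : List α) (x : α) :
    psumN (fun y => y = a ∨ y = c) b f 0 (w ++ [x]) =
      psumN (fun y => y = a ∨ y = c) b f 0 w +
        (if x = b then f (w.count a + w.count c) else 0) := by
  rw [psumN_concat, pc_pair a c hac]
  congr 1
  by_cases h : x = b <;> simp [h]

/-! ### Identities -/

lemma id2 (a b : α) (w : List α) : SC [a, b] w = psumN (fun y => y = a) b fid 0 w := by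
  induction w using List.reverseRecOn with
  | nil => simp [SC, psumN_nil]
  | append_singleton w x ih =>
    rw [SC2_concat, psum_concat_single, ih, SC1_eq]
    rfl

lemma id2' (a : α) (w : List α) : 2 * SC [a, a] w + w.count a = w.count a * w.count a := by
  induction w using List.reverseRecOn with
  | nil => simp [SC]
  | append_singleton w x ih =>
    rw [SC2_concat, count_concat', SC1_eq]
    by_cases h : x = a
    · subst h
      simp only [if_true]
      nlinarith [ih]
    · simp only [h, if_false, add_zero]
      exact ih

lemma id3_abc (a b c : α) (hac : a ≠ c) (hbc : b ≠ c) (w : List α) :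
    2 * SC [a, b, c] w + psumN (fun y => y = a ∨ y = c) b fsq 0 w =
      2 * w.count c * psumN (fun y => y = a) b fid 0 w + psumN (fun y => y = a) b fsq 0 w
        + psumN (fun y => y = c) b fsq 0 w := by
  induction w using List.reverseRecOn with
  | nil => simp [SC, psumN_nil]
  | append_singleton w x ih =>
    rw [SC3_concat, psum_concat_pair a c b hac, psum_concat_single, psum_concat_single,
      psum_concat_single, count_concat', id2]
    by_cases h1 : x = c
    · subst h1
      have h2 : ¬ x = b := fun h => hbc h.symm
      simp only [h2, if_true, if_false, add_zero]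
      nlinarith [ih]
    · by_cases h2 : x = b
      · subst h2
        simp only [h1, if_true, if_false, add_zero, fsq, fid]
        nlinarith [ih]
      · simp only [h1, h2, if_false, add_zero]
        exact ih

lemma id3_aba (a b : α) (hab : a ≠ b) (w : List α) :
    SC [a, b, a] w + psumN (fun y => y = a) b fsq 0 w =
      w.count a * psumN (fun y => y = a) b fid 0 w := by
  induction w using List.reverseRecOn with
  | nil => simp [SC, psumN_nil]
  | append_singleton w x ih =>
    rw [SC3_concat, psum_concat_single, psum_concat_single, count_concat', id2]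
    by_cases h1 : x = a
    · subst h1
      simp only [hab, if_true, if_false, add_zero]
      nlinarith [ih]
    · by_cases h2 : x = b
      · subst h2
        simp only [h1, if_true, if_false, add_zero, fsq, fid]
        nlinarith [ih]
      · simp only [h1, h2, if_false, add_zero]
        exact ih

lemma id3_aac (a c : α) (w : List α) :
    2 * SC [a, a, c] w + psumN (fun y => y = a) c fid 0 w = psumN (fun y => y = a) c fsq 0 w := by
  induction w using List.reverseRecOn with
  | nil => simp [SC, psumN_nil]
  | append_singleton w x ih =>
    rw [SC3_concat, psum_concat_single, psum_concat_single]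
    by_cases h1 : x = c
    · subst h1
      simp only [if_true, fsq, fid]
      have := id2' a w
      nlinarith [ih]
    · simp only [h1, if_false, add_zero]
      exact ih

lemma id2_rev (a b : α) (hab : a ≠ b) (w : List α) :
    SC [a, b] w + psumN (fun y => y = b) a fid 0 w = w.count a * w.count b := by
  induction w using List.reverseRecOn with
  | nil => simp [SC, psumN_nil]
  | append_singleton w x ih =>
    rw [SC2_concat, psum_concat_single, count_concat', count_concat', SC1_eq]
    by_cases h1 : x = b
    · subst h1
      have h2 : ¬ x = a := fun h => hab h.symm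
      simp only [h2, if_true, if_false, add_zero]
      nlinarith [ih]
    · by_cases h2 : x = a
      · subst h2
        simp only [h1, if_true, if_false, add_zero, fid]
        nlinarith [ih]
      · simp only [h1, h2, if_false, add_zero]
        exact ih

lemma id3_abb (a b : α) (hab : a ≠ b) (w : List α) :
    2 * SC [a, b, b] w + w.count a * w.count b + 2 * w.count b * psumN (fun y => y = b) a fid 0 w =
      w.count a * (w.count b * w.count b) + psumN (fun y => y = b) a fid 0 w
        + psumN (fun y => y = b) a fsq 0 w := by
  induction w using List.reverseRecOn with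
  | nil => simp [SC, psumN_nil]
  | append_singleton w x ih =>
    rw [SC3_concat, psum_concat_single, psum_concat_single, count_concat', count_concat']
    by_cases h1 : x = b
    · subst h1
      have h2 : ¬ x = a := fun h => hab h.symm
      simp only [h2, if_true, if_false, add_zero]
      have := id2_rev a x hab w
      nlinarith [ih]
    · by_cases h2 : x = a
      · subst h2
        simp only [h1, if_true, if_false, add_zero, fsq, fid]
        nlinarith [ih]
      · simp only [h1, h2, if_false, add_zero]
        exact ih

lemma id3_aaa (a : α) (w : List α) :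
    6 * SC [a, a, a] w + 3 * (w.count a * w.count a) =
      w.count a * w.count a * w.count a + 2 * w.count a := by
  induction w using List.reverseRecOn with
  | nil => simp [SC]
  | append_singleton w x ih =>
    rw [SC3_concat, count_concat']
    by_cases h : x = a
    · subst h
      simp only [if_true]
      have := id2' x w
      nlinarith [ih]
    · simp only [h, if_false, add_zero]
      exact ih

/-! ### Fibers -/

lemma fib_const {V : Type v} (c : V) : Fib1 (fun _ : List α => c) := by
  intro x
  by_cases h : c = x
  · refine ⟨GRegex.top, by simp, ?_⟩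
    ext w
    simp only [GRegex.mem_lang_top, true_iff]
    exact h
  · refine ⟨GRegex.zero, by simp [GRegex.starHeight], ?_⟩
    ext w
    simp only [GRegex.mem_lang_zero, false_iff]
    exact h

lemma fib_div (N m : ℕ) (hm : 0 < m) [NeZero N] (g : List α → ℕ) (h : List α → ZMod (m * N))
    (hh : Fib1 h) (hg : ∀ w, ((m * g w : ℕ) : ZMod (m * N)) = h w) :
    Fib1 (fun w => ((g w : ℕ) : ZMod N)) := by
  have : NeZero (m * N) := ⟨Nat.mul_ne_zero (Nat.pos_iff_ne_zero.mp hm) (NeZero.ne N)⟩
  refine (hh.comp (fun z : ZMod (m * N) => ((z.val / m : ℕ) : ZMod N))).congr ?_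
  intro w
  rw [← hg w]
  exact cast_div N m hm (g w)

omit [DecidableEq α] in
lemma count_inst (i1 i2 : DecidableEq α) (a : α) (w : List α) :
    @List.count α (@instBEqOfDecidableEq α i1) a w =
      @List.count α (@instBEqOfDecidableEq α i2) a w := by
  have h : i1 = i2 := Subsingleton.elim i1 i2
  subst h
  rfl

lemma fib_cnt [Fintype α] (a : α) (d : ℕ) [NeZero d] :
    Fib1 (fun w : List α => ((w.count a : ℕ) : ZMod d)) :=
  (fib_count a d).congr (fun w => congrArg Nat.cast (count_inst _ _ a w))

lemma fib_P1 [Fintype α] (a b : α) (hab : a ≠ b) (d : ℕ) [NeZero d] :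
    Fib1 (fun w : List α => ((psumN (fun y => y = a) b fid 0 w : ℕ) : ZMod d)) :=
  fib_psum (fun y => y = a) b (fun h => hab h.symm) d fid id (fun _ => rfl)

lemma fib_P2 [Fintype α] (a b : α) (hab : a ≠ b) (d : ℕ) [NeZero d] :
    Fib1 (fun w : List α => ((psumN (fun y => y = a) b fsq 0 w : ℕ) : ZMod d)) :=
  fib_psum (fun y => y = a) b (fun h => hab h.symm) d fsq (fun j => j * j)
    (fun n => by simp [fsq])

lemma fib_Pp [Fintype α] (a c b : α) (hab : a ≠ b) (hcb : c ≠ b) (d : ℕ) [NeZero d] :
    Fib1 (fun w : List α => ((psumN (fun y => y = a ∨ y = c) b fsq 0 w : ℕ) : ZMod d)) :=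
  fib_psum (fun y => y = a ∨ y = c) b
    (by rintro (h | h); exact hab h.symm; exact hcb h.symm) d fsq (fun j => j * j)
    (fun n => by simp [fsq])

lemma fib_SC2 [Fintype α] (N : ℕ) [NeZero N] (a b : α) :
    Fib1 (fun w : List α => ((SC [a, b] w : ℕ) : ZMod N)) := by
  by_cases hab : a = b
  · subst hab
    have : NeZero (2 * N) := ⟨Nat.mul_ne_zero (by norm_num) (NeZero.ne N)⟩
    refine fib_div N 2 (by norm_num) (fun w => SC [a, a] w) _
      ((fib_cnt a (2 * N)).comp (fun X => X * X - X)) ?_
    intro w
    have := congrArg (Nat.cast : ℕ → ZMod (2 * N)) (id2' a w)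
    push_cast at this ⊢
    linear_combination this
  · exact (fib_P1 a b hab N).congr (fun w => by rw [id2])

lemma fib_SC3 [Fintype α] (N : ℕ) [NeZero N] (a b c : α) :
    Fib1 (fun w : List α => ((SC [a, b, c] w : ℕ) : ZMod N)) := by
  have : NeZero (2 * N) := ⟨Nat.mul_ne_zero (by norm_num) (NeZero.ne N)⟩
  have : NeZero (6 * N) := ⟨Nat.mul_ne_zero (by norm_num) (NeZero.ne N)⟩
  by_cases hab : a = b
  · subst hab
    by_cases hac : a = c
    · subst hac
      refine fib_div N 6 (by norm_num) (fun w => SC [a, a, a] w) _
        ((fib_cnt a (6 * N)).comp (fun X => X * X * X + 2 * X - 3 * (X * X))) ?_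
      intro w
      have := congrArg (Nat.cast : ℕ → ZMod (6 * N)) (id3_aaa a w)
      push_cast at this ⊢
      linear_combination this
    · refine fib_div N 2 (by norm_num) (fun w => SC [a, a, c] w) _
        (((fib_P1 a c hac (2 * N)).pair (fib_P2 a c hac (2 * N))).comp (fun t => t.2 - t.1)) ?_
      intro w
      have := congrArg (Nat.cast : ℕ → ZMod (2 * N)) (id3_aac a c w)
      push_cast at this ⊢
      linear_combination this
  · by_cases hbc : b = c
    · subst hbc
      refine fib_div N 2 (by norm_num) (fun w => SC [a, b, b] w) _
        ((((fib_cnt a (2 * N)).pair (fib_cnt b (2 * N))).pair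
          ((fib_P1 b a (Ne.symm hab) (2 * N)).pair (fib_P2 b a (Ne.symm hab) (2 * N)))).comp
          (fun t => t.1.1 * (t.1.2 * t.1.2) + t.2.1 + t.2.2 - t.1.1 * t.1.2
            - 2 * t.1.2 * t.2.1)) ?_
      intro w
      have := congrArg (Nat.cast : ℕ → ZMod (2 * N)) (id3_abb a b hab w)
      push_cast at this ⊢
      linear_combination this
    · by_cases hac : a = c
      · subst hac
        refine ((((fib_cnt a N).pair (fib_P1 a b hab N)).pair (fib_P2 a b hab N)).comp
          (fun t => t.1.1 * t.1.2 - t.2)).congr ?_
        intro w
        have := congrArg (Nat.cast : ℕ → ZMod N) (id3_aba a b hab w)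
        push_cast at this ⊢
        linear_combination (-1 : ZMod N) * this
      · refine fib_div N 2 (by norm_num) (fun w => SC [a, b, c] w) _
          (((((fib_cnt c (2 * N)).pair (fib_P1 a b hab (2 * N))).pair
            ((fib_P2 a b hab (2 * N)).pair (fib_P2 c b (Ne.symm hbc) (2 * N)))).pair
            (fib_Pp a c b hab (Ne.symm hbc) (2 * N))).comp
            (fun t => 2 * t.1.1.1 * t.1.1.2 + t.1.2.1 + t.1.2.2 - t.2)) ?_
        intro w
        have := congrArg (Nat.cast : ℕ → ZMod (2 * N)) (id3_abc a b c hac hbc w)
        push_cast at this ⊢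
        linear_combination this

/-- **Scattered subwords of length at most three can be counted modulo any `N`.** -/
theorem fib_SC [Fintype α] (N : ℕ) [NeZero N] : ∀ (u : List α), u.length ≤ 3 →
    Fib1 (fun w : List α => ((SC u w : ℕ) : ZMod N))
  | [], _ => (fib_const (1 : ZMod N)).congr (fun w => by rw [SC_nil]; simp)
  | [a], _ => (fib_cnt a N).congr (fun w => by rw [SC1_eq])
  | [a, b], _ => fib_SC2 N a b
  | [a, b, c], _ => fib_SC3 N a b c
  | _ :: _ :: _ :: _ :: _, h => absurd h (by simp only [List.length_cons]; omega)

/-- The hand-in form: the residue of the number of occurrences. -/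
theorem main [Fintype α] (u : List α) (hu : u.length ≤ 3) (n : ℕ) (hn : 0 < n) (k : ℕ) :
    ∃ e : GRegex α, e.starHeight ≤ 1 ∧ e.lang = {w : List α | w.sublists.count u % n = k} := by
  have : NeZero n := ⟨Nat.pos_iff_ne_zero.mp hn⟩
  obtain ⟨e, he1, he2⟩ := ((fib_SC n u hu).comp (fun z : ZMod n => z.val)) k
  refine ⟨e, he1, ?_⟩
  rw [he2]
  ext w
  show ((SC u w : ℕ) : ZMod n).val = k ↔ w.sublists.count u % n = k
  rw [ZMod.val_natCast]

end Sub

end Vale.Agent.Lib.P329
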