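import Vale.Agent.Lib.P329.Blocks
import Vale.Agent.Lib.P329.PPair
import Vale.Agent.Lib.P329.Subword

/-!
Counting, modulo any `N`, the pairs of positions of a word at which two given factors of
length two end: the fibers have generalized star height at most one.
-/

namespace Vale.Agent.Lib.P329

open Classical

namespace Pair

open Blk

/-! ### Sums over a word of types -/

section TypeLevel

variable {τ : Type} [DecidableEq τ]

lemma SC2_cons (x y z : τ) (l : List τ) :
    Sub.SC [x, y] (z :: l) = Sub.SC [x, y] l + (if z = x then l.count y else 0) := by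
  induction l using List.reverseRecOn with
  | nil =>
    have h := Sub.SC2_concat x y ([] : List τ) z
    simp only [List.nil_append] at h
    rw [h, Sub.SC2_empty, Sub.SC1_empty]
    simp
  | append_singleton l w ih =>
    have h1 := Sub.SC2_concat x y (z :: l) w
    have h2 := Sub.SC2_concat x y l w
    rw [List.cons_append] at h1
    rw [h1, ih, h2, Sub.SC1_eq, Sub.SC1_eq, List.count_cons, List.count_append]
    by_cases hz : z = x <;> by_cases hw : w = y <;> simp [hz, hw]
    omega

/-- The pair sum of a word of types. -/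
def sP (a b s : τ → ℕ) : List τ → ℕ
  | [] => 0
  | t :: ts => s t + a t * (ts.map b).sum + sP a b s ts

lemma count_cons_ite (x z : τ) (l : List τ) :
    (z :: l).count x = l.count x + (if z = x then 1 else 0) := by
  rw [List.count_cons]
  simp

lemma count_cons_mul (f : τ → ℕ) (z x : τ) (l : List τ) :
    f x * (z :: l).count x = f x * l.count x + (if z = x then f x else 0) := by
  rw [List.count_cons]
  by_cases hzx : z = x
  · simp [hzx, mul_add]
  · simp [hzx]

lemma sum_map_count [Fintype τ] (f : τ → ℕ) (l : List τ) :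
    (l.map f).sum = ∑ x, f x * l.count x := by
  induction l with
  | nil => simp
  | cons z l ih =>
    rw [List.map_cons, List.sum_cons, ih]
    simp only [count_cons_mul, Finset.sum_add_distrib, Finset.sum_ite_eq, Finset.mem_univ,
      if_true]
    ring

lemma sP_eq [Fintype τ] (a b s : τ → ℕ) (l : List τ) :
    sP a b s l = ∑ x, s x * l.count x + ∑ x, ∑ y, a x * b y * Sub.SC [x, y] l := by
  induction l with
  | nil => simp [sP, Sub.SC2_empty]
  | cons z l ih =>
    have h2 : ∀ x, (∑ y, a x * b y * Sub.SC [x, y] (z :: l)) =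
        (∑ y, a x * b y * Sub.SC [x, y] l) +
          (if z = x then a x * ∑ y, b y * l.count y else 0) := by
      intro x
      by_cases hzx : z = x
      · rw [if_pos hzx, Finset.mul_sum, ← Finset.sum_add_distrib]
        refine Finset.sum_congr rfl (fun y _ => ?_)
        rw [SC2_cons, if_pos hzx]
        ring
      · rw [if_neg hzx, add_zero]
        refine Finset.sum_congr rfl (fun y _ => ?_)
        rw [SC2_cons, if_neg hzx, add_zero]
    show s z + a z * (l.map b).sum + sP a b s l = _
    rw [ih, sum_map_count]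
    simp only [count_cons_mul, h2, Finset.sum_add_distrib, Finset.sum_ite_eq, Finset.mem_univ,
      if_true]
    ring

lemma fib_sum [Fintype τ] (f : τ → ℕ) (N : ℕ) [NeZero N] :
    Fib1 (fun ts : List τ => (((ts.map f).sum : ℕ) : ZMod N)) := by
  have h := (Fib1.pi (fun x : τ => Sub.fib_cnt x N)).comp
    (fun v : τ → ZMod N => ∑ x, (f x : ZMod N) * v x)
  refine h.congr ?_
  intro ts
  rw [sum_map_count]
  push_cast
  rfl

lemma fib_sP [Fintype τ] (a b s : τ → ℕ) (N : ℕ) [NeZero N] :
    Fib1 (fun ts : List τ => ((sP a b s ts : ℕ) : ZMod N)) := by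
  have h1 : Fib1 (fun (ts : List τ) (x : τ) => ((ts.count x : ℕ) : ZMod N)) :=
    Fib1.pi (fun x => Sub.fib_cnt x N)
  have h2 : Fib1 (fun (ts : List τ) (xy : τ × τ) =>
      ((Sub.SC [xy.1, xy.2] ts : ℕ) : ZMod N)) :=
    Fib1.pi (fun xy => Sub.fib_SC N [xy.1, xy.2] (by simp))
  have h := (h1.pair h2).comp (fun v : (τ → ZMod N) × (τ × τ → ZMod N) =>
    ∑ x, (s x : ZMod N) * v.1 x + ∑ x, ∑ y, (a x : ZMod N) * (b y : ZMod N) * v.2 (x, y))
  refine h.congr ?_
  intro ts
  rw [sP_eq]
  push_cast
  rfl

end TypeLevel

variable {α : Type}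

/-! ### Events of the automaton remembering the previous letter -/

/-- The number of positions of `w` at which the event `ev` (a relation between the previous
letter and the letter read) holds; `p` is the letter before the word. -/
noncomputable def cn (ev : α → α → Prop) : α → List α → ℕ
  | _, [] => 0
  | p, a :: w => (if ev p a then 1 else 0) + cn ev a w

/-- The number of pairs of positions `i < j` with the event `A` at `i` and `B` at `j`. -/
noncomputable def pc (A B : α → α → Prop) : α → List α → ℕ
  | _, [] => 0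
  | p, a :: w => (if A p a then cn B a w else 0) + pc A B a w

/-- The last letter after reading `u`, starting with the last letter `p`. -/
def st (p : α) (u : List α) : α := u.getLast?.getD p

lemma st_nil (p : α) : st p [] = p := rfl

lemma st_cons (p a : α) (u : List α) : st p (a :: u) = st a u := by
  simp [st, List.getLast?_cons]

lemma st_concat (p c : α) (u : List α) : st p (u ++ [c]) = c := by
  simp [st]

lemma cn_append (ev : α → α → Prop) : ∀ (u v : List α) (p : α),
    cn ev p (u ++ v) = cn ev p u + cn ev (st p u) v := by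
  intro u
  induction u with
  | nil => intro v p; simp [cn, st_nil]
  | cons a u ih =>
    intro v p
    simp only [List.cons_append, cn, st_cons]
    rw [ih]
    ring

lemma pc_append (A B : α → α → Prop) : ∀ (u v : List α) (p : α),
    pc A B p (u ++ v) = pc A B p u + cn A p u * cn B (st p u) v + pc A B (st p u) v := by
  intro u
  induction u with
  | nil => intro v p; simp [pc, cn, st_nil]
  | cons a u ih =>
    intro v p
    simp only [List.cons_append, pc, cn, st_cons]
    rw [ih, cn_append]
    split_ifs <;> ring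

section Free

variable (C : α → Prop)

lemma cn_free (ev : α → α → Prop) (iv : ∀ p a, ev p a → C p ∨ C a) : ∀ (t : List α) (p : α),
    ¬ C p → (∀ a ∈ t, ¬ C a) → cn ev p t = 0 := by
  intro t
  induction t with
  | nil => intro p _ _; rfl
  | cons a t ih =>
    intro p hp ht
    have ha : ¬ C a := ht a (by simp)
    have hev : ¬ ev p a := fun h => (iv p a h).elim hp ha
    rw [cn, if_neg hev, zero_add]
    exact ih a ha (fun x hx => ht x (by simp [hx]))

lemma pc_free (A B : α → α → Prop) (iA : ∀ p a, A p a → C p ∨ C a) : ∀ (t : List α) (p : α),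
    ¬ C p → (∀ a ∈ t, ¬ C a) → pc A B p t = 0 := by
  intro t
  induction t with
  | nil => intro p _ _; rfl
  | cons a t ih =>
    intro p hp ht
    have ha : ¬ C a := ht a (by simp)
    have hev : ¬ A p a := fun h => (iA p a h).elim hp ha
    rw [pc, if_neg hev, zero_add]
    exact ih a ha (fun x hx => ht x (by simp [hx]))

/-- The number of events in a word without letters of `C`, given its first letter. -/
noncomputable def tcn (ev : α → α → Prop) (p : α) : Option α → ℕ
  | none => 0
  | some a => if ev p a then 1 else 0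

lemma cn_tail (ev : α → α → Prop) (iv : ∀ p a, ev p a → C p ∨ C a) (t : List α) (p : α)
    (ht : ∀ a ∈ t, ¬ C a) : cn ev p t = tcn ev p t.head? := by
  cases t with
  | nil => rfl
  | cons a t =>
    rw [cn, cn_free C ev iv t a (ht a (by simp)) (fun x hx => ht x (by simp [hx])), add_zero]
    rfl

lemma pc_tail (A B : α → α → Prop) (iA : ∀ p a, A p a → C p ∨ C a)
    (iB : ∀ p a, B p a → C p ∨ C a) (t : List α) (p : α)
    (ht : ∀ a ∈ t, ¬ C a) : pc A B p t = 0 := by
  cases t with
  | nil => rfl
  | cons a t =>
    rw [pc, pc_free C A B iA t a (ht a (by simp)) (fun x hx => ht x (by simp [hx])),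
      cn_free C B iB t a (ht a (by simp)) (fun x hx => ht x (by simp [hx]))]
    simp

/-- The number of events in a block of a given type. -/
noncomputable def bcn (ev : α → α → Prop) (p : α) (t : Ty α) : ℕ :=
  match t.1, t.2.1 with
  | some a, some b => (if ev p a then 1 else 0) + (if ev b t.2.2 then 1 else 0)
  | _, _ => if ev p t.2.2 then 1 else 0

/-- The number of pairs of events in a block of a given type. -/
noncomputable def bpc (A B : α → α → Prop) (p : α) (t : Ty α) : ℕ :=
  match t.1, t.2.1 with
  | some a, some b => if A p a ∧ B b t.2.2 then 1 else 0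
  | _, _ => 0

lemma inner_cn (ev : α → α → Prop) (iv : ∀ p a, ev p a → C p ∨ C a) (c : α) :
    ∀ (u : List α) (a : α), ¬ C a → (∀ x ∈ u, ¬ C x) →
      cn ev a (u ++ [c]) = if ev (st a u) c then 1 else 0 := by
  intro u
  induction u with
  | nil => intro a _ _; rw [List.nil_append, cn, cn, add_zero, st_nil]
  | cons a' u ih =>
    intro a ha hu
    have ha' : ¬ C a' := hu a' (by simp)
    have hev : ¬ ev a a' := fun h => (iv a a' h).elim ha ha'
    rw [List.cons_append, cn, if_neg hev, zero_add, st_cons]
    exact ih a' ha' (fun x hx => hu x (by simp [hx]))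

lemma inner_pc (A B : α → α → Prop) (iA : ∀ p a, A p a → C p ∨ C a) (c : α) :
    ∀ (u : List α) (a : α), ¬ C a → (∀ x ∈ u, ¬ C x) → pc A B a (u ++ [c]) = 0 := by
  intro u
  induction u with
  | nil => intro a _ _; simp [pc, cn]
  | cons a' u ih =>
    intro a ha hu
    have ha' : ¬ C a' := hu a' (by simp)
    have hev : ¬ A a a' := fun h => (iA a a' h).elim ha ha'
    rw [List.cons_append, pc, if_neg hev, zero_add]
    exact ih a' ha' (fun x hx => hu x (by simp [hx]))

lemma block_cn (ev : α → α → Prop) (iv : ∀ p a, ev p a → C p ∨ C a) (u : List α) (c p : α)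
    (hu : ∀ x ∈ u, ¬ C x) : cn ev p (u ++ [c]) = bcn ev p (bty u c) := by
  cases u with
  | nil =>
    rw [List.nil_append, cn, cn, add_zero]
    rfl
  | cons a u =>
    rw [List.cons_append, cn, inner_cn C ev iv c u a (hu a (by simp))
      (fun x hx => hu x (by simp [hx]))]
    have hb : bty (a :: u) c = (some a, some (st a u), c) := by
      simp [bty, st, List.getLast?_cons]
    rw [hb]
    rfl

lemma block_pc (A B : α → α → Prop) (iA : ∀ p a, A p a → C p ∨ C a)
    (iB : ∀ p a, B p a → C p ∨ C a) (u : List α) (c p : α)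
    (hu : ∀ x ∈ u, ¬ C x) : pc A B p (u ++ [c]) = bpc A B p (bty u c) := by
  cases u with
  | nil => simp [pc, cn, bpc, bty]
  | cons a u =>
    rw [List.cons_append, pc, inner_pc C A B iA c u a (hu a (by simp))
      (fun x hx => hu x (by simp [hx])), add_zero,
      inner_cn C B iB c u a (hu a (by simp)) (fun x hx => hu x (by simp [hx]))]
    simp only [bpc, bty, st, List.getLast?_cons, List.head?_cons]
    split_ifs <;> simp_all

lemma bcn_congr (ev : α → α → Prop) (p p0 : α) (h : ∀ a, ev p a ↔ ev p0 a) (t : Ty α) :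
    bcn ev p t = bcn ev p0 t := by
  have : ev p = ev p0 := funext (fun a => propext (h a))
  unfold bcn
  rw [this]

lemma bpc_congr (A B : α → α → Prop) (p p0 : α) (h : ∀ a, A p a ↔ A p0 a) (t : Ty α) :
    bpc A B p t = bpc A B p0 t := by
  have : A p = A p0 := funext (fun a => propext (h a))
  unfold bpc
  rw [this]

lemma tcn_congr (ev : α → α → Prop) (p p0 : α) (h : ∀ a, ev p a ↔ ev p0 a) (o : Option α) :
    tcn ev p o = tcn ev p0 o := by
  have : ev p = ev p0 := funext (fun a => propext (h a))
  unfold tcn
  rw [this]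

lemma cn_dec (ev : α → α → Prop) (iv : ∀ p a, ev p a → C p ∨ C a)
    (h1 : ∀ c c' a, C c → C c' → (ev c a ↔ ev c' a)) (c0 : α) (hc0 : C c0) :
    ∀ (ts : List (Ty α)) (m t : List α) (p : α), C p → m ∈ Subst.dec (X C) ts →
      (∀ a ∈ t, ¬ C a) →
      cn ev p (m ++ t) = (ts.map (bcn ev c0)).sum + tcn ev c0 t.head? := by
  intro ts
  induction ts with
  | nil =>
    intro m t p hp hm ht
    have hm0 : m = [] := hm
    subst hm0
    rw [List.nil_append, cn_tail C ev iv t p ht,
      tcn_congr ev p c0 (fun a => h1 p c0 a hp hc0)]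
    simp
  | cons τ ts ih =>
    intro m t p hp hm ht
    rw [Subst.dec_cons] at hm
    obtain ⟨b, ⟨u, c, rfl, hu, hc, hty⟩, r, hr, rfl⟩ := Language.mem_mul.mp hm
    rw [List.append_assoc, cn_append, st_concat, block_cn C ev iv u c p hu, hty,
      bcn_congr ev p c0 (fun a => h1 p c0 a hp hc0), ih r t c hc hr ht, List.map_cons,
      List.sum_cons]
    ring

lemma pc_dec (A B : α → α → Prop) (iA : ∀ p a, A p a → C p ∨ C a)
    (iB : ∀ p a, B p a → C p ∨ C a)
    (hA : ∀ c c' a, C c → C c' → (A c a ↔ A c' a))
    (hB : ∀ c c' a, C c → C c' → (B c a ↔ B c' a)) (c0 : α) (hc0 : C c0) :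
    ∀ (ts : List (Ty α)) (m t : List α) (p : α), C p → m ∈ Subst.dec (X C) ts →
      (∀ a ∈ t, ¬ C a) →
      pc A B p (m ++ t) = sP (bcn A c0) (bcn B c0) (bpc A B c0) ts +
        (ts.map (bcn A c0)).sum * tcn B c0 t.head? := by
  intro ts
  induction ts with
  | nil =>
    intro m t p hp hm ht
    have hm0 : m = [] := hm
    subst hm0
    rw [List.nil_append, pc_tail C A B iA iB t p ht]
    simp [sP]
  | cons τ ts ih =>
    intro m t p hp hm ht
    rw [Subst.dec_cons] at hm
    obtain ⟨b, ⟨u, c, rfl, hu, hc, hty⟩, r, hr, rfl⟩ := Language.mem_mul.mp hm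
    rw [List.append_assoc, pc_append, st_concat, block_pc C A B iA iB u c p hu, hty,
      bpc_congr A B p c0 (fun a => hA p c0 a hp hc0), block_cn C A iA u c p hu, hty,
      bcn_congr A p c0 (fun a => hA p c0 a hp hc0),
      cn_dec C B iB hB c0 hc0 ts r t c hc hr ht, ih r t c hc hr ht]
    simp only [sP, List.map_cons, List.sum_cons]
    ring

/-- **Counting events and pairs of events incident to `C`**, starting after a letter of
`C`. -/
theorem blk [Fintype α] (c0 : α) (hc0 : C c0) (A B : α → α → Prop)
    (iA : ∀ p a, A p a → C p ∨ C a) (iB : ∀ p a, B p a → C p ∨ C a)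
    (hA : ∀ c c' a, C c → C c' → (A c a ↔ A c' a))
    (hB : ∀ c c' a, C c → C c' → (B c a ↔ B c' a)) (N : ℕ) [NeZero N] :
    Fib1 (fun w : List α => (((cn A c0 w : ℕ) : ZMod N), ((cn B c0 w : ℕ) : ZMod N),
      ((pc A B c0 w : ℕ) : ZMod N))) := by
  have hF : Fib1 (fun ts : List (Ty α) =>
      ((((ts.map (bcn A c0)).sum : ℕ) : ZMod N), (((ts.map (bcn B c0)).sum : ℕ) : ZMod N),
        ((sP (bcn A c0) (bcn B c0) (bpc A B c0) ts : ℕ) : ZMod N))) :=
    (fib_sum _ N).pair ((fib_sum _ N).pair (fib_sP _ _ _ N))
  refine Blk.transfer C _ hF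
    (fun v h => (v.1 + (tcn A c0 h : ZMod N), v.2.1 + (tcn B c0 h : ZMod N),
      v.2.2 + v.1 * (tcn B c0 h : ZMod N))) _ ?_
  intro ts m t hm ht
  rw [cn_dec C A iA hA c0 hc0 ts m t c0 hc0 hm ht, cn_dec C B iB hB c0 hc0 ts m t c0 hc0 hm ht,
    pc_dec C A B iA iB hA hB c0 hc0 ts m t c0 hc0 hm ht]
  push_cast
  rfl

/-- The same, starting after an arbitrary letter. -/
theorem blk' [Fintype α] (c0 : α) (hc0 : C c0) (A B : α → α → Prop)
    (iA : ∀ p a, A p a → C p ∨ C a) (iB : ∀ p a, B p a → C p ∨ C a)
    (hA : ∀ c c' a, C c → C c' → (A c a ↔ A c' a))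
    (hB : ∀ c c' a, C c → C c' → (B c a ↔ B c' a)) (N : ℕ) [NeZero N] (p : α) :
    Fib1 (fun w : List α => (((cn A p w : ℕ) : ZMod N), ((cn B p w : ℕ) : ZMod N),
      ((pc A B p w : ℕ) : ZMod N))) := by
  have h := ((blk C c0 hc0 A B iA iB hA hB N).pair (Zp.fibHead (β := α))).comp
    (fun v : (ZMod N × ZMod N × ZMod N) × Option α =>
      match v.2 with
      | none => v.1
      | some a =>
        (v.1.1 + ((if A p a then 1 else 0) - (if A c0 a then 1 else 0)),
          v.1.2.1 + ((if B p a then 1 else 0) - (if B c0 a then 1 else 0)),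
          v.1.2.2 + ((if A p a then 1 else 0) - (if A c0 a then 1 else 0)) *
            (v.1.2.1 - (if B c0 a then 1 else 0))))
  refine h.congr ?_
  intro w
  cases w with
  | nil => rfl
  | cons a w =>
    simp only [List.head?_cons, cn, pc]
    refine Prod.ext ?_ (Prod.ext ?_ ?_)
    · simp only
      push_cast
      split_ifs <;> ring
    · simp only
      push_cast
      split_ifs <;> ring
    · simp only
      push_cast
      split_ifs <;> ring

end Free

/-! ### Weighted counts and linear combinations -/

section Weighted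

variable {R : Type} [CommRing R]

/-- The sum of the weights of the positions of a word. -/
def wc (f : α → α → R) : α → List α → R
  | _, [] => 0
  | p, a :: w => f p a + wc f a w

/-- The sum over the pairs of positions `i < j` of the product of the weights. -/
def wp (f g : α → α → R) : α → List α → R
  | _, [] => 0
  | p, a :: w => f p a * wc g a w + wp f g a w

lemma wc_sum {ι : Type} [Fintype ι] (k : ι → R) (F : ι → α → α → R) : ∀ (w : List α) (p : α),
    wc (fun p a => ∑ i, k i * F i p a) p w = ∑ i, k i * wc (F i) p w := by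
  intro w
  induction w with
  | nil => intro p; simp [wc]
  | cons a w ih =>
    intro p
    simp only [wc, ih, mul_add, Finset.sum_add_distrib]

lemma wp_sum {ι κ : Type} [Fintype ι] [Fintype κ] (k : ι → R) (F : ι → α → α → R)
    (k' : κ → R) (F' : κ → α → α → R) : ∀ (w : List α) (p : α),
    wp (fun p a => ∑ i, k i * F i p a) (fun p a => ∑ j, k' j * F' j p a) p w =
      ∑ i, ∑ j, k i * k' j * wp (F i) (F' j) p w := by
  intro w
  induction w with
  | nil => intro p; simp [wp]
  | cons a w ih =>
    intro p
    simp only [wp]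
    rw [ih, wc_sum, Finset.sum_mul_sum, ← Finset.sum_add_distrib]
    refine Finset.sum_congr rfl (fun i _ => ?_)
    rw [← Finset.sum_add_distrib]
    refine Finset.sum_congr rfl (fun j _ => ?_)
    ring

lemma cn_wc (ev : α → α → Prop) : ∀ (w : List α) (p : α),
    ((cn ev p w : ℕ) : R) = wc (fun p a => if ev p a then (1 : R) else 0) p w := by
  intro w
  induction w with
  | nil => intro p; simp [cn, wc]
  | cons a w ih =>
    intro p
    simp only [cn, wc]
    rw [← ih]
    push_cast
    split_ifs <;> rfl

lemma pc_wp (A B : α → α → Prop) : ∀ (w : List α) (p : α),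
    ((pc A B p w : ℕ) : R) = wp (fun p a => if A p a then (1 : R) else 0)
      (fun p a => if B p a then (1 : R) else 0) p w := by
  intro w
  induction w with
  | nil => intro p; simp [pc, wp]
  | cons a w ih =>
    intro p
    simp only [pc, wp]
    rw [← ih, ← cn_wc]
    push_cast
    split_ifs <;> simp

/-- The basis events with target letter `y`: the letter `y` is read; the letter `y` is read
right after a different letter `x`. -/
def bev (y : α) : Option α → α → α → Prop
  | none => fun _ a => a = y
  | some x => fun p a => p = x ∧ a = y ∧ x ≠ y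

/-- The coefficients of the event that `y` is read right after `b`. -/
noncomputable def kap (b y : α) : Option α → R
  | none => if b = y then 1 else 0
  | some v => if b = y then -1 else if v = b then 1 else 0

lemma sum_kap [Fintype α] (b y p a : α) :
    ∑ o : Option α, (kap b y o : R) * (if bev y o p a then (1 : R) else 0) =
      if p = b ∧ a = y then (1 : R) else 0 := by
  rw [Fintype.sum_option]
  have hs : ∑ v : α, (kap b y (some v) : R) * (if bev y (some v) p a then (1 : R) else 0) =
      kap b y (some p) * (if a = y ∧ p ≠ y then (1 : R) else 0) := by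
    rw [Finset.sum_eq_single p]
    · simp [bev]
    · intro v _ hv
      have : ¬ bev y (some v) p a := fun h => hv h.1.symm
      rw [if_neg this, mul_zero]
    · intro h
      exact absurd (Finset.mem_univ p) h
  rw [hs]
  simp only [kap, bev]
  by_cases hby : b = y <;> by_cases hay : a = y <;> by_cases hpy : p = y <;>
    by_cases hpb : p = b <;> simp_all

lemma ind_eq [Fintype α] (b y p a : α) (d : Decidable (p = b ∧ a = y)) :
    @ite R (p = b ∧ a = y) d 1 0 =
      ∑ o : Option α, (kap b y o : R) * (if bev y o p a then (1 : R) else 0) := by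
  rw [sum_kap]
  by_cases h : p = b ∧ a = y
  · rw [if_pos h, if_pos h]
  · rw [if_neg h, if_neg h]

end Weighted

/-- Every pair of basis events is incident to a suitable set of letters. -/
lemma good_pair (y u : α) (o o' : Option α) :
    ∃ (C : α → Prop) (c0 : α), C c0 ∧
      (∀ p a, bev y o p a → C p ∨ C a) ∧ (∀ p a, bev u o' p a → C p ∨ C a) ∧
      (∀ c c' a, C c → C c' → (bev y o c a ↔ bev y o c' a)) ∧
      (∀ c c' a, C c → C c' → (bev u o' c a ↔ bev u o' c' a)) := by
  cases o with
  | none =>
    cases o' with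
    | none =>
      refine ⟨fun a => a = y ∨ a = u, y, Or.inl rfl, ?_, ?_, ?_, ?_⟩ <;>
        simp only [bev] <;> grind
    | some z =>
      by_cases hzy : z = y
      · refine ⟨fun a => a = y, y, rfl, ?_, ?_, ?_, ?_⟩ <;> simp only [bev] <;> grind
      · refine ⟨fun a => a = y ∨ a = u, y, Or.inl rfl, ?_, ?_, ?_, ?_⟩ <;>
          simp only [bev] <;> grind
  | some x =>
    cases o' with
    | none =>
      by_cases hxu : x = u
      · refine ⟨fun a => a = u, u, rfl, ?_, ?_, ?_, ?_⟩ <;> simp only [bev] <;> grind
      · refine ⟨fun a => a = y ∨ a = u, y, Or.inl rfl, ?_, ?_, ?_, ?_⟩ <;>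
          simp only [bev] <;> grind
    | some z =>
      by_cases hxu : x = u
      · refine ⟨fun a => a = x, x, rfl, ?_, ?_, ?_, ?_⟩ <;> simp only [bev] <;> grind
      · by_cases hzy : z = y
        · refine ⟨fun a => a = y, y, rfl, ?_, ?_, ?_, ?_⟩ <;> simp only [bev] <;> grind
        · refine ⟨fun a => a = y ∨ a = u, y, Or.inl rfl, ?_, ?_, ?_, ?_⟩ <;>
            simp only [bev] <;> grind

/-- Pairs of basis events can be counted modulo `N`. -/
lemma fib_basis [Fintype α] (N : ℕ) [NeZero N] (y u : α) (o o' : Option α) (p : α) :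
    Fib1 (fun w : List α => (((cn (bev y o) p w : ℕ) : ZMod N),
      ((cn (bev u o') p w : ℕ) : ZMod N), ((pc (bev y o) (bev u o') p w : ℕ) : ZMod N))) := by
  obtain ⟨C, c0, hc0, iA, iB, hA, hB⟩ := good_pair y u o o'
  exact blk' C c0 hc0 _ _ iA iB hA hB N p

/-! ### The word of factors of length two -/

/-- The pairs (previous letter, letter) along a word; `p` is the letter before the word. -/
def evs : α → List α → List (α × α)
  | _, [] => []
  | p, a :: w => (p, a) :: evs a w

section Final

variable [Fintype α]

/-- Counting a factor of length two, and the pairs of occurrences of two such factors. -/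
lemma fib_cp (N : ℕ) [NeZero N] (e e' : α × α) (p : α) :
    Fib1 (fun w : List α => (((cn (fun q a => q = e.1 ∧ a = e.2) p w : ℕ) : ZMod N),
      ((pc (fun q a => q = e.1 ∧ a = e.2) (fun q a => q = e'.1 ∧ a = e'.2) p w : ℕ) :
        ZMod N))) := by
  have hb : Fib1 (fun (w : List α) (oo : Option α × Option α) =>
      (((cn (bev e.2 oo.1) p w : ℕ) : ZMod N), ((cn (bev e'.2 oo.2) p w : ℕ) : ZMod N),
        ((pc (bev e.2 oo.1) (bev e'.2 oo.2) p w : ℕ) : ZMod N))) :=
    Fib1.pi (fun oo => fib_basis N e.2 e'.2 oo.1 oo.2 p)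
  have h := hb.comp (fun v : Option α × Option α → ZMod N × ZMod N × ZMod N =>
    (∑ o : Option α, kap (R := ZMod N) e.1 e.2 o * (v (o, o)).1,
      ∑ o : Option α, ∑ o' : Option α,
        kap (R := ZMod N) e.1 e.2 o * kap (R := ZMod N) e'.1 e'.2 o' * (v (o, o')).2.2))
  refine h.congr ?_
  intro w
  have key : ∀ b y : α, (fun q a => @ite (ZMod N) (q = b ∧ a = y)
      (Classical.propDecidable _) 1 0) =
      fun q a => ∑ o : Option α, kap (R := ZMod N) b y o *
        (if bev y o q a then (1 : ZMod N) else 0) := by
    intro b y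
    funext q a
    exact ind_eq b y q a _
  rw [cn_wc (R := ZMod N), pc_wp (R := ZMod N), key e.1 e.2, key e'.1 e'.2, wc_sum, wp_sum]
  refine Prod.ext ?_ ?_
  · refine Finset.sum_congr rfl (fun o _ => ?_)
    show _ * ((cn (bev e.2 o) p w : ℕ) : ZMod N) = _
    rw [cn_wc]
  · refine Finset.sum_congr rfl (fun o _ => Finset.sum_congr rfl (fun o' _ => ?_))
    show _ * ((pc (bev e.2 o) (bev e'.2 o') p w : ℕ) : ZMod N) = _
    rw [pc_wp]

variable [inst : DecidableEq (α × α)]

lemma count_evs (e : α × α) : ∀ (w : List α) (p : α),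
    @List.count _ (@instBEqOfDecidableEq _ inst) e (evs p w) =
      cn (fun q a => q = e.1 ∧ a = e.2) p w := by
  intro w
  induction w with
  | nil => intro p; rfl
  | cons a w ih =>
    intro p
    rw [evs, cn, count_cons_ite, ih]
    by_cases h : p = e.1 ∧ a = e.2
    · have h' : (p, a) = e := Prod.ext h.1 h.2
      rw [if_pos h, if_pos h']
      ring
    · have h' : ¬ (p, a) = e := fun h' => h ⟨congrArg Prod.fst h', congrArg Prod.snd h'⟩
      rw [if_neg h, if_neg h']
      ring

lemma SC_evs (e e' : α × α) : ∀ (w : List α) (p : α),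
    @Sub.SC _ inst [e, e'] (evs p w) =
      pc (fun q a => q = e.1 ∧ a = e.2) (fun q a => q = e'.1 ∧ a = e'.2) p w := by
  intro w
  induction w with
  | nil => intro p; exact Sub.SC2_empty e e'
  | cons a w ih =>
    intro p
    rw [evs, pc, SC2_cons, ih, count_evs]
    by_cases h : p = e.1 ∧ a = e.2
    · have h' : (p, a) = e := Prod.ext h.1 h.2
      rw [if_pos h, if_pos h']
      ring
    · have h' : ¬ (p, a) = e := fun h' => h ⟨congrArg Prod.fst h', congrArg Prod.snd h'⟩
      rw [if_neg h, if_neg h']
      ring

/-- **Counting a factor of length two.** -/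
theorem fib_count_evs (N : ℕ) [NeZero N] (e : α × α) (p : α) :
    Fib1 (fun w : List α =>
      ((@List.count _ (@instBEqOfDecidableEq _ inst) e (evs p w) : ℕ) : ZMod N)) := by
  refine ((fib_cp N e e p).comp (fun v => v.1)).congr ?_
  intro w
  rw [count_evs]

/-- **Counting the pairs of occurrences of two factors of length two.** -/
theorem fib_SC_evs (N : ℕ) [NeZero N] (e e' : α × α) (p : α) :
    Fib1 (fun w : List α => ((@Sub.SC _ inst [e, e'] (evs p w) : ℕ) : ZMod N)) := by
  refine ((fib_cp N e e' p).comp (fun v => v.2)).congr ?_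
  intro w
  rw [SC_evs]

end Final

end Pair

end Vale.Agent.Lib.P329
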