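import Vale.Agent.Lib.P329.OneLoop
import Mathlib.GroupTheory.Perm.Basic
import Mathlib.Logic.Equiv.Fin.Rotate

/-!
Consequences of the one-checkpoint theorem for languages recognized by permutation groups.
-/

namespace Vale.Agent.Lib.P329

universe u v

open Classical

namespace PermGroup

variable {α : Type u} {Ω : Type v}

/-- The automaton on `Ω` in which the letter `a` acts by the inverse of `φ a`. -/
def aut (φ : α → Equiv.Perm Ω) (j : Ω) : DFA α Ω where
  step q a := (φ a)⁻¹ q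
  start := j
  accept := {j}

lemma evalFrom_aut (φ : α → Equiv.Perm Ω) (j : Ω) : ∀ (w : List α) (i : Ω),
    (aut φ j).evalFrom i w = ((w.map φ).prod)⁻¹ i := by
  intro w
  induction w with
  | nil => intro i; simp
  | cons a w ih =>
    intro i
    rw [DFA.evalFrom_cons, ih]
    simp [aut, mul_inv_rev]

theorem exists_regex_point [Fintype α] [Fintype Ω] (φ : α → Equiv.Perm Ω) (p : Ω) (r : Ω → ℕ)
    (h : ∀ a q, q ≠ p → φ a q = p ∨ φ a q = q ∨ r q < r (φ a q)) (i j : Ω) :
    ∃ e : GRegex α, e.starHeight ≤ 1 ∧ e.lang = {w : List α | ((w.map φ).prod)⁻¹ i = j} := by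
  obtain ⟨R, hR⟩ : ∃ R, ∀ q, r q ≤ R :=
    ⟨Finset.univ.sup r, fun q => Finset.le_sup (Finset.mem_univ q)⟩
  have key : ∀ q a, q ≠ p → (aut φ j).step q a = p ∨ (aut φ j).step q a = q ∨
      R - r q < R - r ((aut φ j).step q a) := by
    intro q a hq
    show (φ a)⁻¹ q = p ∨ (φ a)⁻¹ q = q ∨ R - r q < R - r ((φ a)⁻¹ q)
    by_cases h1 : (φ a)⁻¹ q = p
    · exact Or.inl h1
    · have h2 : φ a ((φ a)⁻¹ q) = q := by simp
      rcases h a ((φ a)⁻¹ q) h1 with h3 | h3 | h3
      · exact (hq (h2.symm.trans h3)).elim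
      · exact Or.inr (Or.inl (h2.symm.trans h3).symm)
      · rw [h2] at h3
        have := hR q
        exact Or.inr (Or.inr (by omega))
  obtain ⟨e, he, hl⟩ := OneLoop.exists_regex_acceptsFrom (aut φ j) p (fun q => R - r q) key i
  refine ⟨e, he, ?_⟩
  rw [hl]
  ext w
  rw [DFA.mem_acceptsFrom, evalFrom_aut]
  rfl

theorem exists_regex_elem [Fintype α] [Fintype Ω] (φ : α → Equiv.Perm Ω) (p : Ω) (r : Ω → ℕ)
    (h : ∀ a q, q ≠ p → φ a q = p ∨ φ a q = q ∨ r q < r (φ a q)) (g : Equiv.Perm Ω) :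
    ∃ e : GRegex α, e.starHeight ≤ 1 ∧ e.lang = {w : List α | (w.map φ).prod = g} := by
  choose E hE1 hE2 using fun i : Ω => exists_regex_point φ p r h i (g⁻¹ i)
  refine ⟨GRegex.interOver E, GRegex.starHeight_interOver_le E 1 hE1, ?_⟩
  ext w
  rw [GRegex.mem_lang_interOver]
  simp only [hE2]
  constructor
  · intro hw
    have : ((w.map φ).prod)⁻¹ = g⁻¹ := Equiv.ext hw
    exact inv_injective this
  · intro hw i
    have hw' : (w.map φ).prod = g := hw
    show ((w.map φ).prod)⁻¹ i = g⁻¹ i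
    rw [hw']

theorem exists_regex_set [Fintype α] [Fintype Ω] (φ : α → Equiv.Perm Ω) (p : Ω) (r : Ω → ℕ)
    (h : ∀ a q, q ≠ p → φ a q = p ∨ φ a q = q ∨ r q < r (φ a q)) (P : Set (Equiv.Perm Ω)) :
    ∃ e : GRegex α, e.starHeight ≤ 1 ∧ e.lang = {w : List α | (w.map φ).prod ∈ P} := by
  choose E hE1 hE2 using fun g : Equiv.Perm Ω => exists_regex_elem φ p r h g
  refine ⟨GRegex.sumOver (fun g => if g ∈ P then E g else GRegex.zero), ?_, ?_⟩
  · apply GRegex.starHeight_sumOver_le
    intro g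
    split_ifs
    · exact hE1 g
    · simp [GRegex.starHeight]
  · ext w
    rw [GRegex.mem_lang_sumOver]
    constructor
    · rintro ⟨g, hg⟩
      by_cases hP : g ∈ P
      · rw [if_pos hP, hE2] at hg
        have hg' : (w.map φ).prod = g := hg
        show (w.map φ).prod ∈ P
        rw [hg']; exact hP
      · rw [if_neg hP] at hg; exact hg.elim
    · intro hw
      have hw' : (w.map φ).prod ∈ P := hw
      refine ⟨(w.map φ).prod, ?_⟩
      rw [if_pos hw', hE2]
      rfl

end PermGroup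

end Vale.Agent.Lib.P329
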