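import Vale.Agent.Lib.P329.Metab
import Vale.Agent.Lib.P329.Comb

/-!
Sums, over the positions of a word carrying a given letter `b`, of a function of the number
of earlier letters lying in a set `S` that does not contain `b`: modulo any `d`, these sums
have fibers of generalized star height at most one.
-/

namespace Vale.Agent.Lib.P329

universe u v

open Classical

namespace Phase

open OneLoop
open _root_.Vale.Agent.Lib.P329.Count

variable {α : Type u}

/-- The automaton counting the letters of the set `S` modulo `d`. -/
noncomputable def ctrS (S : α → Prop) (d : ℕ) : DFA α (ZMod d) :=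
  ⟨fun q x => if S x then q + 1 else q, 0, Set.univ⟩

lemma ctrS_hyp (S : α → Prop) (d : ℕ) [NeZero d] (j : ZMod d) :
    ∀ q x, q ≠ j → (ctrS S d).step q x = j ∨ (ctrS S d).step q x = q ∨
      (q - j).val < ((ctrS S d).step q x - j).val := by
  intro q x hq
  by_cases hx : S x
  · have hs : (ctrS S d).step q x = q + 1 := by simp [ctrS, hx]
    rw [hs]
    by_cases h1 : q + 1 = j
    · exact Or.inl h1
    · right; right
      have h2 : q + 1 - j = (q - j) + 1 := by ring
      rw [h2, Metab.val_add_one]
      · omega
      · intro h3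
        apply h1
        have : q + 1 - j = 0 := by rw [h2]; exact h3
        exact sub_eq_zero.mp this
  · right; left
    simp [ctrS, hx]

/-- The number of letters of `w` lying in `S`. -/
noncomputable def pc (S : α → Prop) (w : List α) : ℕ :=
  (w.map (fun x => if S x then 1 else 0)).sum

lemma pc_nil (S : α → Prop) : pc S ([] : List α) = 0 := rfl

lemma pc_cons (S : α → Prop) (x : α) (w : List α) :
    pc S (x :: w) = (if S x then 1 else 0) + pc S w := by
  simp [pc]

lemma pc_append (S : α → Prop) (u v : List α) : pc S (u ++ v) = pc S u + pc S v := by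
  simp [pc]

lemma pc_concat (S : α → Prop) (w : List α) (x : α) :
    pc S (w ++ [x]) = pc S w + (if S x then 1 else 0) := by
  simp [pc]

/-- The sum of `f (q + number of earlier letters in S)` over the positions carrying `b`. -/
noncomputable def psumN (S : α → Prop) (b : α) (f : ℕ → ℕ) : ℕ → List α → ℕ
  | _, [] => 0
  | q, x :: w => (if x = b then f q else 0) + psumN S b f (q + (if S x then 1 else 0)) w

lemma psumN_append (S : α → Prop) (b : α) (f : ℕ → ℕ) : ∀ (u v : List α) (q : ℕ),
    psumN S b f q (u ++ v) = psumN S b f q u + psumN S b f (q + pc S u) v := by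
  intro u
  induction u with
  | nil => intro v q; simp [psumN, pc_nil]
  | cons x u ih =>
    intro v q
    simp only [List.cons_append, psumN, ih, pc_cons]
    rw [add_assoc, add_assoc]

lemma psumN_concat (S : α → Prop) (b : α) (f : ℕ → ℕ) (w : List α) (x : α) :
    psumN S b f 0 (w ++ [x]) = psumN S b f 0 w + (if x = b then f (pc S w) else 0) := by
  rw [psumN_append]
  simp [psumN]

lemma psumN_nil (S : α → Prop) (b : α) (f : ℕ → ℕ) (q : ℕ) : psumN S b f q [] = 0 := rfl

/-- The sum modulo `d`, in terms of the visits of the counting automaton. -/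
lemma psumN_cast (S : α → Prop) (b : α) (d : ℕ) [NeZero d] (f : ℕ → ℕ) (F : ZMod d → ZMod d)
    (hF : ∀ n : ℕ, ((f n : ℕ) : ZMod d) = F (n : ZMod d)) :
    ∀ (w : List α) (q : ℕ), ((psumN S b f q w : ℕ) : ZMod d) =
      ∑ j : ZMod d, F j * ((visits (ctrS S d) j (fun x => x = b) (q : ZMod d) w : ℕ) : ZMod d) := by
  intro w
  induction w with
  | nil => intro q; simp [psumN, visits]
  | cons x w ih =>
    intro q
    have hstep : (ctrS S d).step (q : ZMod d) x = ((q + (if S x then 1 else 0) : ℕ) : ZMod d) := by
      by_cases hx : S x <;> simp [ctrS, hx]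
    simp only [psumN, visits, hstep]
    rw [Nat.cast_add, ih]
    symm
    calc _ = ∑ j : ZMod d, ((if (q : ZMod d) = j ∧ x = b then F j else 0) +
          F j * ((visits (ctrS S d) j (fun x => x = b)
            ((q + (if S x then 1 else 0) : ℕ) : ZMod d) w : ℕ) : ZMod d)) := by
          apply Finset.sum_congr rfl
          intro j _
          rw [Nat.cast_add, mul_add]
          congr 1
          split_ifs <;> simp_all
      _ = _ := by
          rw [Finset.sum_add_distrib]
          congr 1
          by_cases hxb : x = b
          · simp only [hxb, and_true, if_true]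
            rw [hF]
            simp [Finset.sum_ite_eq]
          · simp [hxb]

/-- From residues to fibers. -/
lemma fib_of_mod (g : List α → ℕ) (d : ℕ) [NeZero d]
    (h : ∀ k, k < d → ∃ e : GRegex α, e.starHeight ≤ 1 ∧ e.lang = {w | g w % d = k}) :
    Fib1 (fun w => ((g w : ℕ) : ZMod d)) := by
  intro z
  obtain ⟨e, he1, he2⟩ := h z.val (ZMod.val_lt z)
  refine ⟨e, he1, ?_⟩
  rw [he2]
  ext w
  show g w % d = z.val ↔ ((g w : ℕ) : ZMod d) = z
  constructor
  · intro hw
    rw [← ZMod.natCast_zmod_val z, ← hw, ZMod.natCast_mod]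
  · intro hw
    rw [← hw, ZMod.val_natCast]

/-- **Phase sums have fibers of generalized star height at most one.** -/
theorem fib_psum [Fintype α] (S : α → Prop) (b : α) (hb : ¬ S b) (d : ℕ) [NeZero d] (f : ℕ → ℕ)
    (F : ZMod d → ZMod d) (hF : ∀ n : ℕ, ((f n : ℕ) : ZMod d) = F (n : ZMod d)) :
    Fib1 (fun w : List α => ((psumN S b f 0 w : ℕ) : ZMod d)) := by
  have hv : ∀ j : ZMod d, Fib1 (fun w : List α =>
      ((visits (ctrS S d) j (fun x => x = b) 0 w : ℕ) : ZMod d)) := by
    intro j
    apply fib_of_mod
    intro k hk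
    exact exists_regex_visits (ctrS S d) j (fun q => (q - j).val) (ctrS_hyp S d j)
      (fun x => x = b) (fun x hx => by simp [ctrS, hx, hb]) d k hk 0
  have h := (Fib1.pi hv).comp (fun v : ZMod d → ZMod d => ∑ j : ZMod d, F j * v j)
  refine h.congr ?_
  intro w
  have := psumN_cast S b d f F hF w 0
  simp only [Nat.cast_zero] at this
  exact this.symm

/-- The number of occurrences of a letter modulo `d`. -/
theorem fib_count [Fintype α] (a : α) (d : ℕ) [NeZero d] :
    Fib1 (fun w : List α => ((w.count a : ℕ) : ZMod d)) := by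
  intro z
  exact Metab.exists_regex_count a d z

/-- Division by `m` of a multiple of `m`, modulo `m * N`. -/
lemma cast_div (N m : ℕ) (hm : 0 < m) (v : ℕ) :
    (((((m * v : ℕ) : ZMod (m * N)).val / m : ℕ)) : ZMod N) = (v : ZMod N) := by
  rw [ZMod.val_natCast, Nat.mul_mod_mul_left, Nat.mul_div_cancel_left _ hm, ZMod.natCast_mod]

end Phase

end Vale.Agent.Lib.P329
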