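import Vale.Agent.Lib.P329.QVisits

/-!
Counting, modulo `N`, the positions of a word that carry a given letter and are preceded by a
number of letters of a given set in a given residue class modulo a prime power: the languages
have generalized star height at most one.
-/

namespace Vale.Agent.Lib.P329

universe u

namespace Pos

variable {α : Type u}

/-- The state of the counting automaton after a word. -/
private lemma eval_ctr (S : α → Bool) (d : ℕ) (w : List α) :
    (Phase.ctrS (fun x => S x = true) d).evalFrom 0 w = ((w.countP S : ℕ) : ZMod d) := by
  induction w using List.reverseRecOn with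
  | nil => simp
  | append_singleton w x ih =>
    rw [DFA.evalFrom_append_singleton, ih, List.countP_append, List.countP_singleton]
    by_cases hx : S x = true
    · simp [Phase.ctrS, hx]
    · simp [Phase.ctrS, hx]

/-- The visits of the counting automaton, as the cardinality of a set of positions. -/
lemma visits_eq_card [DecidableEq α] (S : α → Bool) (b : α) (d : ℕ) [NeZero d] (r : ℕ)
    (hr : r < d) (w : List α) :
    Count.visits (Phase.ctrS (fun x => S x = true) d) (r : ZMod d) (fun x => x = b) 0 w =
      ((Finset.range w.length).filter
        (fun i => w[i]? = some b ∧ (w.take i).countP S % d = r)).card := by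
  induction w using List.reverseRecOn with
  | nil => simp [Count.visits]
  | append_singleton w x ih =>
    have hiff : (((w.countP S : ℕ) : ZMod d) = (r : ZMod d)) ↔ w.countP S % d = r := by
      rw [ZMod.natCast_eq_natCast_iff', Nat.mod_eq_of_lt hr]
    have hv : Count.visits (Phase.ctrS (fun x => S x = true) d) (r : ZMod d) (fun x => x = b)
        ((w.countP S : ℕ) : ZMod d) [x] = if (x = b ∧ w.countP S % d = r) then 1 else 0 := by
      rw [Count.visits, Count.visits, add_zero]
      by_cases h : x = b ∧ w.countP S % d = r
      · rw [if_pos h, if_pos ⟨hiff.2 h.2, h.1⟩]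
      · rw [if_neg h, if_neg (fun h' => h ⟨h'.2, hiff.1 h'.1⟩)]
    have hlen : (w ++ [x]).length = w.length + 1 := by simp
    have hcongr : (Finset.range w.length).filter
        (fun i => (w ++ [x])[i]? = some b ∧ ((w ++ [x]).take i).countP S % d = r) =
        (Finset.range w.length).filter
          (fun i => w[i]? = some b ∧ (w.take i).countP S % d = r) := by
      apply Finset.filter_congr
      intro i hi
      have hi' : i < w.length := Finset.mem_range.mp hi
      rw [List.getElem?_append_left hi', List.take_append_of_le_length hi'.le]
    have hlast : ((w ++ [x])[w.length]? = some b ∧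
        ((w ++ [x]).take w.length).countP S % d = r) ↔ (x = b ∧ w.countP S % d = r) := by
      rw [List.getElem?_concat_length, List.take_left', Option.some.injEq]
      rfl
    have hnot : w.length ∉ (Finset.range w.length).filter
        (fun i => w[i]? = some b ∧ (w.take i).countP S % d = r) := by
      intro h
      exact absurd (Finset.mem_range.mp (Finset.mem_filter.mp h).1) (lt_irrefl _)
    rw [Count.visits_append, ih, eval_ctr, hv, hlen, Finset.range_add_one, Finset.filter_insert,
      hcongr]
    by_cases h : x = b ∧ w.countP S % d = r
    · rw [if_pos h, if_pos (hlast.2 h), Finset.card_insert_of_notMem hnot]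
    · rw [if_neg h, if_neg (fun h' => h (hlast.1 h')), add_zero]

/-- **Counting the occurrences of a letter after a number of letters of a set in a residue
class modulo a prime power.** -/
theorem main [Fintype α] [DecidableEq α] (S : α → Bool) (b : α) (p f : ℕ) (hp : p.Prime)
    (r N k : ℕ) (hN : 0 < N) :
    ∃ e : GRegex α, e.starHeight ≤ 1 ∧ e.lang = {w : List α |
      ((Finset.range w.length).filter
        (fun i => w[i]? = some b ∧ (w.take i).countP S % p ^ f = r)).card % N = k} := by
  have hd : NeZero (p ^ f) := ⟨(pow_pos hp.pos f).ne'⟩
  have hNN : NeZero N := ⟨Nat.pos_iff_ne_zero.mp hN⟩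
  by_cases hr : r < p ^ f
  · obtain ⟨e, he1, he2⟩ := ((fib_visits (fun x => S x = true) b p f hp (p ^ f) rfl N
      (r : ZMod (p ^ f))).comp (fun z : ZMod N => z.val)) k
    refine ⟨e, he1, ?_⟩
    rw [he2]
    ext w
    show ((Count.visits (Phase.ctrS (fun x => S x = true) (p ^ f)) (r : ZMod (p ^ f))
        (fun x => x = b) 0 w : ℕ) : ZMod N).val = k ↔
      ((Finset.range w.length).filter
        (fun i => w[i]? = some b ∧ (w.take i).countP S % p ^ f = r)).card % N = k
    rw [ZMod.val_natCast, visits_eq_card S b (p ^ f) r hr w]
  · have hempty : ∀ w : List α, ((Finset.range w.length).filter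
        (fun i => w[i]? = some b ∧ (w.take i).countP S % p ^ f = r)) = ∅ := by
      intro w
      apply Finset.filter_false_of_mem
      intro i _ h
      exact hr (h.2 ▸ Nat.mod_lt _ (pow_pos hp.pos f))
    by_cases hk : 0 % N = k
    · refine ⟨GRegex.top, by simp, ?_⟩
      ext w
      simp only [GRegex.mem_lang_top, true_iff]
      show ((Finset.range w.length).filter
        (fun i => w[i]? = some b ∧ (w.take i).countP S % p ^ f = r)).card % N = k
      rw [hempty w, Finset.card_empty]
      exact hk
    · refine ⟨GRegex.zero, by simp [GRegex.starHeight], ?_⟩
      ext w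
      simp only [GRegex.mem_lang_zero, false_iff]
      intro h
      have h' : ((Finset.range w.length).filter
        (fun i => w[i]? = some b ∧ (w.take i).countP S % p ^ f = r)).card % N = k := h
      rw [hempty w, Finset.card_empty] at h'
      exact hk h'

end Pos

end Vale.Agent.Lib.P329
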