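import Vale.Agent.Lib.P329.SgnCount

/-!
Sums, over the positions of a word carrying a letter `b` of weight zero, of a function of a
counter modulo `d` with steps `0`, `1`, `-1`: these sums have fibers of generalized star
height at most one.
-/

namespace Vale.Agent.Lib.P329

universe u v

open Classical

namespace M4

open SF Ev Zp

variable {α : Type u}

lemma psZ_nil {d : ℕ} (k : α → ZMod d) (b : α) (F : ZMod d → ZMod d) (s : ZMod d) :
    psZ k b F s [] = 0 := rfl

lemma psZ_cons {d : ℕ} (k : α → ZMod d) (b : α) (F : ZMod d → ZMod d) (s : ZMod d) (a : α)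
    (w : List α) :
    psZ k b F s (a :: w) = (if a = b then F s else 0) + psZ k b F (s + k a) w := rfl

/-- Appending a letter. -/
lemma psZ_concat {d : ℕ} (k : α → ZMod d) (b : α) (F : ZMod d → ZMod d) (w : List α) (a : α)
    (s : ZMod d) :
    psZ k b F s (w ++ [a]) = psZ k b F s w + (if a = b then F (s + ksum k w) else 0) := by
  induction w generalizing s with
  | nil => simp [psZ_cons, psZ_nil, ksum_nil]
  | cons c w ih =>
    rw [List.cons_append, psZ_cons, psZ_cons, ih, ksum_cons]
    simp only [add_assoc]

/-- The sum in terms of the numbers of occurrences of `b` at the values of the counter. -/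
lemma psZ_cast {d : ℕ} [NeZero d] (k : α → ZMod d) (b : α) (F : ZMod d → ZMod d) :
    ∀ (w : List α) (s : ZMod d), psZ k b F s w =
      ∑ j : ZMod d, F j * ((cnt (ostep k) (oX b j) s w : ℕ) : ZMod d) := by
  intro w
  induction w with
  | nil =>
    intro s
    simp [psZ_nil, cnt_nil]
  | cons a w ih =>
    intro s
    rw [psZ_cons, ih]
    have hstep : ∀ j : ZMod d, ((cnt (ostep k) (oX b j) s (a :: w) : ℕ) : ZMod d)
        = (if s = j ∧ a = b then 1 else 0)
          + ((cnt (ostep k) (oX b j) (s + k a) w : ℕ) : ZMod d) := by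
      intro j
      have e1 : cnt (ostep k) (oX b j) s (a :: w)
          = (if oX b j s a then 1 else 0) + cnt (ostep k) (oX b j) (s + k a) w :=
        cnt_cons (ostep k) (oX b j) s a w
      rw [e1, Nat.cast_add]
      by_cases h : oX b j s a
      · rw [if_pos h, if_pos (show s = j ∧ a = b from h), Nat.cast_one]
      · rw [if_neg h, if_neg (show ¬ (s = j ∧ a = b) from h), Nat.cast_zero]
    simp only [hstep, mul_add, Finset.sum_add_distrib]
    congr 1
    by_cases hab : a = b
    · simp [hab]
    · simp [hab]

/-- **Sums of a function of a counter with steps `0`, `1`, `-1`.** -/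
theorem fib_psZ [Fintype α] (d : ℕ) [NeZero d] (k : α → ZMod d)
    (hk : ∀ a, k a = 0 ∨ k a = 1 ∨ k a = -1) (b : α) (hb : k b = 0) (F : ZMod d → ZMod d) :
    Fib1 (fun w : List α => psZ k b F 0 w) := by
  have hv : ∀ j : ZMod d,
      Fib1 (fun w : List α => ((cnt (ostep k) (oX b j) 0 w : ℕ) : ZMod d)) :=
    fun j => Sgn.fib_sgn d k hk b hb j 0 d
  have h := (Fib1.pi hv).comp (fun v : ZMod d → ZMod d => ∑ j : ZMod d, F j * v j)
  refine h.congr ?_
  intro w
  exact (psZ_cast k b F w 0).symm

end M4

end Vale.Agent.Lib.P329
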