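import Vale.Agent.Lib.P329.Cascade

/-!
Cascading a counter-free automaton on top of an automaton whose transition languages have
generalized star height at most one: the top automaton reads, at each step, the current state
of the bottom automaton together with the letter.  The accepted languages have generalized
star height at most one.
-/

namespace Vale.Agent.Lib.P329

open Classical

namespace Pull

open SF

variable {α σ τ : Type}

/-- The word `w` read from the state `q` of the bottom automaton, each letter paired with the
state in which it is read. -/
def annot (step : σ → α → σ) : σ → List α → List (σ × α)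
  | _, [] => []
  | q, a :: w => (q, a) :: annot step (step q a) w

lemma annot_append (step : σ → α → σ) : ∀ (u v : List α) (q : σ),
    annot step q (u ++ v) = annot step q u ++ annot step (run step q u) v := by
  intro u
  induction u with
  | nil => intro v q; rfl
  | cons a u ih =>
    intro v q
    simp only [List.cons_append, annot, ih]
    rfl

lemma annot_length (step : σ → α → σ) : ∀ (w : List α) (q : σ),
    (annot step q w).length = w.length := by
  intro w
  induction w with
  | nil => intro q; rfl
  | cons a w ih => intro q; simp [annot, ih]

lemma annot_eq_nil (step : σ → α → σ) (q : σ) (w : List α) :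
    annot step q w = [] ↔ w = [] := by
  cases w with
  | nil => simp [annot]
  | cons a w => simp [annot]

/-- Splitting an annotated word. -/
lemma annot_eq_append (step : σ → α → σ) : ∀ (w : List α) (q : σ) (x y : List (σ × α)),
    annot step q w = x ++ y →
      ∃ u v, w = u ++ v ∧ annot step q u = x ∧ annot step (run step q u) v = y := by
  intro w
  induction w with
  | nil =>
    intro q x y h
    simp only [annot] at h
    have hx : x = [] := by
      cases x with
      | nil => rfl
      | cons _ _ => simp at h
    have hy : y = [] := by
      subst hx
      simpa using h.symm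
    exact ⟨[], [], rfl, by rw [hx]; rfl, by rw [hy]; rfl⟩
  | cons a w ih =>
    intro q x y h
    cases x with
    | nil =>
      refine ⟨[], a :: w, rfl, rfl, ?_⟩
      simpa using h
    | cons b x =>
      simp only [annot, List.cons_append, List.cons.injEq] at h
      obtain ⟨hb, h'⟩ := h
      obtain ⟨u, v, rfl, hu, hv⟩ := ih (step q a) x y h'
      refine ⟨a :: u, v, rfl, ?_, hv⟩
      simp only [annot, hu, hb]

/-- **Pulling back a star-free expression along the annotation.** -/
theorem pull [Fintype σ] (step : σ → α → σ)
    (hN : ∀ q q' : σ, ∃ e : GRegex α, e.starHeight ≤ 1 ∧ e.lang = {w | run step q w = q'}) :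
    ∀ E : GRegex (σ × α), E.starHeight = 0 → ∀ q : σ,
      ∃ e : GRegex α, e.starHeight ≤ 1 ∧ e.lang = {w | annot step q w ∈ E.lang} := by
  intro E
  induction E with
  | zero =>
    intro _ q
    exact ⟨GRegex.zero, by simp [GRegex.starHeight], rfl⟩
  | one =>
    intro _ q
    refine ⟨GRegex.one, by simp [GRegex.starHeight], ?_⟩
    ext w
    show w = [] ↔ annot step q w = []
    rw [annot_eq_nil]
  | letter b =>
    intro _ q
    by_cases hb : b.1 = q
    · refine ⟨GRegex.letter b.2, by simp [GRegex.starHeight], ?_⟩
      ext w
      show w = [b.2] ↔ annot step q w = [b]
      constructor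
      · intro h
        subst h
        simp only [annot]
        rw [← hb]
      · intro h
        cases w with
        | nil => simp [annot] at h
        | cons a w =>
          simp only [annot, List.cons.injEq] at h
          obtain ⟨h1, h2⟩ := h
          have hw : w = [] := (annot_eq_nil step _ w).mp h2
          rw [hw, ← h1]
    · refine ⟨GRegex.zero, by simp [GRegex.starHeight], ?_⟩
      ext w
      show False ↔ annot step q w = [b]
      constructor
      · intro h; exact h.elim
      · intro h
        cases w with
        | nil => simp [annot] at h
        | cons a w =>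
          simp only [annot, List.cons.injEq] at h
          exact hb (by rw [← h.1])
  | union p r ihp ihr =>
    intro h q
    simp only [GRegex.starHeight] at h
    obtain ⟨e1, h1, l1⟩ := ihp (by omega) q
    obtain ⟨e2, h2, l2⟩ := ihr (by omega) q
    refine ⟨GRegex.union e1 e2, by simp only [GRegex.starHeight]; omega, ?_⟩
    ext w
    rw [GRegex.mem_lang_union, l1, l2]
    rfl
  | concat p r ihp ihr =>
    intro h q
    simp only [GRegex.starHeight] at h
    have hp := ihp (by omega)
    have hr := ihr (by omega)
    choose eP hP1 hP2 using hp
    choose eR hR1 hR2 using hr
    choose eN hN1 hN2 using hN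
    refine ⟨GRegex.sumOver (fun q' : σ =>
      GRegex.concat (GRegex.inter (eP q) (eN q q')) (eR q')), ?_, ?_⟩
    · apply GRegex.starHeight_sumOver_le
      intro q'
      simp only [GRegex.starHeight, GRegex.starHeight_inter]
      have := hP1 q
      have := hN1 q q'
      have := hR1 q'
      omega
    · ext w
      rw [GRegex.mem_lang_sumOver]
      show _ ↔ annot step q w ∈ p.lang * r.lang
      rw [Language.mem_mul]
      constructor
      · rintro ⟨q', hw⟩
        rw [GRegex.mem_lang_concat] at hw
        obtain ⟨u, hu, v, hv, rfl⟩ := hw
        rw [GRegex.mem_lang_inter, hP2, hN2] at hu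
        rw [hR2] at hv
        obtain ⟨hu1, hu2⟩ := hu
        have hu2' : run step q u = q' := hu2
        refine ⟨annot step q u, hu1, annot step q' v, hv, ?_⟩
        rw [annot_append, hu2']
      · rintro ⟨x, hx, y, hy, hxy⟩
        obtain ⟨u, v, rfl, hu, hv⟩ := annot_eq_append step w q x y hxy.symm
        refine ⟨run step q u, ?_⟩
        rw [GRegex.mem_lang_concat]
        refine ⟨u, ?_, v, ?_, rfl⟩
        · rw [GRegex.mem_lang_inter, hP2, hN2]
          refine ⟨?_, rfl⟩
          show annot step q u ∈ p.lang
          rw [hu]
          exact hx
        · rw [hR2]
          show annot step (run step q u) v ∈ r.lang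
          rw [hv]
          exact hy
  | compl p ihp =>
    intro h q
    simp only [GRegex.starHeight] at h
    obtain ⟨e1, h1, l1⟩ := ihp h q
    refine ⟨GRegex.compl e1, by simpa [GRegex.starHeight] using h1, ?_⟩
    ext w
    rw [GRegex.mem_lang_compl, l1]
    rfl
  | star p _ =>
    intro h
    simp [GRegex.starHeight] at h

end Pull

end Vale.Agent.Lib.P329
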