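import Vale.Agent.Lib.P329.PCut
import Vale.Agent.Lib.P329.Metab
import Vale.Agent.Lib.P329.Comb

/-!
The block automaton over an alphabet all of whose letters are counted: it follows the position
modulo `m` and marks the blocks of `m` consecutive letters whose first letter lies in a set
`fst` and whose letter of index `q` lies in a set `snd`.  Definitions and first properties.
-/

set_option linter.unusedSectionVars false

namespace Vale.Agent.Lib.P329

open Classical

namespace Pos

open SF Ev

section Block

variable {β : Type} (m q : ℕ) (fst snd : β → Prop)

/-- The flag after reading the letter `c` in the state `s`. -/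
noncomputable def nflag (s : ZMod m × Bool) (c : β) : Bool :=
  if s.1 = 0 then decide (fst c)
  else if s.1 = (q : ZMod m) then (s.2 && decide (snd c)) else s.2

/-- The block automaton.  A state is the position in the current block and a flag telling
whether the block can still be marked. -/
noncomputable def bstep (s : ZMod m × Bool) (c : β) : ZMod m × Bool :=
  if s.1 + 1 = 0 then (0, true) else (s.1 + 1, nflag m q fst snd s c)

/-- The event: a block that is not marked is completed. -/
def bev (s : ZMod m × Bool) (c : β) : Prop := s.1 + 1 = 0 ∧ nflag m q fst snd s c = false

lemma bstep_fst (s : ZMod m × Bool) (c : β) : (bstep m q fst snd s c).1 = s.1 + 1 := by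
  unfold bstep
  split_ifs with h
  · exact h.symm
  · rfl

lemma brun_fst : ∀ (w : List β) (s : ZMod m × Bool),
    (run (bstep m q fst snd) s w).1 = s.1 + (w.length : ZMod m) := by
  intro w
  induction w with
  | nil => intro s; simp
  | cons c w ih =>
    intro s
    rw [run_cons, ih, bstep_fst, List.length_cons]
    push_cast
    ring

lemma bev_base (s : ZMod m × Bool) (c : β) (h : bev m q fst snd s c) :
    bstep m q fst snd s c = (0, true) := by
  unfold bstep
  rw [if_pos h.1]

end Block

end Pos

end Vale.Agent.Lib.P329
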