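import Vale.Agent.Lib.P329.QBlock

/-!
The block automaton: in an event-free run, the first letter of every complete block lies in
`fst` and its letter of index `q` lies in `snd`.
-/

set_option linter.unusedSectionVars false

namespace Vale.Agent.Lib.P329

open Classical

namespace Pos

open SF Ev

section Block

variable {β : Type} (m q : ℕ) [NeZero m] (fst snd : β → Prop)

/-- A block whose flag is down ends with an event. -/
lemma dead_event : ∀ (R : List β) (s : ZMod m × Bool), s.2 = false → s.1 ≠ 0 →
    m ≤ s.1.val + R.length → 0 < cnt (bstep m q fst snd) (bev m q fst snd) s R := by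
  intro R
  induction R with
  | nil =>
    intro s _ _ h
    have hlt := ZMod.val_lt s.1
    rw [List.length_nil, Nat.add_zero] at h
    omega
  | cons c R ih =>
    intro s hs2 hs1 h
    rw [List.length_cons] at h
    rw [cnt_cons]
    have hflag : nflag m q fst snd s c = false := by
      unfold nflag
      rw [if_neg hs1]
      split_ifs
      · rw [hs2]
        rfl
      · exact hs2
    by_cases h0 : s.1 + 1 = 0
    · have hev : bev m q fst snd s c := ⟨h0, hflag⟩
      rw [if_pos hev]
      omega
    · have hstep : bstep m q fst snd s c = (s.1 + 1, false) := by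
        unfold bstep
        rw [if_neg h0, hflag]
      have hval : (s.1 + 1).val = s.1.val + 1 := Metab.val_add_one s.1 h0
      have hrec := ih (s.1 + 1, false) rfl h0 (by
        show m ≤ (s.1 + 1).val + R.length
        rw [hval]
        omega)
      rw [hstep]
      omega

/-- In an event-free run, the first letter of every complete block lies in `fst`. -/
lemma fst_of_noev (hm : 1 < m) (s : ZMod m × Bool) (P : List β) (c : β) (R : List β)
    (hP : s.1 + (P.length : ZMod m) = 0) (hR : m ≤ R.length + 1)
    (h : cnt (bstep m q fst snd) (bev m q fst snd) s (P ++ c :: R) = 0) : fst c := by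
  rw [cnt_append] at h
  have h2 : cnt (bstep m q fst snd) (bev m q fst snd) (run (bstep m q fst snd) s P)
      (c :: R) = 0 := by omega
  obtain ⟨s', hs'⟩ : ∃ s', s' = run (bstep m q fst snd) s P := ⟨_, rfl⟩
  rw [← hs'] at h2
  have hs'1 : s'.1 = 0 := by rw [hs', brun_fst, hP]
  by_contra hc
  rw [cnt_cons] at h2
  have h10 : (0 : ZMod m) + 1 ≠ 0 := by
    rw [zero_add]
    have : Fact (1 < m) := ⟨hm⟩
    exact one_ne_zero
  have hne : s'.1 + 1 ≠ 0 := by
    rw [hs'1]
    exact h10
  have hflag : nflag m q fst snd s' c = false := by
    unfold nflag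
    rw [if_pos hs'1]
    exact decide_eq_false hc
  have hstep : bstep m q fst snd s' c = (s'.1 + 1, false) := by
    unfold bstep
    rw [if_neg hne, hflag]
  have hval : (s'.1 + 1).val = 1 := by
    rw [Metab.val_add_one s'.1 hne, hs'1, ZMod.val_zero]
  have hd := dead_event m q fst snd R (s'.1 + 1, false) rfl hne (by
    show m ≤ (s'.1 + 1).val + R.length
    rw [hval]
    omega)
  rw [hstep] at h2
  omega

/-- In an event-free run, the letter of index `q` of every block that gets completed lies
in `snd`. -/
lemma snd_of_noev (hq0 : 0 < q) (hqm : q < m) (s : ZMod m × Bool) (P : List β) (c : β)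
    (R : List β) (hP : s.1 + (P.length : ZMod m) = (q : ZMod m)) (hR : m ≤ R.length + q + 1)
    (h : cnt (bstep m q fst snd) (bev m q fst snd) s (P ++ c :: R) = 0) : snd c := by
  rw [cnt_append] at h
  have h2 : cnt (bstep m q fst snd) (bev m q fst snd) (run (bstep m q fst snd) s P)
      (c :: R) = 0 := by omega
  obtain ⟨s', hs'⟩ : ∃ s', s' = run (bstep m q fst snd) s P := ⟨_, rfl⟩
  rw [← hs'] at h2
  have hs'1 : s'.1 = (q : ZMod m) := by rw [hs', brun_fst, hP]
  have hq_ne : (q : ZMod m) ≠ 0 := by
    intro h0
    rw [ZMod.natCast_eq_zero_iff] at h0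
    have hle := Nat.le_of_dvd hq0 h0
    omega
  have hqval : (q : ZMod m).val = q := ZMod.val_natCast_of_lt hqm
  by_contra hc
  rw [cnt_cons] at h2
  have hflag : nflag m q fst snd s' c = false := by
    unfold nflag
    rw [if_neg (by rw [hs'1]; exact hq_ne), if_pos hs'1]
    rw [decide_eq_false hc, Bool.and_false]
  by_cases h0 : s'.1 + 1 = 0
  · have hev : bev m q fst snd s' c := ⟨h0, hflag⟩
    rw [if_pos hev] at h2
    omega
  · have hstep : bstep m q fst snd s' c = (s'.1 + 1, false) := by
      unfold bstep
      rw [if_neg h0, hflag]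
    have hval : (s'.1 + 1).val = q + 1 := by
      rw [Metab.val_add_one s'.1 h0, hs'1, hqval]
    have hd := dead_event m q fst snd R (s'.1 + 1, false) rfl h0 (by
      show m ≤ (s'.1 + 1).val + R.length
      rw [hval]
      omega)
    rw [hstep] at h2
    omega

end Block

end Pos

end Vale.Agent.Lib.P329
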