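import Vale.Agent.Lib.P329.QBlock

/-!
Counting the occurrences of a letter `a` at the positions congruent to a given residue modulo
`m`: the difference of the counts at the residues `0` and `q` is expressed through the numbers
of unmarked blocks of two block automata.
-/

set_option linter.unusedSectionVars false

namespace Vale.Agent.Lib.P329

open Classical

namespace Pos

open SF Ev

section Diff

variable {β : Type} (m q : ℕ) (a : β)

/-- The counter of all letters modulo `m`. -/
def cstep (s : ZMod m) (_ : β) : ZMod m := s + 1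

/-- The event: the letter `a` is read at the position `j`. -/
def pX (j : ZMod m) (s : ZMod m) (c : β) : Prop := s = j ∧ c = a

/-- The contribution of the current incomplete block. -/
noncomputable def HH (s1 s2 : ZMod m × Bool) : ℤ :=
  if s1.1 = 0 then 0 else if s1.1.val ≤ q then (if s1.2 = true then 1 else 0)
  else (if s1.2 = true then 1 else 0) - (if s2.2 = true then 1 else 0)

variable [NeZero m]

lemma qd_q_ne (hq0 : 0 < q) (hqm : q < m) : (q : ZMod m) ≠ 0 := by
  intro h
  rw [ZMod.natCast_eq_zero_iff] at h
  have := Nat.le_of_dvd hq0 h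
  omega

lemma qd_q_val (hqm : q < m) : (q : ZMod m).val = q := ZMod.val_natCast_of_lt hqm

lemma qd_eq_of_val (i : ZMod m) (h : i.val = q) : i = (q : ZMod m) := by
  rw [← h, ZMod.natCast_zmod_val]

lemma qd_val_last (hm2 : 2 ≤ m) (i : ZMod m) (h : i + 1 = 0) : i.val + 1 = m := by
  have h2 := ZMod.val_add i 1
  rw [h, ZMod.val_zero, ZMod.val_one_eq_one_mod, Nat.mod_eq_of_lt (by omega : 1 < m)] at h2
  have h3 := ZMod.val_lt i
  have h4 : m ∣ i.val + 1 := Nat.dvd_of_mod_eq_zero h2.symm
  have h5 := Nat.le_of_dvd (by omega) h4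
  omega

lemma qd_one_ne (hm2 : 2 ≤ m) : (1 : ZMod m) ≠ 0 := by
  intro h
  have h2 : (1 : ZMod m).val = 0 := by rw [h]; exact ZMod.val_zero
  rw [ZMod.val_one_eq_one_mod, Nat.mod_eq_of_lt (by omega : 1 < m)] at h2
  omega

lemma qd_cnt_cons {σ : Type} (step : σ → β → σ) (ev : σ → β → Prop) (s : σ) (c : β)
    (w : List β) :
    (cnt step ev s (c :: w) : ℤ) =
      (if ev s c then (1 : ℤ) else 0) + (cnt step ev (step s c) w : ℤ) := by
  rw [cnt_cons]
  by_cases h : ev s c
  · simp [h]
  · simp [h]

/-- The one-step identity. -/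
lemma qd_step (hq0 : 0 < q) (hqm : q < m) (i : ZMod m) (f1 f2 : Bool) (c : β)
    (hInv : i ≠ 0 → i.val ≤ q → f1 = !f2) :
    ((if pX m a 0 i c then (1 : ℤ) else 0) - (if pX m a (q : ZMod m) i c then (1 : ℤ) else 0) =
      (if bev m q (fun c => c ≠ a) (fun c => c = a) (i, f2) c then (1 : ℤ) else 0)
      - (if bev m q (fun c => c = a) (fun c => c ≠ a) (i, f1) c then (1 : ℤ) else 0)
      + HH m q (bstep m q (fun c => c = a) (fun c => c ≠ a) (i, f1) c)
          (bstep m q (fun c => c ≠ a) (fun c => c = a) (i, f2) c)
      - HH m q (i, f1) (i, f2)) ∧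
    ((bstep m q (fun c => c = a) (fun c => c ≠ a) (i, f1) c).1 ≠ 0 →
      (bstep m q (fun c => c = a) (fun c => c ≠ a) (i, f1) c).1.val ≤ q →
      (bstep m q (fun c => c = a) (fun c => c ≠ a) (i, f1) c).2 =
        !(bstep m q (fun c => c ≠ a) (fun c => c = a) (i, f2) c).2) := by
  have hqne := qd_q_ne m q hq0 hqm
  have hqv := qd_q_val m q hqm
  have hm2 : 2 ≤ m := by omega
  have h1ne := qd_one_ne m hm2
  by_cases h1 : i + 1 = 0
  · -- a block is completed
    have hi0 : i ≠ 0 := by
      intro h
      rw [h, zero_add] at h1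
      exact h1ne h1
    have hlast := qd_val_last m hm2 i h1
    have hB10 : bstep m q (fun c => c = a) (fun c => c ≠ a) (i, f1) c = (0, true) := by
      simp [bstep, h1]
    have hB01 : bstep m q (fun c => c ≠ a) (fun c => c = a) (i, f2) c = (0, true) := by
      simp [bstep, h1]
    rw [hB10, hB01]
    refine ⟨?_, fun h => (h rfl).elim⟩
    have hH0 : HH m q ((0 : ZMod m), true) ((0 : ZMod m), true) = 0 := by
      simp [HH]
    rw [hH0]
    by_cases hiq : i = (q : ZMod m)
    · have hf : f1 = !f2 := hInv hi0 (by rw [hiq, hqv])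
      have hqq : q % m = q := Nat.mod_eq_of_lt hqm
      subst hiq
      subst hf
      by_cases hc : c = a
      · cases f2 <;> simp [pX, bev, nflag, HH, h1, hqne, hqq, hc]
      · cases f2 <;> simp [pX, bev, nflag, HH, h1, hqne, hqq, hc]
    · have hgt : ¬ i.val ≤ q := by
        intro hle
        have : i.val = q := by omega
        exact hiq (qd_eq_of_val m q i this)
      cases f1 <;> cases f2 <;> simp [pX, bev, nflag, HH, h1, hi0, hiq, hgt]
  · -- no block is completed
    have hval := Metab.val_add_one i h1
    have hB10 : bstep m q (fun c => c = a) (fun c => c ≠ a) (i, f1) c =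
        (i + 1, nflag m q (fun c => c = a) (fun c => c ≠ a) (i, f1) c) := by
      simp [bstep, h1]
    have hB01 : bstep m q (fun c => c ≠ a) (fun c => c = a) (i, f2) c =
        (i + 1, nflag m q (fun c => c ≠ a) (fun c => c = a) (i, f2) c) := by
      simp [bstep, h1]
    rw [hB10, hB01]
    have hE10 : ¬ bev m q (fun c => c = a) (fun c => c ≠ a) (i, f1) c := fun h => h1 h.1
    have hE01 : ¬ bev m q (fun c => c ≠ a) (fun c => c = a) (i, f2) c := fun h => h1 h.1
    rw [if_neg hE10, if_neg hE01]
    by_cases hi0 : i = 0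
    · subst hi0
      rw [zero_add] at hval
      rw [ZMod.val_zero] at hval
      have hle : (1 : ZMod m).val ≤ q := by omega
      have hq0' : ¬ ((0 : ZMod m) = (q : ZMod m)) := fun h => hqne h.symm
      rw [zero_add]
      constructor
      · by_cases hc : c = a
        · simp [pX, nflag, HH, h1ne, hle, hq0', hc]
        · simp [pX, nflag, HH, h1ne, hle, hq0', hc]
      · intro _ _
        by_cases hc : c = a
        · simp [nflag, hc]
        · simp [nflag, hc]
    · by_cases hiq : i = (q : ZMod m)
      · have hf : f1 = !f2 := hInv hi0 (by rw [hiq, hqv])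
        have hgt : ¬ (i + 1).val ≤ q := by rw [hval, hiq, hqv]; omega
        have hqq : q % m = q := Nat.mod_eq_of_lt hqm
        subst hiq
        subst hf
        constructor
        · by_cases hc : c = a
          · cases f2 <;> simp [pX, nflag, HH, h1, hgt, hc, hqne, hqq]
          · cases f2 <;> simp [pX, nflag, HH, h1, hgt, hc, hqne, hqq]
        · intro _ h
          exact (hgt h).elim
      · have hn10 : nflag m q (fun c => c = a) (fun c => c ≠ a) (i, f1) c = f1 := by
          simp [nflag, hi0, hiq]
        have hn01 : nflag m q (fun c => c ≠ a) (fun c => c = a) (i, f2) c = f2 := by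
          simp [nflag, hi0, hiq]
        rw [hn10, hn01]
        have hp0 : ¬ pX m a 0 i c := fun h => hi0 h.1
        have hpq : ¬ pX m a (q : ZMod m) i c := fun h => hiq h.1
        rw [if_neg hp0, if_neg hpq]
        by_cases hlt : i.val < q
        · have hle : i.val ≤ q := by omega
          have hle' : (i + 1).val ≤ q := by rw [hval]; omega
          constructor
          · simp [HH, h1, hi0, hle, hle']
          · intro _ _
            exact hInv hi0 hle
        · have hgt : ¬ i.val ≤ q := by
            intro hle
            have : i.val = q := by omega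
            exact hiq (qd_eq_of_val m q i this)
          have hgt' : ¬ (i + 1).val ≤ q := by rw [hval]; omega
          constructor
          · simp [HH, h1, hi0, hgt, hgt']
          · intro _ h
            exact (hgt' h).elim

/-- The general statement, for a pair of states satisfying the invariant. -/
lemma qd_gen (hq0 : 0 < q) (hqm : q < m) : ∀ (w : List β) (i : ZMod m) (f1 f2 : Bool),
    (i ≠ 0 → i.val ≤ q → f1 = !f2) →
    (cnt (cstep m) (pX m a 0) i w : ℤ) - (cnt (cstep m) (pX m a (q : ZMod m)) i w : ℤ) =
      (cnt (bstep m q (fun c => c ≠ a) (fun c => c = a))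
          (bev m q (fun c => c ≠ a) (fun c => c = a)) (i, f2) w : ℤ)
      - (cnt (bstep m q (fun c => c = a) (fun c => c ≠ a))
          (bev m q (fun c => c = a) (fun c => c ≠ a)) (i, f1) w : ℤ)
      + HH m q (run (bstep m q (fun c => c = a) (fun c => c ≠ a)) (i, f1) w)
          (run (bstep m q (fun c => c ≠ a) (fun c => c = a)) (i, f2) w)
      - HH m q (i, f1) (i, f2) := by
  intro w
  induction w with
  | nil =>
    intro i f1 f2 _
    simp [cnt_nil]
  | cons c w ih =>
    intro i f1 f2 hInv
    obtain ⟨hs, hinv'⟩ := qd_step m q a hq0 hqm i f1 f2 c hInv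
    have e1 : bstep m q (fun c => c = a) (fun c => c ≠ a) (i, f1) c =
        (i + 1, (bstep m q (fun c => c = a) (fun c => c ≠ a) (i, f1) c).2) := by
      apply Prod.ext
      · exact bstep_fst m q _ _ (i, f1) c
      · rfl
    have e2 : bstep m q (fun c => c ≠ a) (fun c => c = a) (i, f2) c =
        (i + 1, (bstep m q (fun c => c ≠ a) (fun c => c = a) (i, f2) c).2) := by
      apply Prod.ext
      · exact bstep_fst m q _ _ (i, f2) c
      · rfl
    have hinv2 : (i + 1 ≠ 0 → (i + 1).val ≤ q →
        (bstep m q (fun c => c = a) (fun c => c ≠ a) (i, f1) c).2 =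
        !(bstep m q (fun c => c ≠ a) (fun c => c = a) (i, f2) c).2) := by
      intro h0 hle
      have hb : (bstep m q (fun c => c = a) (fun c => c ≠ a) (i, f1) c).1 = i + 1 :=
        bstep_fst m q _ _ (i, f1) c
      apply hinv'
      · rw [hb]; exact h0
      · rw [hb]; exact hle
    have hih := ih (i + 1) _ _ hinv2
    rw [← e1, ← e2] at hih
    rw [qd_cnt_cons, qd_cnt_cons, qd_cnt_cons, qd_cnt_cons, run_cons, run_cons]
    have hc : cstep m i c = i + 1 := rfl
    rw [hc]
    linarith

/-- **The difference of the counts at the positions `0` and `q` of the blocks.** -/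
theorem Xdiff (hq0 : 0 < q) (hqm : q < m) (t : ZMod m) (w : List β) :
    (cnt (cstep m) (pX m a 0) t w : ℤ) - (cnt (cstep m) (pX m a (q : ZMod m)) t w : ℤ) =
      (cnt (bstep m q (fun c => c ≠ a) (fun c => c = a))
          (bev m q (fun c => c ≠ a) (fun c => c = a)) (t, true) w : ℤ)
      - (cnt (bstep m q (fun c => c = a) (fun c => c ≠ a))
          (bev m q (fun c => c = a) (fun c => c ≠ a)) (t, false) w : ℤ)
      + HH m q (run (bstep m q (fun c => c = a) (fun c => c ≠ a)) (t, false) w)
          (run (bstep m q (fun c => c ≠ a) (fun c => c = a)) (t, true) w)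
      - HH m q (t, false) (t, true) :=
  qd_gen m q a hq0 hqm w t false true (fun _ _ => rfl)

end Diff

end Pos

end Vale.Agent.Lib.P329
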