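import Vale.Agent.Lib.P329.QDiff

/-!
The counts of a letter at the positions congruent to a given residue modulo `m`: translation
of the residues, and the sum over the residues modulo `p * q` that lie over a residue
modulo `q`.
-/

set_option linter.unusedSectionVars false

namespace Vale.Agent.Lib.P329

open Classical

namespace Pos

open SF Ev

section Fiber

variable {β : Type} (m q : ℕ) (a : β)

/-- Translating the start and the residue. -/
lemma cnt_shift (d : ZMod m) : ∀ (w : List β) (t j : ZMod m),
    cnt (cstep m) (pX m a j) t w = cnt (cstep m) (pX m a (j + d)) (t + d) w := by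
  intro w
  induction w with
  | nil =>
    intro t j
    rw [cnt_nil, cnt_nil]
  | cons c w ih =>
    intro t j
    rw [cnt_cons, cnt_cons]
    have h1 : cstep m (t + d) c = cstep m t c + d := by
      unfold cstep
      ring
    have h2 : pX m a (j + d) (t + d) c ↔ pX m a j t c := by
      unfold pX
      rw [add_left_inj]
    have h3 : (if pX m a (j + d) (t + d) c then 1 else 0)
        = (if pX m a j t c then (1 : ℕ) else 0) := if_congr h2 rfl rfl
    rw [h1, ← ih (cstep m t c) j, h3]

/-- A telescoping sum. -/
lemma tele (X : ZMod m → ℤ) (δ j : ZMod m) : ∀ i : ℕ,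
    X j - X (j + i • δ) = ∑ l ∈ Finset.range i, (X (j + l • δ) - X (j + l • δ + δ)) := by
  intro i
  induction i with
  | zero => simp
  | succ i ih =>
    rw [Finset.sum_range_succ, ← ih, succ_nsmul, ← add_assoc]
    ring

variable [NeZero m]

/-- Exactly one of the `p` residues `j + i * q` modulo `p * q` is met by a residue that is
congruent to `j` modulo `q`, and none otherwise. -/
lemma fiber_ind (p : ℕ) (hm : m = p * q) (hq0 : 0 < q) (t j : ZMod m) :
    (∑ i ∈ Finset.range p, if t = j + ((i * q : ℕ) : ZMod m) then (1 : ℕ) else 0) =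
      if ((t.val : ℕ) : ZMod q) = ((j.val : ℕ) : ZMod q) then 1 else 0 := by
  have hqm : q ∣ m := Dvd.intro_left p hm.symm
  obtain ⟨d, hd⟩ : ∃ d : ℕ, d = (t - j).val := ⟨_, rfl⟩
  have hdm : d < m := by
    rw [hd]
    exact ZMod.val_lt _
  have htj : t = j + (d : ZMod m) := by
    rw [hd, ZMod.natCast_zmod_val]
    ring
  have hA : ∀ i ∈ Finset.range p, (t = j + ((i * q : ℕ) : ZMod m) ↔ d = i * q) := by
    intro i hi
    have hi' : i * q < m := by
      rw [hm]
      exact Nat.mul_lt_mul_of_pos_right (Finset.mem_range.mp hi) hq0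
    constructor
    · intro h
      have h1 : t - j = ((i * q : ℕ) : ZMod m) := by
        rw [h]
        ring
      rw [hd, h1, ZMod.val_natCast_of_lt hi']
    · intro h
      rw [htj, h]
  have hB : (((t.val : ℕ) : ZMod q) = ((j.val : ℕ) : ZMod q)) ↔ q ∣ d := by
    have h1 : t.val = (j.val + d) % m := by
      rw [htj, ZMod.val_add, ZMod.val_natCast, Nat.add_mod_mod]
    rw [h1, ZMod.natCast_eq_natCast_iff', Nat.mod_mod_of_dvd _ hqm]
    constructor
    · intro h
      have h2 : j.val + d ≡ j.val + 0 [MOD q] := h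
      exact (Nat.modEq_zero_iff_dvd).mp (Nat.ModEq.add_left_cancel' j.val h2)
    · intro h
      obtain ⟨k, hk⟩ := h
      rw [hk, Nat.add_mul_mod_self_left]
  have hsum : (∑ i ∈ Finset.range p, if t = j + ((i * q : ℕ) : ZMod m) then (1 : ℕ) else 0)
      = ∑ i ∈ Finset.range p, if d = i * q then (1 : ℕ) else 0 :=
    Finset.sum_congr rfl (fun i hi => if_congr (hA i hi) rfl rfl)
  rw [hsum, if_congr hB rfl rfl]
  by_cases hdq : q ∣ d
  · rw [if_pos hdq]
    obtain ⟨k, hk⟩ := hdq
    have hkp : k < p := by
      by_contra hcon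
      have h1 : p * q ≤ k * q := Nat.mul_le_mul_right q (not_lt.mp hcon)
      rw [hk, hm, Nat.mul_comm q k] at hdm
      omega
    have hiff : ∀ i ∈ Finset.range p, (d = i * q ↔ k = i) := by
      intro i _
      rw [hk, Nat.mul_comm q k]
      exact Nat.mul_left_inj hq0.ne'
    rw [Finset.sum_congr rfl (fun i hi => if_congr (hiff i hi) rfl rfl), Finset.sum_ite_eq,
      if_pos (Finset.mem_range.mpr hkp)]
  · rw [if_neg hdq]
    apply Finset.sum_eq_zero
    intro i _
    rw [if_neg]
    intro h
    exact hdq ⟨i, by rw [h, Nat.mul_comm]⟩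

/-- The counts at the `p` residues modulo `p * q` over a residue modulo `q` add up to the
count at that residue. -/
lemma fiber_sum (p : ℕ) (hm : m = p * q) (hq0 : 0 < q) (j : ZMod m) :
    ∀ (w : List β) (t : ZMod m),
    ∑ i ∈ Finset.range p, cnt (cstep m) (pX m a (j + ((i * q : ℕ) : ZMod m))) t w =
      cnt (cstep q) (pX q a ((j.val : ℕ) : ZMod q)) ((t.val : ℕ) : ZMod q) w := by
  have hqm : q ∣ m := Dvd.intro_left p hm.symm
  have hcast : ∀ x : ℕ, ((x % m : ℕ) : ZMod q) = (x : ZMod q) := by
    intro x
    rw [ZMod.natCast_eq_natCast_iff', Nat.mod_mod_of_dvd _ hqm]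
  have hstep : ∀ (t : ZMod m) (c : β),
      (((cstep m t c).val : ℕ) : ZMod q) = cstep q ((t.val : ℕ) : ZMod q) c := by
    intro t c
    unfold cstep
    rw [ZMod.val_add, hcast, ZMod.val_one_eq_one_mod, Nat.cast_add, hcast, Nat.cast_one]
  intro w
  induction w with
  | nil =>
    intro t
    simp [cnt_nil]
  | cons c w ih =>
    intro t
    have hL : ∀ i ∈ Finset.range p,
        cnt (cstep m) (pX m a (j + ((i * q : ℕ) : ZMod m))) t (c :: w)
          = (if pX m a (j + ((i * q : ℕ) : ZMod m)) t c then 1 else 0)
            + cnt (cstep m) (pX m a (j + ((i * q : ℕ) : ZMod m))) (cstep m t c) w :=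
      fun i _ => cnt_cons _ _ _ _ _
    rw [Finset.sum_congr rfl hL, Finset.sum_add_distrib, ih (cstep m t c), hstep, cnt_cons]
    have hev : (∑ i ∈ Finset.range p,
        if pX m a (j + ((i * q : ℕ) : ZMod m)) t c then (1 : ℕ) else 0)
        = if pX q a ((j.val : ℕ) : ZMod q) ((t.val : ℕ) : ZMod q) c then 1 else 0 := by
      by_cases hc : c = a
      · have e1 : ∀ i ∈ Finset.range p,
            (if pX m a (j + ((i * q : ℕ) : ZMod m)) t c then (1 : ℕ) else 0)
              = if t = j + ((i * q : ℕ) : ZMod m) then 1 else 0 := by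
          intro i _
          refine if_congr ?_ rfl rfl
          unfold pX
          exact ⟨fun h => h.1, fun h => ⟨h, hc⟩⟩
        rw [Finset.sum_congr rfl e1, fiber_ind m q p hm hq0 t j]
        refine if_congr ?_ rfl rfl
        unfold pX
        exact ⟨fun h => ⟨h, hc⟩, fun h => h.1⟩
      · have hno : ∀ (j' s : ZMod q), ¬ pX q a j' s c := by
          intro j' s h
          unfold pX at h
          exact hc h.2
        have hno' : ∀ (j' s : ZMod m), ¬ pX m a j' s c := by
          intro j' s h
          unfold pX at h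
          exact hc h.2
        rw [if_neg (hno _ _)]
        apply Finset.sum_eq_zero
        intro i _
        rw [if_neg (hno' _ _)]
    rw [hev]

end Fiber

end Pos

end Vale.Agent.Lib.P329
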