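import Vale.Agent.Lib.P329.QBlock

/-!
The block automaton: the flag of the initial state is forgotten once a block is completed; a
length that is not a multiple of a prime power has a multiple congruent to the previous power.
-/

set_option linter.unusedSectionVars false

namespace Vale.Agent.Lib.P329

open Classical

namespace Pos

open SF Ev

section Block

variable {β : Type} (m q : ℕ) [NeZero m] (fst snd : β → Prop)

/-- After the completion of a block, the flag of the initial state is forgotten. -/
lemma run_flag_irrel : ∀ (u : List β) (i : ZMod m) (b b' : Bool), m ≤ i.val + u.length →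
    run (bstep m q fst snd) (i, b) u = run (bstep m q fst snd) (i, b') u := by
  intro u
  induction u with
  | nil =>
    intro i b b' h
    have hlt := ZMod.val_lt i
    rw [List.length_nil, Nat.add_zero] at h
    omega
  | cons c u ih =>
    intro i b b' h
    rw [run_cons, run_cons]
    by_cases h0 : i + 1 = 0
    · have e1 : bstep m q fst snd (i, b) c = (0, true) := by
        unfold bstep
        exact if_pos h0
      have e2 : bstep m q fst snd (i, b') c = (0, true) := by
        unfold bstep
        exact if_pos h0
      rw [e1, e2]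
    · have e1 : bstep m q fst snd (i, b) c = (i + 1, nflag m q fst snd (i, b) c) := by
        unfold bstep
        exact if_neg h0
      have e2 : bstep m q fst snd (i, b') c = (i + 1, nflag m q fst snd (i, b') c) := by
        unfold bstep
        exact if_neg h0
      rw [e1, e2]
      apply ih
      rw [Metab.val_add_one i h0]
      rw [List.length_cons] at h
      omega

/-- A length that is not a multiple of `p ^ (f + 1)` has a multiple congruent to `p ^ f`. -/
lemma exists_mul_eq (p f : ℕ) (hp : p.Prime) (hm : m = p ^ (f + 1)) (hq : q = p ^ f) (l : ℕ)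
    (h : ¬ (m ∣ l)) : ∃ L : ℕ, ((L * l : ℕ) : ZMod m) = (q : ZMod m) := by
  have hgm : Nat.gcd l m ∣ m := Nat.gcd_dvd_right l m
  have hgl : Nat.gcd l m ∣ l := Nat.gcd_dvd_left l m
  have hgm' : Nat.gcd l m ∣ p ^ (f + 1) := by
    rw [← hm]
    exact hgm
  obtain ⟨v, hv, hgv⟩ := (Nat.dvd_prime_pow hp).1 hgm'
  have hvf : v ≤ f := by
    by_contra hcon
    have hv1 : v = f + 1 := by omega
    apply h
    have hg : Nat.gcd l m = m := by
      rw [hgv, hv1, ← hm]
    rw [← hg]
    exact hgl
  have hgq : Nat.gcd l m ∣ q := by
    rw [hgv, hq]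
    exact pow_dvd_pow p hvf
  have hmpos : 0 < m := Nat.pos_of_ne_zero (NeZero.ne m)
  have hlt : Nat.gcd l m < m := by
    have hle : Nat.gcd l m ≤ m := Nat.le_of_dvd hmpos hgm
    rcases Nat.lt_or_ge (Nat.gcd l m) m with h1 | h1
    · exact h1
    · exfalso
      apply h
      have hg : Nat.gcd l m = m := Nat.le_antisymm hle h1
      rw [← hg]
      exact hgl
  obtain ⟨L0, _, hL0⟩ := Nat.exists_mul_mod_eq_gcd hlt
  refine ⟨L0 * (q / Nat.gcd l m), ?_⟩
  rw [ZMod.natCast_eq_natCast_iff]
  have h1 : Nat.ModEq m (l * L0) (Nat.gcd l m) := by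
    unfold Nat.ModEq
    rw [hL0]
    exact (Nat.mod_eq_of_lt hlt).symm
  have h2 : Nat.ModEq m (l * L0 * (q / Nat.gcd l m)) (Nat.gcd l m * (q / Nat.gcd l m)) :=
    Nat.ModEq.mul_right _ h1
  rw [Nat.mul_div_cancel' hgq] at h2
  have e : L0 * (q / Nat.gcd l m) * l = l * L0 * (q / Nat.gcd l m) := by ring
  rw [e]
  exact h2

end Block

end Pos

end Vale.Agent.Lib.P329
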