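import Vale.Agent.Lib.P329.QDead
import Vale.Agent.Lib.P329.QIrrel

/-!
The block automaton for `m = p ^ (f + 1)` and `q = p ^ f`, with `fst` and `snd` disjoint:
event-free cycles are trivial, so that the number of unmarked blocks modulo `M`, together
with the final state, has fibers of generalized star height at most one.
-/

set_option linter.unusedSectionVars false

namespace Vale.Agent.Lib.P329

open Classical

namespace Pos

open SF Ev

section Block

variable {β : Type} (m q : ℕ) [NeZero m] (fst snd : β → Prop)

lemma length_rep (u : List β) : ∀ k : ℕ, (rep u k).length = k * u.length := by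
  intro k
  induction k with
  | zero => simp [rep]
  | succ k ih =>
    rw [rep, List.length_append, ih]
    ring

lemma split_at (w : List β) (i : ℕ) (h : i < w.length) :
    ∃ (P : List β) (c : β) (R : List β),
      w = P ++ c :: R ∧ P.length = i ∧ R.length + i + 1 = w.length := by
  refine ⟨w.take i, w[i], w.drop (i + 1), ?_, ?_, ?_⟩
  · rw [List.getElem_cons_drop]
    exact (List.take_append_drop i w).symm
  · exact List.length_take_of_le (le_of_lt h)
  · rw [List.length_drop]
    omega

/-- The case of a period whose length is a multiple of `m`. -/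
lemma bfree_dvd (u : List β) (i : ZMod m) (b : Bool) (n : ℕ) (hn : 0 < n)
    (hu : u ≠ []) (hdvd : m ∣ u.length)
    (hrun : run (bstep m q fst snd) (i, b) (rep u n) = (i, b)) :
    run (bstep m q fst snd) (i, b) u = (i, b) := by
  have hl : 0 < u.length := List.length_pos_iff.mpr hu
  have hml : m ≤ u.length := Nat.le_of_dvd hl hdvd
  have h1 : (run (bstep m q fst snd) (i, b) u).1 = i := by
    rw [brun_fst, (ZMod.natCast_eq_zero_iff u.length m).mpr hdvd, add_zero]
  obtain ⟨b', hb'⟩ : ∃ b' : Bool, run (bstep m q fst snd) (i, b) u = (i, b') :=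
    ⟨(run (bstep m q fst snd) (i, b) u).2, Prod.ext h1 rfl⟩
  have h3 : run (bstep m q fst snd) (i, b) (u ++ u) = run (bstep m q fst snd) (i, b) u := by
    rw [run_append, hb']
    rw [run_flag_irrel m q fst snd u i b' b (by omega)]
    exact hb'
  have h4 := run_rep_of_idem (bstep m q fst snd) (i, b) u h3 (n - 1)
  have hn' : n - 1 + 1 = n := by omega
  rw [hn'] at h4
  rw [← h4]
  exact hrun

/-- **Event-free cycles are trivial.** -/
theorem bfree (p f : ℕ) (hp : p.Prime) (hm : m = p ^ (f + 1)) (hq : q = p ^ f)
    (hdisj : ∀ c, ¬ (fst c ∧ snd c)) (u : List β) (s : ZMod m × Bool) (n : ℕ) (hn : 0 < n)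
    (hrun : run (bstep m q fst snd) s (rep u n) = s)
    (hc : cnt (bstep m q fst snd) (bev m q fst snd) s (rep u n) = 0) :
    run (bstep m q fst snd) s u = s := by
  have hq0 : 0 < q := by
    rw [hq]
    exact pow_pos hp.pos f
  have hqm : q < m := by
    rw [hq, hm]
    exact Nat.pow_lt_pow_right hp.one_lt (Nat.lt_succ_self f)
  have hm1 : 1 < m := by omega
  by_cases hdvd : m ∣ u.length
  · by_cases hu : u = []
    · rw [hu]
      rfl
    · obtain ⟨i, b⟩ := s
      exact bfree_dvd m q fst snd u i b n hn hu hdvd hrun
  · exfalso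
    obtain ⟨L, hL⟩ := exists_mul_eq m q p f hp hm hq u.length hdvd
    have hl : 0 < u.length := by
      rcases Nat.eq_zero_or_pos u.length with h0 | h0
      · rw [h0] at hdvd
        exact absurd (dvd_zero m) hdvd
      · exact h0
    obtain ⟨i1, hi1⟩ : ∃ i1 : ℕ, i1 = (-s.1).val := ⟨_, rfl⟩
    have hi1m : i1 < m := by
      rw [hi1]
      exact ZMod.val_lt _
    have hi10 : s.1 + (i1 : ZMod m) = 0 := by
      rw [hi1, ZMod.natCast_zmod_val]
      exact add_neg_cancel s.1
    have hall : ∀ j, cnt (bstep m q fst snd) (bev m q fst snd) s (rep u j) = 0 :=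
      fun j => cnt_rep_all (bstep m q fst snd) (bev m q fst snd) s u n hn hrun hc j
    have hlen : (rep u (2 * m)).length = 2 * m * u.length := length_rep u (2 * m)
    have hlen2 : i1 + m < (rep u (2 * m)).length := by
      rw [hlen]
      have h5 : 2 * m * 1 ≤ 2 * m * u.length := Nat.mul_le_mul_left _ hl
      omega
    obtain ⟨P1, c, R1, hsplit, hP1, hR1⟩ := split_at (rep u (2 * m)) i1 (by omega)
    have ha : fst c := by
      have h1 := hall (2 * m + L)
      rw [rep_add, hsplit, List.append_assoc, List.cons_append] at h1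
      refine fst_of_noev m q fst snd hm1 s P1 c (R1 ++ rep u L) ?_ ?_ h1
      · rw [hP1]
        exact hi10
      · rw [List.length_append]
        omega
    have hb : snd c := by
      have h1 := hall (L + 2 * m)
      rw [rep_add, hsplit, ← List.append_assoc] at h1
      refine snd_of_noev m q fst snd hq0 hqm s (rep u L ++ P1) c R1 ?_ (by omega) h1
      rw [List.length_append, length_rep, hP1, Nat.cast_add, hL]
      calc s.1 + ((q : ZMod m) + (i1 : ZMod m)) = (s.1 + (i1 : ZMod m)) + (q : ZMod m) := by
            ring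
        _ = (q : ZMod m) := by rw [hi10, zero_add]
    exact hdisj c ⟨ha, hb⟩

/-- **Counting the unmarked blocks modulo `M`.** -/
theorem fibB [Fintype β] (p f : ℕ) (hp : p.Prime) (hm : m = p ^ (f + 1)) (hq : q = p ^ f)
    (hdisj : ∀ c, ¬ (fst c ∧ snd c)) (M : ℕ) [NeZero M] (s0 : ZMod m × Bool) :
    Fib1 (fun w : List β => ((cnt (bstep m q fst snd) (bev m q fst snd) s0 w : ZMod M),
      run (bstep m q fst snd) s0 w)) :=
  fib1_count_free (bstep m q fst snd) (bev m q fst snd) (0, true) (bev_base m q fst snd)
    (fun u s n hn hrun hc => bfree m q fst snd p f hp hm hq hdisj u s n hn hrun hc) M s0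

end Block

end Pos

end Vale.Agent.Lib.P329
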