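import Vale.Agent.Lib.P329.QFree
import Vale.Agent.Lib.P329.QFiber
import Vale.Agent.Lib.P329.PPair

/-!
Counting, modulo `N`, the occurrences of a letter at the positions congruent to a given residue
modulo a prime power: the fibers have generalized star height at most one.
-/

set_option linter.unusedSectionVars false

namespace Vale.Agent.Lib.P329

open Classical

namespace Pos

open SF Ev

section Main

variable {β : Type} (m q : ℕ) (a : β)

/-- The difference of the counts at the residues `0` and `q`, from any start. -/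
theorem fibDiff [Fintype β] [NeZero m] (p f : ℕ) (hp : p.Prime) (hm : m = p ^ (f + 1))
    (hq : q = p ^ f) (M : ℕ) [NeZero M] (t : ZMod m) :
    Fib1 (fun w : List β => ((cnt (cstep m) (pX m a 0) t w : ℕ) : ZMod M)
      - ((cnt (cstep m) (pX m a (q : ZMod m)) t w : ℕ) : ZMod M)) := by
  have hq0 : 0 < q := by
    rw [hq]
    exact pow_pos hp.pos f
  have hqm : q < m := by
    rw [hq, hm]
    exact Nat.pow_lt_pow_right hp.one_lt (Nat.lt_succ_self f)
  have f10 := fibB m q (fun c : β => c = a) (fun c : β => c ≠ a) p f hp hm hq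
    (fun c h => h.2 h.1) M (t, false)
  have f01 := fibB m q (fun c : β => c ≠ a) (fun c : β => c = a) p f hp hm hq
    (fun c h => h.1 h.2) M (t, true)
  have F := (f01.pair f10).comp
    (fun y : (ZMod M × (ZMod m × Bool)) × (ZMod M × (ZMod m × Bool)) =>
      y.1.1 - y.2.1 + ((HH m q y.2.2 y.1.2 : ℤ) : ZMod M)
        - ((HH m q (t, false) (t, true) : ℤ) : ZMod M))
  refine F.congr ?_
  intro w
  have hd := Xdiff m q a hq0 hqm t w
  have hd' := congrArg (Int.cast : ℤ → ZMod M) hd
  push_cast at hd'
  simp only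
  rw [hd']

/-- Modulo one, every position is at the residue: the count is the number of occurrences. -/
lemma cnt_one : ∀ (w : List β) (j t : ZMod 1),
    cnt (cstep 1) (pX 1 a j) t w = w.count a := by
  intro w
  induction w with
  | nil =>
    intro j t
    simp [cnt_nil]
  | cons c w ih =>
    intro j t
    have hsub : Subsingleton (ZMod 1) := (inferInstance : Subsingleton (Fin 1))
    have htj : t = j := Subsingleton.elim _ _
    rw [cnt_cons, ih, List.count_cons]
    by_cases hc : c = a
    · simp [pX, hc, htj]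
      omega
    · simp [pX, hc]

/-- **Counting a letter at the positions in a residue class modulo a prime power.** -/
theorem fibX [Fintype β] (p : ℕ) (hp : p.Prime) : ∀ (f m : ℕ) [NeZero m], m = p ^ f →
    ∀ (N : ℕ) [NeZero N] (j t : ZMod m),
    Fib1 (fun w : List β => ((cnt (cstep m) (pX m a j) t w : ℕ) : ZMod N)) := by
  intro f
  induction f with
  | zero =>
    intro m _ hm N _ j t
    have hm1 : m = 1 := by rw [hm, pow_zero]
    subst hm1
    have fT : Fib1 (fun w : List β => ((w.count a : ℕ) : ZMod N)) :=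
      fun z => Metab.exists_regex_count a N z
    refine fT.congr ?_
    intro w
    rw [cnt_one a w j t]
  | succ f ih =>
    intro m _ hm N _ j t
    obtain ⟨q, hq⟩ : ∃ q : ℕ, q = p ^ f := ⟨_, rfl⟩
    have hp0 : 0 < p := hp.pos
    have hq0 : 0 < q := by
      rw [hq]
      exact pow_pos hp0 f
    have hqne : NeZero q := ⟨hq0.ne'⟩
    have hmq : m = p * q := by rw [hm, hq, pow_succ, mul_comm]
    have hpN : NeZero (p * N) := ⟨Nat.mul_ne_zero hp0.ne' (NeZero.ne N)⟩
    -- the count modulo `q`, by induction
    have fY : Fib1 (fun w : List β =>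
        ((cnt (cstep q) (pX q a ((j.val : ℕ) : ZMod q)) ((t.val : ℕ) : ZMod q) w : ℕ) :
          ZMod (p * N))) :=
      ih q hq (p * N) ((j.val : ℕ) : ZMod q) ((t.val : ℕ) : ZMod q)
    -- the differences of the counts at two residues at distance `q`
    have fD : Fib1 (fun (w : List β) (z : ZMod m) =>
        ((cnt (cstep m) (pX m a z) t w : ℕ) : ZMod (p * N))
          - ((cnt (cstep m) (pX m a (z + (q : ZMod m))) t w : ℕ) : ZMod (p * N))) := by
      refine Fib1.pi (fun z => ?_)
      refine (fibDiff m q a p f hp hm hq (p * N) (t + -z)).congr ?_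
      intro w
      have e1 : z + -z = 0 := add_neg_cancel z
      have e2 : z + (q : ZMod m) + -z = (q : ZMod m) := by ring
      rw [cnt_shift m a (-z) w t z, cnt_shift m a (-z) w t (z + (q : ZMod m)), e1, e2]
    -- the arithmetic identity
    have key : ∀ w : List β, (p : ℤ) * (cnt (cstep m) (pX m a j) t w : ℤ) =
        (cnt (cstep q) (pX q a ((j.val : ℕ) : ZMod q)) ((t.val : ℕ) : ZMod q) w : ℤ)
        + ∑ i ∈ Finset.range p, ∑ l ∈ Finset.range i,
            ((cnt (cstep m) (pX m a (j + l • (q : ZMod m))) t w : ℤ)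
              - (cnt (cstep m) (pX m a (j + l • (q : ZMod m) + (q : ZMod m))) t w : ℤ)) := by
      intro w
      have h1 : ∀ i : ℕ, (cnt (cstep m) (pX m a j) t w : ℤ)
          - (cnt (cstep m) (pX m a (j + i • (q : ZMod m))) t w : ℤ)
          = ∑ l ∈ Finset.range i, ((cnt (cstep m) (pX m a (j + l • (q : ZMod m))) t w : ℤ)
              - (cnt (cstep m) (pX m a (j + l • (q : ZMod m) + (q : ZMod m))) t w : ℤ)) :=
        fun i => tele m (fun z => (cnt (cstep m) (pX m a z) t w : ℤ)) (q : ZMod m) j i
      have h2 := fiber_sum m q a p hmq hq0 j w t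
      have h3 : (∑ i ∈ Finset.range p,
          (cnt (cstep m) (pX m a (j + i • (q : ZMod m))) t w : ℤ))
          = (cnt (cstep q) (pX q a ((j.val : ℕ) : ZMod q)) ((t.val : ℕ) : ZMod q) w : ℤ) := by
        rw [← h2, Nat.cast_sum]
        refine Finset.sum_congr rfl (fun i _ => ?_)
        rw [nsmul_eq_mul, Nat.cast_mul]
      rw [← Finset.sum_congr rfl (fun i _ => h1 i), Finset.sum_sub_distrib, Finset.sum_const,
        Finset.card_range, h3, nsmul_eq_mul]
      ring
    have F := (fY.pair fD).comp
      (fun y : ZMod (p * N) × (ZMod m → ZMod (p * N)) =>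
        ((((y.1 + ∑ i ∈ Finset.range p, ∑ l ∈ Finset.range i,
          y.2 (j + l • (q : ZMod m))).val / p : ℕ)) : ZMod N))
    refine F.congr ?_
    intro w
    have h4 := congrArg (Int.cast : ℤ → ZMod (p * N)) (key w)
    push_cast at h4
    show ((((((cnt (cstep q) (pX q a ((j.val : ℕ) : ZMod q)) ((t.val : ℕ) : ZMod q) w : ℕ) :
        ZMod (p * N)) + ∑ i ∈ Finset.range p, ∑ l ∈ Finset.range i,
          (((cnt (cstep m) (pX m a (j + l • (q : ZMod m))) t w : ℕ) : ZMod (p * N))
            - ((cnt (cstep m) (pX m a (j + l • (q : ZMod m) + (q : ZMod m))) t w : ℕ) :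
              ZMod (p * N)))).val / p : ℕ)) : ZMod N)
      = ((cnt (cstep m) (pX m a j) t w : ℕ) : ZMod N)
    rw [← h4, ← Nat.cast_mul]
    exact Zp.val_mul_div p N hp0 _

end Main

end Pos

end Vale.Agent.Lib.P329
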