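import Vale.Agent.Lib.P329.QMain
import Vale.Agent.Lib.P329.Phase

/-!
Counting, modulo `N`, the occurrences of a letter `b` preceded by a number of letters of a set
`S` in a given residue class modulo a prime power `d`: the fibers have generalized star height
at most one, whether or not `b` itself lies in `S`.
-/

set_option linter.unusedSectionVars false

namespace Vale.Agent.Lib.P329

universe u

open Classical

namespace Pos

open SF Ev

/-- Erasing the letters outside `S` and renaming the others, when `b` lies in `S`. -/
lemma visits_red {α : Type u} {β : Type} (S : α → Prop) (b : α) (hb : S b) (d : ℕ)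
    (e : α → β) (he : Function.Injective e) (j : ZMod d) : ∀ (w : List α) (t : ZMod d),
    Count.visits (Phase.ctrS S d) j (fun x => x = b) t w =
      cnt (cstep d) (pX d (e b) j) t (w.filterMap (fun x => if S x then some (e x) else none)) := by
  intro w
  induction w with
  | nil =>
    intro t
    rfl
  | cons x w ih =>
    intro t
    have hv : Count.visits (Phase.ctrS S d) j (fun x => x = b) t (x :: w)
        = (if t = j ∧ x = b then 1 else 0)
          + Count.visits (Phase.ctrS S d) j (fun x => x = b) ((Phase.ctrS S d).step t x) w := by
      rw [Count.visits]
      congr 1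
      split_ifs <;> rfl
    by_cases hx : S x
    · have hf : (x :: w).filterMap (fun x => if S x then some (e x) else none)
          = e x :: w.filterMap (fun x => if S x then some (e x) else none) := by
        rw [List.filterMap_cons_some]
        exact if_pos hx
      have hstep : (Phase.ctrS S d).step t x = t + 1 := by
        simp [Phase.ctrS, hx]
      have hiff : (t = j ∧ x = b) ↔ pX d (e b) j t (e x) := by
        unfold pX
        constructor
        · rintro ⟨h1, h2⟩
          exact ⟨h1, by rw [h2]⟩
        · rintro ⟨h1, h2⟩
          exact ⟨h1, he h2⟩
      have hc : cstep d t (e x) = t + 1 := rfl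
      rw [hf, cnt_cons, hv, hstep, ih (t + 1), hc]
      by_cases hcase : t = j ∧ x = b
      · rw [if_pos hcase, if_pos (hiff.1 hcase)]
      · rw [if_neg hcase, if_neg (fun h => hcase (hiff.2 h))]
    · have hf : (x :: w).filterMap (fun x => if S x then some (e x) else none)
          = w.filterMap (fun x => if S x then some (e x) else none) := by
        rw [List.filterMap_cons_none]
        exact if_neg hx
      have hstep : (Phase.ctrS S d).step t x = t := by
        simp [Phase.ctrS, hx]
      have hxb : x ≠ b := fun h => hx (h ▸ hb)
      rw [hf, ← ih t, hv, hstep, if_neg (fun h => hxb h.2), zero_add]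

/-- **Counting the occurrences of a letter after a number of letters of `S` in a residue
class modulo a prime power.** -/
theorem fib_visits {α : Type u} [Fintype α] (S : α → Prop) (b : α) (p f : ℕ) (hp : p.Prime)
    (d : ℕ) [NeZero d] (hd : d = p ^ f) (N : ℕ) [NeZero N] (j : ZMod d) :
    Fib1 (fun w : List α =>
      ((Count.visits (Phase.ctrS S d) j (fun x => x = b) 0 w : ℕ) : ZMod N)) := by
  by_cases hb : S b
  · have h := (fibX (β := Fin (Fintype.card α)) (a := Fintype.equivFin α b) p hp f d hd N j
      0).filterMap (fun x : α => if S x then some (Fintype.equivFin α x) else none)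
    refine h.congr ?_
    intro w
    rw [visits_red S b hb d (Fintype.equivFin α) (Fintype.equivFin α).injective j w 0]
  · apply Phase.fib_of_mod (g := fun w => Count.visits (Phase.ctrS S d) j (fun x => x = b) 0 w) N
    intro k hk
    exact Count.exists_regex_visits (Phase.ctrS S d) j (fun q => (q - j).val)
      (Phase.ctrS_hyp S d j) (fun x => x = b) (fun x hx => by simp [Phase.ctrS, hx, hb]) N k hk 0

end Pos

end Vale.Agent.Lib.P329
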