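import Vale.Agent.Lib.P329.PairCount
import Vale.Agent.Lib.P329.Nil3Main
import Vale.Agent.Lib.P329.Rev

/-!
Products, in a finite nilpotent group of class at most two, of weights attached to the
factors of length two of a word, and languages recognized by Rees zero-matrix semigroups
over such groups: generalized star height at most one.
-/

set_option linter.unusedSectionVars false

namespace Vale.Agent.Lib.P329

open Classical

namespace Rees

open scoped commutatorElement

open Sub

section Group2

variable {α E G : Type} [Group G]

/-- In a group of class at most two, commutators are central. -/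
lemma c2_central (h2 : (⊤ : Subgroup G).lowerCentralSeries 2 = ⊥) (a b t : G) :
    ⁅a, b⁆ * t = t * ⁅a, b⁆ := by
  have hm : ⁅a, b⁆ ∈ commutator G :=
    Subgroup.commutator_mem_commutator (Subgroup.mem_top a) (Subgroup.mem_top b)
  have h1 : ⁅⁅a, b⁆, t⁆ ∈ ⁅commutator G, (⊤ : Subgroup G)⁆ :=
    Subgroup.commutator_mem_commutator hm (Subgroup.mem_top t)
  have h3 : ⁅commutator G, (⊤ : Subgroup G)⁆ = ⊥ := h2
  rw [h3, Subgroup.mem_bot] at h1
  exact commutatorElement_eq_one_iff_mul_comm.mp h1

/-- In class two the correction term only involves commutators of two letters. -/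
lemma theta_c2 [Fintype E] (hG : (⊤ : Subgroup G).lowerCentralSeries 3 = ⊥)
    (hz : ∀ a b t : G, ⁅a, b⁆ * t = t * ⁅a, b⁆) (g : E → G) (x : E) (e1 e2 : E → ℕ)
    (e3 : E → E → ℕ) :
    Nil3.Theta hG g x e1 e2 e3 = Nil3.Theta hG g x e1 (fun _ => 0) (fun _ _ => 0) := by
  have k2 : ∀ b, Nil3.kap2 g x b = 1 := by
    intro b
    apply Subtype.ext
    exact commutatorElement_eq_one_iff_mul_comm.mpr (hz (g x) (g b) (g x)).symm
  have k3 : ∀ b c, Nil3.kap3 g x b c = 1 := by
    intro b c
    apply Subtype.ext
    exact commutatorElement_eq_one_iff_mul_comm.mpr (hz (g x) (g b) (g c)).symm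
  unfold Nil3.Theta
  let := Nil3.commGroupA hG
  exact congrArg Subtype.val
    (Nil3.Theta_aux_congr (Nil3.kap1 g x) (Nil3.kap2 g x) (Nil3.kap3 g x) _ _ _ _ _ _
      (fun b => rfl) (fun b => by rw [k2 b, one_pow, one_pow])
      (fun b c => by rw [k3 b c, one_pow, one_pow]))

lemma K_c2 [Fintype E] [Fintype G] (hG : (⊤ : Subgroup G).lowerCentralSeries 3 = ⊥)
    (hz : ∀ a b t : G, ⁅a, b⁆ * t = t * ⁅a, b⁆) (g : E → G) (x : E) (v : List E) :
    Nil3.K g x [] v = Nil3.Theta hG g x
      (fun b => ((SC [x, b] v : ℕ) : ZMod (Fintype.card G)).val) (fun _ => 0)
      (fun _ _ => 0) := by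
  rw [Nil3.K_closed hG g x v, theta_c2 hG hz, Nil3.Theta_mod hG]
  simp only [Nat.cast_zero, ZMod.val_zero]

lemma SC2_filter {τ : Type} [DecidableEq τ] (P : τ → Bool) (x b : τ) (l : List τ) :
    SC [x, b] (l.filter P) = if P x = true ∧ P b = true then SC [x, b] l else 0 := by
  induction l using List.reverseRecOn with
  | nil => simp [SC2_empty]
  | append_singleton l y ih =>
    rw [List.filter_append, SC2_concat x b l y]
    by_cases hy : P y = true
    · have h1 : List.filter P [y] = [y] := by simp [hy]
      rw [h1, SC2_concat, ih, SC1_eq, SC1_eq]
      by_cases hx : P x = true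
      · rw [List.count_filter hx]
        by_cases hyb : y = b
        · subst hyb
          simp [hx, hy]
        · simp [hyb]
      · have h0 : List.count x (List.filter P l) = 0 := by
          apply List.count_eq_zero.mpr
          intro hmem
          exact hx (List.mem_filter.mp hmem).2
        rw [h0]
        simp [hx]
    · have h1 : List.filter P [y] = [] := by simp [hy]
      rw [h1, List.append_nil, ih]
      by_cases hyb : y = b
      · subst hyb
        simp [hy]
      · simp [hyb]

/-- **Products in a group of class at most two along a derived word.**  If the occurrences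
of every letter, and the pairs of occurrences of every two letters, of the derived word
`L w` can be counted modulo the order of the group, then the product of the images of the
letters of `L w` has fibers of generalized star height at most one. -/
theorem fib_prod [Fintype α] [Fintype E] [Fintype G] [Group.IsNilpotent G]
    (hcl : Group.nilpotencyClass G ≤ 2) (L : List α → List E) (ψ : E → G)
    (hcount : ∀ x : E, Fib1 (fun w : List α => (((L w).count x : ℕ) : ZMod (Fintype.card G))))
    (hSC : ∀ x b : E, Fib1 (fun w : List α =>
      ((SC [x, b] (L w) : ℕ) : ZMod (Fintype.card G)))) :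
    Fib1 (fun w : List α => ((L w).map ψ).prod) := by
  have hG3 : (⊤ : Subgroup G).lowerCentralSeries 3 = ⊥ :=
    Subgroup.lowerCentralSeries_eq_bot_iff_nilpotencyClass_le.mpr (le_trans hcl (by norm_num))
  have hG2 : (⊤ : Subgroup G).lowerCentralSeries 2 = ⊥ :=
    Subgroup.lowerCentralSeries_eq_bot_iff_nilpotencyClass_le.mpr hcl
  have hz := c2_central hG2
  have hN : NeZero (Fintype.card G) := ⟨Fintype.card_ne_zero⟩
  have key : ∀ S : Finset E,
      Fib1 (fun w : List α => (((L w).filter (fun a => a ∈ S)).map ψ).prod) := by
    intro S
    induction S using Finset.induction_on with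
    | empty =>
      refine (fib_const (1 : G)).congr ?_
      intro w
      simp
    | insert x S hx ih =>
      have fK : Fib1 (fun w : List α =>
          Nil3.K ψ x [] ((L w).filter (fun a => a ∈ insert x S))) := by
        have f1 : Fib1 (fun (w : List α) (b : E) =>
            ((SC [x, b] ((L w).filter (fun a => a ∈ insert x S)) : ℕ) :
              ZMod (Fintype.card G))) := by
          refine Fib1.pi (fun b => ?_)
          by_cases hb : b ∈ insert x S
          · refine (hSC x b).congr ?_
            intro w
            rw [SC2_filter]
            simp [hb]
          · refine (fib_const (0 : ZMod (Fintype.card G))).congr ?_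
            intro w
            rw [SC2_filter]
            simp [hb]
        refine (f1.comp (fun t : E → ZMod (Fintype.card G) =>
          Nil3.Theta hG3 ψ x (fun b => (t b).val) (fun _ => 0) (fun _ _ => 0))).congr ?_
        intro w
        rw [K_c2 hG3 hz]
      have fc := hcount x
      have f := ((fK.pair ih).pair fc).comp
        (fun t : (G × G) × ZMod (Fintype.card G) => t.1.1 * t.1.2 * ψ x ^ t.2.val)
      refine f.congr ?_
      intro w
      rw [Nil3.decomp ψ x ((L w).filter (fun a => a ∈ insert x S))]
      have h1 : Nil3.H ψ x ((L w).filter (fun a => a ∈ insert x S)) =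
          (((L w).filter (fun a => a ∈ S)).map ψ).prod := by
        unfold Nil3.H
        rw [List.filter_filter]
        congr 2
        apply List.filter_congr
        intro a _
        by_cases ha : a = x
        · subst ha
          simp [hx]
        · by_cases haS : a ∈ S
          · simp [ha, haS]
          · simp [ha, haS]
      have h2 : ((L w).filter (fun a => a ∈ insert x S)).count x = (L w).count x := by
        rw [List.count_filter]
        simp
      have h3 : ψ x ^ (((L w).count x : ℕ) : ZMod (Fintype.card G)).val = ψ x ^ (L w).count x := by
        rw [ZMod.val_natCast, pow_mod_card]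
      rw [h1, h2, h3]
  refine (key Finset.univ).congr ?_
  intro w
  simp

end Group2

section Semigroup

variable {α I Λ G : Type}

/-- The multiplication of the Rees zero-matrix semigroup over `G` with sandwich matrix `P`:
the nonzero elements are the triples `(i, g, l)`, `none` is the zero, and
`(i, g, l) (j, h, m) = (i, g * p * h, m)` if the entry `P l j` is `some p`, and zero if it is
`none`. -/
def rmul [Mul G] (P : Λ → I → Option G) :
    Option (I × G × Λ) → Option (I × G × Λ) → Option (I × G × Λ)
  | some (i, g, l), some (j, h, m) => (P l j).map (fun p => (i, g * p * h, m))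
  | _, _ => none

variable [Group G] (P : Λ → I → Option G) (φ : α → Option (I × G × Λ))

/-- The product of the images of the letters `q` and `c` is zero. -/
def bad (q c : α) : Prop :=
  match φ q, φ c with
  | some (_, _, l), some (j, _, _) => P l j = none
  | _, _ => True

/-- The factor contributed to the middle coordinate by the letter `e.2` read after `e.1`. -/
def wt (e : α × α) : G :=
  match φ e.1, φ e.2 with
  | some (_, _, l), some (j, h, _) =>
    (match P l j with
      | some p => p * h
      | none => 1)
  | _, _ => 1

/-- The automaton remembering the last letter, with a sink reached when the product is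
zero. -/
noncomputable def sstep (s : Option α) (c : α) : Option α :=
  match s with
  | none => none
  | some q => if bad P φ q c then none else some c

lemma sstep_cases (s : Option α) (c : α) :
    sstep P φ s c = none ∨ sstep P φ s c = some c := by
  cases s with
  | none => exact Or.inl rfl
  | some q =>
    by_cases h : bad P φ q c
    · left
      show (if bad P φ q c then none else some c) = none
      rw [if_pos h]
    · right
      show (if bad P φ q c then none else some c) = some c
      rw [if_neg h]

lemma run_none : ∀ w : List α, SF.run (sstep P φ) none w = none := by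
  intro w
  induction w with
  | nil => rfl
  | cons a w ih => exact ih

lemma run_concat_cases (s : Option α) (w : List α) (c : α) :
    SF.run (sstep P φ) s (w ++ [c]) = none ∨ SF.run (sstep P φ) s (w ++ [c]) = some c := by
  rw [SF.run_concat]
  exact sstep_cases P φ _ c

lemma counterFree_sstep : SF.CounterFree (sstep P φ) := by
  intro u q n hn hrun
  cases q with
  | none => exact run_none P φ u
  | some q =>
    rcases List.eq_nil_or_concat u with rfl | ⟨u', c, rfl⟩
    · rfl
    · rw [List.concat_eq_append] at hrun ⊢
      obtain ⟨m, rfl⟩ : ∃ m, n = m + 1 := ⟨n - 1, by omega⟩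
      have hq : q = c := by
        have h1 := hrun
        rw [Ev.rep_succ', ← List.append_assoc] at h1
        rcases run_concat_cases P φ (some q) (SF.rep (u' ++ [c]) m ++ u') c with h | h
        · rw [h] at h1
          exact absurd h1 (by simp)
        · rw [h] at h1
          exact (Option.some.inj h1).symm
      have h2 := hrun
      rw [SF.rep, SF.run_append] at h2
      rcases run_concat_cases P φ (some q) u' c with h | h
      · rw [h, run_none] at h2
        exact absurd h2 (by simp)
      · rw [h, hq]

lemma fold_none (v : List α) :
    v.foldl (fun s c => rmul P s (φ c)) none = none := by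
  induction v with
  | nil => rfl
  | cons c v ih => exact ih

lemma fold_eq : ∀ (v : List α) (b : α) (i : I) (g : G) (l : Λ) (i' : I) (g' : G),
    φ b = some (i', g', l) →
    v.foldl (fun s c => rmul P s (φ c)) (some (i, g, l)) =
      match SF.run (sstep P φ) (some b) v with
      | none => none
      | some q => (φ q).map (fun t => (i, g * ((Pair.evs b v).map (wt P φ)).prod, t.2.2)) := by
  intro v
  induction v with
  | nil =>
    intro b i g l i' g' hb
    show some (i, g, l) = (φ b).map (fun t => (i, g * (([] : List (α × α)).map (wt P φ)).prod,
      t.2.2))
    rw [hb]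
    simp
  | cons c v ih =>
    intro b i g l i' g' hb
    rw [List.foldl_cons, SF.run_cons]
    by_cases hbad : bad P φ b c
    · have hs : sstep P φ (some b) c = none := by
        show (if bad P φ b c then none else some c) = none
        rw [if_pos hbad]
      have hm : rmul P (some (i, g, l)) (φ c) = none := by
        unfold bad at hbad
        rw [hb] at hbad
        cases hc : φ c with
        | none => rfl
        | some t =>
          obtain ⟨j, h, m⟩ := t
          rw [hc] at hbad
          have hP : P l j = none := hbad
          show (P l j).map (fun p => (i, g * p * h, m)) = none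
          rw [hP]
          rfl
      rw [hs, run_none, hm, fold_none]
    · have hs : sstep P φ (some b) c = some c := by
        show (if bad P φ b c then none else some c) = some c
        rw [if_neg hbad]
      cases hc : φ c with
      | none =>
        exfalso
        apply hbad
        unfold bad
        rw [hb, hc]
        trivial
      | some t =>
        obtain ⟨j, h, m⟩ := t
        cases hP : P l j with
        | none =>
          exfalso
          apply hbad
          unfold bad
          rw [hb, hc]
          exact hP
        | some p =>
          have hm : rmul P (some (i, g, l)) (some (j, h, m)) = some (i, g * p * h, m) := by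
            show (P l j).map (fun p => (i, g * p * h, m)) = some (i, g * p * h, m)
            rw [hP]
            rfl
          have hw : wt P φ (b, c) = p * h := by
            unfold wt
            simp only [hb, hc, hP]
          rw [hs, hm, ih c i (g * p * h) m j h hc]
          show _ = match SF.run (sstep P φ) (some c) v with
            | none => none
            | some q => (φ q).map (fun t : I × G × Λ =>
                (i, g * (((b, c) :: Pair.evs c v).map (wt P φ)).prod, t.2.2))
          rw [List.map_cons, List.prod_cons, hw]
          cases SF.run (sstep P φ) (some c) v with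
          | none => rfl
          | some q =>
            simp only [mul_assoc]

/-- **Rees zero-matrix semigroups over nilpotent groups of class at most two.** -/
theorem main [Fintype α] [Fintype G] [Group.IsNilpotent G]
    (hcl : Group.nilpotencyClass G ≤ 2) (Q : Set (Option (I × G × Λ))) :
    ∃ e : GRegex α, e.starHeight ≤ 1 ∧
      e.lang = {w : List α | ∃ a v, w = a :: v ∧
        v.foldl (fun s c => rmul P s (φ c)) (φ a) ∈ Q} := by
  have hN : NeZero (Fintype.card G) := ⟨Fintype.card_ne_zero⟩
  have hE : ∀ a : α, ∃ e : GRegex α, e.starHeight ≤ 1 ∧
      e.lang = {v : List α | v.foldl (fun s c => rmul P s (φ c)) (φ a) ∈ Q} := by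
    intro a
    cases ha : φ a with
    | none =>
      by_cases hQ : (none : Option (I × G × Λ)) ∈ Q
      · refine ⟨GRegex.top, by simp, ?_⟩
        ext v
        simp only [GRegex.mem_lang_top, true_iff]
        show v.foldl (fun s c => rmul P s (φ c)) none ∈ Q
        rw [fold_none]
        exact hQ
      · refine ⟨GRegex.zero, by simp [GRegex.starHeight], ?_⟩
        ext v
        simp only [GRegex.mem_lang_zero, false_iff]
        show ¬ v.foldl (fun s c => rmul P s (φ c)) none ∈ Q
        rw [fold_none]
        exact hQ
    | some t =>
      obtain ⟨i, g, l⟩ := t
      have f1 : Fib1 (fun v : List α => SF.run (sstep P φ) (some a) v) := by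
        intro s
        obtain ⟨e, h0, hl⟩ := SF.starFree_of_counterFree (sstep P φ)
          (counterFree_sstep P φ) (some a) s
        exact ⟨e, by rw [h0]; exact Nat.zero_le 1, hl⟩
      have f2 : Fib1 (fun v : List α => ((Pair.evs a v).map (wt P φ)).prod) :=
        fib_prod hcl (Pair.evs a) (wt P φ)
          (fun x => @Pair.fib_count_evs α _ (fun a b => Classical.propDecidable (a = b))
            (Fintype.card G) _ x a)
          (fun x b => @Pair.fib_SC_evs α _ (fun a b => Classical.propDecidable (a = b))
            (Fintype.card G) _ x b a)
      obtain ⟨e, he1, he2⟩ := (f1.pair f2).set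
        {t : Option α × G | (match t.1 with
          | none => none
          | some q => (φ q).map (fun x => (i, g * t.2, x.2.2))) ∈ Q}
      refine ⟨e, he1, ?_⟩
      rw [he2]
      ext v
      show _ ↔ v.foldl (fun s c => rmul P s (φ c)) (some (i, g, l)) ∈ Q
      rw [fold_eq P φ v a i g l i g ha]
      rfl
  choose E hE1 hE2 using hE
  refine ⟨GRegex.sumOver (fun a => GRegex.concat (GRegex.letter a) (E a)), ?_, ?_⟩
  · apply GRegex.starHeight_sumOver_le
    intro a
    simp only [GRegex.starHeight]
    exact max_le (Nat.zero_le _) (hE1 a)
  · ext w
    rw [GRegex.mem_lang_sumOver]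
    constructor
    · rintro ⟨a, hw⟩
      rw [GRegex.mem_lang_concat] at hw
      obtain ⟨u, hu, v, hv, rfl⟩ := hw
      rw [GRegex.mem_lang_letter] at hu
      subst hu
      rw [hE2] at hv
      exact ⟨a, v, rfl, hv⟩
    · rintro ⟨a, v, rfl, hv⟩
      refine ⟨a, ?_⟩
      rw [GRegex.mem_lang_concat]
      refine ⟨[a], rfl, v, ?_, rfl⟩
      rw [hE2]
      exact hv

end Semigroup

end Rees

end Vale.Agent.Lib.P329
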