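import Vale.Agent.Lib.P329.Basic
import Mathlib.GroupTheory.OrderOfElement
import Mathlib.GroupTheory.Perm.Basic
import Mathlib.Data.Fintype.Pi

/-!
Counter-free deterministic automata accept star-free languages (one direction of the
theorem of Schuetzenberger and McNaughton-Papert), proved by induction on the number of
states and the size of the alphabet.
-/

set_option linter.unusedSectionVars false

namespace Vale.Agent.Lib.P329

open Classical

namespace SF

/-- The state reached from `q` by reading `w`. -/
def run {α σ : Type*} (step : σ → α → σ) (q : σ) (w : List α) : σ := w.foldl step q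

/-- The `n`-th power of a word. -/
def rep {α : Type*} (u : List α) : ℕ → List α
  | 0 => []
  | n + 1 => u ++ rep u n

/-- An automaton is counter-free if no word permutes a set of states cyclically
with a period larger than one. -/
def CounterFree {α σ : Type*} (step : σ → α → σ) : Prop :=
  ∀ (u : List α) (q : σ) (n : ℕ), 0 < n → run step q (rep u n) = q → run step q u = q

section Basics

variable {α σ : Type*} (step : σ → α → σ)

@[simp] lemma run_nil (q : σ) : run step q [] = q := rfl

@[simp] lemma run_cons (q : σ) (a : α) (w : List α) :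
    run step q (a :: w) = run step (step q a) w := rfl

lemma run_append (q : σ) (u v : List α) :
    run step q (u ++ v) = run step (run step q u) v := by
  simp [run, List.foldl_append]

lemma run_concat (q : σ) (u : List α) (a : α) :
    run step q (u ++ [a]) = step (run step q u) a := by
  simp [run_append]

lemma rep_map {β : Type*} (f : α → β) (u : List α) : ∀ n, rep (u.map f) n = (rep u n).map f := by
  intro n
  induction n with
  | zero => rfl
  | succ n ih => simp [rep, ih]

end Basics

/-! ### Expressions over a sub-alphabet -/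

lemma map_val_injective {α : Type} (P : α → Prop) :
    Function.Injective (List.map (Subtype.val : {a // P a} → α)) :=
  List.map_injective_iff.mpr Subtype.val_injective

lemma mem_range_map_val {α : Type} (P : α → Prop) (w : List α) :
    (∃ w' : List {a // P a}, w'.map Subtype.val = w) ↔ ∀ a ∈ w, P a := by
  constructor
  · rintro ⟨w', rfl⟩ a ha
    obtain ⟨b, -, rfl⟩ := List.mem_map.mp ha
    exact b.2
  · intro h
    refine ⟨w.pmap (fun a ha => ⟨a, ha⟩) h, ?_⟩
    rw [List.map_pmap]
    simp

lemma exists_embed {α : Type} [Fintype α] (P : α → Prop) :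
    ∀ e : GRegex {a // P a}, ∃ e' : GRegex α, e'.starHeight = e.starHeight ∧
      e'.lang = Language.map Subtype.val e.lang := by
  intro e
  induction e with
  | zero => exact ⟨GRegex.zero, rfl, by simp [GRegex.lang]⟩
  | one => exact ⟨GRegex.one, rfl, by simp [GRegex.lang]⟩
  | letter b =>
    refine ⟨GRegex.letter b.1, rfl, ?_⟩
    ext w
    simp [GRegex.lang, Language.map]
    constructor
    · rintro rfl; exact ⟨[b], rfl, rfl⟩
    · rintro ⟨x, rfl, rfl⟩; rfl
  | union p q ihp ihq =>
    obtain ⟨p', hp1, hp2⟩ := ihp
    obtain ⟨q', hq1, hq2⟩ := ihq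
    exact ⟨GRegex.union p' q', by simp [GRegex.starHeight, hp1, hq1],
      by simp [GRegex.lang, hp2, hq2]⟩
  | concat p q ihp ihq =>
    obtain ⟨p', hp1, hp2⟩ := ihp
    obtain ⟨q', hq1, hq2⟩ := ihq
    exact ⟨GRegex.concat p' q', by simp [GRegex.starHeight, hp1, hq1],
      by simp [GRegex.lang, hp2, hq2]⟩
  | compl p ihp =>
    obtain ⟨p', hp1, hp2⟩ := ihp
    refine ⟨GRegex.inter (GRegex.compl p') (GRegex.allIn P), ?_, ?_⟩
    · simp [GRegex.starHeight, GRegex.starHeight_allIn, hp1]
    · ext w
      rw [GRegex.mem_lang_inter, GRegex.mem_lang_compl, GRegex.mem_lang_allIn, hp2]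
      simp only [GRegex.lang, Language.map]
      constructor
      · rintro ⟨h1, h2⟩
        obtain ⟨w', rfl⟩ := (mem_range_map_val P w).mpr h2
        refine ⟨w', ?_, rfl⟩
        intro hw'
        exact h1 ⟨w', hw', rfl⟩
      · rintro ⟨w', hw', rfl⟩
        refine ⟨?_, (mem_range_map_val P _).mp ⟨w', rfl⟩⟩
        rintro ⟨w'', hw'', heq⟩
        have := map_val_injective P heq
        subst this
        exact hw' hw''
  | star p ihp =>
    obtain ⟨p', hp1, hp2⟩ := ihp
    exact ⟨GRegex.star p', by simp [GRegex.starHeight, hp1],
      by simp [GRegex.lang, hp2, Language.map_kstar]⟩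

/-! ### Splitting words at a letter -/

section Split

variable {α : Type*} (c : α)

lemma first_unique : ∀ (u u' v v' : List α), u ++ c :: v = u' ++ c :: v' → c ∉ u → c ∉ u' →
    u = u' ∧ v = v' := by
  intro u
  induction u with
  | nil =>
    intro u' v v' h _ hu'
    cases u' with
    | nil => simpa using h
    | cons b u' =>
      simp only [List.nil_append, List.cons_append, List.cons.injEq] at h
      exact absurd (by simp [h.1]) hu'
  | cons a u ih =>
    intro u' v v' h hu hu'
    cases u' with
    | nil =>
      simp only [List.nil_append, List.cons_append, List.cons.injEq] at h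
      exact absurd (by simp [h.1]) hu
    | cons b u' =>
      simp only [List.cons_append, List.cons.injEq] at h
      obtain ⟨e1, e2⟩ := ih u' v v' h.2 (fun hc => hu (by simp [hc])) (fun hc => hu' (by simp [hc]))
      exact ⟨by rw [h.1, e1], e2⟩

/-- Words that are empty or end with the letter `c`. -/
def Cend (w : List α) : Prop := w = [] ∨ ∃ w', w = w' ++ [c]

lemma split_last : ∀ w : List α, ∃ m v, w = m ++ v ∧ Cend c m ∧ c ∉ v := by
  intro w
  induction w using List.reverseRecOn with
  | nil => exact ⟨[], [], rfl, Or.inl rfl, by simp⟩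
  | append_singleton w a ih =>
    by_cases ha : a = c
    · subst ha
      exact ⟨w ++ [a], [], by simp, Or.inr ⟨w, rfl⟩, by simp⟩
    · obtain ⟨m, v, rfl, hm, hv⟩ := ih
      refine ⟨m, v ++ [a], by simp, hm, ?_⟩
      simp only [List.mem_append, List.mem_singleton, not_or]
      exact ⟨hv, fun h => ha h.symm⟩

lemma cend_tail (u v : List α) (h : Cend c (u ++ c :: v)) : Cend c v := by
  rcases List.eq_nil_or_concat v with rfl | ⟨v', b, rfl⟩
  · exact Or.inl rfl
  · rcases h with h | ⟨w', h⟩
    · simp at h
    · right
      refine ⟨v', ?_⟩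
      rw [List.concat_eq_append] at h ⊢
      have h' : (u ++ c :: v') ++ [b] = w' ++ [c] := by simpa using h
      have := List.append_inj' h' rfl
      simp only [List.cons.injEq, and_true] at this
      rw [this.2]

end Split

/-! ### The induction step -/

section Step

variable {α σ : Type} [Fintype α] [Fintype σ] (step : σ → α → σ) (c : α)

/-- The states in the image of the letter `c`. -/
abbrev Rg : Type := {q : σ // ∃ q0, step q0 c = q}

/-- The maps on `Rg` induced by words of the form `u c` with `u` free of `c`. -/
abbrev Tr : Type :=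
  {t : Rg step c → Rg step c //
    ∃ u : List α, c ∉ u ∧ ∀ q' : Rg step c, (t q').1 = run step q'.1 (u ++ [c])}

/-- The automaton on `Rg` whose letters are the induced maps. -/
def stepT (q' : Rg step c) (t : Tr step c) : Rg step c := t.1 q'

/-- `Seg ts w`: the word `w` is a product of blocks `u c` inducing the maps `ts`. -/
def Seg : List (Tr step c) → List α → Prop
  | [], w => w = []
  | t :: ts, w => ∃ u v, w = u ++ c :: v ∧ c ∉ u ∧
      (∀ q' : Rg step c, (t.1 q').1 = run step q'.1 (u ++ [c])) ∧ Seg ts v

lemma seg_cend : ∀ (ts : List (Tr step c)) (w : List α), Seg step c ts w → Cend c w := by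
  intro ts
  induction ts with
  | nil => intro w h; exact Or.inl h
  | cons t ts ih =>
    rintro w ⟨u, v, rfl, -, -, hv⟩
    rcases ih v hv with rfl | ⟨v', rfl⟩
    · exact Or.inr ⟨u, rfl⟩
    · exact Or.inr ⟨u ++ c :: v', by simp⟩

lemma seg_exists : ∀ (n : ℕ) (w : List α), w.length ≤ n → Cend c w →
    ∃ ts, Seg step c ts w := by
  intro n
  induction n with
  | zero =>
    intro w hw _
    have : w = [] := List.length_eq_zero_iff.mp (by omega)
    exact ⟨[], this⟩
  | succ n ih =>
    intro w hw hc
    rcases hc with rfl | ⟨w', rfl⟩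
    · exact ⟨[], rfl⟩
    · have hmem : c ∈ w' ++ [c] := by simp
      obtain ⟨u, v, huv, hu⟩ := List.eq_append_cons_of_mem hmem
      have hcv : Cend c v := cend_tail c u v (huv ▸ Or.inr ⟨w', rfl⟩)
      have hlen : v.length ≤ n := by
        have := congrArg List.length huv
        simp at this
        simp at hw
        omega
      obtain ⟨ts, hts⟩ := ih v hlen hcv
      let t : Tr step c := ⟨fun q' => ⟨run step q'.1 (u ++ [c]),
        ⟨run step q'.1 u, (run_concat step q'.1 u c).symm⟩⟩, ⟨u, hu, fun _ => rfl⟩⟩
      exact ⟨t :: ts, u, v, huv, hu, fun _ => rfl, hts⟩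

lemma seg_unique : ∀ (ts ts' : List (Tr step c)) (w : List α), Seg step c ts w →
    Seg step c ts' w → ts = ts' := by
  intro ts
  induction ts with
  | nil =>
    intro ts' w h h'
    cases ts' with
    | nil => rfl
    | cons t' ts' =>
      obtain ⟨u, v, rfl, -⟩ := h'
      simp [Seg] at h
  | cons t ts ih =>
    intro ts' w h h'
    cases ts' with
    | nil =>
      obtain ⟨u, v, rfl, -⟩ := h
      simp [Seg] at h'
    | cons t' ts' =>
      obtain ⟨u, v, rfl, hu, ht, hv⟩ := h
      obtain ⟨u', v', heq, hu', ht', hv'⟩ := h'
      obtain ⟨e1, e2⟩ := first_unique c u u' v v' heq hu hu'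
      subst e1 e2
      have htt : t = t' := by
        apply Subtype.ext
        funext q'
        apply Subtype.ext
        rw [ht q', ht' q']
      rw [htt, ih ts' v hv hv']

lemma seg_append : ∀ (l1 l2 : List (Tr step c)) (w : List α), Seg step c (l1 ++ l2) w ↔
    ∃ w1 w2, w = w1 ++ w2 ∧ Seg step c l1 w1 ∧ Seg step c l2 w2 := by
  intro l1
  induction l1 with
  | nil =>
    intro l2 w
    constructor
    · intro h; exact ⟨[], w, rfl, rfl, h⟩
    · rintro ⟨w1, w2, rfl, h1, h2⟩
      have : w1 = [] := h1
      subst this
      exact h2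
  | cons t l1 ih =>
    intro l2 w
    constructor
    · rintro ⟨u, v, rfl, hu, ht, hv⟩
      obtain ⟨v1, v2, rfl, h1, h2⟩ := (ih l2 v).mp hv
      exact ⟨u ++ c :: v1, v2, by simp, ⟨u, v1, rfl, hu, ht, h1⟩, h2⟩
    · rintro ⟨w1, w2, rfl, ⟨u, v1, rfl, hu, ht, h1⟩, h2⟩
      exact ⟨u, v1 ++ w2, by simp, hu, ht, (ih l2 _).mpr ⟨v1, w2, rfl, h1, h2⟩⟩

lemma seg_run : ∀ (ts : List (Tr step c)) (w : List α) (q' : Rg step c), Seg step c ts w →
    (run (stepT step c) q' ts).1 = run step q'.1 w := by
  intro ts
  induction ts with
  | nil => intro w q' h; have : w = [] := h; subst this; rfl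
  | cons t ts ih =>
    rintro w q' ⟨u, v, rfl, -, ht, hv⟩
    rw [run_cons, ih v _ hv]
    show run step (t.1 q').1 v = _
    rw [ht q']
    have : u ++ c :: v = (u ++ [c]) ++ v := by simp
    rw [this, run_append]
    simp [run_append]

/-- Concatenation of chosen representatives of a word of induced maps. -/
noncomputable def flat (ts : List (Tr step c)) : List α :=
  ts.flatMap (fun t => Classical.choose t.2 ++ [c])

lemma run_flat : ∀ (ts : List (Tr step c)) (q' : Rg step c),
    (run (stepT step c) q' ts).1 = run step q'.1 (flat step c ts) := by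
  intro ts
  induction ts with
  | nil => intro q'; rfl
  | cons t ts ih =>
    intro q'
    rw [run_cons, ih]
    show run step (t.1 q').1 _ = _
    rw [(Classical.choose_spec t.2).2 q']
    simp only [flat, List.flatMap_cons]
    simp [run_append]

lemma flat_rep (ts : List (Tr step c)) : ∀ n, flat step c (rep ts n) = rep (flat step c ts) n := by
  intro n
  induction n with
  | zero => rfl
  | succ n ih =>
    simp only [rep]
    rw [← ih]
    simp [flat, List.flatMap_append]

lemma counterFree_stepT (h : CounterFree step) : CounterFree (stepT step c) := by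
  intro ts q' n hn hq
  apply Subtype.ext
  rw [run_flat]
  apply h _ _ n hn
  rw [← flat_rep, ← run_flat, hq]

lemma exists_sub (LT : Tr step c → GRegex α) (hLT0 : ∀ t, (LT t).starHeight = 0)
    (hLT : ∀ t, (LT t).lang = {w | Seg step c [t] w}) :
    ∀ e : GRegex (Tr step c), e.starHeight = 0 →
      ∃ e' : GRegex α, e'.starHeight = 0 ∧
        e'.lang = {w | ∃ ts ∈ e.lang, Seg step c ts w} := by
  intro e
  induction e with
  | zero =>
    intro _
    refine ⟨GRegex.zero, rfl, ?_⟩
    ext w
    constructor
    · intro h; exact h.elim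
    · rintro ⟨ts, hts, -⟩; exact hts.elim
  | one =>
    intro _
    refine ⟨GRegex.one, rfl, ?_⟩
    ext w
    constructor
    · intro h
      have : w = [] := h
      subst this
      exact ⟨[], rfl, rfl⟩
    · rintro ⟨ts, hts, hs⟩
      have : ts = [] := hts
      subst this
      exact hs
  | letter t =>
    intro _
    refine ⟨LT t, hLT0 t, ?_⟩
    rw [hLT]
    ext w
    constructor
    · intro h; exact ⟨[t], rfl, h⟩
    · rintro ⟨ts, hts, hs⟩
      have : ts = [t] := hts
      subst this
      exact hs
  | union p q ihp ihq =>
    intro h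
    simp only [GRegex.starHeight] at h
    obtain ⟨p', hp1, hp2⟩ := ihp (by omega)
    obtain ⟨q', hq1, hq2⟩ := ihq (by omega)
    refine ⟨GRegex.union p' q', by simp [GRegex.starHeight, hp1, hq1], ?_⟩
    ext w
    rw [GRegex.mem_lang_union, hp2, hq2]
    constructor
    · rintro (⟨ts, h1, h2⟩ | ⟨ts, h1, h2⟩)
      · exact ⟨ts, Or.inl h1, h2⟩
      · exact ⟨ts, Or.inr h1, h2⟩
    · rintro ⟨ts, h1 | h1, h2⟩
      · exact Or.inl ⟨ts, h1, h2⟩
      · exact Or.inr ⟨ts, h1, h2⟩
  | concat p q ihp ihq =>
    intro h
    simp only [GRegex.starHeight] at h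
    obtain ⟨p', hp1, hp2⟩ := ihp (by omega)
    obtain ⟨q', hq1, hq2⟩ := ihq (by omega)
    refine ⟨GRegex.concat p' q', by simp [GRegex.starHeight, hp1, hq1], ?_⟩
    ext w
    rw [GRegex.mem_lang_concat, hp2, hq2]
    constructor
    · rintro ⟨w1, ⟨ts1, h1, s1⟩, w2, ⟨ts2, h2, s2⟩, rfl⟩
      exact ⟨ts1 ++ ts2, Language.mem_mul.mpr ⟨ts1, h1, ts2, h2, rfl⟩,
        (seg_append step c ts1 ts2 _).mpr ⟨w1, w2, rfl, s1, s2⟩⟩
    · rintro ⟨ts, hts, hs⟩
      obtain ⟨ts1, h1, ts2, h2, rfl⟩ := Language.mem_mul.mp hts
      obtain ⟨w1, w2, rfl, s1, s2⟩ := (seg_append step c ts1 ts2 w).mp hs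
      exact ⟨w1, ⟨ts1, h1, s1⟩, w2, ⟨ts2, h2, s2⟩, rfl⟩
  | compl p ihp =>
    intro h
    simp only [GRegex.starHeight] at h
    obtain ⟨p', hp1, hp2⟩ := ihp h
    refine ⟨GRegex.inter (GRegex.compl p')
      (GRegex.union GRegex.one (GRegex.concat GRegex.top (GRegex.letter c))), ?_, ?_⟩
    · simp [GRegex.starHeight, hp1]
    · ext w
      rw [GRegex.mem_lang_inter, GRegex.mem_lang_compl, hp2, GRegex.mem_lang_union,
        GRegex.mem_lang_concat]
      constructor
      · rintro ⟨h1, h2⟩
        have hc : Cend c w := by
          rcases h2 with h2 | ⟨u, -, v, hv, rfl⟩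
          · exact Or.inl h2
          · have : v = [c] := hv
            subst this
            exact Or.inr ⟨u, rfl⟩
        obtain ⟨ts, hts⟩ := seg_exists step c w.length w le_rfl hc
        refine ⟨ts, ?_, hts⟩
        intro hmem
        exact h1 ⟨ts, hmem, hts⟩
      · rintro ⟨ts, hts, hs⟩
        refine ⟨?_, ?_⟩
        · rintro ⟨ts', hts', hs'⟩
          have := seg_unique step c ts ts' w hs hs'
          subst this
          exact hts hts'
        · rcases seg_cend step c ts w hs with rfl | ⟨w', rfl⟩
          · exact Or.inl rfl
          · exact Or.inr ⟨w', GRegex.mem_lang_top _, [c], rfl, rfl⟩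
  | star p _ =>
    intro h
    simp [GRegex.starHeight] at h

/-- The expression for one block `u c` inducing the map `t`. -/
noncomputable def blockExpr (LB : σ → σ → GRegex α) (t : Tr step c) : GRegex α :=
  GRegex.concat
    (GRegex.inter
      (GRegex.interOver (fun q' : Rg step c =>
        GRegex.sumOver (fun q'' : σ =>
          if step q'' c = (t.1 q').1 then LB q'.1 q'' else GRegex.zero)))
      (GRegex.allIn (fun a => a ≠ c)))
    (GRegex.letter c)

lemma starHeight_blockExpr (LB : σ → σ → GRegex α) (hLB0 : ∀ p q, (LB p q).starHeight = 0)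
    (t : Tr step c) : (blockExpr step c LB t).starHeight = 0 := by
  apply Nat.le_zero.mp
  simp only [blockExpr, GRegex.starHeight, GRegex.starHeight_inter, GRegex.starHeight_allIn]
  apply max_le _ (le_refl _)
  apply max_le _ (le_refl _)
  apply GRegex.starHeight_interOver_le
  intro q'
  apply GRegex.starHeight_sumOver_le
  intro q''
  split_ifs
  · rw [hLB0]
  · simp [GRegex.starHeight]

lemma lang_blockExpr (LB : σ → σ → GRegex α)
    (hLB : ∀ p q, (LB p q).lang = {w | c ∉ w ∧ run step p w = q}) (t : Tr step c) :
    (blockExpr step c LB t).lang = {w | Seg step c [t] w} := by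
  ext w
  simp only [blockExpr]
  rw [GRegex.mem_lang_concat]
  constructor
  · rintro ⟨u, hu, v, hv, rfl⟩
    have hv' : v = [c] := hv
    subst hv'
    rw [GRegex.mem_lang_inter, GRegex.mem_lang_interOver, GRegex.mem_lang_allIn] at hu
    obtain ⟨h1, h2⟩ := hu
    have hcu : c ∉ u := fun hc => h2 c hc rfl
    refine ⟨u, [], rfl, hcu, ?_, rfl⟩
    intro q'
    have := h1 q'
    rw [GRegex.mem_lang_sumOver] at this
    obtain ⟨q'', hq''⟩ := this
    by_cases hs : step q'' c = (t.1 q').1
    · rw [if_pos hs, hLB] at hq''
      rw [run_concat, hq''.2, hs]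
    · rw [if_neg hs] at hq''
      exact hq''.elim
  · rintro ⟨u, v, rfl, hu, ht, hv⟩
    have hv' : v = [] := hv
    subst hv'
    refine ⟨u, ?_, [c], rfl, rfl⟩
    rw [GRegex.mem_lang_inter, GRegex.mem_lang_interOver, GRegex.mem_lang_allIn]
    refine ⟨?_, fun a ha hac => hu (hac ▸ ha)⟩
    intro q'
    rw [GRegex.mem_lang_sumOver]
    refine ⟨run step q'.1 u, ?_⟩
    have hs : step (run step q'.1 u) c = (t.1 q').1 := by
      rw [ht q', run_concat]
    rw [if_pos hs, hLB]
    exact ⟨hu, rfl⟩

lemma step_case (LB : σ → σ → GRegex α) (hLB0 : ∀ p q, (LB p q).starHeight = 0)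
    (hLB : ∀ p q, (LB p q).lang = {w | c ∉ w ∧ run step p w = q})
    (eT : Rg step c → Rg step c → GRegex (Tr step c))
    (heT0 : ∀ p q, (eT p q).starHeight = 0)
    (heT : ∀ p q, (eT p q).lang = {ts | run (stepT step c) p ts = q}) :
    ∀ p q, ∃ e : GRegex α, e.starHeight = 0 ∧ e.lang = {w | run step p w = q} := by
  intro p q
  have hsub := fun (p' q' : Rg step c) =>
    exists_sub step c (blockExpr step c LB) (starHeight_blockExpr step c LB hLB0)
      (lang_blockExpr step c LB hLB) (eT p' q') (heT0 p' q')
  choose SUB hSUB0 hSUB using hsub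
  refine ⟨GRegex.union (LB p q) (GRegex.sumOver (fun x : σ × Rg step c =>
    GRegex.concat (LB p x.1) (GRegex.concat (GRegex.letter c)
      (GRegex.concat (SUB ⟨step x.1 c, ⟨x.1, rfl⟩⟩ x.2) (LB x.2.1 q))))), ?_, ?_⟩
  · apply Nat.le_zero.mp
    simp only [GRegex.starHeight]
    apply max_le
    · rw [hLB0]
    · apply GRegex.starHeight_sumOver_le
      intro x
      simp [GRegex.starHeight, hLB0, hSUB0]
  · ext w
    rw [GRegex.mem_lang_union, GRegex.mem_lang_sumOver, hLB]
    constructor
    · rintro (h | ⟨x, hx⟩)
      · exact h.2
      · rw [GRegex.mem_lang_concat] at hx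
        obtain ⟨u, hu, r, hr, rfl⟩ := hx
        rw [GRegex.mem_lang_concat] at hr
        obtain ⟨l, hl, r', hr', rfl⟩ := hr
        rw [GRegex.mem_lang_concat] at hr'
        obtain ⟨m, hm, v, hv, rfl⟩ := hr'
        have hl' : l = [c] := hl
        subst hl'
        rw [hLB] at hu hv
        rw [hSUB, heT] at hm
        obtain ⟨ts, hts, hseg⟩ := hm
        have hts' : run (stepT step c) ⟨step x.1 c, ⟨x.1, rfl⟩⟩ ts = x.2 := hts
        have h1 := seg_run step c ts m ⟨step x.1 c, ⟨x.1, rfl⟩⟩ hseg
        rw [hts'] at h1
        show run step p (u ++ ([c] ++ (m ++ v))) = q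
        rw [run_append, run_append, run_append, hu.2]
        simp only [run_cons, run_nil]
        rw [← h1, hv.2]
    · intro hw
      have hw' : run step p w = q := hw
      by_cases hc : c ∈ w
      · right
        obtain ⟨u, w', rfl, hu⟩ := List.eq_append_cons_of_mem hc
        obtain ⟨m, v, rfl, hm, hv⟩ := split_last c w'
        obtain ⟨ts, hts⟩ := seg_exists step c m.length m le_rfl hm
        let p' : Rg step c := ⟨step (run step p u) c, ⟨run step p u, rfl⟩⟩
        have h1 := seg_run step c ts m p' hts
        refine ⟨(run step p u, run (stepT step c) p' ts), ?_⟩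
        rw [GRegex.mem_lang_concat]
        refine ⟨u, ?_, c :: (m ++ v), ?_, rfl⟩
        · rw [hLB]; exact ⟨hu, rfl⟩
        · rw [GRegex.mem_lang_concat]
          refine ⟨[c], rfl, m ++ v, ?_, rfl⟩
          rw [GRegex.mem_lang_concat]
          refine ⟨m, ?_, v, ?_, rfl⟩
          · rw [hSUB, heT]
            exact ⟨ts, rfl, hts⟩
          · rw [hLB]
            refine ⟨hv, ?_⟩
            show run step (run (stepT step c) p' ts).1 v = q
            rw [h1, ← hw']
            have : u ++ c :: (m ++ v) = u ++ ([c] ++ (m ++ v)) := by simp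
            rw [this, run_append, run_append, run_append]
            rfl
      · exact Or.inl ⟨hc, hw'⟩

end Step

/-! ### The theorem -/

lemma run_rep_singleton {α σ : Type*} (step : σ → α → σ) (a : α) : ∀ (k : ℕ) (q : σ),
    run step q (rep [a] k) = (fun q => step q a)^[k] q := by
  intro k
  induction k with
  | zero => intro q; rfl
  | succ k ih =>
    intro q
    show run step (step q a) (rep [a] k) = _
    rw [ih, Function.iterate_succ_apply]

lemma run_map_val {α σ : Type*} (step : σ → α → σ) (P : α → Prop) (q : σ)
    (w : List {a // P a}) :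
    run (fun q (b : {a // P a}) => step q b.1) q w = run step q (w.map Subtype.val) := by
  simp [run, List.foldl_map]

theorem main_aux : ∀ (n m : ℕ) (α σ : Type) [Fintype α] [Fintype σ] (step : σ → α → σ),
    Fintype.card σ ≤ n → Fintype.card α ≤ m → CounterFree step →
    ∀ p q : σ, ∃ e : GRegex α, e.starHeight = 0 ∧ e.lang = {w | run step p w = q} := by
  intro n
  induction n with
  | zero =>
    intro m α σ _ _ step hσ _ _ p
    have := Fintype.card_pos_iff.mpr ⟨p⟩
    omega
  | succ n ihn =>
    intro m
    induction m with
    | zero =>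
      intro α σ _ _ step _ hα _ p q
      have hemp : ∀ w : List α, w = [] := by
        intro w
        cases w with
        | nil => rfl
        | cons a w =>
          have := Fintype.card_pos_iff.mpr ⟨a⟩
          omega
      by_cases hpq : p = q
      · refine ⟨GRegex.top, rfl, ?_⟩
        ext w
        rw [hemp w]
        constructor
        · intro _; exact hpq
        · intro _; exact GRegex.mem_lang_top _
      · refine ⟨GRegex.zero, rfl, ?_⟩
        ext w
        rw [hemp w]
        constructor
        · intro h; exact h.elim
        · intro h; exact (hpq h).elim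
    | succ m ihm =>
      intro α σ _ _ step hσ hα hcf p q
      by_cases hsurj : ∀ c : α, Function.Surjective (fun q => step q c)
      · have hid : ∀ (a : α) (q : σ), step q a = q := by
          intro a q
          have hbij : Function.Bijective (fun q => step q a) :=
            ⟨Finite.injective_iff_surjective.mpr (hsurj a), hsurj a⟩
          let π : Equiv.Perm σ := Equiv.ofBijective _ hbij
          have hk : 0 < orderOf π := orderOf_pos π
          have h1 : run step q (rep [a] (orderOf π)) = q := by
            rw [run_rep_singleton]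
            have : (fun q => step q a) = ⇑π := rfl
            rw [this, Equiv.Perm.iterate_eq_pow, pow_orderOf_eq_one]
            rfl
          exact hcf [a] q _ hk h1
        have hrun : ∀ (w : List α) (q : σ), run step q w = q := by
          intro w
          induction w with
          | nil => intro q; rfl
          | cons a w ih => intro q; rw [run_cons, hid, ih]
        by_cases hpq : p = q
        · refine ⟨GRegex.top, rfl, ?_⟩
          ext w
          constructor
          · intro _
            show run step p w = q
            rw [hrun, hpq]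
          · intro _; exact GRegex.mem_lang_top _
        · refine ⟨GRegex.zero, rfl, ?_⟩
          ext w
          constructor
          · intro h; exact h.elim
          · intro h
            have h' : run step p w = q := h
            rw [hrun] at h'
            exact (hpq h').elim
      · simp only [not_forall] at hsurj
        obtain ⟨c, hc⟩ := hsurj
        -- the automaton without the letter `c`
        have hcardB : Fintype.card {a : α // a ≠ c} ≤ m := by
          have := Fintype.card_subtype_lt (p := fun a : α => a ≠ c) (x := c) (by simp)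
          omega
        have hcfB : CounterFree (fun q (b : {a : α // a ≠ c}) => step q b.1) := by
          intro u q k hk h
          rw [run_map_val] at h ⊢
          rw [← rep_map] at h
          exact hcf _ q k hk h
        have hB := ihm {a : α // a ≠ c} σ (fun q b => step q b.1) hσ hcardB hcfB
        have hLB : ∀ p q : σ, ∃ e : GRegex α, e.starHeight = 0 ∧
            e.lang = {w | c ∉ w ∧ run step p w = q} := by
          intro p q
          obtain ⟨e, he0, hel⟩ := hB p q
          obtain ⟨e', he'0, he'l⟩ := exists_embed (fun a : α => a ≠ c) e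
          refine ⟨e', by rw [he'0, he0], ?_⟩
          rw [he'l, hel]
          ext w
          constructor
          · rintro ⟨w', hw', rfl⟩
            refine ⟨?_, ?_⟩
            · intro hmem
              exact (mem_range_map_val (fun a : α => a ≠ c) _).mp ⟨w', rfl⟩ c hmem rfl
            · have : run (fun q (b : {a : α // a ≠ c}) => step q b.1) p w' = q := hw'
              rw [run_map_val] at this
              exact this
          · rintro ⟨h1, h2⟩
            obtain ⟨w', rfl⟩ := (mem_range_map_val (fun a : α => a ≠ c) w).mpr
              (fun a ha hac => h1 (hac ▸ ha))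
            refine ⟨w', ?_, rfl⟩
            show run (fun q (b : {a : α // a ≠ c}) => step q b.1) p w' = q
            rw [run_map_val]
            exact h2
        choose LB hLB0 hLBl using hLB
        -- the automaton on the image of `c`
        have hcardR : Fintype.card (Rg step c) ≤ n := by
          simp only [Function.Surjective, not_forall, not_exists] at hc
          obtain ⟨q0, hq0⟩ := hc
          have h2 : Fintype.card (Rg step c) < Fintype.card σ :=
            Fintype.card_subtype_lt (p := fun q : σ => ∃ q1, step q1 c = q) (x := q0)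
              (by
                rintro ⟨q1, h⟩
                exact hq0 q1 h)
          omega
        have hT := ihn (Fintype.card (Tr step c)) (Tr step c) (Rg step c) (stepT step c)
          hcardR le_rfl (counterFree_stepT step c hcf)
        choose eT heT0 heTl using hT
        exact step_case step c LB hLB0 hLBl eT heT0 heTl p q

/-- **Counter-free automata accept star-free languages.** -/
theorem starFree_of_counterFree {α σ : Type} [Fintype α] [Fintype σ] (step : σ → α → σ)
    (h : CounterFree step) (p q : σ) :
    ∃ e : GRegex α, e.starHeight = 0 ∧ e.lang = {w | run step p w = q} :=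
  main_aux (Fintype.card σ) (Fintype.card α) α σ step le_rfl le_rfl h p q

end SF

end Vale.Agent.Lib.P329
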