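import Vale.Agent.Lib.P329.PRed
import Vale.Agent.Lib.P329.M4Def

/-!
A counter modulo `d` whose steps are `0`, `1` and `-1`: the number of occurrences, counted
modulo `N`, of a letter of weight zero read while the counter has a given value has fibers
of generalized star height at most one.
-/

set_option linter.unusedSectionVars false

namespace Vale.Agent.Lib.P329

universe u v

open Classical

namespace Sgn

open SF Ev Zp

/-- Arrivals at `j` from another state, for any modulus. -/
def sgnA {α : Type} {d : ℕ} (k : α → ZMod d) (j : ZMod d) (q : ZMod d) (a : α) : Prop :=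
  q ≠ j ∧ q + k a = j

/-- Arrivals at `j` from another state, and the letter `x` read at `j`, for any modulus. -/
def sgnK {α : Type} {d : ℕ} (k : α → ZMod d) (x : α) (j : ZMod d) (q : ZMod d) (a : α) :
    Prop :=
  sgnA k j q a ∨ oX x j q a

/-- The integer lift of a weight with values `0`, `1`, `-1`. -/
noncomputable def sgnI {α : Type} {d : ℕ} (k : α → ZMod d) (a : α) : ℤ :=
  if k a = 0 then 0 else if k a = 1 then 1 else -1

/-- Every path from a state other than `j` to the state `j` contains an arrival at `j`. -/
lemma sgn_arrive {α : Type} {d : ℕ} (k : α → ZMod d) (j : ZMod d) (ev : ZMod d → α → Prop)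
    (hsub : ∀ q a, q ≠ j → q + k a = j → ev q a) :
    ∀ (w : List α) (q : ZMod d), q ≠ j → run (ostep k) q w = j →
      cnt (ostep k) ev q w ≠ 0 := by
  intro w
  induction w with
  | nil => intro q hq hrun; exact (hq hrun).elim
  | cons a w ih =>
    intro q hq hrun
    rw [cnt_cons]
    by_cases h : q + k a = j
    · rw [if_pos (hsub q a hq h)]; omega
    · have := ih (ostep k q a) h hrun
      omega

/-- Along an event-free path that starts away from `j`, the distance to `j` moves by the
integer lift of the weights. -/
lemma sgn_lift {α : Type} (d : ℕ) [NeZero d] (k : α → ZMod d)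
    (hk : ∀ a, k a = 0 ∨ k a = 1 ∨ k a = -1) (j : ZMod d) (ev : ZMod d → α → Prop)
    (hsub : ∀ q a, q ≠ j → q + k a = j → ev q a) :
    ∀ (w : List α) (q : ZMod d), q ≠ j → cnt (ostep k) ev q w = 0 →
      run (ostep k) q w ≠ j ∧
        (((run (ostep k) q w - j).val : ℕ) : ℤ)
          = (((q - j).val : ℕ) : ℤ) + (w.map (sgnI k)).sum := by
  intro w
  induction w with
  | nil =>
    intro q hq _
    exact ⟨hq, by simp⟩
  | cons a w ih =>
    intro q hq hc
    obtain ⟨hne, hc'⟩ := cnt_cons_zero (ostep k) ev q a w hc
    have hq' : ostep k q a ≠ j := fun h => hne (hsub q a hq h)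
    obtain ⟨h1, h2⟩ := ih (ostep k q a) hq' hc'
    refine ⟨h1, ?_⟩
    rw [run_cons, h2, List.map_cons, List.sum_cons]
    have hstep : (((ostep k q a - j).val : ℕ) : ℤ) = (((q - j).val : ℕ) : ℤ) + sgnI k a := by
      unfold sgnI
      by_cases h0 : k a = 0
      · rw [if_pos h0]
        have e : ostep k q a = q := by simp [ostep, h0]
        rw [e, add_zero]
      · rw [if_neg h0]
        by_cases h1' : k a = 1
        · rw [if_pos h1']
          have e : ostep k q a - j = (q - j) + 1 := by
            simp only [ostep, h1']
            ring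
          have hnz : (q - j) + 1 ≠ 0 := by
            rw [← e]
            exact sub_ne_zero.mpr hq'
          rw [e, Metab.val_add_one (q - j) hnz]
          push_cast
          ring
        · rw [if_neg h1']
          have hm : k a = -1 := by
            rcases hk a with h | h | h
            · exact (h0 h).elim
            · exact (h1' h).elim
            · exact h
          have e : (ostep k q a - j) + 1 = q - j := by
            simp only [ostep, hm]
            ring
          have hnz : (ostep k q a - j) + 1 ≠ 0 := by
            rw [e]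
            exact sub_ne_zero.mpr hq
          have hv := Metab.val_add_one (ostep k q a - j) hnz
          rw [e] at hv
          rw [hv]
          push_cast
          ring
    rw [hstep]
    ring

/-- The integer weight of a power of a word. -/
lemma sgn_sum_rep {α : Type} {d : ℕ} (k : α → ZMod d) (u : List α) :
    ∀ n : ℕ, ((rep u n).map (sgnI k)).sum = n * (u.map (sgnI k)).sum := by
  intro n
  induction n with
  | zero => simp [rep]
  | succ n ih =>
    rw [rep, List.map_append, List.sum_append, ih]
    push_cast
    ring

/-- Event-free cycles of a counter with steps `0`, `1`, `-1` are trivial, as soon as the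
arrivals at `j` are events. -/
theorem hfree_sgn {α : Type} (d : ℕ) [NeZero d] (k : α → ZMod d)
    (hk : ∀ a, k a = 0 ∨ k a = 1 ∨ k a = -1) (j : ZMod d) (ev : ZMod d → α → Prop)
    (hsub : ∀ q a, q ≠ j → q + k a = j → ev q a) (u : List α) (q : ZMod d) (n : ℕ)
    (hn : 0 < n) (hrun : run (ostep k) q (rep u n) = q)
    (hc : cnt (ostep k) ev q (rep u n) = 0) : run (ostep k) q u = q := by
  have hall := cnt_rep_all (ostep k) ev q u n hn hrun hc
  by_cases hq : q = j
  · by_contra hne
    obtain ⟨m, rfl⟩ : ∃ m, n = m + 1 := ⟨n - 1, by omega⟩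
    rw [rep, run_append] at hrun
    rw [rep, cnt_append] at hc
    have hne' : run (ostep k) q u ≠ j := by
      rw [← hq]
      exact hne
    have hA := sgn_arrive k j ev hsub (rep u m) (run (ostep k) q u) hne' (by rw [hrun, hq])
    omega
  · obtain ⟨-, hn2⟩ := sgn_lift d k hk j ev hsub (rep u n) q hq hc
    rw [hrun, sgn_sum_rep] at hn2
    have hδ : (u.map (sgnI k)).sum = 0 := by
      have h0 : (n : ℤ) * (u.map (sgnI k)).sum = 0 := by linarith
      rcases mul_eq_zero.mp h0 with h | h
      · exfalso
        have hn0 : (n : ℤ) ≠ 0 := by exact_mod_cast hn.ne'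
        exact hn0 h
      · exact h
    have hc1 : cnt (ostep k) ev q u = 0 := by
      have h1 := hall 1
      rwa [rep_one] at h1
    obtain ⟨-, h3⟩ := sgn_lift d k hk j ev hsub u q hq hc1
    rw [hδ, add_zero] at h3
    have h4 : (run (ostep k) q u - j).val = (q - j).val := by exact_mod_cast h3
    have h5 : run (ostep k) q u - j = q - j := ZMod.val_injective d h4
    exact sub_left_inj.mp h5

/-- Counting a letter of weight zero at a value of the counter, for alphabets in the lowest
universe. -/
theorem fib_sgn_type {α : Type} [Fintype α] (d : ℕ) [NeZero d] (k : α → ZMod d)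
    (hk : ∀ a, k a = 0 ∨ k a = 1 ∨ k a = -1) (x : α) (hx : k x = 0) (j s : ZMod d) (N : ℕ)
    [NeZero N] : Fib1 (fun w : List α => ((cnt (ostep k) (oX x j) s w : ℕ) : ZMod N)) := by
  have fA := fib1_count_free (ostep k) (sgnA k j) j (fun q a h => h.2)
    (hfree_sgn d k hk j (sgnA k j) (fun q a h1 h2 => ⟨h1, h2⟩)) N s
  have fK := fib1_count_free (ostep k) (sgnK k x j) j
    (fun q a h => by
      rcases h with h | h
      · exact h.2
      · show q + k a = j
        rw [h.2, hx, add_zero, h.1])
    (hfree_sgn d k hk j (sgnK k x j) (fun q a h1 h2 => Or.inl ⟨h1, h2⟩)) N s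
  have f := (fK.pair fA).comp
    (fun y : (ZMod N × ZMod d) × (ZMod N × ZMod d) => y.1.1 - y.2.1)
  refine f.congr ?_
  intro w
  have h := cnt_union (ostep k) (sgnA k j) (oX x j) (sgnK k x j) (fun q a => Iff.rfl)
    (fun q a h => h.1.1 h.2.1) w s
  simp only
  rw [h]
  push_cast
  ring

/-- **Counting a letter of weight zero at a value of a counter with steps `0`, `1`, `-1`.** -/
theorem fib_sgn {α : Type u} [Fintype α] (d : ℕ) [NeZero d] (k : α → ZMod d)
    (hk : ∀ a, k a = 0 ∨ k a = 1 ∨ k a = -1) (x : α) (hx : k x = 0) (j s : ZMod d) (N : ℕ)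
    [NeZero N] : Fib1 (fun w : List α => ((cnt (ostep k) (oX x j) s w : ℕ) : ZMod N)) := by
  have hx' : k ((Fintype.equivFin α).symm (Fintype.equivFin α x)) = 0 := by
    rw [Equiv.symm_apply_apply]
    exact hx
  have h := (fib_sgn_type d (fun b : Fin (Fintype.card α) => k ((Fintype.equivFin α).symm b))
    (fun b => hk _) (Fintype.equivFin α x) hx' j s N).filterMap
      (fun a => some (Fintype.equivFin α a))
  refine h.congr ?_
  intro w
  rw [cnt_red k (fun b : Fin (Fintype.card α) => k ((Fintype.equivFin α).symm b)) x
    (Fintype.equivFin α x) j (fun a => some (Fintype.equivFin α a)) ?_ ?_ w s]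
  · intro a ha
    cases ha
  · intro a b hab
    have hb : b = Fintype.equivFin α a := (Option.some.inj hab).symm
    subst hb
    refine ⟨by simp, ?_⟩
    exact (Fintype.equivFin α).injective.eq_iff

end Sgn

end Vale.Agent.Lib.P329
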