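import Vale.Agent.Lib.P329.SF

/-!
Counting event transitions along runs of deterministic automata: basic lemmas, weighted
sums, potential functions and simulations.
-/

namespace Vale.Agent.Lib.P329

universe u v w

namespace Ev

open SF

open Classical in
/-- The number of event transitions in the run of `w` from `q`. -/
noncomputable def cnt {α : Type u} {σ : Type v} (step : σ → α → σ) (ev : σ → α → Prop) :
    σ → List α → ℕ
  | _, [] => 0
  | q, a :: w => (if ev q a then 1 else 0) + cnt step ev (step q a) w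

/-- The sum of the weights of the transitions in the run of `w` from `q`. -/
def wsum {α : Type u} {σ : Type v} (step : σ → α → σ) (c : σ → α → ℤ) : σ → List α → ℤ
  | _, [] => 0
  | q, a :: w => c q a + wsum step c (step q a) w

section

variable {α : Type u} {σ : Type v} (step : σ → α → σ)

lemma cnt_nil (ev : σ → α → Prop) (q : σ) : cnt step ev q [] = 0 := rfl

lemma cnt_cons (ev : σ → α → Prop) [∀ q a, Decidable (ev q a)] (q : σ) (a : α) (w : List α) :
    cnt step ev q (a :: w) = (if ev q a then 1 else 0) + cnt step ev (step q a) w := by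
  rw [cnt]
  congr 1
  split_ifs <;> rfl

lemma cnt_append (ev : σ → α → Prop) : ∀ (u v : List α) (q : σ),
    cnt step ev q (u ++ v) = cnt step ev q u + cnt step ev (run step q u) v := by
  classical
  intro u
  induction u with
  | nil => intro v q; simp [cnt_nil]
  | cons a u ih =>
    intro v q
    simp only [List.cons_append, cnt_cons, run_cons, ih]
    ring

lemma cnt_cast (ev : σ → α → Prop) [∀ q a, Decidable (ev q a)] : ∀ (w : List α) (q : σ),
    ((cnt step ev q w : ℕ) : ℤ) = wsum step (fun q a => if ev q a then 1 else 0) q w := by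
  intro w
  induction w with
  | nil => intro q; rfl
  | cons a w ih =>
    intro q
    rw [cnt_cons, wsum, ← ih]
    push_cast
    split_ifs <;> rfl

lemma wsum_potential (c : σ → α → ℤ) (h : σ → ℤ) (hyp : ∀ q a, c q a = h (step q a) - h q) :
    ∀ (w : List α) (q : σ), wsum step c q w = h (run step q w) - h q := by
  intro w
  induction w with
  | nil => intro q; simp [wsum]
  | cons a w ih =>
    intro q
    rw [wsum, ih, hyp, run_cons]
    ring

lemma wsum_add (c d : σ → α → ℤ) : ∀ (w : List α) (q : σ),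
    wsum step (fun q a => c q a + d q a) q w = wsum step c q w + wsum step d q w := by
  intro w
  induction w with
  | nil => intro q; simp [wsum]
  | cons a w ih => intro q; simp only [wsum, ih]; ring

lemma wsum_sub (c d : σ → α → ℤ) : ∀ (w : List α) (q : σ),
    wsum step (fun q a => c q a - d q a) q w = wsum step c q w - wsum step d q w := by
  intro w
  induction w with
  | nil => intro q; simp [wsum]
  | cons a w ih => intro q; simp only [wsum, ih]; ring

end

section Sim

variable {α : Type u} {σ₁ : Type v} {σ₂ : Type w} (s₁ : σ₁ → α → σ₁) (s₂ : σ₂ → α → σ₂)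

lemma inv_run (Inv : σ₁ → σ₂ → Prop)
    (h : ∀ q₁ q₂ a, Inv q₁ q₂ → Inv (s₁ q₁ a) (s₂ q₂ a)) :
    ∀ (w : List α) (q₁ : σ₁) (q₂ : σ₂), Inv q₁ q₂ → Inv (run s₁ q₁ w) (run s₂ q₂ w) := by
  intro w
  induction w with
  | nil => intro q₁ q₂ hq; exact hq
  | cons a w ih => intro q₁ q₂ hq; exact ih _ _ (h q₁ q₂ a hq)

lemma cnt_eq_of_sim (e₁ : σ₁ → α → Prop) (e₂ : σ₂ → α → Prop) (Inv : σ₁ → σ₂ → Prop)
    (h : ∀ q₁ q₂ a, Inv q₁ q₂ → (e₁ q₁ a ↔ e₂ q₂ a) ∧ Inv (s₁ q₁ a) (s₂ q₂ a)) :
    ∀ (w : List α) (q₁ : σ₁) (q₂ : σ₂), Inv q₁ q₂ → cnt s₁ e₁ q₁ w = cnt s₂ e₂ q₂ w := by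
  classical
  intro w
  induction w with
  | nil => intro q₁ q₂ _; rfl
  | cons a w ih =>
    intro q₁ q₂ hq
    obtain ⟨h1, h2⟩ := h q₁ q₂ a hq
    rw [cnt_cons, cnt_cons, ih _ _ h2]
    congr 1
    by_cases he : e₁ q₁ a
    · rw [if_pos he, if_pos (h1.mp he)]
    · rw [if_neg he, if_neg (fun h' => he (h1.mpr h'))]

end Sim

end Ev

end Vale.Agent.Lib.P329
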