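import Vale.Agent.Lib.P329.QVisits
import Vale.Agent.Lib.P329.Subword

/-!
Phase sums modulo a prime power, for a letter that may itself lie in the counted set, and the
sums of the binomial coefficients `n.choose 3`.
-/

namespace Vale.Agent.Lib.P329

universe u v

namespace Sub4

open Phase Sub

variable {α : Type u}

/-- The binomial coefficient `n.choose 3`, as a summand. -/
def ch3 : ℕ → ℕ := fun n => n.choose 3

/-- Six times `ch3`, as a polynomial. -/
def ff3 : ℕ → ℕ := fun n => n * (n - 1) * (n - 2)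

lemma ff3_eq (n : ℕ) : ff3 n = 6 * ch3 n := by
  unfold ff3 ch3
  have h := Nat.descFactorial_eq_factorial_mul_choose n 3
  have h3 : Nat.factorial 3 = 6 := rfl
  rw [h3] at h
  rw [← h]
  simp only [Nat.descFactorial_succ, Nat.descFactorial_zero, Nat.sub_zero, mul_one]
  ring

lemma ff3_cast (d : ℕ) (n : ℕ) :
    ((ff3 n : ℕ) : ZMod d) = (n : ZMod d) * ((n : ZMod d) - 1) * ((n : ZMod d) - 2) := by
  unfold ff3
  rcases n with _ | _ | k
  · simp
  · simp
  · have h1 : k + 1 + 1 - 1 = k + 1 := by omega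
    have h2 : k + 1 + 1 - 2 = k := by omega
    rw [h1, h2]
    push_cast
    ring

lemma psumN_six (S : α → Prop) (b : α) : ∀ (w : List α) (q : ℕ),
    psumN S b ff3 q w = 6 * psumN S b ch3 q w := by
  intro w
  induction w with
  | nil =>
    intro q
    simp [psumN]
  | cons x w ih =>
    intro q
    simp only [psumN]
    rw [ih, ff3_eq]
    by_cases hx : x = b
    · rw [if_pos hx, if_pos hx]
      ring
    · rw [if_neg hx, if_neg hx]
      ring

/-- **Phase sums modulo a prime power**, for any letter `b` (in `S` or not). -/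
theorem fib_psum_pp [Fintype α] (S : α → Prop) (b : α) (p e : ℕ) (hp : p.Prime) (d : ℕ)
    [NeZero d] (hd : d = p ^ e) (f : ℕ → ℕ) (F : ZMod d → ZMod d)
    (hF : ∀ n : ℕ, ((f n : ℕ) : ZMod d) = F (n : ZMod d)) :
    Fib1 (fun w : List α => ((psumN S b f 0 w : ℕ) : ZMod d)) := by
  have hv : ∀ j : ZMod d, Fib1 (fun w : List α =>
      ((Count.visits (ctrS S d) j (fun x => x = b) 0 w : ℕ) : ZMod d)) :=
    fun j => Pos.fib_visits S b p e hp d hd d j
  have h := (Fib1.pi hv).comp (fun v : ZMod d → ZMod d => ∑ j : ZMod d, F j * v j)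
  refine h.congr ?_
  intro w
  have := psumN_cast S b d f F hF w 0
  simp only [Nat.cast_zero] at this
  exact this.symm

/-- Integer form of the division by six. -/
private lemma div6_int (p e : ℕ) (hp : p.Prime) (z : ℤ) (h : ((p : ℤ) ^ (e + 1)) ∣ 6 * z) :
    ((p : ℤ) ^ e) ∣ z := by
  by_cases hp6 : p ∣ 6
  · have hple : p ≤ 6 := Nat.le_of_dvd (by norm_num) hp6
    have h2 : p = 2 ∨ p = 3 := by
      interval_cases p
      · exact absurd hp (by norm_num)
      · exact absurd hp (by norm_num)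
      · left; rfl
      · right; rfl
      · exact absurd hp (by norm_num)
      · exact absurd hp6 (by norm_num)
      · exact absurd hp (by norm_num)
    rcases h2 with rfl | rfl
    · have h' : ((2 : ℤ) ^ e) ∣ 3 * z := by
        have h1 : (2 : ℤ) ^ (e + 1) ∣ 2 * (3 * z) := by
          have e6 : (6 : ℤ) * z = 2 * (3 * z) := by ring
          rw [← e6]
          exact_mod_cast h
        rw [pow_succ, mul_comm] at h1
        exact (mul_dvd_mul_iff_left (by norm_num : (2 : ℤ) ≠ 0)).1 h1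
      have hc : IsCoprime ((2 : ℤ) ^ e) 3 := by
        apply IsCoprime.pow_left
        exact ⟨-1, 1, by norm_num⟩
      exact hc.dvd_of_dvd_mul_left h'
    · have h' : ((3 : ℤ) ^ e) ∣ 2 * z := by
        have h1 : (3 : ℤ) ^ (e + 1) ∣ 3 * (2 * z) := by
          have e6 : (6 : ℤ) * z = 3 * (2 * z) := by ring
          rw [← e6]
          exact_mod_cast h
        rw [pow_succ, mul_comm] at h1
        exact (mul_dvd_mul_iff_left (by norm_num : (3 : ℤ) ≠ 0)).1 h1
      have hc : IsCoprime ((3 : ℤ) ^ e) 2 := by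
        apply IsCoprime.pow_left
        exact ⟨1, -1, by norm_num⟩
      exact hc.dvd_of_dvd_mul_left h'
  · have hc : IsCoprime ((p : ℤ) ^ (e + 1)) 6 := by
      apply IsCoprime.pow_left
      have hc0 : Nat.Coprime p 6 := (Nat.Prime.coprime_iff_not_dvd hp).2 hp6
      exact_mod_cast (Nat.isCoprime_iff_coprime.2 hc0)
    have h1 := hc.dvd_of_dvd_mul_left h
    exact dvd_trans (pow_dvd_pow _ (Nat.le_succ e)) h1

/-- Cancelling six between the moduli `p ^ (e + 1)` and `p ^ e`. -/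
private lemma div6_key (p e : ℕ) (hp : p.Prime) (x y : ℕ)
    (h : ((6 * x : ℕ) : ZMod (p ^ (e + 1))) = ((6 * y : ℕ) : ZMod (p ^ (e + 1)))) :
    ((x : ℕ) : ZMod (p ^ e)) = ((y : ℕ) : ZMod (p ^ e)) := by
  rw [ZMod.natCast_eq_natCast_iff] at h ⊢
  rw [Nat.modEq_iff_dvd] at h ⊢
  have h' : ((p : ℤ) ^ (e + 1)) ∣ 6 * ((y : ℤ) - x) := by
    have e1 : (6 : ℤ) * ((y : ℤ) - x) = ((6 * y : ℕ) : ℤ) - ((6 * x : ℕ) : ℤ) := by
      push_cast
      ring
    rw [e1]
    exact_mod_cast h
  have h2 := div6_int p e hp _ h'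
  exact_mod_cast h2

/-- Division by six, from the modulus `p ^ (e + 1)` to the modulus `p ^ e`. -/
lemma fib_div6 (p e : ℕ) (hp : p.Prime) (d : ℕ) [NeZero d] (hd : d = p ^ (e + 1)) (d' : ℕ)
    [NeZero d'] (hd' : d' = p ^ e) (g : List α → ℕ)
    (h : Fib1 (fun w => ((6 * g w : ℕ) : ZMod d))) :
    Fib1 (fun w => ((g w : ℕ) : ZMod d')) := by
  subst hd
  subst hd'
  have hcomp := h.comp (fun z : ZMod (p ^ (e + 1)) =>
    ((Classical.epsilon (fun x : ℕ => ((6 * x : ℕ) : ZMod (p ^ (e + 1))) = z) : ℕ) :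
      ZMod (p ^ e)))
  refine hcomp.congr ?_
  intro w
  have hz : ∃ x : ℕ, ((6 * x : ℕ) : ZMod (p ^ (e + 1))) = ((6 * g w : ℕ) : ZMod (p ^ (e + 1))) :=
    ⟨g w, rfl⟩
  exact div6_key p e hp _ _ (Classical.epsilon_spec hz)

/-- **Sums of `n.choose 3` modulo a prime power**, for any letter `b` (in `S` or not). -/
theorem fib_ps3 [Fintype α] (S : α → Prop) (b : α) (p e : ℕ) (hp : p.Prime) (d : ℕ)
    [NeZero d] (hd : d = p ^ e) :
    Fib1 (fun w : List α => ((psumN S b ch3 0 w : ℕ) : ZMod d)) := by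
  have : NeZero (p ^ (e + 1)) := ⟨(pow_pos hp.pos _).ne'⟩
  have h4 := fib_psum_pp S b p (e + 1) hp (p ^ (e + 1)) rfl ff3
    (fun z => z * (z - 1) * (z - 2)) (ff3_cast (p ^ (e + 1)))
  have h4' : Fib1 (fun w : List α => ((6 * psumN S b ch3 0 w : ℕ) : ZMod (p ^ (e + 1)))) := by
    refine h4.congr ?_
    intro w
    rw [psumN_six]
  exact fib_div6 p e hp (p ^ (e + 1)) rfl d hd (fun w => psumN S b ch3 0 w) h4'

end Sub4

end Vale.Agent.Lib.P329
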