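import Vale.Agent.Lib.P329.Sub4A

/-!
Identities between numbers of scattered subwords of length four over two letters and phase
sums of binomial coefficients.
-/

namespace Vale.Agent.Lib.P329

universe u v

namespace Sub4

open Phase Sub

variable {α : Type u} [DecidableEq α]

lemma SC4_concat (a b c d : α) (w : List α) (x : α) :
    SC [a, b, c, d] (w ++ [x]) = SC [a, b, c, d] w + (if x = d then SC [a, b, c] w else 0) :=
  SC_concat [a, b, c] d w x

lemma ch_succ2 (n : ℕ) : (n + 1).choose 2 = n + n.choose 2 := by
  have h : (n + 1).choose 2 = n.choose 1 + n.choose 2 := Nat.choose_succ_succ' n 1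
  rw [h, Nat.choose_one_right]

lemma ch_succ3 (n : ℕ) : (n + 1).choose 3 = n.choose 2 + n.choose 3 :=
  Nat.choose_succ_succ' n 2

/-- The Vandermonde identity for `choose 2`. -/
lemma vand2 (A B : ℕ) : (A + B).choose 2 = A.choose 2 + A * B + B.choose 2 := by
  induction B with
  | zero => simp
  | succ B ih =>
    rw [← Nat.add_assoc, ch_succ2 (A + B), ch_succ2 B, ih]
    ring

/-- The Vandermonde identity for `choose 3`. -/
lemma vand3 (A B : ℕ) :
    (A + B).choose 3 = A.choose 3 + A.choose 2 * B + A * B.choose 2 + B.choose 3 := by
  induction B with
  | zero => simp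
  | succ B ih =>
    rw [← Nat.add_assoc, ch_succ3 (A + B), ch_succ3 B, ch_succ2 B, ih, vand2]
    ring

lemma ch_32 (A : ℕ) : 3 * A.choose 3 + 2 * A.choose 2 = A * A.choose 2 := by
  have h : A.choose 3 * 3 = A.choose 2 * (A - 2) := Nat.choose_succ_right_eq A 2
  rcases Nat.lt_or_ge A 2 with hA | hA
  · rw [Nat.choose_eq_zero_of_lt (by omega : A < 3), Nat.choose_eq_zero_of_lt hA]
    omega
  · obtain ⟨d, rfl⟩ : ∃ d, A = d + 2 := ⟨A - 2, by omega⟩
    rw [Nat.add_sub_cancel] at h
    nlinarith [h]

lemma SC2_self (b : α) (w : List α) : SC [b, b] w = (w.count b).choose 2 := by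
  induction w using List.reverseRecOn with
  | nil => simp [SC]
  | append_singleton w x ih =>
    rw [SC2_concat, count_concat', SC1_eq, ih]
    by_cases h : x = b
    · subst h
      simp only [if_true]
      rw [ch_succ2]
      omega
    · simp only [h, if_false, add_zero]

lemma SC3_self (b : α) (w : List α) : SC [b, b, b] w = (w.count b).choose 3 := by
  induction w using List.reverseRecOn with
  | nil => simp [SC]
  | append_singleton w x ih =>
    rw [SC3_concat, count_concat', SC2_self, ih]
    by_cases h : x = b
    · subst h
      simp only [if_true]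
      rw [ch_succ3]
      omega
    · simp only [h, if_false, add_zero]

lemma id4_aaab (a b : α) (w : List α) :
    SC [a, a, a, b] w = psumN (fun y => y = a) b ch3 0 w := by
  induction w using List.reverseRecOn with
  | nil => simp [SC, psumN_nil]
  | append_singleton w x ih =>
    rw [SC4_concat, psum_concat_single, ih, SC3_self]
    rfl

lemma id4_aabb (a b : α) (hab : a ≠ b) (w : List α) :
    SC [a, a, b, b] w + psumN (fun y => y = a ∨ y = b) b ch3 0 w
        + psumN (fun y => y = b) a ch3 0 w + SC [a, a, b] w =
      w.count b * SC [a, a, b] w + psumN (fun y => y = a) b ch3 0 w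
        + w.count a * SC [b, b, b] w + psumN (fun y => y = b) b ch3 0 w := by
  induction w using List.reverseRecOn with
  | nil => simp [SC, psumN_nil]
  | append_singleton w x ih =>
    rw [SC4_concat, psum_concat_pair a b b hab, psum_concat_single b a, psum_concat_single a b,
      psum_concat_single b b, SC3_concat a a b, SC3_concat b b b, count_concat' a,
      count_concat' b]
    by_cases h1 : x = a
    · subst h1
      simp only [hab, if_true, if_false, add_zero]
      have h3 := SC3_self b w
      have hc : ch3 (w.count b) = (w.count b).choose 3 := rfl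
      nlinarith [ih, h3, hc]
    · by_cases h2 : x = b
      · subst h2
        simp only [h1, if_true, if_false, add_zero]
        have ha2 := SC2_self a w
        have hb2 := SC2_self x w
        have hv := vand3 (w.count a) (w.count x)
        have hc1 : ch3 (w.count a + w.count x) = (w.count a + w.count x).choose 3 := rfl
        have hc2 : ch3 (w.count a) = (w.count a).choose 3 := rfl
        have hc3 : ch3 (w.count x) = (w.count x).choose 3 := rfl
        rw [hc1, hc2, hc3, ha2, hb2, hv]
        nlinarith [ih]
      · simp only [h1, h2, if_false, add_zero]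
        exact ih

lemma id4_aaba (a b : α) (hab : a ≠ b) (w : List α) :
    SC [a, a, b, a] w + 3 * SC [a, a, a, b] w + 2 * SC [a, a, b] w =
      w.count a * SC [a, a, b] w := by
  induction w using List.reverseRecOn with
  | nil => simp [SC]
  | append_singleton w x ih =>
    rw [SC4_concat a a b a, SC4_concat a a a b, SC3_concat a a b, count_concat' a]
    by_cases h1 : x = a
    · subst h1
      simp only [hab, if_true, if_false, add_zero]
      nlinarith [ih]
    · by_cases h2 : x = b
      · subst h2
        simp only [h1, if_true, if_false, add_zero]
        have h := ch_32 (w.count a)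
        rw [SC3_self a w, SC2_self a w]
        nlinarith [ih, h]
      · simp only [h1, h2, if_false, add_zero]
        exact ih

end Sub4

end Vale.Agent.Lib.P329
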