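import Vale.Agent.Lib.P329.Sub4B

/-!
Shuffle identities between numbers of scattered subwords of length at most four over two
letters.
-/

namespace Vale.Agent.Lib.P329

universe u v

namespace Sub4

open Phase Sub

variable {α : Type u} [DecidableEq α]

lemma id3_shuffle (a b : α) (hab : a ≠ b) (w : List α) :
    SC [a, b, a] w + 2 * SC [a, a, b] w + SC [a, b] w = w.count a * SC [a, b] w := by
  induction w using List.reverseRecOn with
  | nil => simp [SC]
  | append_singleton w x ih =>
    rw [SC3_concat a b a, SC3_concat a a b, SC2_concat a b, count_concat' a]
    by_cases h1 : x = a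
    · subst h1
      simp only [hab, if_true, if_false, add_zero]
      nlinarith [ih]
    · by_cases h2 : x = b
      · subst h2
        simp only [h1, if_true, if_false, add_zero]
        have h3 := id2' a w
        have h4 := SC1_eq a w
        rw [h4]
        nlinarith [ih, h3]
      · simp only [h1, h2, if_false, add_zero]
        exact ih

lemma id4_abab (a b : α) (hab : a ≠ b) (w : List α) :
    2 * SC [a, b, a, b] w + 4 * SC [a, a, b, b] w + 2 * SC [a, b, b] w + 2 * SC [a, a, b] w
        + SC [a, b] w = SC [a, b] w * SC [a, b] w := by
  induction w using List.reverseRecOn with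
  | nil => simp [SC]
  | append_singleton w x ih =>
    rw [SC4_concat a b a b, SC4_concat a a b b, SC3_concat a b b, SC3_concat a a b,
      SC2_concat a b]
    by_cases h2 : x = b
    · subst h2
      simp only [if_true]
      have h3 := id2' a w
      have h4 := SC1_eq a w
      have h5 := id3_shuffle a x hab w
      rw [h4]
      nlinarith [ih, h3, h5]
    · simp only [h2, if_false, add_zero]
      exact ih

lemma id4_abba (a b : α) (hab : a ≠ b) (w : List α) :
    2 * SC [a, a, b, b] w + SC [a, b, a, b] w + SC [a, b, b, a] w + SC [a, b, b] w =
      w.count a * SC [a, b, b] w := by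
  induction w using List.reverseRecOn with
  | nil => simp [SC]
  | append_singleton w x ih =>
    rw [SC4_concat a a b b, SC4_concat a b a b, SC4_concat a b b a, SC3_concat a b b,
      count_concat' a]
    by_cases h1 : x = a
    · subst h1
      simp only [hab, if_true, if_false, add_zero]
      nlinarith [ih]
    · by_cases h2 : x = b
      · subst h2
        simp only [h1, if_true, if_false, add_zero]
        have h5 := id3_shuffle a x hab w
        nlinarith [ih, h5]
      · simp only [h1, h2, if_false, add_zero]
        exact ih

end Sub4

end Vale.Agent.Lib.P329
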