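import Vale.Agent.Lib.P329.Comb

/-!
Substitution of star-free languages for letters along a code whose star is star-free: the
image of a language does not increase the generalized star height.
-/

namespace Vale.Agent.Lib.P329

namespace Subst

variable {α τ : Type}

/-- The words obtained from a list of letters of `τ` by replacing every letter `t` with a
word of `X t`. -/
def dec (X : τ → Language α) : List τ → Language α
  | [] => 1
  | t :: ts => X t * dec X ts

/-- The image of a language over `τ`. -/
def img (X : τ → Language α) (L : Language τ) : Language α :=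
  {w | ∃ ts, ts ∈ L ∧ w ∈ dec X ts}

lemma dec_nil (X : τ → Language α) : dec X [] = 1 := rfl

lemma dec_cons (X : τ → Language α) (t : τ) (ts : List τ) :
    dec X (t :: ts) = X t * dec X ts := rfl

lemma dec_append (X : τ → Language α) : ∀ ts ts' : List τ,
    dec X (ts ++ ts') = dec X ts * dec X ts' := by
  intro ts
  induction ts with
  | nil => intro ts'; rw [List.nil_append, dec_nil, one_mul]
  | cons t ts ih => intro ts'; rw [List.cons_append, dec_cons, dec_cons, ih, mul_assoc]

lemma mem_dec_nil (X : τ → Language α) (w : List α) : w ∈ dec X [] ↔ w = [] := Iff.rfl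

lemma img_mul (X : τ → Language α) (L1 L2 : Language τ) :
    img X (L1 * L2) = img X L1 * img X L2 := by
  ext w
  constructor
  · rintro ⟨ts, hts, hw⟩
    obtain ⟨a, ha, b, hb, rfl⟩ := Language.mem_mul.mp hts
    rw [dec_append] at hw
    obtain ⟨x, hx, y, hy, rfl⟩ := Language.mem_mul.mp hw
    exact Language.mem_mul.mpr ⟨x, ⟨a, ha, hx⟩, y, ⟨b, hb, hy⟩, rfl⟩
  · intro hw
    obtain ⟨x, ⟨a, ha, hx⟩, y, ⟨b, hb, hy⟩, rfl⟩ := Language.mem_mul.mp hw
    refine ⟨a ++ b, Language.mem_mul.mpr ⟨a, ha, b, hb, rfl⟩, ?_⟩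
    rw [dec_append]
    exact Language.mem_mul.mpr ⟨x, hx, y, hy, rfl⟩

lemma dec_flatten_mem (X : τ → Language α) (L : Language τ) : ∀ (S : List (List τ)),
    (∀ z ∈ S, z ∈ L) → ∀ w : List α, w ∈ dec X S.flatten →
      ∃ W : List (List α), w = W.flatten ∧ ∀ z ∈ W, z ∈ img X L := by
  intro S
  induction S with
  | nil =>
    intro _ w hw
    rw [List.flatten_nil, mem_dec_nil] at hw
    exact ⟨[], by rw [hw]; rfl, by simp⟩
  | cons s S ih =>
    intro hS w hw
    rw [List.flatten_cons, dec_append] at hw
    obtain ⟨x, hx, y, hy, rfl⟩ := Language.mem_mul.mp hw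
    obtain ⟨W, rfl, hW⟩ := ih (fun z hz => hS z (List.mem_cons_of_mem _ hz)) y hy
    refine ⟨x :: W, by simp, ?_⟩
    intro z hz
    rcases List.mem_cons.mp hz with rfl | hz
    · exact ⟨s, hS s List.mem_cons_self, hx⟩
    · exact hW z hz

lemma flatten_mem_img (X : τ → Language α) (L : Language τ) : ∀ (W : List (List α)),
    (∀ z ∈ W, z ∈ img X L) → W.flatten ∈ img X (KStar.kstar L) := by
  intro W
  induction W with
  | nil => intro _; exact ⟨[], Language.nil_mem_kstar L, rfl⟩
  | cons x W ih =>
    intro hW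
    obtain ⟨ts, hts, hy⟩ := ih (fun z hz => hW z (List.mem_cons_of_mem _ hz))
    obtain ⟨s, hs, hx⟩ := hW x List.mem_cons_self
    refine ⟨s ++ ts, ?_, ?_⟩
    · rw [Language.mem_kstar] at hts ⊢
      obtain ⟨S, rfl, hS⟩ := hts
      refine ⟨s :: S, by simp, ?_⟩
      intro z hz
      rcases List.mem_cons.mp hz with rfl | hz
      · exact hs
      · exact hS z hz
    · rw [List.flatten_cons, dec_append]
      exact Language.mem_mul.mpr ⟨x, hx, W.flatten, hy, rfl⟩

lemma img_kstar (X : τ → Language α) (L : Language τ) :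
    img X (KStar.kstar L) = KStar.kstar (img X L) := by
  ext w
  constructor
  · rintro ⟨ts, hts, hw⟩
    rw [Language.mem_kstar] at hts
    obtain ⟨S, rfl, hS⟩ := hts
    rw [Language.mem_kstar]
    exact dec_flatten_mem X L S hS w hw
  · intro hw
    rw [Language.mem_kstar] at hw
    obtain ⟨W, rfl, hW⟩ := hw
    exact flatten_mem_img X L W hW

/-- **Substitution along a code with star-free star.**  If every `X t` is star-free, the set
of all decodable words is star-free and decoding is unique, then the image of a language over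
`τ` has an expression whose star height is not larger. -/
theorem subst (X : τ → Language α)
    (hX : ∀ t, ∃ e : GRegex α, e.starHeight = 0 ∧ e.lang = X t)
    (U : GRegex α) (hU0 : U.starHeight = 0) (hU : U.lang = {w | ∃ ts, w ∈ dec X ts})
    (huniq : ∀ (ts ts' : List τ) (w : List α), w ∈ dec X ts → w ∈ dec X ts' → ts = ts') :
    ∀ e : GRegex τ, ∃ e' : GRegex α, e'.starHeight ≤ e.starHeight ∧
      e'.lang = img X e.lang := by
  choose eX heX0 heXl using hX
  intro e
  induction e with
  | zero =>
    refine ⟨GRegex.zero, le_refl _, ?_⟩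
    ext w
    constructor
    · intro h; exact h.elim
    · rintro ⟨ts, hts, _⟩; exact hts.elim
  | one =>
    refine ⟨GRegex.one, le_refl _, ?_⟩
    ext w
    constructor
    · intro h
      exact ⟨[], rfl, h⟩
    · rintro ⟨ts, hts, hw⟩
      have : ts = [] := hts
      subst this
      exact hw
  | letter t =>
    refine ⟨eX t, by rw [heX0]; exact Nat.zero_le _, ?_⟩
    ext w
    rw [heXl]
    constructor
    · intro h
      refine ⟨[t], rfl, ?_⟩
      rw [dec_cons, dec_nil, mul_one]
      exact h
    · rintro ⟨ts, hts, hw⟩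
      have : ts = [t] := hts
      subst this
      rw [dec_cons, dec_nil, mul_one] at hw
      exact hw
  | union p q ihp ihq =>
    obtain ⟨p', hp1, hp2⟩ := ihp
    obtain ⟨q', hq1, hq2⟩ := ihq
    refine ⟨GRegex.union p' q', max_le_max hp1 hq1, ?_⟩
    ext w
    rw [GRegex.mem_lang_union, hp2, hq2]
    constructor
    · rintro (⟨ts, hts, hw⟩ | ⟨ts, hts, hw⟩)
      · exact ⟨ts, Or.inl hts, hw⟩
      · exact ⟨ts, Or.inr hts, hw⟩
    · rintro ⟨ts, hts | hts, hw⟩
      · exact Or.inl ⟨ts, hts, hw⟩
      · exact Or.inr ⟨ts, hts, hw⟩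
  | concat p q ihp ihq =>
    obtain ⟨p', hp1, hp2⟩ := ihp
    obtain ⟨q', hq1, hq2⟩ := ihq
    refine ⟨GRegex.concat p' q', max_le_max hp1 hq1, ?_⟩
    rw [GRegex.lang_concat, GRegex.lang_concat, img_mul, hp2, hq2]
  | compl p ih =>
    obtain ⟨p', hp1, hp2⟩ := ih
    refine ⟨GRegex.inter U (GRegex.compl p'), ?_, ?_⟩
    · rw [GRegex.starHeight_inter, hU0]
      simpa [GRegex.starHeight] using hp1
    · ext w
      rw [GRegex.mem_lang_inter, GRegex.mem_lang_compl, hU, hp2]
      constructor
      · rintro ⟨⟨ts, hw⟩, hn⟩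
        refine ⟨ts, ?_, hw⟩
        intro hts
        exact hn ⟨ts, hts, hw⟩
      · rintro ⟨ts, hts, hw⟩
        refine ⟨⟨ts, hw⟩, ?_⟩
        rintro ⟨ts', hts', hw'⟩
        have := huniq ts ts' w hw hw'
        subst this
        exact hts hts'
  | star p ih =>
    obtain ⟨p', hp1, hp2⟩ := ih
    refine ⟨GRegex.star p', Nat.succ_le_succ hp1, ?_⟩
    rw [GRegex.lang_star, GRegex.lang_star, img_kstar, hp2]

end Subst

end Vale.Agent.Lib.P329
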