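import Vale.Agent.Lib.P329.PermGroup

/-!
The standard two generators of the symmetric group: all recognized languages have
generalized star height at most one.
-/

namespace Vale.Agent.Lib.P329

open Classical

namespace SymStd

lemma hyp (n : ℕ) : ∀ (a : Fin 2) (q : Fin (n + 2)), q ≠ 0 →
    (![finRotate (n + 2), Equiv.swap 0 1] a) q = 0 ∨ (![finRotate (n + 2), Equiv.swap 0 1] a) q = q
      ∨ (q : ℕ) < ((![finRotate (n + 2), Equiv.swap 0 1] a) q : ℕ) := by
  intro a q hq
  fin_cases a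
  · show finRotate (n + 2) q = 0 ∨ finRotate (n + 2) q = q ∨ (q : ℕ) < (finRotate (n + 2) q : ℕ)
    rw [finRotate_apply]
    by_cases hl : q = Fin.last (n + 1)
    · left; rw [hl]; simp
    · right; right
      rw [Fin.val_add_one_of_lt (lt_of_le_of_ne (Fin.le_last q) hl)]
      omega
  · show Equiv.swap (0 : Fin (n + 2)) 1 q = 0 ∨ Equiv.swap (0 : Fin (n + 2)) 1 q = q ∨
      (q : ℕ) < (Equiv.swap (0 : Fin (n + 2)) 1 q : ℕ)
    by_cases h1 : q = 1
    · left; rw [h1]; simp
    · right; left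
      exact Equiv.swap_apply_of_ne_of_ne hq h1

theorem main (n : ℕ) (P : Set (Equiv.Perm (Fin (n + 2)))) :
    ∃ e : GRegex (Fin 2), e.starHeight ≤ 1 ∧
      e.lang = {w : List (Fin 2) | (w.map ![finRotate (n + 2), Equiv.swap 0 1]).prod ∈ P} :=
  PermGroup.exists_regex_set ![finRotate (n + 2), Equiv.swap 0 1] 0 (fun q => (q : ℕ)) (hyp n) P

end SymStd

end Vale.Agent.Lib.P329
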