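import Vale.Agent.Lib.P329.Nil3Main
import Vale.Agent.Lib.P329.PElem

/-!
Quotients of subgroups of finite direct products of groups that are nilpotent of class at
most three or abelian-by-(elementary abelian): every language recognized by such a group has
generalized star height at most one.
-/

namespace Vale.Agent.Lib.P329

universe u v w x

open Classical

namespace Variety

variable {α : Type u} {ι : Type v} {G : Type w}

theorem main [Fintype α] [Fintype ι] [Group G] (K : ι → Type x) [∀ i, Group (K i)]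
    [∀ i, Fintype (K i)]
    (hK : ∀ i, (⊤ : Subgroup (K i)).lowerCentralSeries 3 = ⊥ ∨
      ∃ p : ℕ, p.Prime ∧ ∃ A : Subgroup (K i), A.Normal ∧ (∀ a ∈ A, ∀ b ∈ A, a * b = b * a) ∧
        (∀ g : K i, g ^ p ∈ A) ∧ (∀ g h : K i, g * h * g⁻¹ * h⁻¹ ∈ A))
    (H : Subgroup (∀ i, K i)) (π : H →* G) (hπ : Function.Surjective π) (φ : α → G)
    (P : Set G) :
    ∃ e : GRegex α, e.starHeight ≤ 1 ∧ e.lang = {w : List α | (w.map φ).prod ∈ P} := by
  choose ψ hψ using fun a => hπ (φ a)
  have hprod : ∀ w : List α, (w.map φ).prod = π ((w.map ψ).prod) := by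
    intro w
    rw [map_list_prod, List.map_map]
    congr 1
    apply List.map_congr_left
    intro a _
    exact (hψ a).symm
  have hcomp : ∀ i, Fib1 (fun w : List α => (w.map (fun a => (ψ a : ∀ i, K i) i)).prod) := by
    intro i
    rcases hK i with h3 | ⟨p, hp, A, hN, hA, hpow, hcomm⟩
    · refine (Nil3.fib_prod_filter h3 (fun a => (ψ a : ∀ i, K i) i) Finset.univ).congr ?_
      intro w
      simp
    · intro y
      have : Fact p.Prime := ⟨hp⟩
      have := hN
      obtain ⟨e, he1, he2⟩ :=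
        Ab.elem_main p A hA hpow hcomm (fun a => (ψ a : ∀ i, K i) i) {y}
      exact ⟨e, he1, by rw [he2]; rfl⟩
  have hpi := Fib1.pi hcomp
  have hval : ∀ w : List α, (((w.map ψ).prod : H) : ∀ i, K i) =
      fun i => (w.map (fun a => (ψ a : ∀ i, K i) i)).prod := by
    intro w
    funext i
    rw [SubmonoidClass.coe_list_prod, Pi.list_prod_apply, List.map_map, List.map_map]
    rfl
  obtain ⟨e, he1, he2⟩ := (hpi.comp (fun k : ∀ i, K i => ∃ h : k ∈ H, π ⟨k, h⟩ ∈ P)) True
  refine ⟨e, he1, ?_⟩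
  rw [he2]
  ext w
  show ((∃ h : (fun i => (w.map (fun a => (ψ a : ∀ i, K i) i)).prod) ∈ H,
    π ⟨_, h⟩ ∈ P) = True) ↔ (w.map φ).prod ∈ P
  rw [hprod w, eq_iff_iff, iff_true]
  constructor
  · rintro ⟨h, hP⟩
    have e1 : (⟨_, h⟩ : H) = (w.map ψ).prod := Subtype.ext (hval w).symm
    rw [e1] at hP
    exact hP
  · intro hP
    have hmem : (fun i => (w.map (fun a => (ψ a : ∀ i, K i) i)).prod) ∈ H := by
      rw [← hval w]
      exact ((w.map ψ).prod).2
    refine ⟨hmem, ?_⟩
    have e1 : (⟨_, hmem⟩ : H) = (w.map ψ).prod := Subtype.ext (hval w).symm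
    rw [e1]
    exact hP

end Variety

end Vale.Agent.Lib.P329
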