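import Vale.Agent.Lib.P329.Pull
import Vale.Agent.Lib.P329.Nil3Main
import Vale.Agent.Lib.P329.PElem
import Vale.Agent.Lib.P329.Variety

/-!
Cascades with a counter-free automaton on top: over a cascade of a counter-free automaton
with a commutative group, and over a group that is nilpotent of class at most three or
abelian-by-(elementary abelian).
-/

namespace Vale.Agent.Lib.P329

open Classical

namespace Tower

open SF Pull

variable {α σ τ : Type}

/-- **A counter-free automaton on top of an automaton whose transition languages have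
generalized star height at most one.** -/
theorem cascade_top [Fintype α] [Fintype σ] [Fintype τ] (step : σ → α → σ)
    (hN : ∀ q q' : σ, ∃ e : GRegex α, e.starHeight ≤ 1 ∧ e.lang = {w | run step q w = q'})
    (tstep : τ → σ × α → τ) (hT : CounterFree tstep) (q0 : σ) (t0 : τ) (P : Set (σ × τ)) :
    ∃ e : GRegex α, e.starHeight ≤ 1 ∧
      e.lang = {w | (run step q0 w, run tstep t0 (annot step q0 w)) ∈ P} := by
  have f1 : Fib1 (fun w : List α => run step q0 w) := fun x => hN q0 x
  have f2 : Fib1 (fun w : List α => run tstep t0 (annot step q0 w)) := by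
    intro t'
    obtain ⟨E, hE0, hEl⟩ := starFree_of_counterFree tstep hT t0 t'
    obtain ⟨e, he1, he2⟩ := pull step hN E hE0 q0
    refine ⟨e, he1, ?_⟩
    rw [he2, hEl]
    rfl
  exact (f1.pair f2).set P

/-- The combined run of the two levels. -/
lemma foldl_two (step : σ → α → σ) (tstep : τ → σ × α → τ) : ∀ (w : List α) (q : σ) (t : τ),
    w.foldl (fun (s : σ × τ) (a : α) => (step s.1 a, tstep s.2 (s.1, a))) (q, t) =
      (run step q w, run tstep t (annot step q w)) := by
  intro w
  induction w with
  | nil => intro q t; rfl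
  | cons a w ih =>
    intro q t
    rw [List.foldl_cons, ih]
    rfl

section Abelian

variable {G : Type} [CommGroup G]

/-- The transition languages of a cascade of a counter-free automaton with a commutative
group. -/
lemma casc_trans [Fintype α] [Fintype σ] [Fintype G] (step : σ → α → σ)
    (hcf : CounterFree step) (g : σ → α → G) (s s' : σ × G) :
    ∃ e : GRegex α, e.starHeight ≤ 1 ∧
      e.lang = {w | run (Cascade.cstep step g) s w = s'} := by
  obtain ⟨e, he1, he2⟩ := Cascade.main step hcf g s.1 {y : σ × G | (y.1, s.2 * y.2) = s'}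
  refine ⟨e, he1, ?_⟩
  rw [he2]
  ext w
  show w.foldl (Cascade.cstep step g) (s.1, 1) ∈ {y : σ × G | (y.1, s.2 * y.2) = s'} ↔
    w.foldl (Cascade.cstep step g) s = s'
  have h1 := Cascade.casc_run step g w s.1 1
  have h2 := Cascade.casc_run step g w s.1 s.2
  rw [h1]
  have h3 : w.foldl (Cascade.cstep step g) s = w.foldl (Cascade.cstep step g) (s.1, s.2) := rfl
  rw [h3, h2]
  simp

/-- **Counter-free over commutative group over counter-free.** -/
theorem three_level [Fintype α] [Fintype σ] [Fintype τ] [Fintype G] (M : DFA α σ)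
    (hM : ∀ (q : σ) (u : List α) (n : ℕ), 0 < n →
      M.evalFrom q (List.replicate n u).flatten = q → M.evalFrom q u = q)
    (g : σ → α → G) (T : DFA ((σ × G) × α) τ)
    (hT : ∀ (t : τ) (u : List ((σ × G) × α)) (n : ℕ), 0 < n →
      T.evalFrom t (List.replicate n u).flatten = t → T.evalFrom t u = t)
    (P : Set ((σ × G) × τ)) :
    ∃ e : GRegex α, e.starHeight ≤ 1 ∧
      e.lang = {w : List α | w.foldl (fun (s : (σ × G) × τ) (a : α) =>
        ((M.step s.1.1 a, s.1.2 * g s.1.1 a), T.step s.2 (s.1, a)))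
        ((M.start, 1), T.start) ∈ P} := by
  have hcf : CounterFree M.step := by
    intro u q n hn hrun
    rw [Cascade.rep_eq] at hrun
    exact hM q u n hn hrun
  have hcfT : CounterFree T.step := by
    intro u t n hn hrun
    rw [Cascade.rep_eq] at hrun
    exact hT t u n hn hrun
  obtain ⟨e, he1, he2⟩ := cascade_top (Cascade.cstep M.step g)
    (casc_trans M.step hcf g) T.step hcfT (M.start, 1) T.start P
  refine ⟨e, he1, ?_⟩
  rw [he2]
  ext w
  have := foldl_two (Cascade.cstep M.step g) T.step w (M.start, 1) T.start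
  show _ ↔ w.foldl (fun (s : (σ × G) × τ) (a : α) =>
    (Cascade.cstep M.step g s.1 a, T.step s.2 (s.1, a))) ((M.start, 1), T.start) ∈ P
  rw [this]
  rfl

end Abelian

section Group

variable {G : Type} [Group G]

lemma run_mul (φ : α → G) : ∀ (w : List α) (h : G),
    run (fun (x : G) (a : α) => x * φ a) h w = h * (w.map φ).prod := by
  intro w
  induction w with
  | nil => intro h; simp [run]
  | cons a w ih =>
    intro h
    rw [run_cons, ih]
    simp [mul_assoc]

/-- A counter-free automaton on top of a group all of whose recognized languages have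
generalized star height at most one. -/
theorem over_of_fib [Fintype α] [Fintype τ] [Fintype G] (φ : α → G)
    (hmain : ∀ Q : Set G, ∃ e : GRegex α, e.starHeight ≤ 1 ∧
      e.lang = {w : List α | (w.map φ).prod ∈ Q})
    (T : DFA (G × α) τ)
    (hT : ∀ (t : τ) (u : List (G × α)) (n : ℕ), 0 < n →
      T.evalFrom t (List.replicate n u).flatten = t → T.evalFrom t u = t)
    (P : Set (G × τ)) :
    ∃ e : GRegex α, e.starHeight ≤ 1 ∧
      e.lang = {w : List α | w.foldl (fun (s : G × τ) (a : α) =>
        (s.1 * φ a, T.step s.2 (s.1, a))) (1, T.start) ∈ P} := by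
  have hcfT : CounterFree T.step := by
    intro u t n hn hrun
    rw [Cascade.rep_eq] at hrun
    exact hT t u n hn hrun
  have hN : ∀ h h' : G, ∃ e : GRegex α, e.starHeight ≤ 1 ∧
      e.lang = {w | run (fun (x : G) (a : α) => x * φ a) h w = h'} := by
    intro h h'
    obtain ⟨e, he1, he2⟩ := hmain {h⁻¹ * h'}
    refine ⟨e, he1, ?_⟩
    rw [he2]
    ext w
    show (w.map φ).prod ∈ ({h⁻¹ * h'} : Set G) ↔ run (fun (x : G) (a : α) => x * φ a) h w = h'
    rw [run_mul, Set.mem_singleton_iff, eq_inv_mul_iff_mul_eq]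
  obtain ⟨e, he1, he2⟩ := cascade_top (fun (x : G) (a : α) => x * φ a) hN T.step hcfT 1
    T.start P
  refine ⟨e, he1, ?_⟩
  rw [he2]
  ext w
  have := foldl_two (fun (x : G) (a : α) => x * φ a) T.step w 1 T.start
  show _ ↔ w.foldl (fun (s : G × τ) (a : α) =>
    ((fun (x : G) (a : α) => x * φ a) s.1 a, T.step s.2 (s.1, a))) (1, T.start) ∈ P
  rw [this]
  rfl

/-- **Counter-free over a group that is nilpotent of class at most three or
abelian-by-(elementary abelian).** -/
theorem over_group [Fintype α] [Fintype τ] [Fintype G]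
    (hG : (⊤ : Subgroup G).lowerCentralSeries 3 = ⊥ ∨
      ∃ p : ℕ, p.Prime ∧ ∃ A : Subgroup G, A.Normal ∧ (∀ a ∈ A, ∀ b ∈ A, a * b = b * a) ∧
        (∀ g : G, g ^ p ∈ A) ∧ (∀ g h : G, g * h * g⁻¹ * h⁻¹ ∈ A))
    (φ : α → G) (T : DFA (G × α) τ)
    (hT : ∀ (t : τ) (u : List (G × α)) (n : ℕ), 0 < n →
      T.evalFrom t (List.replicate n u).flatten = t → T.evalFrom t u = t)
    (P : Set (G × τ)) :
    ∃ e : GRegex α, e.starHeight ≤ 1 ∧
      e.lang = {w : List α | w.foldl (fun (s : G × τ) (a : α) =>
        (s.1 * φ a, T.step s.2 (s.1, a))) (1, T.start) ∈ P} := by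
  refine over_of_fib φ ?_ T hT P
  intro Q
  rcases hG with h3 | ⟨p, hp, A, hN, hA, hpow, hcomm⟩
  · exact ((Nil3.fib_prod_filter h3 φ Finset.univ).congr (by intro w; simp)).set Q
  · have : Fact p.Prime := ⟨hp⟩
    have := hN
    exact Ab.elem_main p A hA hpow hcomm φ Q

/-- **Counter-free over a quotient of a subgroup of a finite product of groups that are
nilpotent of class at most three or abelian-by-(elementary abelian).** -/
theorem over_divisor {ι : Type} [Fintype α] [Fintype τ] [Fintype ι]
    (K : ι → Type) [∀ i, Group (K i)] [∀ i, Fintype (K i)]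
    (hK : ∀ i, (⊤ : Subgroup (K i)).lowerCentralSeries 3 = ⊥ ∨
      ∃ p : ℕ, p.Prime ∧ ∃ A : Subgroup (K i), A.Normal ∧ (∀ a ∈ A, ∀ b ∈ A, a * b = b * a) ∧
        (∀ g : K i, g ^ p ∈ A) ∧ (∀ g h : K i, g * h * g⁻¹ * h⁻¹ ∈ A))
    (H : Subgroup (∀ i, K i)) (π : H →* G) (hπ : Function.Surjective π)
    (φ : α → G) (T : DFA (G × α) τ)
    (hT : ∀ (t : τ) (u : List (G × α)) (n : ℕ), 0 < n →
      T.evalFrom t (List.replicate n u).flatten = t → T.evalFrom t u = t)
    (P : Set (G × τ)) :
    ∃ e : GRegex α, e.starHeight ≤ 1 ∧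
      e.lang = {w : List α | w.foldl (fun (s : G × τ) (a : α) =>
        (s.1 * φ a, T.step s.2 (s.1, a))) (1, T.start) ∈ P} := by
  have : Fintype G := Fintype.ofSurjective π hπ
  exact over_of_fib φ (fun Q => Variety.main K hK H π hπ φ Q) T hT P

end Group

end Tower

end Vale.Agent.Lib.P329
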