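import Vale.Agent.Lib.P329.Tower
import Vale.Agent.Lib.P329.M4Main

/-!
Quotients of subgroups of finite direct products of groups that are nilpotent of class at
most three, or nilpotent of class at most four with abelian commutator subgroup, or
abelian-by-(elementary abelian): every language recognized by such a group has generalized
star height at most one, also with a counter-free automaton on top.
-/

namespace Vale.Agent.Lib.P329

universe u v w x

open Classical

namespace Variety

variable {α : Type u} {ι : Type v} {G : Type w}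

/-- Quotients of subgroups of finite products of groups all of whose recognized languages
have generalized star height at most one. -/
theorem main_of [Fintype α] [Fintype ι] [Group G] (K : ι → Type x) [∀ i, Group (K i)]
    [∀ i, Fintype (K i)]
    (hK : ∀ i, ∀ ψ : α → K i, Fib1 (fun w : List α => (w.map ψ).prod))
    (H : Subgroup (∀ i, K i)) (π : H →* G) (hπ : Function.Surjective π) (φ : α → G)
    (P : Set G) :
    ∃ e : GRegex α, e.starHeight ≤ 1 ∧ e.lang = {w : List α | (w.map φ).prod ∈ P} := by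
  choose ψ hψ using fun a => hπ (φ a)
  have hprod : ∀ w : List α, (w.map φ).prod = π ((w.map ψ).prod) := by
    intro w
    rw [map_list_prod, List.map_map]
    congr 1
    apply List.map_congr_left
    intro a _
    exact (hψ a).symm
  have hcomp : ∀ i, Fib1 (fun w : List α => (w.map (fun a => (ψ a : ∀ i, K i) i)).prod) :=
    fun i => hK i (fun a => (ψ a : ∀ i, K i) i)
  have hpi := Fib1.pi hcomp
  have hval : ∀ w : List α, (((w.map ψ).prod : H) : ∀ i, K i) =
      fun i => (w.map (fun a => (ψ a : ∀ i, K i) i)).prod := by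
    intro w
    funext i
    rw [SubmonoidClass.coe_list_prod, Pi.list_prod_apply, List.map_map, List.map_map]
    rfl
  obtain ⟨e, he1, he2⟩ := (hpi.comp (fun k : ∀ i, K i => ∃ h : k ∈ H, π ⟨k, h⟩ ∈ P)) True
  refine ⟨e, he1, ?_⟩
  rw [he2]
  ext w
  show ((∃ h : (fun i => (w.map (fun a => (ψ a : ∀ i, K i) i)).prod) ∈ H,
    π ⟨_, h⟩ ∈ P) = True) ↔ (w.map φ).prod ∈ P
  rw [hprod w, eq_iff_iff, iff_true]
  constructor
  · rintro ⟨h, hP⟩
    have e1 : (⟨_, h⟩ : H) = (w.map ψ).prod := Subtype.ext (hval w).symm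
    rw [e1] at hP
    exact hP
  · intro hP
    have hmem : (fun i => (w.map (fun a => (ψ a : ∀ i, K i) i)).prod) ∈ H := by
      rw [← hval w]
      exact ((w.map ψ).prod).2
    refine ⟨hmem, ?_⟩
    have e1 : (⟨_, hmem⟩ : H) = (w.map ψ).prod := Subtype.ext (hval w).symm
    rw [e1]
    exact hP

/-- The three kinds of groups. -/
theorem fib_kind [Fintype α] {K : Type x} [Group K] [Fintype K]
    (hK : (⊤ : Subgroup K).lowerCentralSeries 3 = ⊥ ∨
      ((⊤ : Subgroup K).lowerCentralSeries 4 = ⊥ ∧
        ∀ a b : K, a ∈ commutator K → b ∈ commutator K → a * b = b * a) ∨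
      ∃ p : ℕ, p.Prime ∧ ∃ A : Subgroup K, A.Normal ∧ (∀ a ∈ A, ∀ b ∈ A, a * b = b * a) ∧
        (∀ g : K, g ^ p ∈ A) ∧ (∀ g h : K, g * h * g⁻¹ * h⁻¹ ∈ A))
    (ψ : α → K) : Fib1 (fun w : List α => (w.map ψ).prod) := by
  rcases hK with h3 | ⟨h4, hM⟩ | ⟨p, hp, A, hN, hA, hpow, hcomm⟩
  · refine (Nil3.fib_prod_filter h3 ψ Finset.univ).congr ?_
    intro w
    simp
  · refine (M4.fib_prod_filter h4 hM ψ Finset.univ).congr ?_
    intro w
    simp
  · intro y
    have : Fact p.Prime := ⟨hp⟩
    have := hN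
    obtain ⟨e, he1, he2⟩ := Ab.elem_main p A hA hpow hcomm ψ {y}
    exact ⟨e, he1, by rw [he2]; rfl⟩

end Variety

namespace Tower

open SF Pull

/-- **Counter-free over a quotient of a subgroup of a finite product of groups that are
nilpotent of class at most three, nilpotent of class at most four with abelian commutator
subgroup, or abelian-by-(elementary abelian).** -/
theorem over_divisor4 {α τ G ι : Type} [Group G] [Fintype α] [Fintype τ] [Fintype ι]
    (K : ι → Type) [∀ i, Group (K i)] [∀ i, Fintype (K i)]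
    (hK : ∀ i, (⊤ : Subgroup (K i)).lowerCentralSeries 3 = ⊥ ∨
      ((⊤ : Subgroup (K i)).lowerCentralSeries 4 = ⊥ ∧
        ∀ a b : K i, a ∈ commutator (K i) → b ∈ commutator (K i) → a * b = b * a) ∨
      ∃ p : ℕ, p.Prime ∧ ∃ A : Subgroup (K i), A.Normal ∧ (∀ a ∈ A, ∀ b ∈ A, a * b = b * a) ∧
        (∀ g : K i, g ^ p ∈ A) ∧ (∀ g h : K i, g * h * g⁻¹ * h⁻¹ ∈ A))
    (H : Subgroup (∀ i, K i)) (π : H →* G) (hπ : Function.Surjective π)
    (φ : α → G) (T : DFA (G × α) τ)
    (hT : ∀ (t : τ) (u : List (G × α)) (n : ℕ), 0 < n →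
      T.evalFrom t (List.replicate n u).flatten = t → T.evalFrom t u = t)
    (P : Set (G × τ)) :
    ∃ e : GRegex α, e.starHeight ≤ 1 ∧
      e.lang = {w : List α | w.foldl (fun (s : G × τ) (a : α) =>
        (s.1 * φ a, T.step s.2 (s.1, a))) (1, T.start) ∈ P} := by
  have : Fintype G := Fintype.ofSurjective π hπ
  exact over_of_fib φ
    (fun Q => Variety.main_of K (fun i ψ => Variety.fib_kind (hK i) ψ) H π hπ φ Q) T hT P

end Tower

end Vale.Agent.Lib.P329
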