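import Vale.Agent.Lib.P329.PCut
import Vale.Agent.Lib.P329.Rev
import Vale.Agent.Lib.P329.Subst

/-!
Two-sided counting.  A counter-free automaton reads the word from the left, another one reads
it from the right, and every position is weighted, in a finite commutative group, by the state
of the first automaton before the position, the letter, and the state of the second automaton
after it has read the part of the word to the right of the position.  The languages defined
by the product of the weights have generalized star height at most one.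
-/

set_option linter.unusedSectionVars false

namespace Vale.Agent.Lib.P329

open Classical

namespace TwoSided

open SF Ev

variable {α σ ρ : Type}

/-- The event: the left automaton is in state `p0` and reads the letter `a`. -/
def tev (p0 : σ) (a : α) : σ → α → Prop := fun q b => q = p0 ∧ b = a

/-- The number of positions of `w` at which the left automaton (started in `q`) is in state
`p0`, the letter is `a`, and the right automaton, started in `r` and reading the rest of the
word from right to left, is in state `s`. -/
noncomputable def cnt2 (step : σ → α → σ) (rstep : ρ → α → ρ) (p0 : σ) (a : α) (s : ρ) :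
    σ → List α → ρ → ℕ
  | _, [], _ => 0
  | q, b :: w, r => (if q = p0 ∧ b = a ∧ run rstep r w.reverse = s then 1 else 0) +
      cnt2 step rstep p0 a s (step q b) w r

section Count

variable (step : σ → α → σ) (rstep : ρ → α → ρ) (p0 : σ) (a : α) (s : ρ)

lemma cnt2_append : ∀ (u v : List α) (q : σ) (r : ρ),
    cnt2 step rstep p0 a s q (u ++ v) r =
      cnt2 step rstep p0 a s q u (run rstep r v.reverse) +
        cnt2 step rstep p0 a s (run step q u) v r := by
  intro u
  induction u with
  | nil => intro v q r; simp [cnt2]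
  | cons b u ih =>
    intro v q r
    simp only [List.cons_append, cnt2, run_cons]
    rw [ih, List.reverse_append, run_append]
    ring

lemma cnt2_noev : ∀ (t : List α) (q : σ) (r : ρ), cnt step (tev p0 a) q t = 0 →
    cnt2 step rstep p0 a s q t r = 0 := by
  intro t
  induction t with
  | nil => intro q r _; rfl
  | cons b t ih =>
    intro q r h
    rw [cnt_cons] at h
    by_cases he : tev p0 a q b
    · rw [if_pos he] at h; omega
    · rw [if_neg he, zero_add] at h
      have hn : ¬ (q = p0 ∧ b = a ∧ run rstep r t.reverse = s) := fun hh => he ⟨hh.1, hh.2.1⟩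
      simp only [cnt2, if_neg hn, zero_add]
      exact ih _ _ h

variable {step rstep p0 a s}

lemma cnt2_kp {p : σ} (h : Cut step (tev p0 a) p (cutStep step (tev p0 a)) Sum.inl
    (Sum.inr false) (Sum.inr true)) : ∀ (k : List α) (q : σ) (r : ρ),
    run (cutStep step (tev p0 a)) (Sum.inl q) k = Sum.inr false →
      cnt2 step rstep p0 a s q k r = if r = s then 1 else 0 := by
  intro k
  induction k with
  | nil => intro q r hq; exact (h.ne_done q hq).elim
  | cons b k ih =>
    intro q r hq
    rw [run_cons] at hq
    by_cases he : tev p0 a q b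
    · rw [h.step_ev q b he] at hq
      have hk := crun_done_eq h k hq
      subst hk
      have h1 : (q = p0 ∧ b = a ∧ run rstep r ([] : List α).reverse = s) ↔ r = s := by
        constructor
        · intro hh; exact hh.2.2
        · intro hh; exact ⟨he.1, he.2, hh⟩
      simp only [cnt2, h1, add_zero]
    · rw [h.step_nev q b he] at hq
      have hn : ¬ (q = p0 ∧ b = a ∧ run rstep r k.reverse = s) := fun hh => he ⟨hh.1, hh.2.1⟩
      simp only [cnt2, if_neg hn, zero_add]
      exact ih _ _ hq

lemma kp_last {p : σ} (h : Cut step (tev p0 a) p (cutStep step (tev p0 a)) Sum.inl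
    (Sum.inr false) (Sum.inr true)) : ∀ (k : List α) (q : σ),
    run (cutStep step (tev p0 a)) (Sum.inl q) k = Sum.inr false →
      ∃ k', k = k' ++ [a] ∧ run step q k' = p0 := by
  intro k
  induction k with
  | nil => intro q hq; exact (h.ne_done q hq).elim
  | cons b k ih =>
    intro q hq
    rw [run_cons] at hq
    by_cases he : tev p0 a q b
    · rw [h.step_ev q b he] at hq
      have hk := crun_done_eq h k hq
      subst hk
      exact ⟨[], by rw [he.2]; rfl, he.1⟩
    · rw [h.step_nev q b he] at hq
      obtain ⟨k', rfl, hk'⟩ := ih _ hq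
      exact ⟨b :: k', rfl, by rw [run_cons]; exact hk'⟩

lemma kp_prefix {p : σ} (h : Cut step (tev p0 a) p (cutStep step (tev p0 a)) Sum.inl
    (Sum.inr false) (Sum.inr true)) (q : σ) (x x' y y' : List α)
    (hx : run (cutStep step (tev p0 a)) (Sum.inl q) x = Sum.inr false)
    (hx' : run (cutStep step (tev p0 a)) (Sum.inl q) x' = Sum.inr false)
    (hxy : x ++ y = x' ++ y') : x = x' ∧ y = y' := by
  rcases List.append_eq_append_iff.mp hxy with ⟨z, rfl, rfl⟩ | ⟨z, rfl, rfl⟩
  · rw [run_append, hx] at hx'
    have := crun_done_eq h z hx'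
    subst this
    simp
  · rw [run_append, hx'] at hx
    have := crun_done_eq h z hx
    subst this
    simp

end Count

/-! ### The transformations of the right automaton -/

/-- The transformation of the right automaton induced by a word (read from right to left). -/
def tf (rstep : ρ → α → ρ) (x : List α) : ρ → ρ := fun r => run rstep r x.reverse

/-- The transformations induced by words. -/
def Ty (rstep : ρ → α → ρ) : Type := {f : ρ → ρ // ∃ x : List α, f = tf rstep x}

noncomputable instance instFintypeTy [Fintype ρ] (rstep : ρ → α → ρ) : Fintype (Ty rstep) :=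
  Subtype.fintype _

/-- The transformation induced by a word, as an element of `Ty`. -/
def tyOf (rstep : ρ → α → ρ) (x : List α) : Ty rstep := ⟨tf rstep x, x, rfl⟩

/-- The automaton on the transformations. -/
def tstep (rstep : ρ → α → ρ) : ρ → Ty rstep → ρ := fun r f => f.1 r

/-- A word inducing a list of transformations, applied one after the other. -/
noncomputable def wd (rstep : ρ → α → ρ) : List (Ty rstep) → List α
  | [] => []
  | f :: u => (Classical.choose f.2).reverse ++ wd rstep u

section Types

variable (rstep : ρ → α → ρ)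

lemma wd_append : ∀ u v : List (Ty rstep), wd rstep (u ++ v) = wd rstep u ++ wd rstep v := by
  intro u
  induction u with
  | nil => intro v; rfl
  | cons f u ih => intro v; simp only [List.cons_append, wd, ih, List.append_assoc]

lemma wd_rep (u : List (Ty rstep)) : ∀ n : ℕ, wd rstep (rep u n) = rep (wd rstep u) n := by
  intro n
  induction n with
  | zero => rfl
  | succ n ih => rw [rep, rep, wd_append, ih]

lemma run_tstep : ∀ (u : List (Ty rstep)) (r : ρ),
    run (tstep rstep) r u = run rstep r (wd rstep u) := by
  intro u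
  induction u with
  | nil => intro r; rfl
  | cons f u ih =>
    intro r
    rw [run_cons, ih, wd, run_append]
    congr 1
    have h := Classical.choose_spec f.2
    show f.1 r = run rstep r (Classical.choose f.2).reverse
    rw [congrFun h r]
    simp [tf]

lemma counterFree_tstep (h : CounterFree rstep) : CounterFree (tstep rstep) := by
  intro u r n hn hrun
  rw [run_tstep] at hrun ⊢
  rw [wd_rep] at hrun
  exact h _ r n hn hrun

/-- The state of the right automaton after a list of transformations, applied from the right. -/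
def back : List (Ty rstep) → ρ → ρ
  | [], r => r
  | f :: ts, r => f.1 (back ts r)

/-- The number of suffixes of the list (the empty and the full one included) leading the right
automaton from `r` to `s`. -/
noncomputable def cntT (s : ρ) : List (Ty rstep) → ρ → ℕ
  | [], r => if r = s then 1 else 0
  | f :: ts, r => (if f.1 (back rstep ts r) = s then 1 else 0) + cntT s ts r

/-- The event of the automaton on transformations: the state `s` is entered. -/
def tevT (s : ρ) : ρ → Ty rstep → Prop := fun r f => f.1 r = s

lemma back_eq : ∀ (ts : List (Ty rstep)) (r : ρ),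
    back rstep ts r = run (tstep rstep) r ts.reverse := by
  intro ts
  induction ts with
  | nil => intro r; rfl
  | cons f ts ih =>
    intro r
    rw [List.reverse_cons, run_append, ← ih]
    rfl

lemma cntT_eq (s : ρ) : ∀ (ts : List (Ty rstep)) (r : ρ),
    cntT rstep s ts r = (if r = s then 1 else 0) +
      cnt (tstep rstep) (tevT rstep s) r ts.reverse := by
  intro ts
  induction ts with
  | nil => intro r; simp [cntT, cnt_nil]
  | cons f ts ih =>
    intro r
    rw [List.reverse_cons, cnt_append, ← back_eq, cnt_cons, cnt_nil, cntT, ih]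
    have : tevT rstep s (back rstep ts r) f ↔ f.1 (back rstep ts r) = s := Iff.rfl
    simp only [this]
    ring

end Types

/-! ### The code of first-event words, typed by their transformations -/

section Code

variable (step : σ → α → σ) (rstep : ρ → α → ρ) (p0 : σ) (a : α)

/-- The first-event words from the base state `step p0 a` inducing the transformation `f`. -/
def XT (f : Ty rstep) : Language α :=
  {x | run (cutStep step (tev p0 a)) (Sum.inl (step p0 a)) x = Sum.inr false ∧
    tf rstep x = f.1}

lemma hbase : ∀ q b, tev p0 a q b → step q b = step p0 a := by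
  rintro q b ⟨rfl, rfl⟩
  rfl

lemma hcut : Cut step (tev p0 a) (step p0 a) (cutStep step (tev p0 a)) Sum.inl
    (Sum.inr false) (Sum.inr true) :=
  cut_cutStep step (tev p0 a) (step p0 a) (hbase step p0 a)

lemma hcf_cut (hM : CounterFree step) : CounterFree (cutStep step (tev p0 a)) :=
  counterFree_cutStep step (tev p0 a) (step p0 a) (hbase step p0 a)
    (fun u q n hn hrun _ => hM u q n hn hrun)

variable {step rstep p0 a}

lemma xt_ne_nil (f : Ty rstep) (x : List α) (hx : x ∈ XT step rstep p0 a f) : x ≠ [] := by
  rintro rfl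
  exact (hcut step p0 a).ne_done _ hx.1

/-- The middle part of a word: a product of first-event words. -/
lemma mid (s : ρ) : ∀ (ts : List (Ty rstep)) (y : List α) (r : ρ),
    y ∈ Subst.dec (XT step rstep p0 a) ts →
      cnt2 step rstep p0 a s (step p0 a) y r + (if back rstep ts r = s then 1 else 0) =
        cntT rstep s ts r ∧
      run rstep r y.reverse = back rstep ts r ∧ run step (step p0 a) y = step p0 a := by
  intro ts
  induction ts with
  | nil =>
    intro y r hy
    have : y = [] := hy
    subst this
    refine ⟨?_, rfl, rfl⟩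
    show 0 + (if r = s then 1 else 0) = (if r = s then 1 else 0)
    rw [zero_add]
  | cons f ts ih =>
    intro y r hy
    rw [Subst.dec_cons] at hy
    obtain ⟨x, hx, y', hy', rfl⟩ := Language.mem_mul.mp hy
    obtain ⟨hA, hB, hC⟩ := ih y' r hy'
    obtain ⟨e1, _⟩ := kp_facts (hcut step p0 a) x _ hx.1
    refine ⟨?_, ?_, ?_⟩
    · rw [cnt2_append, cnt2_kp (hcut step p0 a) x _ _ hx.1, e1, hB]
      show _ + (if f.1 (back rstep ts r) = s then 1 else 0) =
        (if f.1 (back rstep ts r) = s then 1 else 0) + cntT rstep s ts r
      omega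
    · rw [List.reverse_append, run_append, hB]
      show tf rstep x (back rstep ts r) = f.1 (back rstep ts r)
      rw [hx.2]
    · rw [run_append, e1, hC]

/-- The two-sided count of a word cut at its events. -/
lemma full (s : ρ) (k y t : List α) (ts : List (Ty rstep)) (q0 : σ) (r0 : ρ)
    (hk : run (cutStep step (tev p0 a)) (Sum.inl q0) k = Sum.inr false)
    (hy : y ∈ Subst.dec (XT step rstep p0 a) ts)
    (ht : cnt step (tev p0 a) (step p0 a) t = 0) :
    cnt2 step rstep p0 a s q0 (k ++ (y ++ t)) r0 =
      cntT rstep s ts (run rstep r0 t.reverse) := by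
  obtain ⟨e1, _⟩ := kp_facts (hcut step p0 a) k _ hk
  obtain ⟨hA, hB, hC⟩ := mid s ts y (run rstep r0 t.reverse) hy
  rw [cnt2_append, cnt2_kp (hcut step p0 a) k _ _ hk, e1, cnt2_append, hC,
    cnt2_noev step rstep p0 a s t _ r0 ht, List.reverse_append, run_append, hB]
  omega

/-- Unique decoding. -/
lemma uniq : ∀ (ts ts' : List (Ty rstep)) (w : List α),
    w ∈ Subst.dec (XT step rstep p0 a) ts → w ∈ Subst.dec (XT step rstep p0 a) ts' →
      ts = ts' := by
  intro ts
  induction ts with
  | nil =>
    intro ts' w hw hw'
    have : w = [] := hw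
    subst this
    cases ts' with
    | nil => rfl
    | cons f' ts' =>
      rw [Subst.dec_cons] at hw'
      obtain ⟨x, hx, y, _, hxy⟩ := Language.mem_mul.mp hw'
      exact (xt_ne_nil f' x hx (List.append_eq_nil_iff.mp hxy).1).elim
  | cons f ts ih =>
    intro ts' w hw hw'
    rw [Subst.dec_cons] at hw
    obtain ⟨x, hx, y, hy, rfl⟩ := Language.mem_mul.mp hw
    cases ts' with
    | nil =>
      have h0 : x ++ y = [] := hw'
      exact (xt_ne_nil f x hx (List.append_eq_nil_iff.mp h0).1).elim
    | cons f' ts' =>
      rw [Subst.dec_cons] at hw'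
      obtain ⟨x', hx', y', hy', hxy⟩ := Language.mem_mul.mp hw'
      obtain ⟨rfl, rfl⟩ := kp_prefix (hcut step p0 a) _ x' x y' y hx'.1 hx.1 hxy
      have hf : f = f' := Subtype.ext (by rw [← hx.2, ← hx'.2])
      rw [hf, ih ts' y' hy hy']

/-- Every product of first-event words is decodable. -/
lemma pow_dec : ∀ (n : ℕ) (m : List α),
    m ∈ KP (cutStep step (tev p0 a)) Sum.inl (Sum.inr false) (step p0 a) ^ n →
      ∃ ts : List (Ty rstep), m ∈ Subst.dec (XT step rstep p0 a) ts := by
  intro n
  induction n with
  | zero =>
    intro m hm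
    rw [pow_zero] at hm
    exact ⟨[], hm⟩
  | succ n ih =>
    intro m hm
    rw [pow_succ'] at hm
    obtain ⟨x, hx, m', hm', rfl⟩ := Language.mem_mul.mp hm
    obtain ⟨ts, hts⟩ := ih m' hm'
    refine ⟨tyOf rstep x :: ts, ?_⟩
    rw [Subst.dec_cons]
    exact Language.mem_mul.mpr ⟨x, ⟨hx, rfl⟩, m', hts, rfl⟩

/-- The decodable words: the empty word and the words from the base state ending with an
event. -/
lemma dec_iff (w : List α) : (∃ ts : List (Ty rstep), w ∈ Subst.dec (XT step rstep p0 a) ts) ↔
    (w = [] ∨ ∃ w', w = w' ++ [a] ∧ run step (step p0 a) w' = p0) := by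
  constructor
  · rintro ⟨ts, hw⟩
    induction ts generalizing w with
    | nil => exact Or.inl hw
    | cons f ts ih =>
      rw [Subst.dec_cons] at hw
      obtain ⟨x, hx, y, hy, rfl⟩ := Language.mem_mul.mp hw
      obtain ⟨x', rfl, hx'⟩ := kp_last (hcut step p0 a) x _ hx.1
      obtain ⟨e1, _⟩ := kp_facts (hcut step p0 a) _ _ hx.1
      right
      rcases ih y hy with rfl | ⟨y', rfl, hy'⟩
      · exact ⟨x', by simp, hx'⟩
      · refine ⟨x' ++ [a] ++ y', by simp, ?_⟩
        rw [run_append, e1, hy']
  · intro hw
    have key : ∀ (n : ℕ) (w : List α), w.length ≤ n →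
        (w = [] ∨ ∃ w', w = w' ++ [a] ∧ run step (step p0 a) w' = p0) →
          ∃ ts : List (Ty rstep), w ∈ Subst.dec (XT step rstep p0 a) ts := by
      intro n
      induction n with
      | zero =>
        intro w hlen _
        have : w = [] := List.length_eq_zero_iff.mp (Nat.le_zero.mp hlen)
        subst this
        exact ⟨[], rfl⟩
      | succ n ih =>
        intro w hlen hw
        rcases hw with rfl | ⟨w', rfl, hw'⟩
        · exact ⟨[], rfl⟩
        · have hc : cnt step (tev p0 a) (step p0 a) (w' ++ [a]) ≠ 0 := by
            have he : tev p0 a p0 a := ⟨rfl, rfl⟩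
            rw [cnt_append, hw', cnt_cons, cnt_nil, if_pos he]
            omega
          obtain ⟨k, v, hkv, hk⟩ := haveev (hcut step p0 a) _ _ hc
          obtain ⟨e1, _⟩ := kp_facts (hcut step p0 a) k _ hk
          have hkne : k ≠ [] := by
            rintro rfl
            exact (hcut step p0 a).ne_done _ hk
          have hv : v = [] ∨ ∃ v', v = v' ++ [a] ∧ run step (step p0 a) v' = p0 := by
            rcases List.eq_nil_or_concat' v with rfl | ⟨v', c, rfl⟩
            · exact Or.inl rfl
            · right
              rw [← List.append_assoc] at hkv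
              have h2 := List.append_inj' hkv rfl
              have h3 : a = c := by simpa using h2.2
              subst h3
              refine ⟨v', rfl, ?_⟩
              have h6 := hw'
              rw [h2.1, run_append, e1] at h6
              exact h6
          have hlen' : v.length ≤ n := by
            have h4 := congrArg List.length hkv
            simp only [List.length_append, List.length_cons, List.length_nil] at h4 hlen
            have h5 : 0 < k.length := List.length_pos_of_ne_nil hkne
            omega
          obtain ⟨ts, hts⟩ := ih v hlen' hv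
          refine ⟨tyOf rstep k :: ts, ?_⟩
          rw [hkv, Subst.dec_cons]
          exact Language.mem_mul.mpr ⟨k, ⟨hk, rfl⟩, v, hts, rfl⟩
    exact key w.length w le_rfl hw

end Code

/-! ### Expressions -/

section Main

variable [Fintype α] [Fintype σ] [Fintype ρ]

lemma xt_starFree (step : σ → α → σ) (hM : CounterFree step) (rstep : ρ → α → ρ)
    (hR : CounterFree rstep) (p0 : σ) (a : α) (f : Ty rstep) :
    ∃ e : GRegex α, e.starHeight = 0 ∧ e.lang = XT step rstep p0 a f := by
  obtain ⟨eK, hK0, hKl⟩ := starFree_of_counterFree (cutStep step (tev p0 a))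
    (hcf_cut step p0 a hM) (Sum.inl (step p0 a)) (Sum.inr false)
  have hRr := fun r : ρ => starFree_of_counterFree rstep hR r (f.1 r)
  choose eR hR0 hRl using hRr
  refine ⟨GRegex.inter eK (GRegex.interOver (fun r => (eR r).rev)), ?_, ?_⟩
  · rw [GRegex.starHeight_inter, hK0]
    have := GRegex.starHeight_interOver_le (fun r => (eR r).rev) 0
      (fun r => by rw [GRegex.starHeight_rev, hR0 r])
    omega
  · ext x
    rw [GRegex.mem_lang_inter, GRegex.mem_lang_interOver, hKl]
    constructor
    · rintro ⟨h1, h2⟩
      refine ⟨h1, ?_⟩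
      funext r
      have := h2 r
      rw [GRegex.mem_lang_rev, hRl] at this
      exact this
    · rintro ⟨h1, h2⟩
      refine ⟨h1, fun r => ?_⟩
      rw [GRegex.mem_lang_rev, hRl]
      exact congrFun h2 r

lemma u_starFree (step : σ → α → σ) (hM : CounterFree step) (rstep : ρ → α → ρ)
    (p0 : σ) (a : α) :
    ∃ U : GRegex α, U.starHeight = 0 ∧
      U.lang = {w | ∃ ts : List (Ty rstep), w ∈ Subst.dec (XT step rstep p0 a) ts} := by
  obtain ⟨eP, hP0, hPl⟩ := starFree_of_counterFree step hM (step p0 a) p0
  refine ⟨GRegex.union GRegex.one (GRegex.concat eP (GRegex.letter a)), ?_, ?_⟩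
  · simp [GRegex.starHeight, hP0]
  · ext w
    show _ ↔ ∃ ts : List (Ty rstep), w ∈ Subst.dec (XT step rstep p0 a) ts
    rw [dec_iff, GRegex.mem_lang_union, GRegex.mem_lang_one, GRegex.mem_lang_concat]
    constructor
    · rintro (h | ⟨w', hw', x, hx, rfl⟩)
      · exact Or.inl h
      · rw [GRegex.mem_lang_letter] at hx
        subst hx
        rw [hPl] at hw'
        exact Or.inr ⟨w', rfl, hw'⟩
    · rintro (h | ⟨w', rfl, hw'⟩)
      · exact Or.inl h
      · exact Or.inr ⟨w', by rw [hPl]; exact hw', [a], rfl, rfl⟩

lemma ty_expr (rstep : ρ → α → ρ) (hR : CounterFree rstep) (s r : ρ) (N : ℕ) [NeZero N]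
    (κ : ZMod N) :
    ∃ e : GRegex (Ty rstep), e.starHeight ≤ 1 ∧
      e.lang = {ts | ((cntT rstep s ts r : ℕ) : ZMod N) = κ} := by
  have hF := fib1_count_free (tstep rstep) (tevT rstep s) s (fun _ _ h => h)
    (fun u q n hn hrun _ => counterFree_tstep rstep hR u q n hn hrun) N r
  obtain ⟨e, he1, he2⟩ := (hF.comp Prod.fst) (κ - (if r = s then 1 else 0))
  refine ⟨e.rev, by rw [GRegex.starHeight_rev]; exact he1, ?_⟩
  ext ts
  rw [GRegex.mem_lang_rev, he2]
  show ((cnt (tstep rstep) (tevT rstep s) r ts.reverse : ℕ) : ZMod N) = κ - _ ↔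
    ((cntT rstep s ts r : ℕ) : ZMod N) = κ
  rw [cntT_eq]
  push_cast
  constructor
  · intro h; rw [h]; ring
  · intro h; rw [← h]; ring

/-- **Two-sided counting modulo `N`.** -/
theorem fib_cnt2 (step : σ → α → σ) (hM : CounterFree step) (rstep : ρ → α → ρ)
    (hR : CounterFree rstep) (p0 : σ) (a : α) (s : ρ) (q0 : σ) (r0 : ρ) (N : ℕ) [NeZero N] :
    Fib1 (fun w : List α => ((cnt2 step rstep p0 a s q0 w r0 : ℕ) : ZMod N)) := by
  intro κ
  have hcs := hcf_cut step p0 a hM
  have hC := hcut step p0 a
  obtain ⟨eK0, hK00, hK0l⟩ := starFree_of_counterFree (cutStep step (tev p0 a)) hcs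
    (Sum.inl q0) (Sum.inr false)
  have hT0 := fun s' : σ => starFree_of_counterFree (cutStep step (tev p0 a)) hcs
    (Sum.inl q0) (Sum.inl s')
  choose eT0 hT00 hT0l using hT0
  have hTp := fun s' : σ => starFree_of_counterFree (cutStep step (tev p0 a)) hcs
    (Sum.inl (step p0 a)) (Sum.inl s')
  choose eTp hTp0 hTpl using hTp
  have hRr := fun r : ρ => starFree_of_counterFree rstep hR r0 r
  choose eRr hRr0 hRrl using hRr
  obtain ⟨U, hU0, hUl⟩ := u_starFree step hM rstep p0 a
  have hE : ∀ r : ρ, ∃ e' : GRegex α, e'.starHeight ≤ 1 ∧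
      e'.lang = Subst.img (XT step rstep p0 a)
        {ts | ((cntT rstep s ts r : ℕ) : ZMod N) = κ} := by
    intro r
    obtain ⟨e, he1, he2⟩ := ty_expr rstep hR s r N κ
    obtain ⟨e', h1, h2⟩ := Subst.subst (XT step rstep p0 a)
      (xt_starFree step hM rstep hR p0 a) U hU0 hUl uniq e
    exact ⟨e', le_trans h1 he1, by rw [h2, he2]⟩
  choose E hE1 hEl using hE
  refine ⟨GRegex.union (if κ = 0 then GRegex.sumOver eT0 else GRegex.zero)
    (GRegex.sumOver (fun r : ρ => GRegex.concat eK0 (GRegex.concat (E r)
      (GRegex.inter (GRegex.sumOver eTp) (eRr r).rev)))), ?_, ?_⟩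
  · simp only [GRegex.starHeight]
    apply max_le
    · split_ifs
      · exact GRegex.starHeight_sumOver_le _ 1 (fun s' => by rw [hT00]; omega)
      · simp [GRegex.starHeight]
    · apply GRegex.starHeight_sumOver_le
      intro r
      have h3 := GRegex.starHeight_sumOver_le eTp 0 (fun s' => by rw [hTp0])
      simp only [GRegex.starHeight, GRegex.starHeight_inter, GRegex.starHeight_rev, hK00,
        hRr0]
      have := hE1 r
      omega
  · ext w
    rw [GRegex.mem_lang_union]
    show _ ↔ ((cnt2 step rstep p0 a s q0 w r0 : ℕ) : ZMod N) = κ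
    constructor
    · rintro (hw | hw)
      · by_cases hκ : κ = 0
        · rw [if_pos hκ, GRegex.mem_lang_sumOver] at hw
          obtain ⟨s', hs'⟩ := hw
          rw [hT0l] at hs'
          obtain ⟨_, e2⟩ := tp_facts hC w q0 s' hs'
          rw [cnt2_noev step rstep p0 a s w q0 r0 e2, hκ]
          simp
        · rw [if_neg hκ] at hw
          exact hw.elim
      · rw [GRegex.mem_lang_sumOver] at hw
        obtain ⟨r, hr⟩ := hw
        rw [GRegex.mem_lang_concat] at hr
        obtain ⟨k, hk, v, hv, rfl⟩ := hr
        rw [GRegex.mem_lang_concat] at hv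
        obtain ⟨y, hy, t, ht, rfl⟩ := hv
        rw [hK0l] at hk
        rw [hEl] at hy
        obtain ⟨ts, hts, hy⟩ := hy
        rw [GRegex.mem_lang_inter, GRegex.mem_lang_sumOver, GRegex.mem_lang_rev, hRrl] at ht
        obtain ⟨⟨s', hs'⟩, htr⟩ := ht
        rw [hTpl] at hs'
        obtain ⟨_, e2⟩ := tp_facts hC t _ s' hs'
        rw [full s k y t ts q0 r0 hk hy e2]
        have htr' : run rstep r0 t.reverse = r := htr
        rw [htr']
        exact hts
    · intro hw
      by_cases hc : cnt step (tev p0 a) q0 w = 0
      · left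
        have hκ : κ = 0 := by
          rw [← hw, cnt2_noev step rstep p0 a s w q0 r0 hc]
          simp
        rw [if_pos hκ, GRegex.mem_lang_sumOver]
        refine ⟨run step q0 w, ?_⟩
        rw [hT0l]
        exact noev hC w q0 hc
      · right
        obtain ⟨k, v, rfl, hk⟩ := haveev hC w q0 hc
        have hv := (mem_pow_mul_iff hC (run step (step p0 a) v)
          (cnt step (tev p0 a) (step p0 a) v) v).mpr ⟨rfl, rfl⟩
        obtain ⟨y, hy, t, ht, rfl⟩ := Language.mem_mul.mp hv
        obtain ⟨ts, hts⟩ := pow_dec (rstep := rstep) _ y hy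
        obtain ⟨_, e2⟩ := tp_facts hC t _ _ ht
        rw [GRegex.mem_lang_sumOver]
        refine ⟨run rstep r0 t.reverse, ?_⟩
        rw [GRegex.mem_lang_concat]
        refine ⟨k, by rw [hK0l]; exact hk, y ++ t, ?_, rfl⟩
        rw [GRegex.mem_lang_concat]
        refine ⟨y, ?_, t, ?_, rfl⟩
        · rw [hEl]
          refine ⟨ts, ?_, hts⟩
          show ((cntT rstep s ts (run rstep r0 t.reverse) : ℕ) : ZMod N) = κ
          rw [← full s k y t ts q0 r0 hk hts e2]
          exact hw
        · rw [GRegex.mem_lang_inter, GRegex.mem_lang_sumOver, GRegex.mem_lang_rev, hRrl]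
          exact ⟨⟨_, by rw [hTpl]; exact ht⟩, rfl⟩

/-! ### Weights in a commutative group -/

variable {G : Type} [CommGroup G]

/-- The product, over the positions of the word, of the weights of the triples (state of the
left automaton before the position, letter, state of the right automaton after reading the
rest of the word from right to left). -/
def wprod (step : σ → α → σ) (rstep : ρ → α → ρ) (g : σ → α → ρ → G) (r0 : ρ) :
    σ → List α → G
  | _, [] => 1
  | q, b :: w => g q b (run rstep r0 w.reverse) * wprod step rstep g r0 (step q b) w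

lemma prod_single3 (g : σ → α → ρ → G) (q : σ) (b : α) (r : ρ) :
    ∏ t : σ × α × ρ, g t.1 t.2.1 t.2.2 ^
      (if q = t.1 ∧ b = t.2.1 ∧ r = t.2.2 then 1 else 0) = g q b r := by
  rw [Finset.prod_eq_single (q, b, r)]
  · simp
  · intro t _ ht
    have : ¬ (q = t.1 ∧ b = t.2.1 ∧ r = t.2.2) := by
      rintro ⟨h1, h2, h3⟩
      apply ht
      ext
      · exact h1.symm
      · exact h2.symm
      · exact h3.symm
    simp [this]
  · intro h
    exact absurd (Finset.mem_univ _) h

lemma wprod_eq (step : σ → α → σ) (rstep : ρ → α → ρ) (g : σ → α → ρ → G) (r0 : ρ) :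
    ∀ (w : List α) (q : σ), wprod step rstep g r0 q w =
      ∏ t : σ × α × ρ, g t.1 t.2.1 t.2.2 ^ cnt2 step rstep t.1 t.2.1 t.2.2 q w r0 := by
  intro w
  induction w with
  | nil =>
    intro q
    simp [wprod, cnt2]
  | cons b w ih =>
    intro q
    have h1 : ∀ t : σ × α × ρ, g t.1 t.2.1 t.2.2 ^ cnt2 step rstep t.1 t.2.1 t.2.2 q (b :: w) r0 =
        g t.1 t.2.1 t.2.2 ^ (if q = t.1 ∧ b = t.2.1 ∧ run rstep r0 w.reverse = t.2.2
          then 1 else 0) *
        g t.1 t.2.1 t.2.2 ^ cnt2 step rstep t.1 t.2.1 t.2.2 (step q b) w r0 := by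
      intro t
      rw [cnt2, pow_add]
    rw [Finset.prod_congr rfl (fun t _ => h1 t), Finset.prod_mul_distrib, prod_single3,
      wprod, ih]

/-- **Two-sided weights in a finite commutative group.** -/
theorem main [Fintype G] (step : σ → α → σ) (hM : CounterFree step) (rstep : ρ → α → ρ)
    (hR : CounterFree rstep) (g : σ → α → ρ → G) (q0 : σ) (r0 : ρ) (P : Set G) :
    ∃ e : GRegex α, e.starHeight ≤ 1 ∧
      e.lang = {w : List α | wprod step rstep g r0 q0 w ∈ P} := by
  have hN : NeZero (Fintype.card G) := ⟨Fintype.card_ne_zero⟩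
  have f1 : Fib1 (fun (w : List α) (t : σ × α × ρ) =>
      ((cnt2 step rstep t.1 t.2.1 t.2.2 q0 w r0 : ℕ) : ZMod (Fintype.card G))) :=
    Fib1.pi (fun t => fib_cnt2 step hM rstep hR t.1 t.2.1 t.2.2 q0 r0 (Fintype.card G))
  have f := f1.comp (fun v : σ × α × ρ → ZMod (Fintype.card G) =>
    ∏ t : σ × α × ρ, g t.1 t.2.1 t.2.2 ^ (v t).val)
  have f' : Fib1 (fun w : List α => wprod step rstep g r0 q0 w) := by
    refine f.congr ?_
    intro w
    rw [wprod_eq]
    apply Finset.prod_congr rfl
    intro t _
    rw [ZMod.val_natCast, pow_mod_card]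
  exact f'.set P

end Main

end TwoSided

end Vale.Agent.Lib.P329
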