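import Vale.Agent.Lib.P329.TwoSided
import Vale.Agent.Lib.P329.Tower

/-!
A counter-free automaton on top of the two-sided weights: the bottom level carries, for every
state `r` of the right automaton, the two-sided product of the word read so far with the right
automaton started in `r`; a counter-free automaton reads this together with the letters.
-/

set_option linter.unusedSectionVars false

namespace Vale.Agent.Lib.P329

open Classical

namespace TwoSided

open SF

variable {α σ ρ τ G : Type} [CommGroup G]

/-- The automaton carrying the state of the left automaton and, for every state `r` of the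
right automaton, a register: on the letter `b`, the new register at `r` is the old register
at `rstep r b` times the weight `g q b r`. -/
def nstep (step : σ → α → σ) (rstep : ρ → α → ρ) (g : σ → α → ρ → G) :
    σ × (ρ → G) → α → σ × (ρ → G) :=
  fun s b => (step s.1 b, fun r => s.2 (rstep r b) * g s.1 b r)

/-- The register at `r` is the two-sided product with the right automaton started in `r`. -/
lemma run_nstep (step : σ → α → σ) (rstep : ρ → α → ρ) (g : σ → α → ρ → G) :
    ∀ (w : List α) (q : σ) (Y : ρ → G), run (nstep step rstep g) (q, Y) w =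
      (run step q w, fun r => Y (run rstep r w.reverse) * wprod step rstep g r q w) := by
  intro w
  induction w with
  | nil =>
    intro q Y
    show (q, Y) = (q, fun r => Y r * 1)
    congr 1
    funext r
    rw [mul_one]
  | cons b u ih =>
    intro q Y
    rw [run_cons]
    show run (nstep step rstep g) (step q b, fun r => Y (rstep r b) * g q b r) u = _
    rw [ih, run_cons]
    congr 1
    funext r
    rw [List.reverse_cons, run_append]
    show Y (rstep (run rstep r u.reverse) b) * g q b (run rstep r u.reverse) *
        wprod step rstep g r (step q b) u =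
      Y (rstep (run rstep r u.reverse) b) *
        (g q b (run rstep r u.reverse) * wprod step rstep g r (step q b) u)
    rw [mul_assoc]

/-- The transition languages of the register automaton have star height at most one. -/
lemma nstep_trans [Fintype α] [Fintype σ] [Fintype ρ] [Fintype G] (step : σ → α → σ)
    (hM : CounterFree step) (rstep : ρ → α → ρ) (hR : CounterFree rstep)
    (g : σ → α → ρ → G) (s s' : σ × (ρ → G)) :
    ∃ e : GRegex α, e.starHeight ≤ 1 ∧
      e.lang = {w | run (nstep step rstep g) s w = s'} := by
  have fa : Fib1 (fun w : List α => run step s.1 w) := by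
    intro q'
    obtain ⟨e, he0, hel⟩ := starFree_of_counterFree step hM s.1 q'
    exact ⟨e, by rw [he0]; exact Nat.zero_le _, hel⟩
  have fb : ∀ r : ρ, Fib1 (fun w : List α => run rstep r w.reverse) := by
    intro r r'
    obtain ⟨e, he0, hel⟩ := starFree_of_counterFree rstep hR r r'
    refine ⟨e.rev, by rw [GRegex.starHeight_rev, he0]; exact Nat.zero_le _, ?_⟩
    ext w
    rw [GRegex.mem_lang_rev, hel]
    rfl
  have fc : ∀ r : ρ, Fib1 (fun w : List α => wprod step rstep g r s.1 w) := by
    intro r x
    obtain ⟨e, he1, hel⟩ := main step hM rstep hR g s.1 r {x}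
    exact ⟨e, he1, by rw [hel]; rfl⟩
  have f := (fa.pair (Fib1.pi (fun r => (fb r).pair (fc r)))).comp
    (fun v : σ × (∀ _ : ρ, ρ × G) => (v.1, fun r => s.2 (v.2 r).1 * (v.2 r).2))
  have f' : Fib1 (fun w : List α => run (nstep step rstep g) s w) := by
    refine f.congr ?_
    intro w
    have h := run_nstep step rstep g w s.1 s.2
    have hs : s = (s.1, s.2) := rfl
    rw [hs, h]
  exact f' s'

/-- **A counter-free automaton on top of two-sided weights.** -/
theorem tower [Fintype α] [Fintype σ] [Fintype ρ] [Fintype τ] [Fintype G] (M : DFA α σ)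
    (hM : ∀ (q : σ) (u : List α) (n : ℕ), 0 < n →
      M.evalFrom q (List.replicate n u).flatten = q → M.evalFrom q u = q)
    (R : DFA α ρ)
    (hR : ∀ (r : ρ) (u : List α) (n : ℕ), 0 < n →
      R.evalFrom r (List.replicate n u).flatten = r → R.evalFrom r u = r)
    (g : σ → α → ρ → G) (T : DFA ((σ × (ρ → G)) × α) τ)
    (hT : ∀ (t : τ) (u : List ((σ × (ρ → G)) × α)) (n : ℕ), 0 < n →
      T.evalFrom t (List.replicate n u).flatten = t → T.evalFrom t u = t)
    (P : Set ((σ × (ρ → G)) × τ)) :
    ∃ e : GRegex α, e.starHeight ≤ 1 ∧
      e.lang = {w : List α | w.foldl (fun (s : (σ × (ρ → G)) × τ) (a : α) =>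
        ((M.step s.1.1 a, fun r => s.1.2 (R.step r a) * g s.1.1 a r), T.step s.2 (s.1, a)))
        ((M.start, fun _ => 1), T.start) ∈ P} := by
  have hcM : CounterFree M.step := by
    intro u q n hn hrun
    rw [Cascade.rep_eq] at hrun
    exact hM q u n hn hrun
  have hcR : CounterFree R.step := by
    intro u r n hn hrun
    rw [Cascade.rep_eq] at hrun
    exact hR r u n hn hrun
  have hcT : CounterFree T.step := by
    intro u t n hn hrun
    rw [Cascade.rep_eq] at hrun
    exact hT t u n hn hrun
  obtain ⟨e, he1, he2⟩ := Tower.cascade_top (nstep M.step R.step g)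
    (nstep_trans M.step hcM R.step hcR g) T.step hcT (M.start, fun _ => 1) T.start P
  refine ⟨e, he1, ?_⟩
  rw [he2]
  ext w
  have := Tower.foldl_two (nstep M.step R.step g) T.step w (M.start, fun _ => 1) T.start
  show _ ↔ w.foldl (fun (s : (σ × (ρ → G)) × τ) (a : α) =>
    (nstep M.step R.step g s.1 a, T.step s.2 (s.1, a))) ((M.start, fun _ => 1), T.start) ∈ P
  rw [this]
  rfl

end TwoSided

end Vale.Agent.Lib.P329
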