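import Vale.Agent.Lib.P329.Z3Tab
import Vale.Agent.Lib.P329.Events
import Vale.Agent.Lib.P329.Metab

/-!
Counting, modulo `N`, the occurrences of a letter at a given phase of the cyclic group of
order three, over the three-letter alphabets obtained after merging and erasing letters.
-/

namespace Vale.Agent.Lib.P329

namespace Z3A

open SF Ev Z3T

/-! ### Block automata -/

/-- The embedding of the states of a block automaton into those of its cut automata. -/
def emb68 : Fin 6 → Fin 8 := Fin.castLE (by decide)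

/-- Events of kind 0: all arrivals at the checkpoint state `0`. -/
def ev0 (d : Fin 6 → Fin 3 → Fin 6) (q : Fin 6) (a : Fin 3) : Prop := d q a = 0

instance (d : Fin 6 → Fin 3 → Fin 6) (q : Fin 6) (a : Fin 3) : Decidable (ev0 d q a) := by
  unfold ev0; infer_instance

/-- Events of kind 1: arrivals at the checkpoint that do not complete a marked block. -/
def ev1 (d : Fin 6 → Fin 3 → Fin 6) (b : Fin 3 → Bool) (q : Fin 6) (a : Fin 3) : Prop :=
  d q a = 0 ∧ (q = 2 ∨ q = 3 ∨ (q = 1 ∧ b a = false))

instance (d : Fin 6 → Fin 3 → Fin 6) (b : Fin 3 → Bool) (q : Fin 6) (a : Fin 3) :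
    Decidable (ev1 d b q a) := by
  unfold ev1; infer_instance

/-- The transitions that mark a block: the second letter, read in state `1`. -/
def zev (b : Fin 3 → Bool) (q : Fin 6) (a : Fin 3) : Prop := q = 1 ∧ b a = true

instance (b : Fin 3 → Bool) (q : Fin 6) (a : Fin 3) : Decidable (zev b q a) := by
  unfold zev; infer_instance

/-- Indicator of the states inside a marked block. -/
def hF (q : Fin 6) : ℤ := if q = 4 ∨ q = 5 then 1 else 0

lemma zform (d : Fin 6 → Fin 3 → Fin 6) (b : Fin 3 → Bool)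
    (hid : ∀ q a, ((if zev b q a then 1 else 0) - (if ev0 d q a then 1 else 0)
      + (if ev1 d b q a then 1 else 0) : ℤ) = hF (d q a) - hF q) :
    ∀ (w : List (Fin 3)) (q0 : Fin 6), (cnt d (zev b) q0 w : ℤ) =
      cnt d (ev0 d) q0 w - cnt d (ev1 d b) q0 w + hF (run d q0 w) - hF q0 := by
  intro w
  induction w with
  | nil => intro q0; simp [cnt_nil]
  | cons a w ih =>
    intro q0
    rw [cnt_cons, cnt_cons, cnt_cons, run_cons]
    have h1 := hid q0 a
    have h2 := ih (d q0 a)
    push_cast
    linarith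

theorem fibZ (d : Fin 6 → Fin 3 → Fin 6) (b : Fin 3 → Bool) (g0 s0 g1 s1 : List (List ℕ))
    (hl0 : g0.length = 3) (hl1 : g1.length = 3)
    (k0 : Cert.Check 8 g0 s0) (k1 : Cert.Check 8 g1 s1)
    (c0 : Cut d (ev0 d) 0 (Cert.tstep 8 3 g0) emb68 6 7)
    (c1 : Cut d (ev1 d b) 0 (Cert.tstep 8 3 g1) emb68 6 7)
    (hid : ∀ q a, ((if zev b q a then 1 else 0) - (if ev0 d q a then 1 else 0)
      + (if ev1 d b q a then 1 else 0) : ℤ) = hF (d q a) - hF q)
    (M : ℕ) [NeZero M] (q0 : Fin 6) (hq0 : hF q0 = 0) :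
    Fib1 (fun w : List (Fin 3) => (((cnt d (zev b) q0 w : ℕ) : ZMod M), run d q0 w)) := by
  have f0 := fib1_count c0 (Cert.counterFree_of_check 8 3 g0 s0 hl0 k0) M q0
  have f1 := fib1_count c1 (Cert.counterFree_of_check 8 3 g1 s1 hl1 k1) M q0
  have f := (f0.pair f1).comp (fun x : (ZMod M × Fin 6) × (ZMod M × Fin 6) =>
    (x.1.1 - x.2.1 + ((hF x.1.2 : ℤ) : ZMod M), x.1.2))
  refine f.congr ?_
  intro w
  have hz := zform d b hid w q0
  rw [hq0, sub_zero] at hz
  have hz' := congrArg (Int.cast : ℤ → ZMod M) hz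
  push_cast at hz'
  simp only [Prod.mk.injEq, and_true]
  rw [hz']

/-- The block automaton for blocks `x c` with `c ≠ x`. -/
def dU : Fin 6 → Fin 3 → Fin 6 := Cert.tstep 6 3 gU
/-- Second letters of the marked blocks of `dU`. -/
def bU : Fin 3 → Bool := ![false, true, true]
/-- The block automaton for blocks `y x`. -/
def dYX : Fin 6 → Fin 3 → Fin 6 := Cert.tstep 6 3 gYX
/-- Second letters of the marked blocks of `dYX`. -/
def bYX : Fin 3 → Bool := ![true, false, false]
/-- The block automaton for blocks `z x`. -/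
def dZX : Fin 6 → Fin 3 → Fin 6 := Cert.tstep 6 3 gZX
/-- Second letters of the marked blocks of `dZX`. -/
def bZX : Fin 3 → Bool := ![true, false, false]

theorem cutU0 : Cut dU (ev0 dU) 0 (Cert.tstep 8 3 gU0) emb68 6 7 where
  inj := Fin.castLE_injective _
  ne_done := by decide
  ne_dead := by decide
  done_ne := by decide
  step_ev := by decide
  step_nev := by decide
  step_done := by decide
  step_dead := by decide
  ev_base := fun _ _ h => h

theorem cutU1 : Cut dU (ev1 dU bU) 0 (Cert.tstep 8 3 gU1) emb68 6 7 where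
  inj := Fin.castLE_injective _
  ne_done := by decide
  ne_dead := by decide
  done_ne := by decide
  step_ev := by decide
  step_nev := by decide
  step_done := by decide
  step_dead := by decide
  ev_base := fun _ _ h => h.1

theorem identU : ∀ q a, ((if zev bU q a then 1 else 0) - (if ev0 dU q a then 1 else 0)
    + (if ev1 dU bU q a then 1 else 0) : ℤ) = hF (dU q a) - hF q := by decide

theorem cutYX0 : Cut dYX (ev0 dYX) 0 (Cert.tstep 8 3 gYX0) emb68 6 7 where
  inj := Fin.castLE_injective _
  ne_done := by decide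
  ne_dead := by decide
  done_ne := by decide
  step_ev := by decide
  step_nev := by decide
  step_done := by decide
  step_dead := by decide
  ev_base := fun _ _ h => h

theorem cutYX1 : Cut dYX (ev1 dYX bYX) 0 (Cert.tstep 8 3 gYX1) emb68 6 7 where
  inj := Fin.castLE_injective _
  ne_done := by decide
  ne_dead := by decide
  done_ne := by decide
  step_ev := by decide
  step_nev := by decide
  step_done := by decide
  step_dead := by decide
  ev_base := fun _ _ h => h.1

theorem identYX : ∀ q a, ((if zev bYX q a then 1 else 0) - (if ev0 dYX q a then 1 else 0)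
    + (if ev1 dYX bYX q a then 1 else 0) : ℤ) = hF (dYX q a) - hF q := by decide

theorem cutZX0 : Cut dZX (ev0 dZX) 0 (Cert.tstep 8 3 gZX0) emb68 6 7 where
  inj := Fin.castLE_injective _
  ne_done := by decide
  ne_dead := by decide
  done_ne := by decide
  step_ev := by decide
  step_nev := by decide
  step_done := by decide
  step_dead := by decide
  ev_base := fun _ _ h => h

theorem cutZX1 : Cut dZX (ev1 dZX bZX) 0 (Cert.tstep 8 3 gZX1) emb68 6 7 where
  inj := Fin.castLE_injective _
  ne_done := by decide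
  ne_dead := by decide
  done_ne := by decide
  step_ev := by decide
  step_nev := by decide
  step_done := by decide
  step_dead := by decide
  ev_base := fun _ _ h => h.1

theorem identZX : ∀ q a, ((if zev bZX q a then 1 else 0) - (if ev0 dZX q a then 1 else 0)
    + (if ev1 dZX bZX q a then 1 else 0) : ℤ) = hF (dZX q a) - hF q := by decide

/-! ### The phase automaton and the pattern automaton -/

/-- Phase increments of the letters `x = 0`, `y = 1`, `z = 2`. -/
def kP : Fin 3 → ZMod 3 := ![1, 1, 2]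

/-- The phase automaton. -/
def rstep (q : ZMod 3) (a : Fin 3) : ZMod 3 := q + kP a

/-- The letter `x` is read at phase `j`. -/
def rX (j : ZMod 3) (q : ZMod 3) (a : Fin 3) : Prop := q = j ∧ a = 0

instance (j q : ZMod 3) (a : Fin 3) : Decidable (rX j q a) := by unfold rX; infer_instance

/-- The pattern automaton: the phase together with the last letter. -/
def pstep (p : ZMod 3 × Fin 3) (a : Fin 3) : ZMod 3 × Fin 3 := (p.1 + kP a, a)

/-- The letter `x` is read at phase `j`. -/
def pX (j : ZMod 3) (p : ZMod 3 × Fin 3) (a : Fin 3) : Prop := p.1 = j ∧ a = 0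

instance (j : ZMod 3) (p : ZMod 3 × Fin 3) (a : Fin 3) : Decidable (pX j p a) := by
  unfold pX; infer_instance

/-- A letter other than `x` is read right after an `x` read at phase `j`. -/
def pZU (j : ZMod 3) (p : ZMod 3 × Fin 3) (a : Fin 3) : Prop := p.1 = j + 1 ∧ p.2 = 0 ∧ a ≠ 0

instance (j : ZMod 3) (p : ZMod 3 × Fin 3) (a : Fin 3) : Decidable (pZU j p a) := by
  unfold pZU; infer_instance

/-- The letter `x` is read right after a `y` read at phase `j`. -/
def pZyx (j : ZMod 3) (p : ZMod 3 × Fin 3) (a : Fin 3) : Prop := p.1 = j + 1 ∧ p.2 = 1 ∧ a = 0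

instance (j : ZMod 3) (p : ZMod 3 × Fin 3) (a : Fin 3) : Decidable (pZyx j p a) := by
  unfold pZyx; infer_instance

/-- The letter `x` is read right after a `z` read at phase `j + 2`. -/
def pZzx (j : ZMod 3) (p : ZMod 3 × Fin 3) (a : Fin 3) : Prop := p.1 = j + 1 ∧ p.2 = 2 ∧ a = 0

instance (j : ZMod 3) (p : ZMod 3 × Fin 3) (a : Fin 3) : Decidable (pZzx j p a) := by
  unfold pZzx; infer_instance

/-- Indicator: the last letter was an `x` read at phase `j`. -/
def ph (j : ZMod 3) (p : ZMod 3 × Fin 3) : ℤ := if p.1 = j + 1 ∧ p.2 = 0 then 1 else 0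

theorem ident2 : ∀ (j : ZMod 3) (p : ZMod 3 × Fin 3) (a : Fin 3),
    ((if pX j p a then 1 else 0) - (if pX (j + 1) p a then 1 else 0)
      - (if pZU j p a then 1 else 0) + (if pZyx j p a then 1 else 0)
      + (if pZzx j p a then 1 else 0) : ℤ) = ph j (pstep p a) - ph j p := by decide

lemma patform (j : ZMod 3) : ∀ (w : List (Fin 3)) (p : ZMod 3 × Fin 3),
    (cnt pstep (pX j) p w : ℤ) - cnt pstep (pX (j + 1)) p w - cnt pstep (pZU j) p w
      + cnt pstep (pZyx j) p w + cnt pstep (pZzx j) p w = ph j (run pstep p w) - ph j p := by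
  intro w
  induction w with
  | nil => intro p; simp [cnt_nil]
  | cons a w ih =>
    intro p
    rw [cnt_cons, cnt_cons, cnt_cons, cnt_cons, cnt_cons, run_cons]
    have h1 := ident2 j p a
    have h2 := ih (pstep p a)
    push_cast
    linarith

lemma simR (j : ZMod 3) (w : List (Fin 3)) (s : ZMod 3) (l : Fin 3) :
    cnt pstep (pX j) (s, l) w = cnt rstep (rX j) s w := by
  apply cnt_eq_of_sim pstep rstep (pX j) (rX j) (fun p q => p.1 = q)
  · rintro p q a rfl
    exact ⟨Iff.rfl, rfl⟩
  · rfl

/-- Phases of the states of the block automata `dU` and `dYX`. -/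
def phD1 : Fin 6 → ZMod 3 := ![0, 1, 1, 2, 1, 2]

/-- Phases of the states of the block automaton `dZX`. -/
def phD2 : Fin 6 → ZMod 3 := ![0, 2, 1, 2, 1, 2]

/-- The states of `dU` and of the pattern automaton correspond (checkpoint `j`). -/
def InvU (j : ZMod 3) (p : ZMod 3 × Fin 3) (q : Fin 6) : Prop :=
  phD1 q = p.1 - j ∧ (q = 1 ↔ (p.1 = j + 1 ∧ p.2 = 0))

instance (j : ZMod 3) (p : ZMod 3 × Fin 3) (q : Fin 6) : Decidable (InvU j p q) := by
  unfold InvU; infer_instance

/-- The states of `dYX` and of the pattern automaton correspond (checkpoint `j`). -/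
def InvYX (j : ZMod 3) (p : ZMod 3 × Fin 3) (q : Fin 6) : Prop :=
  phD1 q = p.1 - j ∧ (q = 1 ↔ (p.1 = j + 1 ∧ p.2 = 1))

instance (j : ZMod 3) (p : ZMod 3 × Fin 3) (q : Fin 6) : Decidable (InvYX j p q) := by
  unfold InvYX; infer_instance

/-- The states of `dZX` and of the pattern automaton correspond (checkpoint `j + 2`). -/
def InvZX (j : ZMod 3) (p : ZMod 3 × Fin 3) (q : Fin 6) : Prop :=
  phD2 q = p.1 - (j + 2) ∧ (q = 1 ↔ (p.1 = j + 1 ∧ p.2 = 2))

instance (j : ZMod 3) (p : ZMod 3 × Fin 3) (q : Fin 6) : Decidable (InvZX j p q) := by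
  unfold InvZX; infer_instance

/-- Start state of `dU` and `dZX` for a start phase `r` relative to the checkpoint. -/
def stU (r : ZMod 3) : Fin 6 := if r = 0 then 0 else if r = 1 then 2 else 3

/-- Start state of `dYX` for a start phase `r` relative to the checkpoint. -/
def stYX (r : ZMod 3) : Fin 6 := if r = 0 then 0 else if r = 1 then 1 else 3

theorem simU : ∀ (j : ZMod 3) (p : ZMod 3 × Fin 3) (q : Fin 6) (a : Fin 3), InvU j p q →
    (pZU j p a ↔ zev bU q a) ∧ InvU j (pstep p a) (dU q a) := by decide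

theorem simYX : ∀ (j : ZMod 3) (p : ZMod 3 × Fin 3) (q : Fin 6) (a : Fin 3), InvYX j p q →
    (pZyx j p a ↔ zev bYX q a) ∧ InvYX j (pstep p a) (dYX q a) := by decide

theorem simZX : ∀ (j : ZMod 3) (p : ZMod 3 × Fin 3) (q : Fin 6) (a : Fin 3), InvZX j p q →
    (pZzx j p a ↔ zev bZX q a) ∧ InvZX j (pstep p a) (dZX q a) := by decide

theorem startU : ∀ j s : ZMod 3, InvU j (s, 1) (stU (s - j)) := by decide

theorem startYX : ∀ j s : ZMod 3, InvYX j (s, 1) (stYX (s - j)) := by decide

theorem startZX : ∀ j s : ZMod 3, InvZX j (s, 1) (stU (s - (j + 2))) := by decide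

theorem ph_start : ∀ j s : ZMod 3, ph j (s, 1) = 0 := by decide

theorem hF_stU : ∀ r : ZMod 3, hF (stU r) = 0 := by decide

theorem hF_stYX : ∀ r : ZMod 3, hF (stYX r) = 0 := by decide

/-- The difference of the numbers of `x` read at phases `j` and `j + 1`, in terms of
marked blocks. -/
theorem Xdiff (j s : ZMod 3) (w : List (Fin 3)) :
    (cnt rstep (rX j) s w : ℤ) - cnt rstep (rX (j + 1)) s w =
      cnt dU (zev bU) (stU (s - j)) w - cnt dYX (zev bYX) (stYX (s - j)) w
        - cnt dZX (zev bZX) (stU (s - (j + 2))) w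
        + (if run dU (stU (s - j)) w = 1 then 1 else 0) := by
  have h1 := patform j w (s, 1)
  have e1 : cnt pstep (pX j) (s, 1) w = cnt rstep (rX j) s w := simR j w s 1
  have e2 : cnt pstep (pX (j + 1)) (s, 1) w = cnt rstep (rX (j + 1)) s w := simR (j + 1) w s 1
  have e3 : cnt pstep (pZU j) (s, 1) w = cnt dU (zev bU) (stU (s - j)) w :=
    cnt_eq_of_sim pstep dU _ _ (InvU j) (simU j) w _ _ (startU j s)
  have e4 : cnt pstep (pZyx j) (s, 1) w = cnt dYX (zev bYX) (stYX (s - j)) w :=
    cnt_eq_of_sim pstep dYX _ _ (InvYX j) (simYX j) w _ _ (startYX j s)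
  have e5 : cnt pstep (pZzx j) (s, 1) w = cnt dZX (zev bZX) (stU (s - (j + 2))) w :=
    cnt_eq_of_sim pstep dZX _ _ (InvZX j) (simZX j) w _ _ (startZX j s)
  have e6 : ph j (run pstep (s, 1) w) = if run dU (stU (s - j)) w = 1 then 1 else 0 := by
    have hinv := inv_run pstep dU (InvU j) (fun p q a h => (simU j p q a h).2) w _ _
      (startU j s)
    unfold ph
    by_cases hc : run dU (stU (s - j)) w = 1
    · rw [if_pos hc, if_pos (hinv.2.mp hc)]
    · rw [if_neg hc, if_neg (fun h => hc (hinv.2.mpr h))]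
  rw [e1, e2, e3, e4, e5, e6, ph_start] at h1
  linarith

theorem sum3 : ∀ (j q : ZMod 3) (a : Fin 3),
    ((if rX j q a then 1 else 0) + (if rX (j + 1) q a then 1 else 0)
      + (if rX (j + 2) q a then 1 else 0) : ℕ) = if a = 0 then 1 else 0 := by decide

lemma Xsum (j : ZMod 3) : ∀ (w : List (Fin 3)) (s : ZMod 3),
    cnt rstep (rX j) s w + cnt rstep (rX (j + 1)) s w + cnt rstep (rX (j + 2)) s w
      = w.count 0 := by
  intro w
  induction w with
  | nil => intro s; simp [cnt_nil]
  | cons a w ih =>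
    intro s
    rw [cnt_cons, cnt_cons, cnt_cons, List.count_cons]
    have h1 := sum3 j s a
    have h2 := ih (rstep s a)
    have h3 : (if (a == 0) = true then 1 else 0 : ℕ) = if a = 0 then 1 else 0 := by
      by_cases ha : a = 0 <;> simp [ha]
    rw [h3]
    omega

theorem fibDiff (M : ℕ) [NeZero M] (j s : ZMod 3) :
    Fib1 (fun w : List (Fin 3) => ((cnt rstep (rX j) s w : ℕ) : ZMod M)
      - ((cnt rstep (rX (j + 1)) s w : ℕ) : ZMod M)) := by
  have fU := fibZ dU bU gU0 sU0 gU1 sU1 rfl rfl chkU0 chkU1 cutU0 cutU1 identU M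
    (stU (s - j)) (hF_stU _)
  have fY := fibZ dYX bYX gYX0 sYX0 gYX1 sYX1 rfl rfl chkYX0 chkYX1 cutYX0 cutYX1 identYX M
    (stYX (s - j)) (hF_stYX _)
  have fZ := fibZ dZX bZX gZX0 sZX0 gZX1 sZX1 rfl rfl chkZX0 chkZX1 cutZX0 cutZX1 identZX M
    (stU (s - (j + 2))) (hF_stU _)
  have f := ((fU.pair fY).pair fZ).comp
    (fun x : ((ZMod M × Fin 6) × (ZMod M × Fin 6)) × (ZMod M × Fin 6) =>
      x.1.1.1 - x.1.2.1 - x.2.1 + (if x.1.1.2 = 1 then 1 else 0))
  refine f.congr ?_
  intro w
  have hd := Xdiff j s w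
  have hd' := congrArg (Int.cast : ℤ → ZMod M) hd
  push_cast at hd'
  simp only
  rw [hd']

lemma val_three_mul (N : ℕ) [NeZero N] (x : ℕ) :
    (((((3 * x : ℕ) : ZMod (3 * N)).val / 3 : ℕ)) : ZMod N) = (x : ZMod N) := by
  rw [ZMod.val_natCast, Nat.mul_mod_mul_left, Nat.mul_div_cancel_left _ (by norm_num : 0 < 3),
    ZMod.natCast_mod]

/-- **Counting `x` at a phase.** -/
theorem fibX (N : ℕ) [NeZero N] (j s : ZMod 3) :
    Fib1 (fun w : List (Fin 3) => ((cnt rstep (rX j) s w : ℕ) : ZMod N)) := by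
  haveI : NeZero (3 * N) := ⟨by have := NeZero.ne N; omega⟩
  have fT : Fib1 (fun w : List (Fin 3) => ((w.count 0 : ℕ) : ZMod (3 * N))) := by
    intro m
    obtain ⟨e, he1, he2⟩ := Metab.exists_regex_count (0 : Fin 3) (3 * N) m
    refine ⟨e, he1, ?_⟩
    rw [he2]
    ext w
    have hc : ∀ (i1 i2 : DecidableEq (Fin 3)),
        @List.count (Fin 3) (@instBEqOfDecidableEq _ i1) 0 w =
          @List.count (Fin 3) (@instBEqOfDecidableEq _ i2) 0 w := by
      intro i1 i2
      rw [Subsingleton.elim i1 i2]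
    show ((@List.count (Fin 3)
      (@instBEqOfDecidableEq _ (fun a b => Classical.propDecidable (a = b))) 0 w : ℕ) :
        ZMod (3 * N)) = m ↔ ((List.count 0 w : ℕ) : ZMod (3 * N)) = m
    rw [hc _ (fun a b => instDecidableEqFin 3 a b)]
  have f1 := fibDiff (3 * N) j s
  have f2 := fibDiff (3 * N) (j + 1) s
  have f := ((fT.pair f1).pair f2).comp
    (fun x : (ZMod (3 * N) × ZMod (3 * N)) × ZMod (3 * N) =>
      ((((x.1.1 + 2 * x.1.2 + x.2).val / 3 : ℕ)) : ZMod N))
  refine f.congr ?_
  intro w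
  have hs := Xsum j w s
  have hj : j + 1 + 1 = j + 2 := by ring
  simp only
  rw [← val_three_mul N (cnt rstep (rX j) s w), ← hs, hj]
  congr 3
  push_cast
  ring

/-! ### A letter that does not change the phase -/

/-- Phase increments of the letters `e = 0`, `y = 1`, `z = 2`. -/
def kE : Fin 3 → ZMod 3 := ![0, 1, 2]

/-- The phase automaton with a loop letter. -/
def estep (q : ZMod 3) (a : Fin 3) : ZMod 3 := q + kE a

/-- The letter `e` is read at phase `j`. -/
def eY (j : ZMod 3) (q : ZMod 3) (a : Fin 3) : Prop := q = j ∧ a = 0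

instance (j q : ZMod 3) (a : Fin 3) : Decidable (eY j q a) := by unfold eY; infer_instance

/-- Arrivals at phase `0` from another phase. -/
def evA (q : ZMod 3) (a : Fin 3) : Prop := q ≠ 0 ∧ estep q a = 0

instance (q : ZMod 3) (a : Fin 3) : Decidable (evA q a) := by unfold evA; infer_instance

/-- Arrivals at phase `0`, and the letter `e` read at phase `0`. -/
def evK (q : ZMod 3) (a : Fin 3) : Prop := estep q a = 0 ∧ (q ≠ 0 ∨ a = 0)

instance (q : ZMod 3) (a : Fin 3) : Decidable (evK q a) := by unfold evK; infer_instance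

/-- The embedding of the phases into the states of the cut automata. -/
def emb35 (q : ZMod 3) : Fin 5 := Fin.castLE (by decide) (q : Fin 3)

theorem emb35_inj : ∀ a b : ZMod 3, emb35 a = emb35 b → a = b := by decide

theorem cutEA : Cut estep evA 0 (Cert.tstep 5 3 gEA) emb35 3 4 where
  inj := fun a b h => emb35_inj a b h
  ne_done := by decide
  ne_dead := by decide
  done_ne := by decide
  step_ev := by decide
  step_nev := by decide
  step_done := by decide
  step_dead := by decide
  ev_base := fun _ _ h => h.2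

theorem cutEK : Cut estep evK 0 (Cert.tstep 5 3 gEK) emb35 3 4 where
  inj := fun a b h => emb35_inj a b h
  ne_done := by decide
  ne_dead := by decide
  done_ne := by decide
  step_ev := by decide
  step_nev := by decide
  step_done := by decide
  step_dead := by decide
  ev_base := fun _ _ h => h.1

theorem identE : ∀ (q : ZMod 3) (a : Fin 3), ((if evK q a then 1 else 0) : ℕ) =
    (if evA q a then 1 else 0) + (if eY 0 q a then 1 else 0) := by decide

lemma Eform : ∀ (w : List (Fin 3)) (s : ZMod 3),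
    cnt estep evK s w = cnt estep evA s w + cnt estep (eY 0) s w := by
  intro w
  induction w with
  | nil => intro s; simp [cnt_nil]
  | cons a w ih =>
    intro s
    rw [cnt_cons, cnt_cons, cnt_cons, ih, identE]
    ring

lemma Eshift (j : ZMod 3) (w : List (Fin 3)) (s : ZMod 3) :
    cnt estep (eY j) s w = cnt estep (eY 0) (s - j) w := by
  apply cnt_eq_of_sim estep estep (eY j) (eY 0) (fun q₁ q₂ => q₂ = q₁ - j)
  · rintro q₁ q₂ a rfl
    refine ⟨⟨fun h => ⟨by rw [h.1, sub_self], h.2⟩, fun h => ⟨sub_eq_zero.mp h.1, h.2⟩⟩, ?_⟩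
    simp only [estep]
    ring
  · rfl

/-- **Counting a loop letter at a phase.** -/
theorem fibY (N : ℕ) [NeZero N] (j s : ZMod 3) :
    Fib1 (fun w : List (Fin 3) => ((cnt estep (eY j) s w : ℕ) : ZMod N)) := by
  have fK := fib1_count cutEK (Cert.counterFree_of_check 5 3 gEK sEK rfl chkEK) N (s - j)
  have fA := fib1_count cutEA (Cert.counterFree_of_check 5 3 gEA sEA rfl chkEA) N (s - j)
  have f := (fK.pair fA).comp
    (fun x : (ZMod N × ZMod 3) × (ZMod N × ZMod 3) => x.1.1 - x.2.1)
  refine f.congr ?_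
  intro w
  simp only
  rw [Eshift, Eform]
  push_cast
  ring

end Z3A

end Vale.Agent.Lib.P329
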