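import Vale.Agent.Lib.P329.Z3Red

/-!
Finite groups with a homomorphism into the cyclic group of order three whose kernel is
abelian: every language recognized by such a group has generalized star height at most one.
-/

namespace Vale.Agent.Lib.P329

universe u v

open Classical

namespace Z3G

open SF Ev Z3R

section

variable {α : Type u} {G : Type v} [Group G] (κ : G → ZMod 3)

lemma kappa_one (hκ : ∀ g h, κ (g * h) = κ g + κ h) : κ 1 = 0 := by
  have h1 := hκ 1 1
  rw [mul_one] at h1
  have h2 : κ 1 + 0 = κ 1 + κ 1 := by rw [add_zero]; exact h1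
  exact (add_left_cancel h2).symm

lemma kappa_inv (hκ : ∀ g h, κ (g * h) = κ g + κ h) (g : G) : κ g⁻¹ = - κ g := by
  have h1 := hκ g g⁻¹
  rw [mul_inv_cancel, kappa_one κ hκ] at h1
  exact eq_neg_of_add_eq_zero_right h1.symm

lemma kappa_pow (hκ : ∀ g h, κ (g * h) = κ g + κ h) (g : G) (n : ℕ) :
    κ (g ^ n) = n • κ g := by
  induction n with
  | zero => simp [kappa_one κ hκ]
  | succ n ih => rw [pow_succ, hκ, ih, succ_nsmul]

/-- An element of weight one, if there is one. -/
noncomputable def tt : G := if h : ∃ g, κ g = 1 then Classical.choose h else 1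

/-- Representatives of the three classes. -/
noncomputable def tau (q : ZMod 3) : G := tt κ ^ q.val

/-- The contribution of the letter `i.1` read at phase `i.2`. -/
noncomputable def cc (φ : α → G) (i : α × ZMod 3) : G :=
  tau κ i.2 * φ i.1 * (tau κ (i.2 + κ (φ i.1)))⁻¹

lemma kappa_cc (hκ : ∀ g h, κ (g * h) = κ g + κ h) (φ : α → G) (i : α × ZMod 3) :
    κ (cc κ φ i) = 0 := by
  by_cases h : ∃ g, κ g = 1
  · have htt : κ (tt κ) = 1 := by
      unfold tt
      rw [dif_pos h]
      exact Classical.choose_spec h
    have htau : ∀ q : ZMod 3, κ (tau κ q) = q := by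
      intro q
      unfold tau
      rw [kappa_pow κ hκ, htt, nsmul_one, ZMod.natCast_zmod_val]
    unfold cc
    rw [hκ, hκ, kappa_inv κ hκ, htau, htau]
    ring
  · have hall : ∀ g, κ g = 0 := by
      intro g
      rcases zmod3_cases (κ g) with h0 | h0 | h0
      · exact h0
      · exact (h ⟨g, h0⟩).elim
      · exfalso
        apply h
        refine ⟨g * g, ?_⟩
        rw [hκ, h0]
        decide
    exact hall _

/-- The number of occurrences of the letter `i.1` at phase `i.2`. -/
noncomputable def nn (φ : α → G) (i : α × ZMod 3) (w : List α) : ℕ :=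
  cnt (ostep (fun a => κ (φ a))) (oX i.1 i.2) 0 w

/-- The phase of a word. -/
def phase (φ : α → G) (w : List α) : ZMod 3 := run (ostep (fun a => κ (φ a))) 0 w

lemma nn_concat (φ : α → G) (i : α × ZMod 3) (w : List α) (a : α) :
    nn κ φ i (w ++ [a]) = nn κ φ i w + if i = (a, phase κ φ w) then 1 else 0 := by
  unfold nn
  rw [cnt_append, cnt_cons, cnt_nil, add_zero]
  congr 1
  have : oX i.1 i.2 (run (ostep fun a => κ (φ a)) 0 w) a ↔ i = (a, phase κ φ w) := by
    constructor
    · rintro ⟨h1, h2⟩
      exact Prod.ext h2.symm h1.symm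
    · rintro rfl
      exact ⟨rfl, rfl⟩
  simp only [this]

lemma formula [Fintype α] (hκ : ∀ g h, κ (g * h) = κ g + κ h)
    (hA : ∀ g h, κ g = 0 → κ h = 0 → g * h = h * g) (φ : α → G) (w : List α) :
    (w.map φ).prod = ((Finset.univ : Finset (α × ZMod 3)).toList.map
      (fun i => cc κ φ i ^ nn κ φ i w)).prod * tau κ (phase κ φ w) := by
  induction w using List.reverseRecOn with
  | nil =>
    have h0 : ∀ i : α × ZMod 3, nn κ φ i [] = 0 := fun i => rfl
    have h1 : tau κ (phase κ φ ([] : List α)) = 1 := by
      show tt κ ^ (0 : ZMod 3).val = 1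
      rw [ZMod.val_zero, pow_zero]
    simp [h0, h1]
  | append_singleton w a ih =>
    rw [List.map_append, List.prod_append, ih]
    simp only [List.map_cons, List.map_nil, List.prod_cons, List.prod_nil, mul_one]
    simp only [nn_concat]
    rw [Metab.prod_pow_update (cc κ φ)
      (fun i j => hA _ _ (kappa_cc κ hκ φ i) (kappa_cc κ hκ φ j))
      (fun i : α × ZMod 3 => nn κ φ i w) (a, phase κ φ w)
      (Finset.univ : Finset (α × ZMod 3)).toList (Finset.nodup_toList _)
      (Finset.mem_toList.mpr (Finset.mem_univ _))]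
    have hph : phase κ φ (w ++ [a]) = phase κ φ w + κ (φ a) := by
      unfold phase
      rw [run_concat]
      rfl
    rw [hph]
    have hc : cc κ φ (a, phase κ φ w) * tau κ (phase κ φ w + κ (φ a)) =
        tau κ (phase κ φ w) * φ a := by
      unfold cc
      simp
    rw [mul_assoc, mul_assoc, hc]

end

section Phase

variable {α : Type u} [Fintype α] (k : α → ZMod 3)

lemma run_sum : ∀ (w : List α) (s : ZMod 3), run (ostep k) s w = s + (w.map k).sum := by
  intro w
  induction w with
  | nil => intro s; simp
  | cons a w ih =>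
    intro s
    rw [run_cons, ih]
    simp only [ostep, List.map_cons, List.sum_cons]
    ring

lemma sum_count (w : List α) : (w.map k).sum = ∑ a : α, ((w.count a : ℕ) : ZMod 3) * k a := by
  rw [Finset.sum_list_map_count]
  rw [Finset.sum_subset (Finset.subset_univ w.toFinset)]
  · apply Finset.sum_congr rfl
    intro a _
    rw [nsmul_eq_mul]
  · intro a _ ha
    have : a ∉ w := fun h => ha (List.mem_toFinset.mpr h)
    rw [List.count_eq_zero_of_not_mem this, zero_nsmul]

theorem fibPhase : Fib1 (fun w : List α => run (ostep k) 0 w) := by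
  have f1 : Fib1 (fun (w : List α) (a : α) => ((w.count a : ℕ) : ZMod 3)) :=
    Fib1.pi (fun a m => Metab.exists_regex_count a 3 m)
  refine (f1.comp (fun c : α → ZMod 3 => ∑ a : α, c a * k a)).congr ?_
  intro w
  rw [run_sum, sum_count, zero_add]

end Phase

/-- **Groups with an abelian normal subgroup of index dividing three.** -/
theorem main {α : Type u} {G : Type v} [Fintype α] [Group G] [Fintype G] (κ : G → ZMod 3)
    (hκ : ∀ g h, κ (g * h) = κ g + κ h)
    (hA : ∀ g h, κ g = 0 → κ h = 0 → g * h = h * g) (φ : α → G) (P : Set G) :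
    ∃ e : GRegex α, e.starHeight ≤ 1 ∧ e.lang = {w : List α | (w.map φ).prod ∈ P} := by
  haveI : NeZero (Fintype.card G) := ⟨Fintype.card_ne_zero⟩
  have f1 : Fib1 (fun (w : List α) (i : α × ZMod 3) =>
      ((nn κ φ i w : ℕ) : ZMod (Fintype.card G))) :=
    Fib1.pi (fun i => fib_orig (fun a => κ (φ a)) i.1 i.2 0 (Fintype.card G))
  have f2 : Fib1 (fun w : List α => phase κ φ w) := fibPhase (fun a => κ (φ a))
  have f := (f1.pair f2).comp
    (fun x : (α × ZMod 3 → ZMod (Fintype.card G)) × ZMod 3 =>
      ((Finset.univ : Finset (α × ZMod 3)).toList.map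
        (fun i => cc κ φ i ^ (x.1 i).val)).prod * tau κ x.2)
  have f3 : Fib1 (fun w : List α => (w.map φ).prod) := by
    refine f.congr ?_
    intro w
    rw [formula κ hκ hA φ w]
    congr 2
    apply List.map_congr_left
    intro i _
    rw [ZMod.val_natCast]
    exact pow_mod_card _ _
  exact f3.set P

end Z3G

end Vale.Agent.Lib.P329
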