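import Vale.Agent.Lib.P329.Z3Auto

/-!
Counting, modulo `N`, the occurrences of a letter at a given phase of the cyclic group of
order three, over an arbitrary finite alphabet: reduction to three-letter alphabets by
merging and erasing letters.
-/

namespace Vale.Agent.Lib.P329

universe u

open Classical

namespace Z3R

open SF Ev

variable {α : Type u}

/-- The phase automaton of a weight function `k` with values in the integers modulo three. -/
def ostep (k : α → ZMod 3) (q : ZMod 3) (a : α) : ZMod 3 := q + k a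

/-- The letter `x` is read at phase `j`. -/
def oX (x : α) (j : ZMod 3) (q : ZMod 3) (a : α) : Prop := q = j ∧ a = x

/-- Renaming of the letters: `x` becomes `0`, the other letters of weight one or two become
`1` or `2`, and the other letters of weight zero are erased. -/
noncomputable def red (k : α → ZMod 3) (x : α) (a : α) : Option (Fin 3) :=
  if a = x then some 0 else if k a = 1 then some 1 else if k a = 2 then some 2 else none

lemma zmod3_cases : ∀ z : ZMod 3, z = 0 ∨ z = 1 ∨ z = 2 := by decide

lemma cnt_red (k : α → ZMod 3) (kk : Fin 3 → ZMod 3) (x : α) (j : ZMod 3)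
    (f : α → Option (Fin 3)) (h1 : ∀ a, f a = none → k a = 0 ∧ a ≠ x)
    (h2 : ∀ a b, f a = some b → kk b = k a ∧ (b = 0 ↔ a = x)) :
    ∀ (w : List α) (s : ZMod 3), cnt (ostep k) (oX x j) s w =
      cnt (fun q b => q + kk b) (fun q b => q = j ∧ b = 0) s (w.filterMap f) := by
  intro w
  induction w with
  | nil => intro s; rfl
  | cons a w ih =>
    intro s
    cases hf : f a with
    | none =>
      obtain ⟨e1, e2⟩ := h1 a hf
      rw [List.filterMap_cons_none hf, cnt_cons, ← ih]
      have hno : ¬ oX x j s a := fun h => e2 h.2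
      have hs : ostep k s a = s := by simp [ostep, e1]
      rw [if_neg hno, hs, zero_add]
    | some b =>
      obtain ⟨e1, e2⟩ := h2 a b hf
      rw [List.filterMap_cons_some hf, cnt_cons, cnt_cons, ← ih]
      have hs : ostep k s a = s + kk b := by simp [ostep, e1]
      rw [hs]
      congr 1
      by_cases hx : oX x j s a
      · rw [if_pos hx, if_pos ⟨hx.1, e2.mpr hx.2⟩]
      · rw [if_neg hx, if_neg (fun h => hx ⟨h.1, e2.mp h.2⟩)]

lemma red_none (k : α → ZMod 3) (x : α) (a : α) (h : red k x a = none) : k a = 0 ∧ a ≠ x := by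
  unfold red at h
  split_ifs at h with h1 h2 h3
  rcases zmod3_cases (k a) with h0 | h0 | h0
  · exact ⟨h0, h1⟩
  · exact (h2 h0).elim
  · exact (h3 h0).elim

lemma red_some (k : α → ZMod 3) (kk : Fin 3 → ZMod 3) (x : α) (hx : kk 0 = k x)
    (hk1 : kk 1 = 1) (hk2 : kk 2 = 2) (a : α) (b : Fin 3)
    (h : red k x a = some b) : kk b = k a ∧ (b = 0 ↔ a = x) := by
  unfold red at h
  split_ifs at h with h1 h2 h3
  · have hb : b = 0 := (Option.some.inj h).symm
    subst hb
    exact ⟨by rw [hx, h1], by simp [h1]⟩
  · have hb : b = 1 := (Option.some.inj h).symm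
    subst hb
    exact ⟨by rw [hk1, h2], by simp [h1]⟩
  · have hb : b = 2 := (Option.some.inj h).symm
    subst hb
    exact ⟨by rw [hk2, h3], by simp [h1]⟩

lemma cnt_neg (k : α → ZMod 3) (x : α) (j s : ZMod 3) (w : List α) :
    cnt (ostep k) (oX x j) s w = cnt (ostep (fun a => - k a)) (oX x (-j)) (-s) w := by
  apply cnt_eq_of_sim (ostep k) (ostep (fun a => - k a)) (oX x j) (oX x (-j))
    (fun q₁ q₂ => q₂ = - q₁)
  · rintro q₁ q₂ a rfl
    refine ⟨⟨fun h => ⟨by rw [h.1], h.2⟩, fun h => ⟨neg_injective h.1, h.2⟩⟩, ?_⟩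
    simp only [ostep]
    ring
  · rfl

/-- Counting the occurrences of a letter of weight one at a phase. -/
lemma fib_one [Fintype α] (k : α → ZMod 3) (x : α) (hx : k x = 1) (j s : ZMod 3) (N : ℕ)
    [NeZero N] : Fib1 (fun w : List α => ((cnt (ostep k) (oX x j) s w : ℕ) : ZMod N)) := by
  refine ((Z3A.fibX N j s).filterMap (red k x)).congr ?_
  intro w
  rw [cnt_red k Z3A.kP x j (red k x) (red_none k x)
    (red_some k Z3A.kP x (by rw [hx]; rfl) rfl rfl) w s]
  rfl

/-- **Counting the occurrences of a letter at a phase.** -/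
theorem fib_orig [Fintype α] (k : α → ZMod 3) (x : α) (j s : ZMod 3) (N : ℕ) [NeZero N] :
    Fib1 (fun w : List α => ((cnt (ostep k) (oX x j) s w : ℕ) : ZMod N)) := by
  rcases zmod3_cases (k x) with hx | hx | hx
  · refine ((Z3A.fibY N j s).filterMap (red k x)).congr ?_
    intro w
    rw [cnt_red k Z3A.kE x j (red k x) (red_none k x)
      (red_some k Z3A.kE x (by rw [hx]; rfl) rfl rfl) w s]
    rfl
  · exact fib_one k x hx j s N
  · have h := fib_one (fun a => - k a) x (by rw [hx]; decide) (-j) (-s) N
    refine h.congr ?_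
    intro w
    rw [cnt_neg k x j s w]

end Z3R

end Vale.Agent.Lib.P329
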